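import Crest.Agent.R192.MechB

/-!
# R192: the mechanism — sensitivity, and the packaged API
-/

set_option autoImplicit false

open Finset Filter Topology
open scoped Classical

namespace Crest.Agent.R192

variable {G : Type} [Group G] {β ϱ : ℕ} (L : Len G β ϱ)

/-- If `H ≥ 0` has sum `≤ S` on every set of at most `2 · 2^{βϱ}` points then
`∑ H (C ν)² ≤ S Λ²`.  Indeed `|(Cν) b| ≤ ∑ κ_k d_k 1[b ∈ P_k]`, `P_k = nb {x k, x' k}`
(`abs_c_sub`, `c_eq_zero`), so `(Cν b)² ≤ (∑ κ d)(∑ κ_k d_k 1[b ∈ P_k])`. -/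
theorem Len.dip_quad {ν : G →₀ ℝ} {Λ S : ℝ} (hν : L.Dip ν Λ) (H : G → ℝ) (hH : ∀ b, 0 ≤ H b)
    (hS : ∀ P : Finset G, P.card ≤ 2 * 2 ^ (β * ϱ) → ∑ b ∈ P, H b ≤ S) (P : Finset G) :
    ∑ b ∈ P, H b * L.Cv ν b ^ 2 ≤ S * Λ ^ 2 := by
  obtain ⟨K, κ, x, x', hκ, hΛ, rfl⟩ := hν
  set w : ℤ → ℝ := fun k => κ k * (L.d ((x k)⁻¹ * x' k) : ℝ) with hw
  have hw0 : ∀ k, 0 ≤ w k := fun k => mul_nonneg (hκ k) (Nat.cast_nonneg _)
  set N : ℤ → Finset G := fun k => L.nb {x k, x' k} with hN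
  have hS0 : 0 ≤ S := by simpa using hS ∅ (by simp)
  have hD : 0 ≤ ∑ k ∈ K, w k := sum_nonneg fun k _ => hw0 k
  have hcard : ∀ k, (N k).card ≤ 2 * 2 ^ (β * ϱ) := fun k =>
    (card_image₂_le _ _ _).trans (Nat.mul_le_mul card_le_two L.card_ball)
  have h1 : ∀ b, |L.Cv (∑ k ∈ K, κ k • (Finsupp.single (x k) (1 : ℝ) - Finsupp.single (x' k) 1)) b|
      ≤ ∑ k ∈ K, if b ∈ N k then w k else 0 := fun b => by
    rw [L.Cv_sum]
    refine (abs_sum_le_sum_abs _ _).trans (sum_le_sum fun k _ => ?_)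
    rw [L.Cv_smul, L.Cv_sub, L.Cv_single, L.Cv_single, mul_one, mul_one, abs_mul,
      abs_of_nonneg (hκ k)]
    split_ifs with hb
    · exact mul_le_mul_of_nonneg_left (L.abs_c_sub b (x k) (x' k)) (hκ k)
    · have e1 : L.c b (x k) = 0 := by
        rw [L.c_symm]
        exact L.c_eq_zero fun h => hb (L.mem_nb.2 ⟨x k, by simp, h⟩)
      have e2 : L.c b (x' k) = 0 := by
        rw [L.c_symm]
        exact L.c_eq_zero fun h => hb (L.mem_nb.2 ⟨x' k, by simp, h⟩)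
      rw [e1, e2]
      simp
  have h2 : ∀ b, L.Cv (∑ k ∈ K, κ k • (Finsupp.single (x k) (1 : ℝ) - Finsupp.single (x' k) 1)) b ^ 2
      ≤ (∑ k ∈ K, w k) * ∑ k ∈ K, if b ∈ N k then w k else 0 := fun b => by
    have h3 : (∑ k ∈ K, if b ∈ N k then w k else 0) ≤ ∑ k ∈ K, w k :=
      sum_le_sum fun k _ => by split_ifs; exacts [le_rfl, hw0 k]
    have h4 := h1 b
    have h5 := abs_nonneg
      (L.Cv (∑ k ∈ K, κ k • (Finsupp.single (x k) (1 : ℝ) - Finsupp.single (x' k) 1)) b)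
    rw [← sq_abs, sq]
    exact mul_le_mul (h4.trans h3) h4 h5 hD
  calc _ ≤ ∑ b ∈ P, H b * ((∑ k ∈ K, w k) * ∑ k ∈ K, if b ∈ N k then w k else 0) :=
        sum_le_sum fun b _ => mul_le_mul_of_nonneg_left (h2 b) (hH b)
    _ = (∑ k ∈ K, w k) * ∑ k ∈ K, w k * ∑ b ∈ P.filter (fun b => b ∈ N k), H b := by
        generalize ∑ k ∈ K, w k = D
        simp only [sum_filter, mul_sum]
        rw [sum_comm]
        refine sum_congr rfl fun k _ => sum_congr rfl fun b _ => ?_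
        split_ifs <;> ring
    _ ≤ (∑ k ∈ K, w k) * ∑ k ∈ K, w k * S := by
        refine mul_le_mul_of_nonneg_left (sum_le_sum fun k _ => ?_) hD
        refine mul_le_mul_of_nonneg_left (hS _ ((card_le_card fun b hb => ?_).trans (hcard k))) (hw0 k)
        exact (mem_filter.1 hb).2
    _ = S * (∑ k ∈ K, w k) ^ 2 := by rw [← sum_mul]; ring
    _ ≤ S * Λ ^ 2 := mul_le_mul_of_nonneg_left (pow_le_pow_left₀ hD hΛ 2) hS0

private theorem mc_ball_sum (a : G) (Y : G → ℝ) {P : Finset G} (hP : ∀ b, b ∉ P → Y b = 0) :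
    ∑ g ∈ L.ball, L.c a (a * g) * Y (a * g) = ∑ b ∈ P, L.c a b * Y b := by
  have h1 : ∑ g ∈ L.ball, L.c a (a * g) * Y (a * g) =
      ∑ b ∈ L.ball.image (fun g => a * g), L.c a b * Y b :=
    (sum_image (f := fun b => L.c a b * Y b) fun g _ g' _ h => mul_left_cancel h).symm
  rw [h1, sum_subset (subset_union_left (s₂ := P)) fun b _ hb => ?_,
    ← sum_subset (subset_union_right (s₁ := L.ball.image fun g => a * g)) fun b _ hb => ?_]
  · rw [hP b hb, mul_zero]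
  · rw [L.c_eq_zero fun h => hb (mem_image.2 ⟨a⁻¹ * b, h, by group⟩), zero_mul]

private theorem mc_deriv_nonneg (r : ℕ) (u : ℝ) : 0 ≤ deriv (pw r) u := (pw_mono r).deriv_nonneg

private theorem mc_pw3 {r : ℕ} (hr : 4 ≤ r) : ContDiff ℝ 3 (pw r) := by
  exact_mod_cast contDiff_pw 3 hr

/-- Differentiate the equations in the direction `v` at `p`: let `q̇` be the derivative of `q`
(`SmF.exists_deriv`), `ẋ = C (q̇ - ν)` (`fderiv_Cv`), `ẏ b = H b * ẋ b` with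
`H b = cosh (x b/η)/(A η)`, `u̇ a = -(1/R) ∑ b, c a b * ẏ b`, `q̇ a = pw'(u a) u̇ a`. With `z = C ν`
and finite sets `F₀ ⊇ supp q̇`, `P ⊇` the anchors (both `ẋ` and `z` vanish outside
`nb (supp q̇ ∪ supp ν)`):
`∑_{F₀} pw'(u) u̇² = ∑ q̇ u̇ = -(1/R) ∑ (C q̇) ẏ = -(1/R) ∑ H (ẋ + z) ẋ ≤ (1/(4R)) ∑ H z²
 ≤ (1/(4R)) (3/η) Λ²` (`sum_cosh_le`, `dip_quad`). For general `F` take `F₀ ⊇ F`
(all terms are `≥ 0`). -/
theorem Len.sens_energy {R : ℝ} (hR : 0 < R) (hm : 1 ≤ β * ϱ) {r : ℕ} (hr : 4 ≤ r)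
    {E : Type} [NormedAddCommGroup E] [NormedSpace ℝ E] {q f : E → G →₀ ℝ} (hq : SmF q)
    (hf : SmF f)
    (h : ∀ p, L.Sol R (R / (β * ϱ : ℕ)) (Real.exp (2 * (β * ϱ : ℕ) + 1)) r (f p) (q p))
    (p v : E) (ν : G →₀ ℝ) (Λ : ℝ) (hp : Prob (f p))
    (hν : ∀ a, fderiv ℝ (fun p => f p a) p v = ν a) (hΛ : L.Dip ν Λ) (F : Finset G) :
    ∑ a ∈ F, deriv (pw r)
        (L.uv R (R / (β * ϱ : ℕ)) (Real.exp (2 * (β * ϱ : ℕ) + 1)) (q p) (f p) a) *
      (fderiv ℝ (fun p => L.uv R (R / (β * ϱ : ℕ)) (Real.exp (2 * (β * ϱ : ℕ) + 1)) (q p) (f p) a)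
        p v) ^ 2 ≤ 3 * (β * ϱ : ℕ) * Λ ^ 2 / (4 * R ^ 2) := by
  have hm' : (0 : ℝ) < (β * ϱ : ℕ) := by exact_mod_cast hm
  have hcosh := L.sum_cosh_le hR hm (by omega : 1 ≤ r) hp (h p)
  generalize hA : Real.exp (2 * (β * ϱ : ℕ) + 1) = A at h hcosh ⊢
  have hA0 : 0 < A := hA ▸ Real.exp_pos _
  generalize hη : R / (β * ϱ : ℕ) = η at h hcosh ⊢
  have hη0 : 0 < η := hη ▸ div_pos hR hm'
  obtain ⟨qd, hqd⟩ := hq.exists_deriv p v
  set H : G → ℝ := fun b => Real.cosh (L.Cv (q p - f p) b / η) / A / η with hH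
  have hH0 : ∀ b, 0 ≤ H b := fun b =>
    div_nonneg (div_nonneg (Real.cosh_pos _).le hA0.le) hη0.le
  -- derivatives
  have hx : ∀ b, ∃ D : E →L[ℝ] ℝ, HasFDerivAt (fun p => L.Cv (q p - f p) b) D p ∧
      D v = L.Cv (qd - ν) b := fun b => by
    have h1 := ((L.contDiff_Cv hq b).differentiable (by norm_num) p).hasFDerivAt
    have h2 := ((L.contDiff_Cv hf b).differentiable (by norm_num) p).hasFDerivAt
    refine ⟨_, by simpa only [L.Cv_sub] using h1.fun_sub h2, ?_⟩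
    rw [_root_.sub_apply, L.fderiv_Cv hq p v hqd, L.fderiv_Cv hf p v hν, L.Cv_sub]
  have hy : ∀ b, ∃ D : E →L[ℝ] ℝ, HasFDerivAt (fun p => L.yv η A (q p) (f p) b) D p ∧
      D v = H b * L.Cv (qd - ν) b := fun b => by
    obtain ⟨D, h1, h2⟩ := hx b
    have h3 := ((h1.mul_const η⁻¹).sinh).mul_const A⁻¹
    refine ⟨_, by simpa only [Len.yv, div_eq_mul_inv] using h3, ?_⟩
    simp only [_root_.smul_apply, smul_eq_mul, h2, hH, div_eq_mul_inv]
    ring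
  choose Dy hDy hDyv using hy
  set P := L.nb (qd - ν).support with hP
  have hu : ∀ a, ∃ D : E →L[ℝ] ℝ, HasFDerivAt (fun p => L.uv R η A (q p) (f p) a) D p ∧
      D v = -(1 / R) * ∑ b ∈ P, L.c a b * (H b * L.Cv (qd - ν) b) := fun a => by
    have h1 := (HasFDerivAt.fun_sum (u := L.ball)
      fun g _ => (hDy (a * g)).const_mul (L.c a (a * g))).const_mul (-(1 / R))
    refine ⟨_, h1, ?_⟩
    rw [← mc_ball_sum L a (fun b => H b * L.Cv (qd - ν) b) fun b hb => by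
      rw [L.Cv_eq_zero _ hb, mul_zero]]
    simp only [_root_.smul_apply, smul_eq_mul, _root_.sum_apply, hDyv]
  choose Du hDu hDuv using hu
  have hqd' : ∀ a, qd a = deriv (pw r) (L.uv R η A (q p) (f p) a) * Du a v := fun a => by
    have h1 : (fun p => q p a) = fun p => pw r (L.uv R η A (q p) (f p) a) := funext fun p => h p a
    have h2 := ((mc_pw3 hr).differentiable (by norm_num)
      (L.uv R η A (q p) (f p) a)).hasDerivAt.comp_hasFDerivAt p (hDu a)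
    rw [← hqd a, h1]
    have h3 : fderiv ℝ (fun p => pw r (L.uv R η A (q p) (f p) a)) p = _ := h2.fderiv
    rw [h3]
    simp
  have hS := L.dip_quad hΛ H hH0 (S := 3 / η) (fun P hP => by
    simp only [hH]
    rw [← sum_div]
    exact div_le_div_of_nonneg_right (hcosh P hP) hη0.le) P
  calc _ = ∑ a ∈ F, deriv (pw r) (L.uv R η A (q p) (f p) a) * (Du a v) ^ 2 :=
        sum_congr rfl fun a _ => by rw [(hDu a).fderiv]
    _ ≤ ∑ a ∈ F ∪ qd.support, deriv (pw r) (L.uv R η A (q p) (f p) a) * (Du a v) ^ 2 :=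
        sum_le_sum_of_subset_of_nonneg subset_union_left fun a _ _ =>
          mul_nonneg (mc_deriv_nonneg _ _) (sq_nonneg _)
    _ = ∑ a ∈ F ∪ qd.support, qd a * Du a v :=
        sum_congr rfl fun a _ => by rw [hqd' a]; ring
    _ = -(1 / R) * ∑ b ∈ P, L.Cv qd b * (H b * L.Cv (qd - ν) b) := by
        simp only [hDuv, L.Cv_eq_sum qd (subset_union_right (s₁ := F)), sum_mul, mul_sum]
        rw [sum_comm]
        refine sum_congr rfl fun b _ => sum_congr rfl fun a _ => ?_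
        rw [L.c_symm a b]
        ring
    _ ≤ 1 / (4 * R) * ∑ b ∈ P, H b * L.Cv ν b ^ 2 := by
        rw [mul_sum, mul_sum]
        refine sum_le_sum fun b _ => ?_
        rw [L.Cv_sub]
        have h1 : 0 ≤ 1 / (4 * R) * (H b * (2 * L.Cv qd b - L.Cv ν b) ^ 2) :=
          mul_nonneg (by positivity) (mul_nonneg (hH0 b) (sq_nonneg _))
        have e : 1 / (4 * R) * (H b * L.Cv ν b ^ 2) -
            -(1 / R) * (L.Cv qd b * (H b * (L.Cv qd b - L.Cv ν b))) =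
            1 / (4 * R) * (H b * (2 * L.Cv qd b - L.Cv ν b) ^ 2) := by
          field_simp
          ring
        linarith
    _ ≤ 1 / (4 * R) * (3 / η * Λ ^ 2) := mul_le_mul_of_nonneg_left hS (by positivity)
    _ = _ := by
        rw [← hη]
        field_simp

/-- Packaging: `R = ϱ/x`, `m = βϱ`, `r = 8 m x`, `Q` from `exists_Q`, `P μ = 5 r · u(Q μ, μ)`,
`φ t = pw r (t / (5r))`; then `deriv φ (P) = pw'(u) / (5r)` and
`∑ deriv φ (P) (∂P)² = 5 r ∑ pw'(u) u̇² ≤ 5 r · 3 m Λ² / (4R²) = 30 β² x³ Λ²`. -/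
theorem Len.exists_mech (hβ : 1 ≤ β) (hϱ : 1 ≤ ϱ) {x : ℕ} (hx : 4 ≤ x) :
    Nonempty (Mech L (ϱ / x) (30 * β ^ 2 * x ^ 3)) := by
  have hm : 1 ≤ β * ϱ := Nat.mul_pos hβ hϱ
  have hm' : (0 : ℝ) < (β * ϱ : ℕ) := by exact_mod_cast hm
  have hϱ' : (0 : ℝ) < ϱ := by exact_mod_cast hϱ
  have hx' : (0 : ℝ) < x := by exact_mod_cast (by omega : 0 < x)
  have hR : (0 : ℝ) < ϱ / x := div_pos hϱ' hx'
  have hη : (0 : ℝ) < ϱ / x / (β * ϱ : ℕ) := div_pos hR hm'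
  have hA : 0 < Real.exp (2 * (β * ϱ : ℕ) + 1) := Real.exp_pos _
  have hr : 4 ≤ 8 * (β * ϱ) * x := by nlinarith
  obtain ⟨Q, hQ, hsm⟩ := L.exists_Q hϱ hR hη hA hr
  have hw := fun (μ : G →₀ ℝ) (hμ : Prob μ) => L.sum_deriv_pw_le hβ hϱ hx hμ (hQ μ)
  have hre : ((8 * (β * ϱ) * x : ℕ) : ℝ) = 8 * (β * ϱ) * x := by push_cast; ring
  generalize 8 * (β * ϱ) * x = r at hr hQ hw hre
  have hr0 : (0 : ℝ) < 5 * r := by
    have : (0 : ℝ) < r := by exact_mod_cast (by omega : 0 < r)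
    linarith
  have hd : ∀ t, deriv (fun t => pw r (t / (5 * r))) t = deriv (pw r) (t / (5 * r)) / (5 * r) :=
    fun t => by
      have h1 := ((mc_pw3 hr).differentiable (by norm_num) (t / (5 * r))).hasDerivAt.comp t
        ((hasDerivAt_id' t).div_const (5 * (r : ℝ)))
      have h2 : deriv (fun t => pw r (t / (5 * r))) t = _ := h1.deriv
      rw [h2, mul_one_div]
  have hc : ∀ u : ℝ, 5 * r * u / (5 * r) = u := fun u => mul_div_cancel_left₀ u hr0.ne'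
  have hQ0 : ∀ μ y, 0 ≤ Q μ y := fun μ y => by rw [hQ μ y]; exact pw_nonneg _ _
  refine ⟨{
    P := fun μ y => 5 * r *
      L.uv (ϱ / x) (ϱ / x / (β * ϱ : ℕ)) (Real.exp (2 * (β * ϱ : ℕ) + 1)) (Q μ) μ y
    φ := fun t => pw r (t / (5 * r))
    Q := Q
    φ_smooth := (mc_pw3 hr).comp (contDiff_id.div_const _)
    φ'_nonneg := fun u => by rw [hd]; exact div_nonneg (mc_deriv_nonneg _ _) hr0.le
    Q_eq := fun μ y => by rw [hc]; exact hQ μ y
    Q_lt := fun g μ => L.sol_unique hR hη hA (hQ _) (L.sol_lt g (hQ μ))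
    loc := fun μ y hy => ?_
    smooth := fun E _ _ f hf y => contDiff_const.mul (L.contDiff_uv _ _ _ (hsm E f hf) hf y)
    Q_nonneg := hQ0
    Q_tot := fun μ hμ => (L.sol_energy hR hη hA (by omega) hμ (hQ μ)).1
    approx := fun μ hμ z => L.abs_xv_le hR hm (by omega : 1 ≤ r) hμ (hQ μ) z
    w_sum := fun μ hμ F => ?_
    sens := fun E _ _ f hf p v ν Λ hp hν hΛ F => ?_ }⟩
  · have hu := L.uv_nonpos hR hη hA (hQ0 μ) hy
    refine ⟨by rw [hQ μ y]; exact pw_eq_zero (by omega) (by linarith), ?_⟩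
    rw [hd, hc]
    obtain ⟨k, rfl⟩ : ∃ k, r = k + 1 := ⟨r - 1, by omega⟩
    rw [(hasDerivAt_pw (by omega) _).deriv, pw_eq_zero (by omega) (by linarith), mul_zero, zero_div]
  · simp only [hd, hc]
    rw [← sum_div, div_le_one hr0]
    exact hw μ hμ F
  · have h1 := L.sens_energy hR hm hr (hsm E f hf) hf (fun p => hQ (f p)) p v ν Λ hp hν hΛ F
    have h2 : ∀ y, fderiv ℝ (fun p => 5 * r * L.uv (ϱ / x) (ϱ / x / (β * ϱ : ℕ))
        (Real.exp (2 * (β * ϱ : ℕ) + 1)) (Q (f p)) (f p) y) p v =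
        5 * r * fderiv ℝ (fun p => L.uv (ϱ / x) (ϱ / x / (β * ϱ : ℕ))
          (Real.exp (2 * (β * ϱ : ℕ) + 1)) (Q (f p)) (f p) y) p v := fun y => by
      rw [fderiv_const_mul ((L.contDiff_uv _ _ _ (hsm E f hf) hf y).differentiable (by norm_num) p)]
      simp
    simp only [hd, hc, h2]
    refine le_trans (le_of_eq ?_) ((mul_le_mul_of_nonneg_left h1 hr0.le).trans (le_of_eq ?_))
    · rw [mul_sum]
      refine sum_congr rfl fun y _ => ?_
      field_simp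
    · rw [hre]
      push_cast
      field_simp
      ring

end Crest.Agent.R192
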