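import Crest.Agent.R192.MassP

/-!
# R192: self-energy at the largest scale, recursion over the scales
-/

set_option autoImplicit false

open Finset Filter Topology MeasureTheory
open scoped Classical

namespace Crest.Agent.R192

variable {G : Type} [Group G] {β ϱ N M : ℕ} (L : Len G β ϱ) {K : ℝ → ℝ} {hh : ℝ}

private theorem mq_lt_one (f : G →₀ ℝ) : lt 1 f = f := by
  ext z
  rw [← lt_apply (1 : G) f z, one_mul]

private theorem mq_lt_lt (g g' : G) (f : G →₀ ℝ) : lt g (lt g' f) = lt (g * g') f := by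
  rw [lt, lt, lt, ← Finsupp.mapDomain_comp]
  congr 1
  funext a
  exact (mul_assoc _ _ _).symm

private theorem mq_lt_avg (g : G) (r : ℝ) (T : Finset ℕ) (f : ℕ → G →₀ ℝ) :
    lt g (r • ∑ u ∈ T, f u) = r • ∑ u ∈ T, lt g (f u) := by
  rw [lt, Finsupp.mapDomain_smul]
  congr 1
  exact map_sum (Finsupp.mapDomain.addMonoidHom fun a => g * a) f T

private theorem mq_add_nat (hK : IsWin K hh) (h : G) (x : Fin N → G) (s : Fin (N + 1) → ℝ) (τ : ℝ)
    (n : ℕ) : mass K h x s (τ + n) = lt (h ^ n) (mass K h x s τ) := by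
  induction n with
  | zero => rw [Nat.cast_zero, add_zero, pow_zero, mq_lt_one]
  | succ n ih => rw [Nat.cast_succ, ← add_assoc, mass_add_one hK, ih, mq_lt_lt, pow_succ']

/-- Iterating `mass_win_succ` and `mass_add_one`. -/
theorem mass_win_add {h0 : ℝ} (h0pos : 0 < h0) {j : ℕ} (hj : 2 ^ j * h0 = 1) (w : ℕ) (h : G)
    (x : Fin N → G) (s : Fin (N + 1) → ℝ) (τ : ℝ) :
    mass (win h0 (j + w)) h x s τ =
      (1 / 2 ^ w : ℝ) • ∑ u ∈ range (2 ^ w), lt (h ^ u) (mass (win h0 j) h x s τ) := by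
  induction w with
  | zero => simp [mq_lt_one]
  | succ w ih =>
    have e : (2 : ℝ) ^ (j + w) * h0 = ((2 ^ w : ℕ) : ℝ) := by
      rw [pow_add, mul_right_comm, hj, one_mul, Nat.cast_pow, Nat.cast_ofNat]
    rw [← add_assoc, mass_win_succ h0pos, e, mq_add_nat (isWin_win h0pos _), ih, mq_lt_avg,
      ← smul_add, smul_smul, pow_succ (2 : ℕ) w, mul_two ((2 : ℕ) ^ w), sum_range_add]
    simp only [mq_lt_lt, ← pow_add]
    congr 1
    rw [pow_succ]
    ring

/-- `(C μ^{j+w})(y) = 2^{-w} ∑_z μ^j(z) ∑_u c(y, h^u z) ≤ ϱ/2` by `Good`. -/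
theorem Len.SS_le {h0 : ℝ} (h0pos : 0 < h0) {j : ℕ} (hj : 2 ^ j * h0 = 1) {w : ℕ} {h : G}
    (hg : L.Good h w) (x : Fin N → G) {s : Fin (N + 1) → ℝ} (hs : Cell s) :
    L.SS (win h0 (j + w)) h x s ≤ ϱ / 2 := by
  have hP : Per s := by rw [Per, hs.2.1, hs.2.2, zero_add]
  have h2 : (0 : ℝ) < 2 ^ w := by positivity
  have key : ∀ τ, L.B (mass (win h0 (j + w)) h x s τ) (mass (win h0 (j + w)) h x s τ) ≤ ϱ / 2 := by
    intro τ
    have p1 := mass_prob (isWin_win h0pos (j + w)) h x hs.1 hP τ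
    have p2 := mass_prob (isWin_win h0pos j) h x hs.1 hP τ
    have hC : ∀ z, |L.Cv (mass (win h0 (j + w)) h x s τ) z| ≤ ϱ / 2 := by
      intro z
      rw [abs_of_nonneg (by
        rw [L.Cv_eq_sum _ Subset.rfl]
        exact sum_nonneg fun a _ => mul_nonneg (L.c_nonneg _ _) (p1.1 a)),
        mass_win_add h0pos hj, L.Cv_smul, L.Cv_sum]
      generalize mass (win h0 j) h x s τ = μ at p2
      have e : ∀ u, L.Cv (lt (h ^ u) μ) z = ∑ a ∈ μ.support, L.c z (h ^ u * a) * μ a := by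
        intro u
        rw [← mul_inv_cancel_left (h ^ u) z, L.Cv_lt, L.Cv_eq_sum _ Subset.rfl]
        exact sum_congr rfl fun a _ => by rw [L.c_mul]
      have b : ∀ a, ∑ u ∈ range (2 ^ w), L.c z (h ^ u * a) ≤ 2 ^ w * (ϱ / 2) := by
        intro a
        have h3 : (2 : ℝ) * ((range (2 ^ w)).filter fun u => z⁻¹ * (h ^ u * a) ∈ L.ball).card ≤
            2 ^ w := by exact_mod_cast hg z a
        rw [← sum_filter_of_ne (p := fun u => z⁻¹ * (h ^ u * a) ∈ L.ball)
          fun u _ hu => by_contra fun hb => hu (L.c_eq_zero hb)]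
        refine (sum_le_card_nsmul _ _ (ϱ : ℝ) fun u _ => L.c_le _ _).trans ?_
        rw [nsmul_eq_mul]
        nlinarith [(Nat.cast_nonneg ϱ : (0 : ℝ) ≤ ϱ)]
      simp only [e]
      rw [sum_comm, one_div, inv_mul_le_iff₀ h2]
      calc _ ≤ ∑ a ∈ μ.support, 2 ^ w * (ϱ / 2 : ℝ) * μ a := sum_le_sum fun a _ => by
            rw [← sum_mul]
            exact mul_le_mul_of_nonneg_right (b a) (p2.1 a)
        _ = _ := by rw [← mul_sum, ← tot_eq_sum μ Subset.rfl, p2.2, mul_one]
    have h1 := L.abs_B_le (mass (win h0 (j + w)) h x s τ) _ _ hC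
    rw [n1_eq_tot _ p1.1, p1.2, one_mul] at h1
    exact (le_abs_self _).trans h1
  have hc := L.continuous_B_mass (isWin_win h0pos (j + w)) h x s 0 0
  simp only [add_zero] at hc
  have h3 := intervalIntegral.integral_mono_on (μ := volume) zero_le_one
    (hc.intervalIntegrable 0 1) (continuous_const.intervalIntegrable 0 1) fun τ _ => key τ
  simpa [Len.SS] using h3

/-- `B(μ^{j+1}, μ^{j+1}) = (B(τ,τ) + 2 B(τ,τ+h) + B(τ+h,τ+h)) / 4` and `τ ↦ B(μ_τ,μ_τ)` is
`1`-periodic (`mass_add_one`, `B_lt`, `Function.Periodic.intervalIntegral_add_eq`). -/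
theorem Len.SS_succ {h0 : ℝ} (h0pos : 0 < h0) (j : ℕ) (h : G) (x : Fin N → G)
    (s : Fin (N + 1) → ℝ) :
    ∫ τ in (0 : ℝ)..1, (L.B (mass (win h0 j) h x s τ) (mass (win h0 j) h x s τ) -
        L.B (mass (win h0 j) h x s τ) (mass (win h0 j) h x s (τ + 2 ^ j * h0))) =
      2 * (L.SS (win h0 j) h x s - L.SS (win h0 (j + 1)) h x s) := by
  have hK := isWin_win h0pos j
  generalize hc : (2 : ℝ) ^ j * h0 = c at hK
  have c1 := L.continuous_B_mass hK h x s 0 0
  have c2 := L.continuous_B_mass hK h x s 0 c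
  have c3 := L.continuous_B_mass hK h x s c c
  simp only [add_zero] at c1 c2
  have hp : Function.Periodic
      (fun τ => L.B (mass (win h0 j) h x s τ) (mass (win h0 j) h x s τ)) 1 := fun τ => by
    simp only [mass_add_one hK, L.B_lt]
  have e1 : ∫ τ in (0 : ℝ)..1, L.B (mass (win h0 j) h x s (τ + c)) (mass (win h0 j) h x s (τ + c)) =
      L.SS (win h0 j) h x s := by
    rw [intervalIntegral.integral_comp_add_right
      (fun τ => L.B (mass (win h0 j) h x s τ) (mass (win h0 j) h x s τ)) c, zero_add, add_comm 1 c,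
      hp.intervalIntegral_add_eq c 0, zero_add, Len.SS]
  have e2 : L.SS (win h0 (j + 1)) h x s = ∫ τ in (0 : ℝ)..1,
      ((1 / 4) * L.B (mass (win h0 j) h x s τ) (mass (win h0 j) h x s τ) +
        (1 / 2) * L.B (mass (win h0 j) h x s τ) (mass (win h0 j) h x s (τ + c)) +
        (1 / 4) * L.B (mass (win h0 j) h x s (τ + c)) (mass (win h0 j) h x s (τ + c))) := by
    refine intervalIntegral.integral_congr fun τ _ => ?_
    simp only [mass_win_succ h0pos, hc, L.B_smul_left, L.B_smul_right, L.B_add_left, L.B_add_right]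
    rw [L.B_symm (mass (win h0 j) h x s (τ + c)) (mass (win h0 j) h x s τ)]
    ring
  rw [e2, intervalIntegral.integral_add, intervalIntegral.integral_add,
    intervalIntegral.integral_const_mul, intervalIntegral.integral_const_mul,
    intervalIntegral.integral_const_mul, e1, intervalIntegral.integral_sub, Len.SS]
  · ring
  all_goals exact Continuous.intervalIntegrable (by fun_prop) _ _

end Crest.Agent.R192
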