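import Crest.Agent.R192.Conn
import Crest.Agent.R192.MassQ

/-!
# R192: pigeonhole over the scales
-/

set_option autoImplicit false

open Finset Filter Topology MeasureTheory
open scoped Classical

namespace Crest.Agent.R192

variable {G : Type} [Group G] {β ϱ N M : ℕ} {L : Len G β ϱ}

variable (m : Mechs L) {h0 : ℝ} (h : G)

/-- Pigeonhole over the scales. `ZZ_j ≥ 2 (S_j - S_{j+1}) - 30 R_j` (`ZZ_ge`, `SS_succ`), telescoping
with `S_0 ≥ 0.9 ϱ` (`SS_ge`), `S_J ≤ ϱ/2` (`SS_le`). If `Y < 1` then every `z_j < 1`, i.e.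
`ZZ_j ≤ R_j`, so `0.8 ϱ ≤ 31 ∑ R_j ≤ 31 ϱ/64`, a contradiction. -/
theorem one_le_YY (hϱ : 1 ≤ ϱ) (h0pos : 0 < h0) {j₁ w : ℕ} (hj : 2 ^ j₁ * h0 = 1)
    (hg : L.Good h w) (x : Fin (M + 1) → G) (hlen : 10 * h0 * L.len h x ≤ ϱ)
    {s : Fin (M + 2) → ℝ} (hc : Cell s) : 1 ≤ YY (zz m h0 h x) (j₁ + w) s := by
  by_contra hY
  push Not at hY
  set J := j₁ + w with hJ
  have hϱR : (1 : ℝ) ≤ ϱ := by exact_mod_cast hϱ
  have hR : ∀ j, (0 : ℝ) < ϱ / xs j := fun j => by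
    have : (0 : ℝ) < xs j := by exact_mod_cast lt_of_lt_of_le (by norm_num) (four_le_xs j)
    positivity
  have h1 : ∀ j ∈ range J, 2 * (L.SS (win h0 j) h x s - L.SS (win h0 (j + 1)) h x s) ≤
      31 * (ϱ * (1 / (xs j : ℝ))) := by
    intro j hj'
    have h2 := (m j).ZZ_ge (isWin_hs h0pos j) h x hc
    have h3 := L.SS_succ h0pos j h x s
    have h4 : zz m h0 h x j s ^ 2 ≤ YY (zz m h0 h x) J s :=
      Finset.single_le_sum (f := fun j => zz m h0 h x j s ^ 2) (fun _ _ => sq_nonneg _) hj'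
    have h5 : zz m h0 h x j s ≤ 1 := by nlinarith
    rw [zz, div_le_one (hR j)] at h5
    have h6 : (ϱ : ℝ) * (1 / (xs j : ℝ)) = ϱ / xs j := by ring
    unfold hs at h2 h5
    rw [h3] at h2
    rw [h6]
    linarith
  have h7 := Finset.sum_le_sum h1
  rw [← Finset.mul_sum, ← Finset.mul_sum, ← Finset.mul_sum,
    Finset.sum_range_sub' (fun j => L.SS (win h0 j) h x s)] at h7
  have h8 := L.SS_ge (isWin_hs h0pos 0) h x hc
  have h9 := L.SS_le h0pos hj hg x hc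
  have h10 := sum_inv_xs_le J
  have h11 : (ϱ : ℝ) * ∑ j ∈ range J, 1 / (xs j : ℝ) ≤ ϱ * (1 / 64) :=
    mul_le_mul_of_nonneg_left h10 (by positivity)
  simp only [hs, pow_zero, one_mul] at h8
  linarith

end Crest.Agent.R192
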