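import Mathlib

/-!
# R192: Gram–Hilbert–Schmidt bounds for real matrices

`GH A lam η` says that, after a change of basis by a Gram matrix `Γ` with diagonal `≤ lam²`, the
matrix `A` has Hilbert–Schmidt norm at most `η²` (in dual form).
-/

set_option autoImplicit false

open Finset Matrix

namespace Crest.Agent.R192

variable {ι : Type} [Fintype ι] [DecidableEq ι]

/-- `tr (Tᵀ Γ T Γ)`. -/
def QF (Γ T : Matrix ι ι ℝ) : ℝ := (Tᵀ * Γ * T * Γ).trace

def GH (A : Matrix ι ι ℝ) (lam : ι → ℝ) (η : ℝ) : Prop :=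
  0 ≤ η ∧ ∃ Γ : Matrix ι ι ℝ, Γ.PosSemidef ∧ (∀ i, Γ i i ≤ lam i ^ 2) ∧
    ∀ T : Matrix ι ι ℝ, |∑ i, ∑ j, T i j * A i j| ≤ η ^ 2 * √(QF Γ T)

/-- `tr (P Q) ≥ 0` for positive semidefinite `P`, `Q` (write `Q = Bᵀ B`). -/
theorem trace_mul_nonneg {P Q : Matrix ι ι ℝ} (hP : P.PosSemidef) (hQ : Q.PosSemidef) :
    0 ≤ (P * Q).trace := by
  open scoped MatrixOrder in
  obtain ⟨B, hB⟩ := CStarAlgebra.nonneg_iff_eq_star_mul_self.mp hQ.nonneg
  rw [hB, ← Matrix.mul_assoc, Matrix.trace_mul_comm, ← Matrix.mul_assoc]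
  exact (hP.mul_mul_conjTranspose_same B).trace_nonneg

theorem gh_psd_conj {Γ : Matrix ι ι ℝ} (hΓ : Γ.PosSemidef) (T : Matrix ι ι ℝ) :
    (Tᵀ * Γ * T).PosSemidef := by
  simpa using hΓ.conjTranspose_mul_mul_same T

theorem gh_cross_nonneg {P Q : Matrix ι ι ℝ} (hP : P.PosSemidef) (hQ : Q.PosSemidef)
    (T : Matrix ι ι ℝ) : 0 ≤ (Tᵀ * P * T * Q).trace :=
  trace_mul_nonneg (gh_psd_conj hP T) hQ

theorem gh_QF_add (P Q T : Matrix ι ι ℝ) :
    QF (P + Q) T = QF P T + (Tᵀ * P * T * Q).trace + (Tᵀ * Q * T * P).trace + QF Q T := by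
  simp only [QF, Matrix.mul_add, Matrix.add_mul, Matrix.trace_add]
  ring

theorem QF_nonneg {Γ : Matrix ι ι ℝ} (hΓ : Γ.PosSemidef) (T : Matrix ι ι ℝ) : 0 ≤ QF Γ T := gh_cross_nonneg hΓ hΓ T

/-- `tr (TᵀΓTΓ) ≤ tr (TᵀΓ'TΓ) ≤ tr (TᵀΓ'TΓ')`. -/
theorem QF_mono {Γ Γ' : Matrix ι ι ℝ} (hΓ : Γ.PosSemidef) (h : (Γ' - Γ).PosSemidef)
    (T : Matrix ι ι ℝ) : QF Γ T ≤ QF Γ' T := by
  have e : Γ' = Γ + (Γ' - Γ) := by abel
  rw [e, gh_QF_add]
  have h1 := gh_cross_nonneg hΓ h T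
  have h2 := gh_cross_nonneg h hΓ T
  have h3 := QF_nonneg h T
  linarith

theorem QF_smul (r : ℝ) (Γ T : Matrix ι ι ℝ) : QF (r • Γ) T = r ^ 2 * QF Γ T := by
  simp only [QF, Matrix.mul_smul, Matrix.smul_mul, Matrix.trace_smul, smul_eq_mul]
  ring

theorem gh_sqrt_QF_smul {r : ℝ} (hr : 0 ≤ r) (Γ T : Matrix ι ι ℝ) :
    √(QF (r • Γ) T) = r * √(QF Γ T) := by
  rw [QF_smul, Real.sqrt_mul (sq_nonneg _), Real.sqrt_sq hr]

theorem GH.zero (lam : ι → ℝ) : GH (0 : Matrix ι ι ℝ) lam 0 := by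
  refine ⟨le_rfl, 0, PosSemidef.zero, fun i => by simpa using sq_nonneg (lam i), fun T => ?_⟩
  simp

theorem GH.mono {A : Matrix ι ι ℝ} {lam lam' : ι → ℝ} {η η' : ℝ} (h : GH A lam η)
    (hl : ∀ i, lam i ^ 2 ≤ lam' i ^ 2) (hη : η ≤ η') : GH A lam' η' := by
  obtain ⟨h0, Γ, hΓ, hd, hT⟩ := h
  refine ⟨h0.trans hη, Γ, hΓ, fun i => (hd i).trans (hl i), fun T => (hT T).trans ?_⟩
  exact mul_le_mul_of_nonneg_right (pow_le_pow_left₀ h0 hη 2) (Real.sqrt_nonneg _)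

/-- Take `Γ'' = (η Γ + η' Γ') / (η + η')`: then `Γ ≤ ((η+η')/η) Γ''`, so
`η² √QF(Γ) ≤ η (η+η') √QF(Γ'')`, and similarly for `Γ'`. (If `η = 0` or `η' = 0` the
corresponding pairing vanishes.) -/
theorem GH.add {A A' : Matrix ι ι ℝ} {lam : ι → ℝ} {η η' : ℝ} (h : GH A lam η)
    (h' : GH A' lam η') : GH (A + A') lam (η + η') := by
  obtain ⟨h0, Γ, hΓ, hd, hT⟩ := h
  obtain ⟨h0', Γ', hΓ', hd', hT'⟩ := h'
  have hsum : ∀ T : Matrix ι ι ℝ, ∑ i, ∑ j, T i j * (A + A') i j =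
      ∑ i, ∑ j, T i j * A i j + ∑ i, ∑ j, T i j * A' i j := by
    intro T
    simp only [Matrix.add_apply, mul_add, sum_add_distrib]
  rcases eq_or_lt_of_le (add_nonneg h0 h0') with hs | hs
  · have e1 : η = 0 := by linarith
    have e2 : η' = 0 := by linarith
    refine ⟨add_nonneg h0 h0', Γ, hΓ, hd, fun T => ?_⟩
    have a1 := hT T
    have a2 := hT' T
    rw [e1] at a1
    rw [e2] at a2
    rw [hsum, e1, e2]
    refine (abs_add_le _ _).trans ?_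
    simp only [ne_eq, OfNat.ofNat_ne_zero, not_false_eq_true, zero_pow, zero_mul, add_zero] at *
    linarith
  · set a := η / (η + η') with ha
    set b := η' / (η + η') with hb
    have ha0 : 0 ≤ a := div_nonneg h0 hs.le
    have hb0 : 0 ≤ b := div_nonneg h0' hs.le
    have hab : a + b = 1 := by rw [ha, hb, ← add_div, div_self hs.ne']
    have ha1 : (η + η') * a = η := by rw [ha]; field_simp
    have hb1 : (η + η') * b = η' := by rw [hb]; field_simp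
    have hP : (a • Γ).PosSemidef := hΓ.smul ha0
    have hQ : (b • Γ').PosSemidef := hΓ'.smul hb0
    refine ⟨hs.le, a • Γ + b • Γ', hP.add hQ, fun i => ?_, fun T => ?_⟩
    · simp only [Matrix.add_apply, Matrix.smul_apply, smul_eq_mul]
      have c1 := mul_le_mul_of_nonneg_left (hd i) ha0
      have c2 := mul_le_mul_of_nonneg_left (hd' i) hb0
      have c3 : a * lam i ^ 2 + b * lam i ^ 2 = lam i ^ 2 := by rw [← add_mul, hab, one_mul]
      linarith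
    · have c1 : a * √(QF Γ T) ≤ √(QF (a • Γ + b • Γ') T) := by
        rw [← gh_sqrt_QF_smul ha0]
        exact Real.sqrt_le_sqrt (QF_mono hP (by simpa using hQ) T)
      have c2 : b * √(QF Γ' T) ≤ √(QF (a • Γ + b • Γ') T) := by
        rw [← gh_sqrt_QF_smul hb0]
        exact Real.sqrt_le_sqrt (QF_mono hQ (by simpa using hP) T)
      have d1 : η ^ 2 * √(QF Γ T) ≤ η * (η + η') * √(QF (a • Γ + b • Γ') T) := by
        calc η ^ 2 * √(QF Γ T) = η * ((η + η') * a) * √(QF Γ T) := by rw [ha1]; ring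
          _ = η * (η + η') * (a * √(QF Γ T)) := by ring
          _ ≤ _ := mul_le_mul_of_nonneg_left c1 (mul_nonneg h0 hs.le)
      have d2 : η' ^ 2 * √(QF Γ' T) ≤ η' * (η + η') * √(QF (a • Γ + b • Γ') T) := by
        calc η' ^ 2 * √(QF Γ' T) = η' * ((η + η') * b) * √(QF Γ' T) := by rw [hb1]; ring
          _ = η' * (η + η') * (b * √(QF Γ' T)) := by ring
          _ ≤ _ := mul_le_mul_of_nonneg_left c2 (mul_nonneg h0' hs.le)
      rw [hsum]
      refine (abs_add_le _ _).trans ?_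
      have a1 := hT T
      have a2 := hT' T
      nlinarith

theorem GH.sum {κ : Type} (s : Finset κ) {A : κ → Matrix ι ι ℝ} {lam : ι → ℝ} {η : κ → ℝ}
    (h : ∀ j ∈ s, GH (A j) lam (η j)) : GH (∑ j ∈ s, A j) lam (∑ j ∈ s, η j) := by
  classical
  induction s using Finset.induction_on with
  | empty => simpa using GH.zero lam
  | insert k s hk ih =>
    rw [sum_insert hk, sum_insert hk]
    exact (h k (mem_insert_self _ _)).add (ih fun j hj => h j (mem_insert_of_mem hj))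

theorem GH.neg {A : Matrix ι ι ℝ} {lam : ι → ℝ} {η : ℝ} (h : GH A lam η) : GH (-A) lam η := by
  obtain ⟨h0, Γ, hΓ, hd, hT⟩ := h
  refine ⟨h0, Γ, hΓ, hd, fun T => ?_⟩
  simpa only [Matrix.neg_apply, mul_neg, sum_neg_distrib, abs_neg] using hT T

theorem GH.smul {A : Matrix ι ι ℝ} {lam : ι → ℝ} {η : ℝ} (h : GH A lam η) {r κ : ℝ}
    (hr : |r| ≤ κ) : GH (r • A) lam (√κ * η) := by
  obtain ⟨h0, Γ, hΓ, hd, hT⟩ := h
  have hκ : 0 ≤ κ := (abs_nonneg r).trans hr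
  refine ⟨mul_nonneg (Real.sqrt_nonneg _) h0, Γ, hΓ, hd, fun T => ?_⟩
  have e : ∑ i, ∑ j, T i j * (r • A) i j = r * ∑ i, ∑ j, T i j * A i j := by
    simp only [Matrix.smul_apply, smul_eq_mul, mul_sum]
    exact sum_congr rfl fun i _ => sum_congr rfl fun j _ => by ring
  rw [e, abs_mul, mul_pow, Real.sq_sqrt hκ, mul_assoc]
  exact mul_le_mul hr (hT T) (abs_nonneg _) hκ

/-- `Γ = ρ² Γ'`. -/
theorem GH.scale {A : Matrix ι ι ℝ} {lam : ι → ℝ} {η ρ : ℝ} (hρ : 0 < ρ)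
    (h : GH A (fun i => ρ * lam i) η) : GH A lam (ρ * η) := by
  obtain ⟨h0, Γ, hΓ, hd, hT⟩ := h
  have hr : 0 ≤ (ρ ^ 2)⁻¹ := by positivity
  refine ⟨mul_nonneg hρ.le h0, (ρ ^ 2)⁻¹ • Γ, hΓ.smul hr, fun i => ?_, fun T => ?_⟩
  · have := hd i
    simp only [Matrix.smul_apply, smul_eq_mul]
    rw [inv_mul_le_iff₀ (by positivity), ← mul_pow]
    exact this
  · rw [gh_sqrt_QF_smul hr]
    refine (hT T).trans (le_of_eq ?_)
    field_simp

/-- `Γ = (u uᵀ / U² + v vᵀ / V²) / 2`; `QF (a aᵀ + b bᵀ) T ≥ (aᵀ T b)²`. -/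
theorem GH.rankOne {u v lam : ι → ℝ} {U V : ℝ} (hU : 0 < U) (hV : 0 < V)
    (hu : ∀ i, |u i| ≤ U * lam i) (hv : ∀ i, |v i| ≤ V * lam i) :
    GH (vecMulVec u v) lam (√(2 * U * V)) := by
  have ha : 0 ≤ (2 * U ^ 2)⁻¹ := by positivity
  have hb : 0 ≤ (2 * V ^ 2)⁻¹ := by positivity
  have hP : ((2 * U ^ 2)⁻¹ • vecMulVec u u).PosSemidef := by
    refine PosSemidef.smul ?_ ha
    simpa using posSemidef_vecMulVec_self_star u
  have hQ : ((2 * V ^ 2)⁻¹ • vecMulVec v v).PosSemidef := by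
    refine PosSemidef.smul ?_ hb
    simpa using posSemidef_vecMulVec_self_star v
  refine ⟨Real.sqrt_nonneg _, _, hP.add hQ, fun i => ?_, fun T => ?_⟩
  · simp only [Matrix.add_apply, Matrix.smul_apply, smul_eq_mul, vecMulVec_apply]
    have c1 : u i * u i ≤ (U * lam i) ^ 2 := by
      rw [← sq, ← sq_abs (u i)]
      exact pow_le_pow_left₀ (abs_nonneg _) (hu i) 2
    have c2 : v i * v i ≤ (V * lam i) ^ 2 := by
      rw [← sq, ← sq_abs (v i)]
      exact pow_le_pow_left₀ (abs_nonneg _) (hv i) 2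
    have d1 : (2 * U ^ 2)⁻¹ * (u i * u i) ≤ lam i ^ 2 / 2 := by
      refine (mul_le_mul_of_nonneg_left c1 ha).trans (le_of_eq ?_)
      field_simp
    have d2 : (2 * V ^ 2)⁻¹ * (v i * v i) ≤ lam i ^ 2 / 2 := by
      refine (mul_le_mul_of_nonneg_left c2 hb).trans (le_of_eq ?_)
      field_simp
    linarith
  · set x := ∑ i, ∑ j, T i j * vecMulVec u v i j with hx
    have hx' : x = u ⬝ᵥ T *ᵥ v := by
      simp only [hx, vecMulVec_apply, dotProduct, mulVec, mul_sum]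
      exact sum_congr rfl fun i _ => sum_congr rfl fun j _ => by ring
    have htr : (Tᵀ * vecMulVec u u * T * vecMulVec v v).trace = x ^ 2 := by
      rw [mul_vecMulVec Tᵀ u u, vecMulVec_mul, vecMulVec_mul_vecMulVec, trace_vecMulVec, hx',
        mulVec_transpose, dotProduct_mulVec, dotProduct_smul, smul_eq_mul, sq]
    have hq : ((2 * U * V)⁻¹ * x) ^ 2 ≤
        QF ((2 * U ^ 2)⁻¹ • vecMulVec u u + (2 * V ^ 2)⁻¹ • vecMulVec v v) T := by
      rw [gh_QF_add]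
      have h1 := QF_nonneg hP T
      have h2 := QF_nonneg hQ T
      have h3 := gh_cross_nonneg hQ hP T
      have h4 : (Tᵀ * ((2 * U ^ 2)⁻¹ • vecMulVec u u) * T *
          ((2 * V ^ 2)⁻¹ • vecMulVec v v)).trace = ((2 * U * V)⁻¹ * x) ^ 2 := by
        simp only [Matrix.mul_smul, Matrix.smul_mul, Matrix.trace_smul, smul_eq_mul, htr]
        field_simp
      linarith
    have hq' := Real.abs_le_sqrt hq
    have hUV : 0 < 2 * U * V := by positivity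
    rw [abs_mul, abs_of_pos (inv_pos.2 hUV), inv_mul_le_iff₀ hUV] at hq'
    rwa [Real.sq_sqrt hUV.le]

/-- `Γ = 1` and Cauchy–Schwarz. -/
theorem GH.frob {A : Matrix ι ι ℝ} {lam : ι → ℝ} {η : ℝ} (hl : ∀ i, 1 ≤ lam i) (hη : 0 ≤ η)
    (hA : ∑ i, ∑ j, A i j ^ 2 ≤ η ^ 4) : GH A lam η := by
  refine ⟨hη, 1, PosSemidef.one, fun i => ?_, fun T => ?_⟩
  · rw [Matrix.one_apply_eq]
    exact one_le_pow₀ (hl i)
  · have hq : QF 1 T = ∑ p : ι × ι, T p.1 p.2 ^ 2 := by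
      simp only [QF, Matrix.mul_one, Matrix.trace, Matrix.diag_apply, Matrix.mul_apply,
        Matrix.transpose_apply, Fintype.sum_prod_type, sq]
      exact sum_comm
    have hA' : ∑ p : ι × ι, A p.1 p.2 ^ 2 ≤ (η ^ 2) ^ 2 := by
      rw [Fintype.sum_prod_type, ← pow_mul]
      exact hA
    have hcs := sum_mul_sq_le_sq_mul_sq (univ : Finset (ι × ι)) (fun p => T p.1 p.2)
      (fun p => A p.1 p.2)
    rw [← Fintype.sum_prod_type', ← Real.sqrt_sq (sq_nonneg η), ← Real.sqrt_mul (sq_nonneg _), hq]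
    refine Real.abs_le_sqrt (hcs.trans ?_)
    rw [mul_comm]
    exact mul_le_mul_of_nonneg_right hA' (sum_nonneg fun _ _ => sq_nonneg _)

/-- Test with `T = single i j 1`: `QF Γ T = Γ i i * Γ j j`. -/
theorem GH.entry {A : Matrix ι ι ℝ} {lam : ι → ℝ} {η : ℝ} (h : GH A lam η)
    (hl : ∀ i, 0 ≤ lam i) (i j : ι) : |A i j| ≤ η ^ 2 * (lam i * lam j) := by
  obtain ⟨h0, Γ, hΓ, hd, hT⟩ := h
  have h1 := hT (single i j 1)
  have e1 : ∑ a, ∑ b, (single i j (1 : ℝ) : Matrix ι ι ℝ) a b * A a b = A i j := by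
    simp [single, ite_and]
  have e2 : QF Γ (single i j 1) = Γ i i * Γ j j := by
    rw [QF, transpose_single, single_mul_mul_single, trace_single_mul]
    simp
  rw [e1, e2] at h1
  refine h1.trans (mul_le_mul_of_nonneg_left ?_ (sq_nonneg _))
  refine Real.sqrt_le_iff.2 ⟨mul_nonneg (hl i) (hl j), ?_⟩
  rw [mul_pow]
  exact mul_le_mul (hd i) (hd j) hΓ.diag_nonneg (sq_nonneg _)

end Crest.Agent.R192
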