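import Crest.Agent.R192.Grass
import Crest.Agent.R192.GH

/-!
# R192: Pfaffian bounds
-/

set_option autoImplicit false

open Finset ExteriorAlgebra Matrix
open scoped Nat

namespace Crest.Agent.R192

variable {N : ℕ}

/-- Hadamard's inequality (`Orientation.abs_volumeForm_apply_le` in `EuclideanSpace ℝ (Fin N)`,
with `Orientation.volumeForm_robust'` for the standard orthonormal basis). -/
theorem abs_det_le (v : Fin N → Fin N → ℝ) :
    |(Matrix.of v).det| ≤ ∏ i, √(∑ j, v i j ^ 2) := by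
  have : Fact (Module.finrank ℝ (EuclideanSpace ℝ (Fin N)) = N) := ⟨by simp⟩
  let b := EuclideanSpace.basisFun (Fin N) ℝ
  have h := b.toBasis.orientation.abs_volumeForm_apply_le fun i => WithLp.toLp 2 (v i)
  rw [Orientation.volumeForm_robust' _ b, Module.Basis.det_apply, ← Matrix.det_transpose] at h
  simp only [EuclideanSpace.norm_eq, Real.norm_eq_abs, sq_abs] at h
  exact h

theorem pf_pow {R β : Type*} [Semiring R] [Fintype β] (x : β → R) (k : ℕ) :
    (∑ b, x b) ^ k = ∑ f : Fin k → β, ((List.ofFn f).map x).prod := by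
  induction k with
  | zero => simp
  | succ k ih =>
    rw [pow_succ', ih, ← (Fin.consEquiv fun _ => β).sum_comp, Fintype.sum_prod_type, sum_mul]
    refine sum_congr rfl fun b _ => ?_
    rw [mul_sum]
    refine sum_congr rfl fun f _ => ?_
    simp [Fin.consEquiv, List.ofFn_succ]

theorem pf_list (l : List (Fin N → ℝ)) (h : l.length = N) :
    ∃ r : ℝ, (l.map (ι ℝ)).prod = r • vol N ∧ |r| ≤ (l.map fun v => √(∑ j, v j ^ 2)).prod ∧
      (¬ l.Nodup → r = 0) := by
  obtain ⟨v, rfl⟩ : ∃ v : Fin N → Fin N → ℝ, l = List.ofFn v :=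
    ⟨fun i => l.get (i.cast h.symm), by
      refine List.ext_get (by simp [h]) fun i _ _ => ?_
      simp⟩
  refine ⟨(Matrix.of v).det, ?_, ?_, fun hn => ?_⟩
  · rw [← ιMulti_eq_det, ιMulti_apply, List.map_ofFn]
    rfl
  · rw [List.map_ofFn, List.prod_ofFn]
    exact abs_det_le v
  · rw [List.nodup_ofFn] at hn
    rw [← top_ιMulti, ιMulti_eq_zero_of_not_inj hn, map_zero]

theorem pf_flat (c : Fin N → Fin N → ℝ) (L : List (Fin N)) :
    ((L.flatMap fun b => [Pi.single b (1 : ℝ), c b]).map (ι ℝ)).prod =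
      (L.map fun b => ee b * ι ℝ (c b)).prod ∧
    (L.flatMap fun b => [Pi.single b (1 : ℝ), c b]).length = 2 * L.length ∧
    ((L.flatMap fun b => [Pi.single b (1 : ℝ), c b]).map fun v => √(∑ j, v j ^ 2)).prod =
      (L.map fun b => √(∑ j, c b j ^ 2)).prod := by
  induction L with
  | nil => simp
  | cons b L ih =>
    have e : ∑ j, (Pi.single b (1 : ℝ) : Fin N → ℝ) j ^ 2 = 1 := by simp [Pi.single_apply]
    simp only [List.flatMap_cons, List.map_append, List.prod_append, List.map_cons, List.map_nil,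
      List.prod_cons, List.prod_nil, mul_one, ih.1, ih.2.2, List.length_append, ih.2.1,
      List.length_cons, List.length_nil, e, Real.sqrt_one, one_mul]
    exact ⟨rfl, by ring, trivial⟩

theorem pf_amgm {n : ℕ} (hn : 1 ≤ n) {x : Fin n → ℝ} (hx : ∀ i, 0 ≤ x i) {c : ℝ} (hc : 0 ≤ c)
    (h : ∑ i, x i ≤ n * c) : ∏ i, x i ≤ c ^ n := by
  rcases hc.eq_or_lt with rfl | hc
  · have h0 : x ⟨0, hn⟩ = 0 := le_antisymm
      ((single_le_sum (fun i _ => hx i) (mem_univ _)).trans (by simpa using h)) (hx _)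
    rw [prod_eq_zero (mem_univ _) h0]
    positivity
  · have h1 : ∀ i, x i ≤ c * Real.exp (x i / c - 1) := fun i => by
      have := Real.add_one_le_exp (x i / c - 1)
      rw [← div_le_iff₀' hc]
      linarith
    refine (prod_le_prod (fun i _ => hx i) fun i _ => h1 i).trans ?_
    rw [prod_mul_distrib, ← Real.exp_sum, sum_sub_distrib, ← sum_div]
    simp only [prod_const, card_univ, Fintype.card_fin, sum_const, nsmul_eq_mul, mul_one]
    refine mul_le_of_le_one_right (by positivity) (Real.exp_le_one_iff.2 ?_)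
    rw [sub_nonpos, div_le_iff₀ hc]
    exact h

/-- Hilbert–Schmidt case. `om A = ∑ b, e_b * ι (col b)` with `col b = fun a => A a b`; the summands
are central, so `om A ^ n = ∑ f : Fin n → Fin N, ∏_m e_{f m} ι (col (f m))` (work in
`Subalgebra.center`, a commutative ring, or use `Finset.sum_pow'`-like induction with
`List.ofFn`). A term with `f` not injective vanishes (`(e_b ι c)² = 0`); for injective `f` the term
is `ιMulti` of the `2n` vectors `e_{f 0}, col (f 0), e_{f 1}, …`, i.e. `det • vol`, with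
`|det| ≤ ∏_m |col (f m)| ≤ (∑_m |col (f m)|² / n)^{n/2} ≤ (H/√n)^n` (Hadamard, AM–GM
`Real.inner_le_nnorm_mul_nnorm`/`inner_le_nnorm_mul_nnorm`, `Real.geom_mean_le_arith_mean`).
There are `N^n` functions `f`. -/
theorem pf_hs {n : ℕ} (hN : N = 2 * n) (hn : 1 ≤ n) (A : Matrix (Fin N) (Fin N) ℝ) {H : ℝ}
    (hH : 0 ≤ H) (hA : ∑ a, ∑ b, A a b ^ 2 ≤ H ^ 2) :
    ∃ r : ℝ, om A ^ n = r • vol N ∧ |r| ≤ (N : ℝ) ^ n * (H / √n) ^ n := by
  have hn' : (0 : ℝ) < n := by exact_mod_cast hn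
  have e : om A = ∑ b, ee b * ι ℝ fun a => A a b := by
    rw [om, sum_comm]
    refine sum_congr rfl fun b _ => ?_
    rw [ι_eq_sum, mul_sum]
    simp only [mul_smul_comm]
  have key : ∀ f : Fin n → Fin N, ∃ r : ℝ,
      ((List.ofFn f).map fun b => ee b * ι ℝ fun a => A a b).prod = r • vol N ∧
        |r| ≤ (H / √n) ^ n := by
    intro f
    obtain ⟨h1, h2, h3⟩ := pf_flat (fun b a => A a b) (List.ofFn f)
    obtain ⟨r, r1, r2, r3⟩ := pf_list _ (h2.trans (by rw [List.length_ofFn, hN]))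
    refine ⟨r, h1 ▸ r1, ?_⟩
    by_cases hf : Function.Injective f
    · rw [h3, List.map_ofFn, List.prod_ofFn] at r2
      refine r2.trans ?_
      refine (pow_le_pow_iff_left₀ (prod_nonneg fun _ _ => Real.sqrt_nonneg _) (by positivity)
        two_ne_zero).1 ?_
      rw [← prod_pow, ← pow_mul, mul_comm n 2, pow_mul]
      refine pf_amgm hn (fun _ => sq_nonneg _) (by positivity) ?_
      rw [div_pow, Real.sq_sqrt hn'.le, mul_div_cancel₀ _ hn'.ne',
        sum_congr rfl fun i _ => Real.sq_sqrt (sum_nonneg fun _ _ => sq_nonneg _)]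
      refine le_trans ?_ hA
      rw [sum_comm (s := (univ : Finset (Fin N))),
        ← sum_image (f := fun b => ∑ a, A a b ^ 2) fun i _ j _ h => hf h]
      exact sum_le_sum_of_subset_of_nonneg (subset_univ _) fun _ _ _ => by positivity
    · rw [r3 fun h => hf ?_, abs_zero]
      · positivity
      · rw [← List.nodup_ofFn]
        exact (List.nodup_flatMap.1 h).2.imp fun {a b} hab e => by
          subst e
          exact hab (List.mem_cons_self) (List.mem_cons_self)
  choose r h1 h2 using key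
  refine ⟨∑ f, r f, ?_, (abs_sum_le_sum_abs _ _).trans ((sum_le_sum fun f _ => h2 f).trans ?_)⟩
  · rw [e, pf_pow, sum_smul]
    exact sum_congr rfl fun f _ => h1 f
  · simp

/-- Let `Γ' = Γ + 1 = Bᵀ B` (positive definite, `B` invertible), `A' = (B⁻¹)ᵀ A B⁻¹`. Testing `GH`
with `T = B⁻¹ A' (B⁻¹)ᵀ` and `QF_mono` gives `‖A'‖_HS² ≤ η² ‖A'‖_HS`.
`om A = map (Bᵀ.mulVecLin) (om A')` (`map_om`), `map L (vol N) = det L • vol N`, and
`|det B| ≤ ∏ √(Γ' i i) ≤ ∏ √2 lam i = 2^n ∏ lam i` (Hadamard for the columns of `B`).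
Finally `(2n)^n ≤ n! (2e)^n` (`Real.pow_div_factorial_le_exp`) and `4 e ≤ 12`. -/
theorem pf_bound {n : ℕ} (hN : N = 2 * n) (hn : 1 ≤ n) {A : Matrix (Fin N) (Fin N) ℝ}
    {lam : Fin N → ℝ} {η : ℝ} (hl : ∀ i, 1 ≤ lam i) (h : GH A lam η) :
    ∃ r : ℝ, om A ^ n = r • vol N ∧ |r| ≤ n ! * ((12 * η ^ 2 / √n) ^ n * ∏ i, lam i) := by
  obtain ⟨h0, Γ, hΓ, hd, hT⟩ := h
  have hn' : (0 : ℝ) < n := by exact_mod_cast hn
  have hP : (Γ + 1).PosDef := PosDef.posSemidef_add hΓ PosDef.one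
  open scoped MatrixOrder in
  obtain ⟨B, hB⟩ := CStarAlgebra.nonneg_iff_eq_star_mul_self.mp hP.posSemidef.nonneg
  rw [star_eq_conjTranspose, conjTranspose_eq_transpose_of_trivial] at hB
  have hu : IsUnit B.det := by
    have := hP.det_pos
    rw [hB, det_mul, det_transpose] at this
    exact isUnit_iff_ne_zero.2 fun h => by simp [h] at this
  have c1 : B * B⁻¹ = 1 := mul_nonsing_inv B hu
  have c2 : B⁻¹ * B = 1 := nonsing_inv_mul B hu
  obtain ⟨C, hC⟩ : ∃ C, C = B⁻¹ := ⟨_, rfl⟩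
  rw [← hC] at c1 c2
  have c3 : Cᵀ * Bᵀ = 1 := by rw [← transpose_mul, c1, transpose_one]
  have c4 : Bᵀ * Cᵀ = 1 := by rw [← transpose_mul, c2, transpose_one]
  obtain ⟨A', hA'⟩ : ∃ A', A' = Cᵀ * A * C := ⟨_, rfl⟩
  have hA : A = Bᵀ * A' * B := by
    rw [hA', ← Matrix.mul_assoc, ← Matrix.mul_assoc, c4, Matrix.one_mul, Matrix.mul_assoc, c2,
      Matrix.mul_one]
  have tr : ∀ S T : Matrix (Fin N) (Fin N) ℝ, ∑ i, ∑ j, S i j * T i j = (Sᵀ * T).trace := by
    intro S T
    rw [sum_comm]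
    simp [trace, mul_apply]
  have h1 := hT (C * A' * Cᵀ)
  have h2 : ((C * A' * Cᵀ)ᵀ * A).trace = (A'ᵀ * A').trace := by
    simp only [transpose_mul, transpose_transpose, Matrix.mul_assoc]
    rw [trace_mul_comm C]
    simp only [hA', Matrix.mul_assoc]
  have h3 : QF (Γ + 1) (C * A' * Cᵀ) = (A'ᵀ * A').trace := by
    have a1 : ∀ X, Cᵀ * (Bᵀ * X) = X := fun X => by rw [← Matrix.mul_assoc, c3, Matrix.one_mul]
    have a2 : ∀ X, B * (C * X) = X := fun X => by rw [← Matrix.mul_assoc, c1, Matrix.one_mul]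
    simp only [QF, hB, transpose_mul, transpose_transpose, Matrix.mul_assoc, a1, a2]
    rw [trace_mul_comm C]
    simp only [Matrix.mul_assoc, c1, Matrix.mul_one]
  have h4 := QF_mono (Γ' := Γ + 1) hΓ (by simpa using PosSemidef.one) (C * A' * Cᵀ)
  rw [tr, h2] at h1
  rw [h3] at h4
  rw [← tr] at h1 h4
  simp only [← sq] at h1 h4
  have h5 : ∑ i, ∑ j, A' i j ^ 2 ≤ (η ^ 2) ^ 2 := by
    have s0 : 0 ≤ ∑ i, ∑ j, A' i j ^ 2 := by positivity
    have s1 := (le_abs_self _).trans (h1.trans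
      (mul_le_mul_of_nonneg_left (Real.sqrt_le_sqrt h4) (sq_nonneg η)))
    have s2 := Real.sq_sqrt s0
    nlinarith [sq_nonneg (η ^ 2 - √(∑ i, ∑ j, A' i j ^ 2))]
  obtain ⟨r, r1, r2⟩ := pf_hs hN hn A' (sq_nonneg η) h5
  have hL : ∀ d, Bᵀ.mulVecLin (Pi.single d 1) = B d := fun d => by
    funext b
    simp
  have e1 : om A = ExteriorAlgebra.map Bᵀ.mulVecLin (om A') := by
    rw [map_om, om]
    simp only [hL, ι_eq_sum, sum_mul, mul_sum, smul_sum, smul_mul_smul_comm, smul_smul]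
    conv_lhs => rw [hA]
    simp only [mul_apply, transpose_apply, sum_mul, sum_smul]
    conv_lhs => enter [2, a]; rw [sum_comm]; enter [2, d]; rw [sum_comm]
    conv_lhs => rw [sum_comm]; enter [2, d]; rw [sum_comm]
    rw [sum_comm]
    refine sum_congr rfl fun c _ => sum_congr rfl fun d _ => sum_congr rfl fun a _ =>
      sum_congr rfl fun b _ => ?_
    congr 1
    ring
  have e2 : ExteriorAlgebra.map Bᵀ.mulVecLin (vol N) = B.det • vol N := by
    rw [vol, map_apply_ιMulti, ιMulti_eq_det]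
    congr 2
    funext d
    exact hL d
  have hdet : |B.det| ≤ 2 ^ n * ∏ i, lam i := by
    rw [← det_transpose]
    refine (abs_det_le fun i j => B j i).trans ((prod_le_prod (g := fun i => √2 * lam i)
      (fun _ _ => Real.sqrt_nonneg _) fun i _ => ?_).trans (le_of_eq ?_))
    · have a1 := congrFun (congrFun hB i) i
      simp only [Matrix.add_apply, one_apply_eq, mul_apply, transpose_apply, ← sq] at a1
      have a2 := hl i
      refine Real.sqrt_le_iff.2 ⟨by positivity, ?_⟩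
      rw [mul_pow, Real.sq_sqrt zero_le_two]
      nlinarith [hd i]
    · rw [prod_mul_distrib, prod_const, card_univ, Fintype.card_fin]
      congr 1
      rw [hN, pow_mul, Real.sq_sqrt zero_le_two]
  refine ⟨r * B.det, by rw [e1, ← map_pow, r1, map_smul, e2, smul_smul], ?_⟩
  have hp : 0 ≤ ∏ i, lam i := prod_nonneg fun i _ => zero_le_one.trans (hl i)
  rw [abs_mul]
  refine (mul_le_mul r2 hdet (abs_nonneg _) (by positivity)).trans ?_
  have f1 : (n : ℝ) ^ n ≤ n ! * 3 ^ n := by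
    have := Real.pow_div_factorial_le_exp (n : ℝ) hn'.le n
    rw [div_le_iff₀' (by positivity), ← mul_one (n : ℝ), Real.exp_nat_mul, mul_one] at this
    refine this.trans ?_
    gcongr
    linarith [Real.exp_one_lt_d9]
  have f2 : (N : ℝ) = 2 * n := by exact_mod_cast hN
  calc (N : ℝ) ^ n * (η ^ 2 / √n) ^ n * (2 ^ n * ∏ i, lam i)
      = (n : ℝ) ^ n * ((4 * (η ^ 2 / √n)) ^ n * ∏ i, lam i) := by
        rw [f2, mul_pow, mul_pow, show (4 : ℝ) = 2 * 2 by norm_num, mul_pow]; ring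
    _ ≤ n ! * 3 ^ n * ((4 * (η ^ 2 / √n)) ^ n * ∏ i, lam i) := by gcongr
    _ = _ := by
        rw [show 12 * η ^ 2 / √n = 3 * (4 * (η ^ 2 / √n)) by ring, mul_pow 3]; ring

end Crest.Agent.R192
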