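import Crest.Agent.R192.Grass
import Crest.Agent.R192.GH

/-!
# R192: the Pfaffian of the Kontsevich curvature
-/

set_option autoImplicit false

open Finset ExteriorAlgebra Matrix
open scoped Nat

namespace Crest.Agent.R192

variable {N : ℕ}

/-- The curvature matrix of the Kontsevich connection. -/
def A0 (N : ℕ) : Matrix (Fin N) (Fin N) ℝ :=
  Matrix.of fun a b => (if (b : ℕ) = a + 1 then 1 else 0) - (if b = a then 1 else 0)

/-- `∑ A0² ≤ 2N`. -/
theorem GH_A0 {lam : Fin N → ℝ} (hl : ∀ i, 1 ≤ lam i) : GH (A0 N) lam (√(√(2 * N))) := by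
  refine ⟨Real.sqrt_nonneg _, 1, PosSemidef.one, fun i => ?_, fun T => ?_⟩
  · rw [one_apply_eq]
    nlinarith [hl i]
  · have e : QF 1 T = ∑ p : Fin N × Fin N, T p.1 p.2 ^ 2 := by
      rw [Fintype.sum_prod_type, sum_comm]
      simp [QF, trace, mul_apply, sq]
    have h : ∑ p : Fin N × Fin N, A0 N p.1 p.2 ^ 2 ≤ 2 * N := by
      rw [Fintype.sum_prod_type]
      refine (sum_le_sum (g := fun _ => (2 : ℝ)) fun a _ => ?_).trans (by simp [mul_comm])
      have h1 : ∀ b : Fin N, A0 N a b ^ 2 ≤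
          (if (b : ℕ) = a + 1 then 1 else 0) + (if b = a then 1 else 0) := fun b => by
        simp only [A0, of_apply]
        split_ifs <;> norm_num
      refine (sum_le_sum fun b _ => h1 b).trans ?_
      rw [sum_add_distrib, sum_ite_eq', if_pos (mem_univ _), sum_boole]
      have : (univ.filter fun b : Fin N => (b : ℕ) = a + 1).card ≤ 1 :=
        card_le_one.2 fun b hb c hc => Fin.ext ((mem_filter.1 hb).2.trans (mem_filter.1 hc).2.symm)
      have : ((univ.filter fun b : Fin N => (b : ℕ) = a + 1).card : ℝ) ≤ 1 := by exact_mod_cast this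
      linarith
    rw [Real.sq_sqrt (Real.sqrt_nonneg _), ← Real.sqrt_mul (by positivity), e,
      ← Fintype.sum_prod_type' fun i j => T i j * A0 N i j]
    refine Real.abs_le_sqrt ((sum_mul_sq_le_sq_mul_sq _ _ _).trans ?_)
    rw [mul_comm]
    exact mul_le_mul_of_nonneg_right h (by positivity)

theorem pfb_add_pow {R : Type*} [Ring R] {w p : R} (hc : Commute w p) (hp : p * p = 0) (j : ℕ) :
    (w + p) ^ (j + 1) = w ^ (j + 1) + (j + 1) • (w ^ j * p) := by
  induction j with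
  | zero => simp
  | succ j ih =>
    rw [pow_succ, ih, add_mul, mul_add, mul_add, smul_mul_assoc, smul_mul_assoc, mul_assoc _ p p, hp,
      mul_assoc _ p w, ← hc.eq, ← mul_assoc, ← pow_succ, ← pow_succ, succ_nsmul _ (j + 1)]
    simp only [mul_zero, smul_zero]
    abel

/-- Shifted generators. -/
noncomputable def pfbzz (N k : ℕ) : Gr N := ι ℝ fun j : Fin N => if (j : ℕ) + 1 = k then (1 : ℝ) else 0

theorem pfbzz_zero : pfbzz N 0 = 0 := by
  rw [pfbzz, ← map_zero (ι ℝ)]
  congr 1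

theorem pfbzz_last : pfbzz N (N + 1) = 0 := by
  rw [pfbzz, ← map_zero (ι ℝ)]
  congr 1
  funext j
  exact if_neg (by omega)

theorem pfbzz_succ (a : Fin N) : pfbzz N (a + 1) = ee a := by
  rw [pfbzz, ee]
  congr 1
  funext j
  simp [Pi.single_apply, Fin.ext_iff]

theorem pfbzz_anti (k l : ℕ) : pfbzz N k * pfbzz N l = -(pfbzz N l * pfbzz N k) := ι_anti _ _

theorem pfbzz_sq (k : ℕ) : pfbzz N k * pfbzz N k = 0 := ι_sq_zero _

theorem pfb_om : om (A0 N) = ∑ a ∈ range N, pfbzz N (a + 1) * pfbzz N a := by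
  have h : ∑ a ∈ range (N + 1), pfbzz N (a + 1) * pfbzz N a = ∑ a ∈ range N, pfbzz N (a + 1) * pfbzz N a := by
    rw [sum_range_succ, pfbzz_last, zero_mul, add_zero]
  rw [← h, sum_range_succ', pfbzz_zero, mul_zero, add_zero, sum_range, om]
  refine sum_congr rfl fun a _ => ?_
  rw [pfbzz_succ, pfbzz, ι_eq_sum, sum_mul]
  refine sum_congr rfl fun b _ => ?_
  simp only [A0, of_apply, sub_smul, smul_mul_assoc, add_left_inj]
  rw [sub_eq_self]
  split_ifs with h
  · rw [h, ← pfbzz_succ, pfbzz_sq, smul_zero]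
  · rw [zero_smul]

theorem pfb_pow (m : ℕ) : (∑ a ∈ range (2 * m), pfbzz N (a + 1) * pfbzz N a) ^ m =
      ((-1 : ℝ) ^ m * m !) • (List.ofFn fun i : Fin (2 * m) => pfbzz N (i + 1)).prod ∧
    (∑ a ∈ range (2 * m), pfbzz N (a + 1) * pfbzz N a) ^ (m + 1) = 0 := by
  induction m with
  | zero => simp
  | succ m ih =>
    have hV : ∀ j, (List.ofFn fun i : Fin (j + 1) => pfbzz N (i + 1)).prod =
        (List.ofFn fun i : Fin j => pfbzz N (i + 1)).prod * pfbzz N (j + 1) := fun j => by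
      rw [List.ofFn_succ', List.prod_concat]
      rfl
    have hV0 : ∀ j, (List.ofFn fun i : Fin j => pfbzz N (i + 1)).prod * pfbzz N j = 0 := fun j => by
      cases j with
      | zero => rw [pfbzz_zero, mul_zero]
      | succ j => rw [hV, mul_assoc, pfbzz_sq, mul_zero]
    obtain ⟨p, hp⟩ : ∃ p, p = (pfbzz N (2 * m + 1 + 1) - pfbzz N (2 * m)) * pfbzz N (2 * m + 1) := ⟨_, rfl⟩
    have hc : ∀ ξ, Commute p ξ := fun ξ => by
      rw [hp, pfbzz, pfbzz, ← map_sub]
      exact commute_ι_mul_ι _ _ ξ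
    have hpp : p * p = 0 := by
      conv_lhs => enter [1]; rw [hp]
      rw [mul_assoc, ← (hc _).eq, hp, mul_assoc, pfbzz_sq, mul_zero, mul_zero]
    have e : ∑ a ∈ range (2 * (m + 1)), pfbzz N (a + 1) * pfbzz N a =
        ∑ a ∈ range (2 * m), pfbzz N (a + 1) * pfbzz N a + p := by
      rw [show 2 * (m + 1) = 2 * m + 1 + 1 by ring, sum_range_succ, sum_range_succ, hp, sub_mul,
        pfbzz_anti (2 * m)]
      abel
    rw [e, pfb_add_pow (hc _).symm hpp, pfb_add_pow (hc _).symm hpp, pow_succ _ (m + 1), ih.2, ih.1]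
    refine ⟨?_, by simp⟩
    have e2 := (hV (2 * m + 1)).trans (congrArg (· * pfbzz N (2 * m + 1 + 1)) (hV (2 * m)))
    rw [show (List.ofFn fun i : Fin (2 * (m + 1)) => pfbzz N (i + 1)).prod = _ from e2, zero_add,
      smul_mul_assoc, hp, ← mul_assoc, mul_sub, hV0, sub_zero, mul_assoc, pfbzz_anti, mul_neg,
      ← mul_assoc, ← Nat.cast_smul_eq_nsmul ℝ, smul_smul, smul_neg, ← neg_smul, Nat.factorial_succ]
    congr 1
    push_cast
    ring

/-- `om A0 = ∑_a e_{a+1} e_a = ∑_{k<n} e_{2k+1} (e_{2k} - e_{2k+2})` (with `e_{2n} = 0`); the `n`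
summands `p_k` are central with `p_k² = 0`, so the `n`-th power is `n! ∏ p_k`, and `∏ p_k` is
`ιMulti` of vectors whose determinant is `±1`. (Alternative: induction on `n` using
`ω_{n+1} = e₁ e₀ + e₂ e₁ + shift ω_n`.) -/
theorem pf_A0 {n : ℕ} (hN : N = 2 * n) :
    ∃ σ : ℝ, |σ| = 1 ∧ om (A0 N) ^ n = (σ * n !) • vol N := by
  subst hN
  refine ⟨(-1) ^ n, by simp, ?_⟩
  rw [pfb_om, (pfb_pow n).1, vol, ιMulti_apply]
  simp only [pfbzz_succ, ee]

end Crest.Agent.R192
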