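import Crest.Agent.R192.Stokes

/-!
# R192: behaviour of `Chi` under a permutation of the coordinates
-/

set_option autoImplicit false

open Finset ExteriorAlgebra MeasureTheory

namespace Crest.Agent.R192

variable {N : ℕ}

theorem omega_perm (ρ : Equiv.Perm (Fin N)) {u : (Fin N → ℝ) → ℝ} (hu : ContDiff ℝ 2 u)
    {a a' : (Fin N → ℝ) → Fin N → ℝ} (h : ContDiff ℝ 2 a) (h' : ContDiff ℝ 2 a')
    (e : ∀ t : Fin N → ℝ, 1 / 2 < ∑ i, t i → ∀ j,
      a' (fun i => t (ρ i)) j = a t (ρ j) - fderiv ℝ u t (Pi.single (ρ j) 1))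
    {t : Fin N → ℝ} (ht : 1 / 2 < ∑ i, t i) :
    omega a' (fun i => t (ρ i)) = ExteriorAlgebra.map (LinearMap.funLeft ℝ ℝ ρ) (omega a t) := by
  let F : (Fin N → ℝ) →ₗ[ℝ] (Fin N → ℝ) := LinearMap.funLeft ℝ ℝ ρ
  have d := h.differentiable two_ne_zero t
  have du : DifferentiableAt ℝ (fun t j => fderiv ℝ u t (Pi.single j 1)) t :=
    differentiableAt_pi.2 fun j => (((hu.fderiv_right (m := 1) (by norm_num)).differentiable
      (by norm_num)) t).clm_apply (differentiableAt_const _)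
  have e1 : omega (fun t => a t - fun j => fderiv ℝ u t (Pi.single j 1)) t = omega a t := by
    rw [omega_sub d du, omega_grad hu, sub_zero]
  have k1 := (h'.differentiable two_ne_zero (F t)).hasFDerivAt.comp t
    (LinearMap.toContinuousLinearMap F).hasFDerivAt
  have k2 := (LinearMap.toContinuousLinearMap F).hasFDerivAt.comp t (d.fun_sub du).hasFDerivAt
  have ev : ∀ᶠ s : Fin N → ℝ in nhds t, 1 / 2 < ∑ i, s i :=
    (continuous_finsetSum _ fun i _ => continuous_apply i).continuousAt.eventually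
      (lt_mem_nhds ht)
  have k3 := k1.unique (k2.congr_of_eventuallyEq (ev.mono fun s hs => funext (e s hs)))
  have hF : ∀ j, F (Pi.single (ρ j) 1) = Pi.single j 1 := fun j =>
    funext fun k => by simp [F, LinearMap.funLeft_apply, Pi.single_apply]
  rw [← e1]
  change omega a' (F t) = ExteriorAlgebra.map F _
  simp only [omega, ee, map_sum, map_mul, map_apply_ι]
  conv_rhs => rw [← Equiv.sum_comp ρ]
  refine sum_congr rfl fun j _ => ?_
  have := congrArg (· (Pi.single (ρ j) 1)) k3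
  simp only [ContinuousLinearMap.comp_apply, LinearMap.coe_toContinuousLinearMap', hF] at this
  rw [hF, this]

/-- Substitute `t ↦ t ∘ ρ` (volume preserving: `MeasureTheory.volume_measurePreserving_piCongrLeft`
or `measurePreserving_piCongrLeft`; the box is invariant). With `P = funLeft ℝ ℝ ρ`, at points with
`T > 1/2`: `a'_k (P t) = P (a_k t - ∇u t)` near `t`, so `omega a'_k (P t) = map P (omega a_k t)`
(`omega_grad`), `ι 𝟙 = map P (ι 𝟙)`, and `top (map P ξ) = det P * top ξ`, `det P = sign ρ`.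
Where `T ≤ 1/2` the bump vanishes. -/
theorem chi_perm (n : ℕ) (ρ : Equiv.Perm (Fin N)) {u : (Fin N → ℝ) → ℝ} (hu : ContDiff ℝ 2 u)
    {a₀ a₁ a₀' a₁' : (Fin N → ℝ) → Fin N → ℝ} (h₀ : ContDiff ℝ 2 a₀) (h₁ : ContDiff ℝ 2 a₁)
    (h₀' : ContDiff ℝ 2 a₀') (h₁' : ContDiff ℝ 2 a₁')
    (e₀ : ∀ t : Fin N → ℝ, 1 / 2 < ∑ i, t i → ∀ j,
      a₀' (fun i => t (ρ i)) j = a₀ t (ρ j) - fderiv ℝ u t (Pi.single (ρ j) 1))
    (e₁ : ∀ t : Fin N → ℝ, 1 / 2 < ∑ i, t i → ∀ j,
      a₁' (fun i => t (ρ i)) j = a₁ t (ρ j) - fderiv ℝ u t (Pi.single (ρ j) 1)) :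
    Chi n a₀' a₁' = ((Equiv.Perm.sign ρ : ℤ) : ℝ) * Chi n a₀ a₁ := by
  have hm := (volume_measurePreserving_piCongrLeft (fun _ : Fin N => ℝ) ρ).symm
  have hdet : LinearMap.det (LinearMap.funLeft ℝ ℝ ρ) = ((Equiv.Perm.sign ρ : ℤ) : ℝ) := by
    rw [← LinearMap.det_toMatrix', ← mul_one ((Equiv.Perm.sign ρ : ℤ) : ℝ),
      ← Matrix.det_one (n := Fin N), ← Matrix.det_permute]
    congr 1
    ext i j
    simp [LinearMap.funLeft_apply, Pi.single_apply, Matrix.one_apply]
  have hE : ∀ t, (MeasurableEquiv.piCongrLeft (fun _ : Fin N => ℝ) ρ).symm t = fun i => t (ρ i) :=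
    fun t => rfl
  have hb : (MeasurableEquiv.piCongrLeft (fun _ : Fin N => ℝ) ρ).symm ⁻¹' box N = box N := by
    ext t
    simp only [Set.mem_preimage, hE, box, Set.mem_Icc, Pi.le_def, Pi.zero_apply]
    exact and_congr (ρ.forall_congr_right (q := fun j => 0 ≤ t j))
      (ρ.forall_congr_right (q := fun j => t j ≤ 3))
  rw [Chi, ← hm.setIntegral_preimage_emb (MeasurableEquiv.measurableEmbedding _), hb, Chi,
    ← integral_const_mul]
  refine integral_congr_ae (Filter.Eventually.of_forall fun t => ?_)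
  simp only [hE]
  rw [Equiv.sum_comp ρ t]
  rcases le_or_gt (∑ i, t i) (1 / 2) with ht | ht
  · rw [bump_eq_zero (Or.inl (by linarith))]
    simp
  · have e : (a₁' fun i => t (ρ i)) - (a₀' fun i => t (ρ i)) =
        LinearMap.funLeft ℝ ℝ ρ (a₁ t - a₀ t) := by
      funext j
      simp [e₀ t ht, e₁ t ht, LinearMap.funLeft_apply]
    rw [mul_left_comm, ← hdet, ← top_map, e]
    simp only [Theta, map_mul, map_sum, map_pow, map_apply_ι, omega_perm ρ hu h₀ h₀' e₀ ht,
      omega_perm ρ hu h₁ h₁' e₁ ht]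
    rfl

end Crest.Agent.R192
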