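import Crest.Agent.R192.CurvB
import Crest.Agent.R192.StokesP
import Crest.Agent.R192.Pf
import Crest.Agent.R192.PfB

/-!
# R192: the characteristic numbers `Psi` and `Xi` of a generating function
-/

set_option autoImplicit false

open Finset ExteriorAlgebra MeasureTheory
open scoped Nat

namespace Crest.Agent.R192

variable {N M : ℕ}

noncomputable def Psi (n : ℕ) (𝔈 : (Fin (N + 1) → ℝ) → (Fin (N + 1) → ℝ) → ℝ) : ℝ :=
  Itop n (form 𝔈) / Itop n (form (E0 N))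

noncomputable def Xi (n : ℕ) (𝔈 : (Fin (N + 1) → ℝ) → (Fin (N + 1) → ℝ) → ℝ) : ℝ :=
  Chi n (form (E0 N)) (form 𝔈)

/-- The positive normalising integral. -/
noncomputable def Jn (M : ℕ) : ℝ := ∫ t in box (M + 1), bump (∑ k, t k) / (∑ k, t k) ^ M

theorem simplex_wt_nonneg (M : ℕ) (T : ℝ) : 0 ≤ bump T / T ^ M := by
  rcases le_or_gt T 1 with h | h
  · rw [bump_eq_zero (Or.inl h), zero_div]
  · exact div_nonneg (bump_nonneg T) (pow_nonneg (by linarith) _)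

theorem simplex_wt_cont (M : ℕ) : Continuous fun T : ℝ => bump T / T ^ M := by
  refine continuous_iff_continuousAt.2 fun T => ?_
  rcases lt_or_ge T 1 with h | h
  · refine (continuousAt_const (y := (0 : ℝ))).congr ?_
    filter_upwards [Iio_mem_nhds h] with x hx
    rw [bump_eq_zero (Or.inl (le_of_lt hx)), zero_div]
  · exact (contDiff_bump 0).continuous.continuousAt.div (by fun_prop)
      (pow_ne_zero _ (by linarith))

theorem simplex_wt_integrableOn (M : ℕ) :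
    IntegrableOn (fun t : Fin (M + 1) → ℝ => bump (∑ k, t k) / (∑ k, t k) ^ M) (box (M + 1)) :=
  ((simplex_wt_cont M).comp (by fun_prop)).continuousOn.integrableOn_compact isCompact_Icc

theorem simplex_bump_ne {T : ℝ} (h : bump T ≠ 0) : 1 < T := by
  by_contra h'
  exact h (bump_eq_zero (Or.inl (not_lt.1 h')))

/-- The integrand is `≥ 0`, continuous (where `T < 1` it vanishes identically), and positive on a
nonempty open subset of the box. -/
theorem Jn_pos (M : ℕ) : 0 < Jn M := by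
  rw [Jn, setIntegral_pos_iff_support_of_nonneg_ae
    (Filter.Eventually.of_forall fun t => simplex_wt_nonneg M _) (simplex_wt_integrableOn M)]
  let U : Set (Fin (M + 1) → ℝ) :=
    {t | 1 < ∑ k, t k} ∩ {t | ∑ k, t k < 2} ∩ Set.pi Set.univ fun _ => Set.Ioo (0 : ℝ) 3
  have hU : IsOpen U :=
    ((isOpen_lt continuous_const (by fun_prop)).inter
      (isOpen_lt (by fun_prop) continuous_const)).inter
      (isOpen_set_pi Set.finite_univ fun _ _ => isOpen_Ioo)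
  have hM : (0 : ℝ) < M + 1 := by positivity
  have hs : ∑ _k : Fin (M + 1), (3 / 2 / (M + 1) : ℝ) = 3 / 2 := by
    rw [sum_const, card_univ, Fintype.card_fin, nsmul_eq_mul]
    push_cast
    field_simp
  have hne : U.Nonempty := by
    refine ⟨fun _ => 3 / 2 / (M + 1), ⟨?_, ?_⟩, fun k _ => ⟨by positivity, ?_⟩⟩
    · simp only [Set.mem_ofPred_eq, hs]; norm_num
    · simp only [Set.mem_ofPred_eq, hs]; norm_num
    · rw [div_lt_iff₀ hM]
      nlinarith [Nat.cast_nonneg (α := ℝ) M]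
  refine (hU.measure_pos volume hne).trans_le (measure_mono ?_)
  rintro t ⟨⟨h1, h2⟩, h3⟩
  refine ⟨?_, fun k => (h3 k trivial).1.le, fun k => (h3 k trivial).2.le⟩
  have h1' : 1 < ∑ k, t k := h1
  exact (div_pos (bump_pos h1 h2) (pow_pos (by linarith) _)).ne'

/-- The integrand of `Itop` in terms of the Pfaffian of the curvature matrix. -/
theorem simplex_top {n : ℕ} {σ : ℝ} (hσ : ∀ t : Fin (M + 1) → ℝ, 1 / 2 < ∑ k, t k →
      top (M + 1) (ι ℝ (1 : Fin (M + 1) → ℝ) * ExteriorAlgebra.map (Lsh t) (vol M)) =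
        σ / (∑ k, t k) ^ M)
    {𝔈 : (Fin (M + 2) → ℝ) → (Fin (M + 2) → ℝ) → ℝ} (h : Sm2 𝔈) {t : Fin (M + 1) → ℝ}
    (hT : 1 / 2 < ∑ k, t k) {r : ℝ} (hr : om (curv 𝔈 (sh t)) ^ n = r • vol M) :
    bump (∑ k, t k) * top (M + 1) (ι ℝ (1 : Fin (M + 1) → ℝ) * omega (form 𝔈) t ^ n) =
      r * σ * (bump (∑ k, t k) / (∑ k, t k) ^ M) := by
  rw [omega_form h hT, ← map_pow, hr, map_smul, mul_smul_comm, map_smul, hσ t hT, smul_eq_mul]
  ring

theorem simplex_curv_E0 (s : Fin (M + 2) → ℝ) : curv (E0 (M + 1)) s = A0 M := by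
  ext a b
  exact curv_E0 s a b

/-- `curv (E0) = A0` (`curv_E0`), `omega_form`, `pf_A0`, `top_Lsh`: the integrand equals
`σ σ' n! · bump T / T^M` everywhere (both sides vanish when `T ≤ 1/2`). -/
theorem abs_Itop_E0 {n : ℕ} (hM : M = 2 * n) : |Itop n (form (E0 (M + 1)))| = n ! * Jn M := by
  obtain ⟨σ, hσ1, hσ⟩ := top_Lsh M
  obtain ⟨σ', hσ1', hσ'⟩ := pf_A0 hM
  have e : ∀ t : Fin (M + 1) → ℝ, bump (∑ k, t k) *
      top (M + 1) (ι ℝ (1 : Fin (M + 1) → ℝ) * omega (form (E0 (M + 1))) t ^ n) =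
      σ' * n ! * σ * (bump (∑ k, t k) / (∑ k, t k) ^ M) := fun t => by
    by_cases hb : bump (∑ k, t k) = 0
    · rw [hb, zero_mul, zero_div, mul_zero]
    · have := simplex_bump_ne hb
      exact simplex_top hσ sm2_E0 (by linarith) (by rw [simplex_curv_E0, hσ'])
  simp only [Itop, e]
  rw [integral_const_mul, ← Jn, abs_mul, abs_mul, abs_mul, hσ1, hσ1', abs_of_pos (Jn_pos M),
    Nat.abs_cast, one_mul, mul_one]

/-- Pointwise on the box, where `bump T ≠ 0`, `sh t` is in the cell (`cell_sh`) and by `omega_form`,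
`pf_bound`, `top_Lsh` the integrand of `Itop n (form 𝔈)` is at most
`n! (12 η²/√n)^n (∏ lam) · bump T / T^M` in absolute value (`norm_integral_le_of_norm_le`). -/
theorem simplex_psi {n : ℕ} (hM : M = 2 * n) (hn : 1 ≤ n)
    {𝔈 : (Fin (M + 2) → ℝ) → (Fin (M + 2) → ℝ) → ℝ} (h : Sm2 𝔈) {lam : Fin M → ℝ} {η : ℝ}
    (hl : ∀ a, 1 ≤ lam a) (hA : ∀ s, Cell s → GH (curv 𝔈 s) lam η) :
    |Psi n 𝔈| ≤ (12 * η ^ 2 / √n) ^ n * ∏ a, lam a := by
  obtain ⟨σ, hσ1, hσ⟩ := top_Lsh M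
  have hJ : 0 < (n ! : ℝ) * Jn M := mul_pos (Nat.cast_pos.2 n.factorial_pos) (Jn_pos M)
  rw [Psi, abs_div, abs_Itop_E0 hM, div_le_iff₀ hJ]
  have h1 : ‖Itop n (form 𝔈)‖ ≤ ∫ t in box (M + 1),
      n ! * ((12 * η ^ 2 / √n) ^ n * ∏ a, lam a) * (bump (∑ k, t k) / (∑ k, t k) ^ M) := by
    refine norm_integral_le_of_norm_le ((simplex_wt_integrableOn M).const_mul _)
      (ae_restrict_of_forall_mem measurableSet_Icc fun t ht => ?_)
    by_cases hb : bump (∑ k, t k) = 0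
    · rw [hb, zero_mul, zero_div, mul_zero, norm_zero]
    · have hT : 1 / 2 < ∑ k, t k := by linarith [simplex_bump_ne hb]
      obtain ⟨r, hr, hr'⟩ := pf_bound hM hn hl (hA _ (cell_sh ht.1 hT))
      rw [simplex_top hσ h hT hr, Real.norm_eq_abs, abs_mul, abs_mul, hσ1, mul_one,
        abs_of_nonneg (simplex_wt_nonneg M _)]
      exact mul_le_mul_of_nonneg_right hr' (simplex_wt_nonneg M _)
  rw [integral_const_mul, ← Jn, Real.norm_eq_abs] at h1
  linarith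

/-- `stokes`, `face_form`, `E0_face`; divide by `Itop n (form E0) ≠ 0`. -/
theorem simplex_stokes {n : ℕ} (hM : M + 1 = 2 * n) : ∃ σ : Fin (M + 2) → ℝ,
    ∀ (𝔈 : (Fin (M + 3) → ℝ) → (Fin (M + 3) → ℝ) → ℝ)
      (𝔈f : Fin (M + 2) → (Fin (M + 2) → ℝ) → (Fin (M + 2) → ℝ) → ℝ), Sm2 𝔈 →
      (∀ i, FaceRel i 𝔈 (𝔈f i)) → Psi n 𝔈 - 1 = ∑ i, σ i * Xi n (𝔈f i) := by
  obtain ⟨σ, hσ⟩ := stokes (M + 1) n
  have h0 : Itop n (form (E0 (M + 2))) ≠ 0 := by
    rw [← abs_pos, abs_Itop_E0 hM]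
    exact mul_pos (Nat.cast_pos.2 n.factorial_pos) (Jn_pos _)
  refine ⟨fun i => σ i / Itop n (form (E0 (M + 2))), fun 𝔈 𝔈f h hf => ?_⟩
  have h1 := hσ _ _ (contDiff_form (sm2_E0 (N := M + 2))) (contDiff_form h)
  rw [Psi, div_sub_one h0, h1, sum_div]
  refine sum_congr rfl fun i _ => ?_
  rw [face_form sm2_E0 (E0_face i), face_form h (hf i), Xi]
  ring

/-- `chi_perm` with `ρ = finRotate (M+1)` (`sign_finRotate`, `M` is odd), `u t = sh t 1`,
`shift_form` for `𝔈, 𝔈'` and for `E0, E0` (`isConn_E0`, `E0_shS`). -/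
theorem simplex_shift {n : ℕ} (hM : M + 1 = 2 * n)
    {𝔈 𝔈' : (Fin (M + 2) → ℝ) → (Fin (M + 2) → ℝ) → ℝ} (h : Sm2 𝔈) (h' : IsConn 𝔈')
    (hs : ShiftRel 𝔈 𝔈') : Xi n 𝔈' = -Xi n 𝔈 := by
  have hu : ContDiff ℝ 2 fun t : Fin (M + 1) → ℝ => sh t 1 :=
    contDiff_pi.1 (contDiff_sh (N := M + 1) 2) 1
  have hs0 : ShiftRel (E0 (M + 1)) (E0 (M + 1)) :=
    ⟨fun s' => s' 1 - s' 0, fun _ _ h₁ h₂ => E0_shS h₁ h₂⟩
  have hodd : Odd M := ⟨n - 1, by omega⟩
  rw [Xi, Xi, chi_perm n (finRotate (M + 1)) hu (contDiff_form sm2_E0) (contDiff_form h)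
    (contDiff_form sm2_E0) (contDiff_form h'.smooth)
    (fun t hT j => shift_form sm2_E0 isConn_E0 hs0 hT j) (fun t hT j => shift_form h h' hs hT j),
    sign_finRotate, Nat.add_sub_cancel, hodd.neg_one_pow]
  simp

theorem simplex_norm_pow {R : Type*} [NormedRing R] {x : R} {W : ℝ} (h : ‖x‖ ≤ W) (i : ℕ) :
    ‖x ^ i‖ ≤ ‖(1 : R)‖ * W ^ i := by
  induction i with
  | zero => simp
  | succ i ih =>
    rw [pow_succ, pow_succ, ← mul_assoc]
    exact norm_mul_le_of_le ih h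

/-- A uniform bound for the integrand of `Chi`. -/
theorem simplex_bdd (M n : ℕ) {K : ℝ} (hK : 0 ≤ K) : ∃ C : ℝ, 0 ≤ C ∧
    ∀ (L : (Fin M → ℝ) →ₗ[ℝ] (Fin (M + 1) → ℝ)) (w : Fin M → ℝ) (A A' : Matrix (Fin M) (Fin M) ℝ),
      (∀ a m, |L (Pi.single a 1) m| ≤ 1) → (∀ a, |w a| ≤ K) → (∀ a b, |A a b| ≤ K) →
      (∀ a b, |A' a b| ≤ K) →
      |top (M + 1) (ι ℝ (1 : Fin (M + 1) → ℝ) * ι ℝ (L w) * ∑ i ∈ range n,
        ExteriorAlgebra.map L (om A) ^ i * ExteriorAlgebra.map L (om A') ^ (n - 1 - i))| ≤ C := by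
  set c := ‖iotaL (M + 1)‖ with hc
  have hc0 : 0 ≤ c := norm_nonneg _
  set W : ℝ := ∑ _a : Fin M, ∑ _b : Fin M, K * (c * c) with hW
  have hW0 : 0 ≤ W := by positivity
  refine ⟨‖topL (M + 1)‖ * (‖(ι ℝ (1 : Fin (M + 1) → ℝ) : Gr (M + 1))‖ * (∑ _a : Fin M, K * c) *
    ∑ i ∈ range n, ‖(1 : Gr (M + 1))‖ * W ^ i * (‖(1 : Gr (M + 1))‖ * W ^ (n - 1 - i))),
    by positivity, fun L w A A' hL hw hA hA' => ?_⟩
  have h1 : ∀ a, ‖(ι ℝ (L (Pi.single a 1)) : Gr (M + 1))‖ ≤ c := fun a => by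
    rw [← iotaL_apply]
    refine ((iotaL (M + 1)).le_opNorm _).trans (mul_le_of_le_one_right hc0 ?_)
    exact (pi_norm_le_iff_of_nonneg zero_le_one).2 fun m => hL a m
  have h2 : ∀ B : Matrix (Fin M) (Fin M) ℝ, (∀ a b, |B a b| ≤ K) →
      ‖ExteriorAlgebra.map L (om B)‖ ≤ W := fun B hB => by
    rw [map_om]
    refine norm_sum_le_of_le _ fun a _ => norm_sum_le_of_le _ fun b _ => ?_
    rw [norm_smul]
    exact mul_le_mul (hB a b) (norm_mul_le_of_le (h1 b) (h1 a)) (norm_nonneg _) hK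
  have h3 : ‖(ι ℝ (L w) : Gr (M + 1))‖ ≤ ∑ _a : Fin M, K * c := by
    have e : w = ∑ a, w a • (Pi.single a 1 : Fin M → ℝ) := by
      funext j
      simp [Pi.single_apply]
    rw [e, map_sum, map_sum]
    refine norm_sum_le_of_le _ fun a _ => ?_
    rw [map_smul, map_smul, norm_smul]
    exact mul_le_mul (hw a) (h1 a) (norm_nonneg _) hK
  rw [← topL_apply, ← Real.norm_eq_abs]
  refine ((topL (M + 1)).le_opNorm _).trans (mul_le_mul_of_nonneg_left ?_ (norm_nonneg _))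
  refine norm_mul_le_of_le (norm_mul_le_of_le le_rfl h3) (norm_sum_le_of_le _ fun i _ => ?_)
  exact norm_mul_le_of_le (simplex_norm_pow (h2 A hA) _) (simplex_norm_pow (h2 A' hA') _)

/-- On the box where `bump T ≠ 0`: by `form_eq`, `omega_form`, `map_om`, `abs_Lsh_le`, the norms
of `ι (form 𝔈 t - form E0 t)` and of both curvatures in the normed algebra `Gr (M+1)` are bounded in
terms of `K` and `M` (for `E0`: `d1_E0_inn`, `curv_E0`); `|top ξ| ≤ ‖topL‖ ‖ξ‖`; the box has finite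
volume (`norm_setIntegral_le_of_norm_le_const`). -/
theorem simplex_chi (M n : ℕ) (K : ℝ) : ∃ K' : ℝ,
    ∀ 𝔈 : (Fin (M + 2) → ℝ) → (Fin (M + 2) → ℝ) → ℝ, Sm2 𝔈 →
      (∀ s, Cell s → (∀ a, |d1 𝔈 s s (inn a)| ≤ K) ∧ ∀ a b, |curv 𝔈 s a b| ≤ K) →
        |Xi n 𝔈| ≤ K' := by
  obtain ⟨C, hC0, hC⟩ := simplex_bdd M n (K := |K| + 1) (by positivity)
  refine ⟨C * volume.real (box (M + 1)), fun 𝔈 h hK => ?_⟩
  rw [← Real.norm_eq_abs, Xi, Chi]
  refine norm_setIntegral_le_of_norm_le_const isCompact_Icc.measure_lt_top fun t ht => ?_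
  by_cases hb : bump (∑ k, t k) = 0
  · rw [hb, zero_mul, norm_zero]
    exact hC0
  · have hT1 := simplex_bump_ne hb
    have hT : 1 / 2 < ∑ k, t k := by linarith
    have hc := cell_sh ht.1 hT
    obtain ⟨hK1, hK2⟩ := hK _ hc
    have hKa := le_abs_self K
    have hKn := abs_nonneg K
    rw [Real.norm_eq_abs, abs_mul, abs_of_nonneg (bump_nonneg _), Theta, omega_form h hT,
      omega_form sm2_E0 hT, form_eq h hT, form_eq sm2_E0 hT, ← map_sub]
    refine (mul_le_of_le_one_left (abs_nonneg _) (bump_le_one _)).trans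
      (hC _ _ _ _ (abs_Lsh_le ht.1 hT1.le) (fun a => ?_) (fun a b => by linarith [hK2 a b])
        fun a b => ?_)
    · have h1 : |d1 (E0 (M + 1)) (sh t) (sh t) (inn a)| ≤ 1 := by
        rw [d1_E0_inn]
        obtain ⟨hm, h0, h1⟩ := hc
        have e1 : sh t a.succ.castSucc ≤ sh t a.succ.succ := hm (Fin.castSucc_le_succ _)
        have e2 : sh t 0 ≤ sh t a.succ.castSucc := hm (Fin.zero_le _)
        have e3 : sh t a.succ.succ ≤ sh t (Fin.last (M + 1)) := hm (Fin.le_last _)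
        rw [abs_le]
        constructor <;> linarith
      exact (abs_sub _ _).trans (by linarith [hK1 a])
    · rw [curv_E0]
      refine le_trans ?_ (le_add_of_nonneg_left hKn)
      split_ifs <;> norm_num

end Crest.Agent.R192
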