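import Crest.Agent.R192.ConnB
import Crest.Agent.R192.Pigeon
import Crest.Agent.R192.Simplex
import Crest.Agent.R192.MechC

/-!
# R192: the cyclic cocycle
-/

set_option autoImplicit false

open Finset

namespace Crest.Agent.R192

structure CocData {G : Type} [Group G] {β ϱ : ℕ} (L : Len G β ϱ) (w M n K : ℕ) (ε : ℝ) where
  Ψ : G → (Fin (M + 2) → G) → ℝ
  χ : G → (Fin (M + 1) → G) → ℝ
  σ : Fin (M + 2) → ℝ
  Kn : ℝ
  eq : ∀ h x, Ψ h x - 1 = ∑ i, σ i * χ h fun j => x (i.succAbove j)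
  conj : ∀ g h x, χ (g * h * g⁻¹) (fun i => g * x i) = χ h x
  odd : ∀ h x, χ h (shX h x) = -χ h x
  χ_le : ∀ h x, |χ h x| ≤ Kn
  Ψ_le : ∀ h x, |Ψ h x| ≤ 72 ^ n * ∏ a, L.lam x a
  Ψ_good : ∀ h x, L.Good h w → L.len h x ≤ K * (M + 2) → |Ψ h x| ≤ ε ^ n * ∏ a, L.lam x a

theorem Len.one_le_lam {G : Type} [Group G] {β ϱ M : ℕ} (L : Len G β ϱ) (x : Fin (M + 1) → G)
    (a : Fin M) : 1 ≤ L.lam x a := by
  unfold Len.lam
  have : (0 : ℝ) ≤ (L.d ((x a.castSucc)⁻¹ * x a.succ) : ℝ) := Nat.cast_nonneg _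
  linarith

theorem Len.lam_le {G : Type} [Group G] {β ϱ M : ℕ} (L : Len G β ϱ) (x : Fin (M + 1) → G)
    (a : Fin M) : L.lam x a ≤ 1 + ϱ := by
  unfold Len.lam
  have : (L.d ((x a.castSucc)⁻¹ * x a.succ) : ℝ) ≤ ϱ := by exact_mod_cast L.d_le _
  linarith

theorem etaS_nonneg (β : ℕ) (h0 : ℝ) (J : ℕ) : 0 ≤ etaS β h0 J := by
  unfold etaS etaM etaR
  positivity

theorem cocycle (β K : ℕ) (hβ : 1 ≤ β) {ε : ℝ} (hε : 0 < ε) : ∃ ϱ : ℕ, 1 ≤ ϱ ∧
    ∀ (G : Type) [Group G] (L : Len G β ϱ) (w n₀ : ℕ), ∃ M n : ℕ, n₀ ≤ n ∧ M + 1 = 2 * n ∧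
      Nonempty (CocData L w M n K ε) := by
  have hε' : 0 < min (ε / 12) 1 := lt_min (by positivity) one_pos
  obtain ⟨μ0, hμ0⟩ := param β hβ hε'
  obtain ⟨ϱ, hϱdef⟩ : ∃ ϱ : ℕ, ϱ = 30 * 2 ^ μ0 * K + 1 := ⟨_, rfl⟩
  have hϱ : 1 ≤ ϱ := by omega
  refine ⟨ϱ, hϱ, ?_⟩
  intro G _ L w n₀
  obtain ⟨ν, hν, hn₀, hη⟩ := hμ0 w n₀
  obtain ⟨n, hndef⟩ : ∃ n : ℕ, n = 2 ^ ν := ⟨_, rfl⟩
  rw [← hndef] at hn₀
  have hn : 1 ≤ n := hndef ▸ Nat.one_le_two_pow
  obtain ⟨M, hM⟩ : ∃ M, M + 1 = 2 * n := ⟨2 * n - 1, by omega⟩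
  refine ⟨M, n, hn₀, hM, ?_⟩
  set h0 : ℝ := 2 ^ μ0 / 2 ^ ν with hh0
  have h0pos : 0 < h0 := by positivity
  set J := ν - μ0 + w with hJ
  have hj : 2 ^ (ν - μ0) * h0 = 1 := by
    rw [hh0, ← mul_div_assoc, ← pow_add, Nat.sub_add_cancel hν]
    exact div_self (by positivity)
  have m : Mechs L := fun j => (L.exists_mech hβ hϱ (four_le_xs j)).some
  obtain ⟨σ, hσ⟩ := simplex_stokes hM
  set η := etaS β h0 J with hηdef
  have hη0 : 0 ≤ η := etaS_nonneg _ _ _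
  set K1 : ℝ := (1 + ∑ j ∈ range J, 4 * (xs j : ℝ) * hs h0 j * √(bs β j)) with hK1
  have hK10 : 0 ≤ K1 := by
    have : 0 ≤ ∑ j ∈ range J, 4 * (xs j : ℝ) * hs h0 j * √(bs β j) :=
      Finset.sum_nonneg fun j _ => by unfold hs; positivity
    linarith
  obtain ⟨K', hK'⟩ := simplex_chi M n
    (max (K1 * (1 + ϱ)) ((√(√(2 * M)) + η) ^ 2 * ((1 + ϱ) * (1 + ϱ))))
  have hnR : (0 : ℝ) < n := by exact_mod_cast hn
  have hsn : 0 < √(n : ℝ) := Real.sqrt_pos.2 hnR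
  have hcast : ((2 : ℝ) ^ ν) = (n : ℝ) := by rw [hndef]; push_cast; rfl
  rw [hcast] at hη
  have hprod : ∀ x : Fin (M + 2) → G, 0 ≤ ∏ a, L.lam x a := fun x =>
    Finset.prod_nonneg fun a _ => zero_le_one.trans (L.one_le_lam x a)
  refine ⟨⟨fun h x => Psi n (EC m h0 J h x), fun h x => Xi n (EC m h0 J h x), σ, K', ?_, ?_, ?_,
    ?_, ?_, ?_⟩⟩
  · intro h x
    exact hσ _ (fun i => EC m h0 J h fun j => x (i.succAbove j)) (isConn_EC m J h h0pos x).smooth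
      fun i => EC_face m J h x i
  · intro g h x
    simp only [EC_conj m J h h0pos g x]
  · intro h x
    exact simplex_shift hM (isConn_EC m J h h0pos x).smooth (isConn_EC m J h h0pos _)
      (EC_shift m J h h0pos x)
  · intro h x
    refine hK' _ (isConn_EC m J h h0pos x).smooth fun s hc => ⟨fun a => ?_, fun a b => ?_⟩
    · refine le_trans (abs_d1_EC_le m J h hϱ h0pos x hc a) (le_trans ?_ (le_max_left _ _))
      exact mul_le_mul_of_nonneg_left (L.lam_le x a) hK10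
    · refine le_trans ((GH_curv_EC m J h hβ hϱ h0pos x hc).entry
        (fun i => zero_le_one.trans (L.one_le_lam x i)) a b) (le_trans ?_ (le_max_right _ _))
      refine mul_le_mul_of_nonneg_left ?_ (sq_nonneg _)
      exact mul_le_mul (L.lam_le x a) (L.lam_le x b) (zero_le_one.trans (L.one_le_lam x b))
        (by positivity)
  · intro h x
    refine le_trans (simplex_psi hM hn (isConn_EC m J h h0pos x).smooth (L.one_le_lam x)
      fun s hc => GH_curv_EC m J h hβ hϱ h0pos x hc) ?_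
    refine mul_le_mul_of_nonneg_right (pow_le_pow_left₀ (div_nonneg (by positivity) hsn.le) ?_ n)
      (hprod x)
    rw [div_le_iff₀ hsn]
    have h1 : √(√(2 * ((M + 1 : ℕ) : ℝ))) ^ 2 = 2 * √(n : ℝ) := by
      rw [Real.sq_sqrt (Real.sqrt_nonneg _), hM]
      push_cast
      rw [show (2 : ℝ) * (2 * n) = 2 ^ 2 * n by ring, Real.sqrt_mul (by positivity),
        Real.sqrt_sq (by norm_num)]
    have h2 : η ^ 2 ≤ √(n : ℝ) := hη.trans (by
      have := min_le_right (ε / 12) 1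
      nlinarith)
    nlinarith [sq_nonneg (√(√(2 * ((M + 1 : ℕ) : ℝ))) - η)]
  · intro h x hg hlen
    have hlen' : 10 * h0 * L.len h x ≤ ϱ := by
      have h1 : (L.len h x : ℝ) ≤ K * (3 * n) := by
        have : L.len h x ≤ K * (3 * n) := hlen.trans (Nat.mul_le_mul_left K (show M + 2 ≤ 3 * n by omega))
        exact_mod_cast this
      have h2 : h0 * n = 2 ^ μ0 := by rw [hh0, ← hcast]; field_simp
      have h3 : (ϱ : ℝ) = 30 * 2 ^ μ0 * K + 1 := by rw [hϱdef]; push_cast; ring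
      have h4 : 10 * h0 * L.len h x ≤ 10 * h0 * (K * (3 * n)) :=
        mul_le_mul_of_nonneg_left h1 (by positivity)
      rw [h3]
      nlinarith
    refine le_trans (simplex_psi (η := η) hM hn (isConn_EC m J h h0pos x).smooth (L.one_le_lam x)
      fun s hc => ?_) ?_
    · have h1 := GH_curv_EC_sub m J h hβ hϱ h0pos x hc
      rwa [th0_eq_zero (one_le_YY m h hϱ h0pos hj hg x hlen' hc), zero_smul, sub_zero] at h1
    · have h12 : 0 ≤ 12 * η ^ 2 / √(n : ℝ) := by positivity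
      refine mul_le_mul_of_nonneg_right (pow_le_pow_left₀ h12 ?_ n) (hprod x)
      rw [div_le_iff₀ hsn]
      have := min_le_left (ε / 12) 1
      nlinarith

end Crest.Agent.R192
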