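import Crest.Agent.R192.Theta

/-!
# R192: choice of the scales
-/

set_option autoImplicit false

open Finset

namespace Crest.Agent.R192

/-- `ϱ / xs j` is the resolution at scale `j`. -/
def xs (j : ℕ) : ℕ := 128 * (j + 1) ^ 2

/-- Sensitivity at scale `j`. -/
noncomputable def bs (β j : ℕ) : ℝ := 30 * (β : ℝ) ^ 2 * (xs j : ℝ) ^ 3

/-- Window width at scale `j`. -/
noncomputable def hs (h0 : ℝ) (j : ℕ) : ℝ := 2 ^ j * h0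

noncomputable def VV (β J : ℕ) : ℝ := 1 + ∑ j ∈ range J, 8 * (xs j : ℝ) * √(bs β j)

noncomputable def etaM (β : ℕ) (h0 : ℝ) (j : ℕ) : ℝ :=
  √(2 * (xs j : ℝ) * (√(hs h0 j) * (bs β j * (c0 * (1 + 1 / hs h0 j) * (2 + hs h0 j)))))

noncomputable def etaR (β : ℕ) (h0 : ℝ) (J j : ℕ) : ℝ :=
  √(4 * c1 * VV β J * (xs j : ℝ) * hs h0 j * √(bs β j))

noncomputable def etaS (β : ℕ) (h0 : ℝ) (J : ℕ) : ℝ :=
  √(2 * c1 * VV β J) + ∑ j ∈ range J, (etaM β h0 j + etaR β h0 J j)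

theorem four_le_xs (j : ℕ) : 4 ≤ xs j := by
  have : 1 ≤ (j + 1) ^ 2 := Nat.one_le_pow _ _ j.succ_pos
  unfold xs
  omega

/-- `∑ 1/(j+1)² ≤ 2`. -/
theorem sum_inv_xs_le (J : ℕ) : ∑ j ∈ range J, 1 / (xs j : ℝ) ≤ 1 / 64 := by
  have h : ∑ j ∈ range J, 1 / (xs j : ℝ) ≤ 1 / 64 - 1 / (64 * (J + 1)) := by
    induction J with
    | zero => simp
    | succ J ih =>
      have h1 : 1 / (xs J : ℝ) ≤ 1 / (64 * (J + 1)) - 1 / (64 * (J + 1 + 1)) := by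
        have : (0 : ℝ) ≤ J := Nat.cast_nonneg _
        rw [xs, div_sub_div _ _ (by positivity) (by positivity),
          div_le_div_iff₀ (by positivity) (by positivity)]
        push_cast
        nlinarith [mul_nonneg this (sq_nonneg ((J : ℝ) + 1)), mul_nonneg this this]
      rw [sum_range_succ]
      push_cast
      linarith
  exact h.trans (sub_le_self _ (by positivity))

private lemma pm_etaM (β j : ℕ) {h0 t : ℝ} (ht : 0 < t) (h : hs h0 j = t ^ 4) :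
    etaM β h0 j ≤ 11 * c0 * β * (xs j : ℝ) ^ 2 * (1 / t + t ^ 3) := by
  have hc := one_le_c0
  rw [etaM, h, show t ^ 4 = (t ^ 2) ^ 2 by ring, Real.sqrt_sq (by positivity), bs]
  refine Real.sqrt_le_iff.2 ⟨by positivity, ?_⟩
  have h1 : t ^ 2 * ((1 + 1 / (t ^ 2) ^ 2) * (2 + (t ^ 2) ^ 2)) ≤ 2 * (1 / t + t ^ 3) ^ 2 := by
    have e : 2 * (1 / t + t ^ 3) ^ 2 - t ^ 2 * ((1 + 1 / (t ^ 2) ^ 2) * (2 + (t ^ 2) ^ 2)) =
        t ^ 2 + t ^ 6 := by field_simp; ring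
    have : 0 ≤ t ^ 2 + t ^ 6 := by positivity
    linarith
  calc _ = 60 * c0 * (β * (xs j : ℝ) ^ 2) ^ 2 *
        (t ^ 2 * ((1 + 1 / (t ^ 2) ^ 2) * (2 + (t ^ 2) ^ 2))) := by ring
    _ ≤ 60 * c0 * (β * (xs j : ℝ) ^ 2) ^ 2 * (2 * (1 / t + t ^ 3) ^ 2) := by gcongr
    _ = (120 * c0) * (β * (xs j : ℝ) ^ 2 * (1 / t + t ^ 3)) ^ 2 := by ring
    _ ≤ (11 * c0) ^ 2 * (β * (xs j : ℝ) ^ 2 * (1 / t + t ^ 3)) ^ 2 := by
        gcongr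
        nlinarith
    _ = _ := by ring

private lemma pm_bs (β j : ℕ) {X : ℝ} (h1 : 1 ≤ X) (hX : (xs j : ℝ) ≤ X) :
    √(bs β j) ≤ 6 * β * X ^ 2 := by
  refine Real.sqrt_le_iff.2 ⟨by positivity, ?_⟩
  calc bs β j ≤ 36 * (β : ℝ) ^ 2 * X ^ 3 := by rw [bs]; gcongr; norm_num
    _ ≤ 36 * (β : ℝ) ^ 2 * X ^ 4 := by gcongr; norm_num
    _ = _ := by ring

private lemma pm_VV {β J : ℕ} (hβ : 1 ≤ β) {X : ℝ} (h1 : 1 ≤ X) (hJ : (J : ℝ) ≤ X)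
    (hX : ∀ j < J, (xs j : ℝ) ≤ X) : VV β J ≤ 49 * β * X ^ 4 := by
  have h2 : ∑ j ∈ range J, 8 * (xs j : ℝ) * √(bs β j) ≤ J * (8 * X * (6 * β * X ^ 2)) := by
    refine (sum_le_sum (g := fun _ => 8 * X * (6 * β * X ^ 2)) fun j hj => ?_).trans (by simp)
    have := hX j (mem_range.1 hj)
    gcongr
    exact pm_bs β j h1 this
  have h3 : (J : ℝ) * (8 * X * (6 * β * X ^ 2)) ≤ X * (8 * X * (6 * β * X ^ 2)) := by gcongr
  have h4 : 1 ≤ (β : ℝ) * X ^ 4 :=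
    one_le_mul_of_one_le_of_one_le (by exact_mod_cast hβ) (one_le_pow₀ h1)
  rw [VV]
  linarith

/-- the terms that are polynomial in the number of scales -/
private lemma pm_etaS {β J : ℕ} (hβ : 1 ≤ β) {h0 X T : ℝ} {t : ℕ → ℝ} (h1 : 1 ≤ X)
    (hJ : (J : ℝ) ≤ X) (hX : ∀ j < J, (xs j : ℝ) ≤ X) (ht : ∀ j, 0 < t j)
    (h : ∀ j, hs h0 j = t j ^ 4) (hT0 : 0 ≤ T) (hT : ∀ j < J, t j ≤ T) :
    etaS β h0 J ≤ 11 * c0 * β * ∑ j ∈ range J, (xs j : ℝ) ^ 2 * (1 / t j) +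
      β * (10 * c1 + 35 * c1 * T ^ 2 + 11 * c0 * T ^ 3) * X ^ 5 := by
  have hc0 := one_le_c0
  have hc1 := one_le_c1
  have hβ' : (1 : ℝ) ≤ β := by exact_mod_cast hβ
  have hV := pm_VV hβ h1 hJ hX
  have h2 : √(2 * c1 * VV β J) ≤ 10 * c1 * β * X ^ 5 := by
    refine Real.sqrt_le_iff.2 ⟨by positivity, ?_⟩
    calc _ ≤ 2 * c1 * (49 * β * X ^ 4) := by gcongr
      _ = 98 * (c1 * β) ^ 1 * X ^ 4 := by ring
      _ ≤ 100 * (c1 * β) ^ 2 * X ^ 10 := by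
          gcongr
          exacts [by norm_num, one_le_mul_of_one_le_of_one_le hc1 hβ', by norm_num, by norm_num]
      _ = _ := by ring
  have h3 : ∀ j ∈ range J, etaM β h0 j + etaR β h0 J j ≤
      11 * c0 * β * ((xs j : ℝ) ^ 2 * (1 / t j)) +
        β * (35 * c1 * T ^ 2 + 11 * c0 * T ^ 3) * X ^ 4 := by
    intro j hj
    have h4 := hX j (mem_range.1 hj)
    have h5 := hT j (mem_range.1 hj)
    have h6 := ht j
    have h7 : etaR β h0 J j ≤ 35 * c1 * β * T ^ 2 * X ^ 4 := by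
      rw [etaR, h]
      refine Real.sqrt_le_iff.2 ⟨by positivity, ?_⟩
      calc _ ≤ 4 * c1 * (49 * β * X ^ 4) * X * T ^ 4 * (6 * β * X ^ 2) := by
            gcongr
            exact pm_bs β j h1 h4
        _ = 1176 * c1 ^ 1 * (β * T ^ 2) ^ 2 * X ^ 7 := by ring
        _ ≤ 1225 * c1 ^ 2 * (β * T ^ 2) ^ 2 * X ^ 8 := by gcongr <;> norm_num
        _ = _ := by ring
    have h8 : 11 * c0 * β * (xs j : ℝ) ^ 2 * t j ^ 3 ≤ 11 * c0 * β * X ^ 4 * T ^ 3 := by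
      have : (xs j : ℝ) ^ 2 ≤ X ^ 4 :=
        (pow_le_pow_left₀ (Nat.cast_nonneg _) h4 2).trans (pow_le_pow_right₀ h1 (by norm_num))
      gcongr
    linarith [pm_etaM β j h6 (h j)]
  have h4 := sum_le_sum h3
  rw [sum_add_distrib (f := fun j => 11 * c0 * β * ((xs j : ℝ) ^ 2 * (1 / t j))), ← mul_sum,
    sum_const, card_range, nsmul_eq_mul] at h4
  have h5 : (J : ℝ) * (β * (35 * c1 * T ^ 2 + 11 * c0 * T ^ 3) * X ^ 4) ≤
      X * (β * (35 * c1 * T ^ 2 + 11 * c0 * T ^ 3) * X ^ 4) := by gcongr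
  rw [etaS]
  linarith

/-- With `h = hs h0 j`: `√h (1 + 1/h)(2 + h) = 3√h + h√h + 2/√h ≤ 5 (1/√h + h √h)`, so
`etaM ≤ √(300 c0) β xs² (h^{-1/4} + h^{3/4})`.  Here `h = 2^{j + μ0 - ν} ≤ 2^w` for `j < J`,
`h^{-1/4} = (2^ν)^{1/4} 2^{-μ0/4} 2^{-j/4}`, and `∑ (j+1)^4 r^j ≤ C` for `r = 2^{-1/4} < 1`
(`summable_pow_mul_geometric_of_norm_lt_one`).  Choose `μ0` so that this part is
`≤ (√ε / 2) (2^ν)^{1/4}`.  All the other terms are bounded by a polynomial in `J ≤ ν + w` (for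
fixed `β, w`; bound every `xs j ≤ 128 (J+1)²`, `√y ≤ 1 + y`), which is `≤ (√ε/2) (2^ν)^{1/4}` for
large `ν` (`tendsto_pow_const_div_const_pow_of_one_lt`). -/
theorem param (β : ℕ) (hβ : 1 ≤ β) {ε : ℝ} (hε : 0 < ε) : ∃ μ0 : ℕ, ∀ w n₀ : ℕ, ∃ ν : ℕ,
    μ0 ≤ ν ∧ n₀ ≤ 2 ^ ν ∧ etaS β (2 ^ μ0 / 2 ^ ν) (ν - μ0 + w) ^ 2 ≤ ε * √(2 ^ ν) := by
  have hc0 := one_le_c0
  have hc1 := one_le_c1
  have hβ' : (1 : ℝ) ≤ β := by exact_mod_cast hβ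
  obtain ⟨ρ, hρ1, hρ4⟩ : ∃ ρ : ℝ, 1 < ρ ∧ ρ ^ 4 = 2 :=
    ⟨√√2, Real.lt_sqrt_of_sq_lt (by simpa using Real.one_lt_sqrt_two), by
      rw [show 4 = 2 * 2 from rfl, pow_mul, Real.sq_sqrt (by positivity),
        Real.sq_sqrt (by positivity)]⟩
  have hρ0 : 0 < ρ := by linarith
  have hp : ∀ n : ℕ, (2 : ℝ) ^ n = (ρ ^ n) ^ 4 := fun n => by rw [← hρ4, ← pow_mul, ← pow_mul, mul_comm]
  obtain ⟨C, hC0, hC⟩ : ∃ C : ℝ, 0 ≤ C ∧ ∀ J, ∑ j ∈ range J, (xs j : ℝ) ^ 2 * ρ⁻¹ ^ j ≤ C := by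
    have h1 := ((summable_nat_add_iff 1).2 (summable_pow_mul_geometric_of_norm_lt_one (r := ρ⁻¹) 4
      (by rw [Real.norm_of_nonneg (by positivity)]; exact inv_lt_one_of_one_lt₀ hρ1))).mul_left
      (128 ^ 2 * ρ)
    have h2 : Summable fun j => (xs j : ℝ) ^ 2 * ρ⁻¹ ^ j := h1.congr fun j => by
      rw [xs, pow_succ ρ⁻¹]
      push_cast
      field_simp
    exact ⟨_, tsum_nonneg fun j => by positivity, fun J =>
      h2.sum_le_tsum _ fun j _ => by positivity⟩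
  have hδ : 0 < √ε / 2 := by positivity
  obtain ⟨μ0, hμ⟩ := ((tendsto_pow_atTop_atTop_of_one_lt hρ1).eventually_ge_atTop
    (11 * c0 * β * C / (√ε / 2))).exists
  refine ⟨μ0, fun w n₀ => ?_⟩
  obtain ⟨K, hK⟩ : ∃ K, K = β * (10 * c1 + 35 * c1 * (ρ ^ w) ^ 2 + 11 * c0 * (ρ ^ w) ^ 3) := ⟨_, rfl⟩
  have hK0 : 0 < K := by rw [hK]; positivity
  have h1 := ((tendsto_pow_const_div_const_pow_of_one_lt 10 hρ1).comp
    (Filter.tendsto_add_atTop_nat (w + 1))).eventually_le_const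
    (show 0 < √ε / 2 / (K * 128 ^ 5 * ρ ^ (w + 1)) by positivity)
  obtain ⟨ν, h2, h3, h4⟩ := (h1.and ((Filter.eventually_ge_atTop μ0).and
    (Filter.eventually_ge_atTop n₀))).exists
  refine ⟨ν, h3, h4.trans Nat.lt_two_pow_self.le, ?_⟩
  obtain ⟨n, hn⟩ : ∃ n : ℝ, n = (ν + (w + 1) : ℕ) := ⟨_, rfl⟩
  have hn1 : ((ν - μ0 + w : ℕ) : ℝ) + 1 ≤ n := by
    rw [hn]
    exact_mod_cast (by omega : ν - μ0 + w + 1 ≤ ν + (w + 1))
  have hJ0 : (0 : ℝ) ≤ (ν - μ0 + w : ℕ) := Nat.cast_nonneg _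
  have h5 := pm_etaS hβ (J := ν - μ0 + w) (h0 := 2 ^ μ0 / 2 ^ ν) (X := 128 * n ^ 2) (T := ρ ^ w)
    (t := fun j => ρ ^ j * ρ ^ μ0 / ρ ^ ν) (by nlinarith) (by nlinarith)
    (fun j hj => by
      have : (j : ℝ) ≤ (ν - μ0 + w : ℕ) := by exact_mod_cast hj.le
      rw [xs]
      push_cast at this ⊢
      gcongr
      push_cast at hn1
      linarith)
    (fun j => by positivity) (fun j => by rw [hs, hp, hp, hp]; ring) (by positivity)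
    (fun j hj => by
      rw [div_le_iff₀ (by positivity), ← pow_add, ← pow_add]
      exact pow_le_pow_right₀ hρ1.le (by omega))
  have h6 : 11 * c0 * β * ∑ j ∈ range (ν - μ0 + w), (xs j : ℝ) ^ 2 * (1 / (ρ ^ j * ρ ^ μ0 / ρ ^ ν)) ≤
      √ε / 2 * ρ ^ ν := by
    have e : ∀ j, (xs j : ℝ) ^ 2 * (1 / (ρ ^ j * ρ ^ μ0 / ρ ^ ν)) =
        (xs j : ℝ) ^ 2 * ρ⁻¹ ^ j * (ρ ^ ν / ρ ^ μ0) := fun j => by
      rw [inv_pow]
      field_simp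
    simp only [e, ← sum_mul]
    rw [div_le_iff₀ hδ] at hμ
    calc _ ≤ 11 * c0 * β * (C * (ρ ^ ν / ρ ^ μ0)) := by gcongr; exact hC _
      _ = 11 * c0 * β * C * (ρ ^ ν / ρ ^ μ0) := by ring
      _ ≤ ρ ^ μ0 * (√ε / 2) * (ρ ^ ν / ρ ^ μ0) := by gcongr
      _ = _ := by field_simp
  have h7 : K * (128 * n ^ 2) ^ 5 ≤ √ε / 2 * ρ ^ ν := by
    simp only [Function.comp, ← hn] at h2
    rw [div_le_div_iff₀ (by positivity) (by positivity), pow_add ρ ν] at h2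
    refine le_of_mul_le_mul_right ?_ (pow_pos hρ0 (w + 1))
    linarith
  have h8 : 0 ≤ etaS β (2 ^ μ0 / 2 ^ ν) (ν - μ0 + w) :=
    add_nonneg (Real.sqrt_nonneg _) (sum_nonneg fun j _ =>
      add_nonneg (Real.sqrt_nonneg _) (Real.sqrt_nonneg _))
  rw [← hK] at h5
  calc _ ≤ (√ε * ρ ^ ν) ^ 2 := by gcongr; linarith
    _ = _ := by
      rw [mul_pow, Real.sq_sqrt hε.le, hp, show (ρ ^ ν) ^ 4 = ((ρ ^ ν) ^ 2) ^ 2 by ring,
        Real.sqrt_sq (by positivity)]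

end Crest.Agent.R192
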