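import Crest.Agent.R192.GenC
import Crest.Agent.R192.Param

/-!
# R192: the multi-scale connection
-/

set_option autoImplicit false

open Finset Filter Topology MeasureTheory
open scoped Classical

namespace Crest.Agent.R192

variable {G : Type} [Group G] {β ϱ N M : ℕ} {L : Len G β ϱ}

/-- A mechanism for every scale. -/
abbrev Mechs (L : Len G β ϱ) := ∀ j : ℕ, Mech L (ϱ / xs j) (bs β j)

noncomputable def zz (m : Mechs L) (h0 : ℝ) (h : G) (x : Fin N → G) (j : ℕ)
    (s : Fin (N + 1) → ℝ) : ℝ :=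
  (m j).ZZ (win h0 j) (hs h0 j) h x s / (ϱ / xs j)

/-- The generating function of the multi-scale connection. -/
noncomputable def EC (m : Mechs L) (h0 : ℝ) (J : ℕ) (h : G) (x : Fin N → G)
    (s s' : Fin (N + 1) → ℝ) : ℝ :=
  th0 (zz m h0 h x) J s' * E0 N s s' -
    ∑ j ∈ range J, (ze (zz m h0 h x) J j s' / (ϱ / xs j)) * (m j).EE (win h0 j) (hs h0 j) h x s s'

variable (m : Mechs L) {h0 : ℝ} (J : ℕ) (h : G)

theorem isWin_hs {h0 : ℝ} (h0pos : 0 < h0) (j : ℕ) : IsWin (win h0 j) (hs h0 j) :=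
  isWin_win h0pos j

theorem th0_congr {E E' : Type} [NormedAddCommGroup E] [NormedSpace ℝ E] [NormedAddCommGroup E']
    [NormedSpace ℝ E'] {z : ℕ → E → ℝ} {z' : ℕ → E' → ℝ} {s : E} {s' : E'}
    (h : ∀ j, z j s = z' j s') (J : ℕ) : th0 z J s = th0 z' J s' := by
  simp only [th0, Dn, YY, h]

theorem ze_congr {E E' : Type} [NormedAddCommGroup E] [NormedSpace ℝ E] [NormedAddCommGroup E']
    [NormedSpace ℝ E'] {z : ℕ → E → ℝ} {z' : ℕ → E' → ℝ} {s : E} {s' : E'}
    (h : ∀ j, z j s = z' j s') (J j : ℕ) : ze z J j s = ze z' J j s' := by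
  simp only [ze, Dn, YY, h]

theorem contDiff_zz (h0pos : 0 < h0) (x : Fin N → G) (j : ℕ) : ContDiff ℝ 3 (zz m h0 h x j) :=
  ((m j).contDiff_ZZ (isWin_hs h0pos j) h x).div_const _

theorem contDiff_thj (h0pos : 0 < h0) (x : Fin N → G) (j : ℕ) :
    ContDiff ℝ 3 fun s' => ze (zz m h0 h x) J j s' / (ϱ / xs j) :=
  (contDiff_ze (contDiff_zz m h h0pos x) j).div_const _

theorem sm2_EC (h0pos : 0 < h0) (x : Fin N → G) : Sm2 (EC m h0 J h x) := by
  unfold Sm2 EC
  refine ContDiff.sub (((contDiff_th0 (contDiff_zz m h h0pos x)).comp contDiff_snd).mul sm2_E0)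
    (ContDiff.sum fun j _ => ((contDiff_thj m J h h0pos x j).comp contDiff_snd).mul ?_)
  exact (m j).sm2_EE (isWin_hs h0pos j) h x

theorem d1_EC (h0pos : 0 < h0) (x : Fin N → G) (s s' v : Fin (N + 1) → ℝ) :
    d1 (EC m h0 J h x) s s' v = th0 (zz m h0 h x) J s' * d1 (E0 N) s s' v -
      ∑ j ∈ range J, (ze (zz m h0 h x) J j s' / (ϱ / xs j)) *
        d1 ((m j).EE (win h0 j) (hs h0 j) h x) s s' v :=
  d1_comb (th0 (zz m h0 h x) J) (fun j s' => ze (zz m h0 h x) J j s' / (ϱ / xs j)) J sm2_E0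
    (fun j => (m j).sm2_EE (isWin_hs h0pos j) h x) s s' v

/-- `transl`: `d1_transl` with `EE_transl`, `ZZ_transl`, `E0_transl`; `norm`: `d1_comb`,
`d1_EE_one`, `th0_add_sum`. -/
theorem isConn_EC (h0pos : 0 < h0) (x : Fin N → G) : IsConn (EC m h0 J h x) := by
  refine ⟨sm2_EC m J h h0pos x, fun s c v _ => ?_, fun s hs' => ?_⟩
  · have hz : ∀ j, zz m h0 h x j (fun i => s i + c) = zz m h0 h x j s := fun j => by
      simp only [zz, (m j).ZZ_transl (isWin_hs h0pos j) h x s c]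
    refine d1_transl (𝔈 := EC m h0 J h x) (fun _ => c) s s v
      (th0 (zz m h0 h x) J s * (c * (s (Fin.last N) - s 0))) fun s₁ => ?_
    change EC m h0 J h x (fun i => s₁ i + c) (fun i => s i + c) = _
    simp only [EC, th0_congr hz, ze_congr hz, E0_transl,
      fun j => (m j).EE_transl (isWin_hs h0pos j) h x s₁ s c]
    ring
  · rw [d1_EC m J h h0pos, isConn_E0.norm s hs', mul_one, sub_eq_add_neg, ← Finset.sum_neg_distrib]
    refine Eq.trans ?_ (th0_add_sum (z := zz m h0 h x) (J := J) s)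
    congr 1
    refine Finset.sum_congr rfl fun j _ => ?_
    rw [(m j).d1_EE_one (isWin_hs h0pos j)]
    simp only [zz]
    ring

theorem EC_conj (h0pos : 0 < h0) (g : G) (x : Fin N → G) :
    EC m h0 J (g * h * g⁻¹) (fun i => g * x i) = EC m h0 J h x := by
  have hz : zz m h0 (g * h * g⁻¹) (fun i => g * x i) = zz m h0 h x := by
    funext j s
    simp only [zz, (m j).ZZ_conj (isWin_hs h0pos j) g h x]
  funext s s'
  simp only [EC, hz, fun j => (m j).EE_conj (isWin_hs h0pos j) g h x]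

theorem EC_face (x : Fin (N + 1) → G) (i : Fin (N + 1)) :
    FaceRel i (EC m h0 J h x) (EC m h0 J h fun j => x (i.succAbove j)) := by
  intro s₁ s₂ s₁' s₂' h₁ h₂
  have hz : ∀ j, zz m h0 h x j s₂ = zz m h0 h (fun j => x (i.succAbove j)) j s₂' := fun j => by
    simp only [zz, (m j).ZZ_face h x h₂]
  simp only [EC, th0_congr hz, ze_congr hz, E0_face i s₁ s₂ s₁' s₂' h₁ h₂,
    fun j => (m j).EE_face (K := win h0 j) (hh := hs h0 j) h x i s₁ s₂ s₁' s₂' h₁ h₂]

theorem EC_shift (h0pos : 0 < h0) (x : Fin (N + 1) → G) :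
    ShiftRel (EC m h0 J h x) (EC m h0 J h (shX h x)) := by
  refine ⟨fun s' => th0 (zz m h0 h x) J s' * (s' 1 - s' 0), fun s s' h₁ h₂ => ?_⟩
  have hz : ∀ j, zz m h0 h (shX h x) j (shS s') = zz m h0 h x j s' := fun j => by
    simp only [zz, (m j).ZZ_shift (isWin_hs h0pos j) h x h₂]
  simp only [EC, th0_congr hz, ze_congr hz, E0_shS h₁ h₂,
    fun j => (m j).EE_shift (isWin_hs h0pos j) h x h₁ h₂]
  ring

end Crest.Agent.R192
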