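import Crest.Agent.R192.Conn
import Crest.Agent.R192.PfB

/-!
# R192: curvature bounds for the multi-scale connection
-/

set_option autoImplicit false

open Finset Filter Topology MeasureTheory
open scoped Classical

namespace Crest.Agent.R192

variable {G : Type} [Group G] {β ϱ N M : ℕ} {L : Len G β ϱ}

variable (m : Mechs L) {h0 : ℝ} (J : ℕ) (h : G)

theorem xs_pos (j : ℕ) : (0 : ℝ) < xs j := by
  exact_mod_cast lt_of_lt_of_le (by norm_num) (four_le_xs j)

theorem bs_nonneg (β j : ℕ) : 0 ≤ bs β j := by unfold bs; positivity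

theorem bs_pos (hβ : 1 ≤ β) (j : ℕ) : 0 < bs β j := by
  have := xs_pos j
  have : (0 : ℝ) < β := by exact_mod_cast hβ
  unfold bs; positivity

theorem VV_pos (β J : ℕ) : 0 < VV β J := by unfold VV; positivity

theorem Len.one_le_lam' (L : Len G β ϱ) (x : Fin (M + 1) → G) (a : Fin M) : 1 ≤ L.lam x a := by
  unfold Len.lam
  have : (0 : ℝ) ≤ (L.d ((x a.castSucc)⁻¹ * x a.succ) : ℝ) := Nat.cast_nonneg _
  linarith

theorem abs_d1_E0_le {s : Fin (M + 2) → ℝ} (hc : Cell s) (a : Fin M) :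
    |d1 (E0 (M + 1)) s s (inn a)| ≤ 1 := by
  rw [d1_E0_inn]
  obtain ⟨hm, h0, h1⟩ := hc
  have e1 : s a.succ.castSucc ≤ s a.succ.succ := hm (Fin.castSucc_le_succ _)
  have e2 : s 0 ≤ s a.succ.castSucc := hm (Fin.zero_le _)
  have e3 : s a.succ.succ ≤ s (Fin.last (M + 1)) := hm (Fin.le_last _)
  rw [abs_le]
  constructor <;> linarith

theorem abs_thj_le (hϱ : 1 ≤ ϱ) (x : Fin N → G) {j : ℕ} (hj : j < J) (s : Fin (N + 1) → ℝ) :
    |ze (zz m h0 h x) J j s / (ϱ / xs j)| ≤ 2 * xs j / ϱ := by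
  have hϱR : (0 : ℝ) < ϱ := by exact_mod_cast hϱ
  have hx := xs_pos j
  rw [abs_div, abs_of_pos (div_pos hϱR hx), div_le_iff₀ (div_pos hϱR hx)]
  refine (abs_ze_le hj s).trans (le_of_eq ?_)
  field_simp

/-- `|∂ z_j| ≤ 8 xs_j √b_j lam`. -/
theorem sum_fderiv_zz_le (hϱ : 1 ≤ ϱ) (h0pos : 0 < h0) (x : Fin (M + 1) → G)
    {s : Fin (M + 2) → ℝ} (hc : Cell s) (a : Fin M) :
    ∑ i ∈ range J, |fderiv ℝ (zz m h0 h x i) s (inn a)| ≤ VV β J * L.lam x a := by
  have hϱR : (0 : ℝ) < ϱ := by exact_mod_cast hϱ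
  have hl := L.one_le_lam' x a
  have h1 : ∀ i ∈ range J, |fderiv ℝ (zz m h0 h x i) s (inn a)| ≤
      8 * (xs i : ℝ) * √(bs β i) * L.lam x a := by
    intro i _
    have hx := xs_pos i
    have hd : DifferentiableAt ℝ ((m i).ZZ (win h0 i) (hs h0 i) h x) s :=
      ((m i).contDiff_ZZ (isWin_hs h0pos i) h x).differentiable (by norm_num) s
    have e : zz m h0 h x i = fun s => (m i).ZZ (win h0 i) (hs h0 i) h x s * (xs i / ϱ) := by
      funext s; simp only [zz]; field_simp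
    rw [e, fderiv_mul_const hd]
    simp only [ContinuousLinearMap.smul_apply, smul_eq_mul]
    rw [abs_mul, abs_of_pos (div_pos hx hϱR)]
    have h2 := (m i).abs_fderiv_ZZ_le (isWin_hs h0pos i) h (bs_nonneg β i) x hc a
    refine (mul_le_mul_of_nonneg_left h2 (div_pos hx hϱR).le).trans (le_of_eq ?_)
    field_simp
  refine (Finset.sum_le_sum h1).trans ?_
  rw [← Finset.sum_mul, VV, add_mul]
  linarith

/-- `d1_comb`; `|θ₀| ≤ 1`, `|d1 E0| ≤ 1 ≤ lam`, `|θ_j| ≤ 2 xs_j/ϱ`, `abs_d1_EE_le`. -/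
theorem abs_d1_EC_le (hϱ : 1 ≤ ϱ) (h0pos : 0 < h0) (x : Fin (M + 1) → G)
    {s : Fin (M + 2) → ℝ} (hc : Cell s) (a : Fin M) :
    |d1 (EC m h0 J h x) s s (inn a)| ≤
      (1 + ∑ j ∈ range J, 4 * (xs j : ℝ) * hs h0 j * √(bs β j)) * L.lam x a := by
  have hϱR : (0 : ℝ) < ϱ := by exact_mod_cast hϱ
  have hl := L.one_le_lam' x a
  rw [d1_EC m J h h0pos, add_mul, Finset.sum_mul]
  refine (abs_sub _ _).trans (add_le_add ?_ ((Finset.abs_sum_le_sum_abs _ _).trans
    (Finset.sum_le_sum fun j hj => ?_)))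
  · rw [abs_mul]
    have h1 := abs_th0_le (z := zz m h0 h x) (J := J) s
    have h2 := abs_d1_E0_le hc a
    nlinarith [abs_nonneg (th0 (zz m h0 h x) J s), abs_nonneg (d1 (E0 (M + 1)) s s (inn a))]
  · rw [abs_mul]
    have h1 := abs_thj_le m J h (h0 := h0) hϱ x (Finset.mem_range.1 hj) s
    have h2 := (m j).abs_d1_EE_le (isWin_hs h0pos j) h (bs_nonneg β j) x hc a
    refine (mul_le_mul h1 h2 (abs_nonneg _) (by have := xs_pos j; positivity)).trans (le_of_eq ?_)
    field_simp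
    ring

/-- By `d12_comb`, `curv EC - θ₀ • A0 = vecMulVec (d1 E0) (∂θ₀) - ∑ j, (θ_j • curv EE_j +
vecMulVec (d1 EE_j) (∂θ_j))`. Use `GH.rankOne` (`U = 1`, `V = c1 VV`; `U = 2 ϱ h √b`,
`V = c1 VV xs/ϱ`), `GH.smul` with `GH_curv_EE`, `GH.add`, `GH.sum`, `GH.neg`. -/
theorem GH_curv_EC_sub (hβ : 1 ≤ β) (hϱ : 1 ≤ ϱ) (h0pos : 0 < h0) (x : Fin (M + 1) → G)
    {s : Fin (M + 2) → ℝ} (hc : Cell s) :
    GH (curv (EC m h0 J h x) s - th0 (zz m h0 h x) J s • A0 M) (L.lam x) (etaS β h0 J) := by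
  have hϱR : (0 : ℝ) < ϱ := by exact_mod_cast hϱ
  have hl := L.one_le_lam' x
  have hz := contDiff_zz m h h0pos x
  have hc1 : 0 < c1 := lt_of_lt_of_le one_pos one_le_c1
  have hV := VV_pos β J
  have e : curv (EC m h0 J h x) s - th0 (zz m h0 h x) J s • A0 M =
      Matrix.vecMulVec (fun a => d1 (E0 (M + 1)) s s (inn a))
          (fun b => fderiv ℝ (th0 (zz m h0 h x) J) s (inn b)) +
        ∑ j ∈ range J, -((ze (zz m h0 h x) J j s / (ϱ / xs j)) •
            curv ((m j).EE (win h0 j) (hs h0 j) h x) s +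
          Matrix.vecMulVec (fun a => d1 ((m j).EE (win h0 j) (hs h0 j) h x) s s (inn a))
            (fun b => fderiv ℝ (fun s' => ze (zz m h0 h x) J j s' / (ϱ / xs j)) s (inn b))) := by
    ext a b
    have h1 := d12_comb (θ₀ := th0 (zz m h0 h x) J)
      (θ := fun j s' => ze (zz m h0 h x) J j s' / (ϱ / xs j)) J (sm2_E0 (N := M + 1))
      (fun j => (m j).sm2_EE (isWin_hs h0pos j) h x) (contDiff_th0 hz)
      (contDiff_thj m J h h0pos x) s s (inn a) (inn b)
    have h2 : curv (EC m h0 J h x) s a b = _ := h1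
    have h3 : d12 (E0 (M + 1)) s s (inn a) (inn b) = A0 M a b := curv_E0 s a b
    rw [Matrix.sub_apply, h2, h3, Matrix.add_apply, Matrix.sum_apply]
    simp only [Matrix.smul_apply, smul_eq_mul, Matrix.vecMulVec_apply, Matrix.neg_apply,
      Matrix.add_apply, curv, Matrix.of_apply, Finset.sum_neg_distrib]
    ring
  rw [e]
  have hsum := sum_fderiv_zz_le m J h hϱ h0pos x hc
  refine GH.add ?_ (GH.sum _ fun j hj => GH.neg (GH.add ?_ ?_))
  · have := GH.rankOne (u := fun a => d1 (E0 (M + 1)) s s (inn a))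
      (v := fun b => fderiv ℝ (th0 (zz m h0 h x) J) s (inn b)) (lam := L.lam x) one_pos
      (mul_pos hc1 hV) (fun a => by rw [one_mul]; exact (abs_d1_E0_le hc a).trans (hl a))
      (fun b => (abs_fderiv_th0_le hz s _).trans (by
        rw [mul_assoc]; exact mul_le_mul_of_nonneg_left (hsum b) hc1.le))
    convert this using 2
    ring
  · have hx := xs_pos j
    have := ((m j).GH_curv_EE (isWin_hs h0pos j) h (bs_pos hβ j) x hc).smul
      (abs_thj_le m J h (h0 := h0) hϱ x (Finset.mem_range.1 hj) s)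
    convert this using 1
    rw [etaM, ← Real.sqrt_mul (by positivity)]
    congr 1
    field_simp
  · have hx := xs_pos j
    have hh := (isWin_hs h0pos j).pos
    have hb := Real.sqrt_pos.2 (bs_pos hβ j)
    have := GH.rankOne (u := fun a => d1 ((m j).EE (win h0 j) (hs h0 j) h x) s s (inn a))
      (v := fun b => fderiv ℝ (fun s' => ze (zz m h0 h x) J j s' / (ϱ / xs j)) s (inn b))
      (lam := L.lam x) (U := 2 * ϱ * hs h0 j * √(bs β j)) (V := c1 * VV β J * (xs j / ϱ))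
      (by positivity) (by positivity)
      (fun a => (m j).abs_d1_EE_le (isWin_hs h0pos j) h (bs_nonneg β j) x hc a)
      (fun b => by
        have hd : DifferentiableAt ℝ (ze (zz m h0 h x) J j) s :=
          (contDiff_ze hz j).differentiable (by norm_num) s
        have e' : (fun s' => ze (zz m h0 h x) J j s' / (ϱ / xs j)) =
            fun s' => ze (zz m h0 h x) J j s' * (xs j / ϱ) := by
          funext s'; field_simp
        rw [e', fderiv_mul_const hd]
        simp only [ContinuousLinearMap.smul_apply, smul_eq_mul]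
        rw [abs_mul, abs_of_pos (div_pos hx hϱR)]
        have h2 := (abs_fderiv_ze_le hz (Finset.mem_range.1 hj) s (inn b)).trans
          (mul_le_mul_of_nonneg_left (hsum b) hc1.le)
        refine (mul_le_mul_of_nonneg_left h2 (div_pos hx hϱR).le).trans (le_of_eq ?_)
        ring)
    convert this using 1
    rw [etaR]
    congr 1
    field_simp
    ring

theorem GH_curv_EC (hβ : 1 ≤ β) (hϱ : 1 ≤ ϱ) (h0pos : 0 < h0) (x : Fin (M + 1) → G)
    {s : Fin (M + 2) → ℝ} (hc : Cell s) :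
    GH (curv (EC m h0 J h x) s) (L.lam x) (√(√(2 * M)) + etaS β h0 J) := by
  have h1 := ((GH_A0 (L.one_le_lam' x)).smul (abs_th0_le (z := zz m h0 h x) (J := J) s)).add
    (GH_curv_EC_sub m J h hβ hϱ h0pos x hc)
  rw [Real.sqrt_one, one_mul, add_sub_cancel] at h1
  exact h1

end Crest.Agent.R192
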