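import Crest.Agent.R192.Defs

/-!
# R192: existence of truncated word lengths, and the two cases of `Good`
-/

set_option autoImplicit false

open Finset
open scoped Classical Pointwise

namespace Crest.Agent.R192

variable {G : Type} [Group G]

/-- Let `S' = S ∪ S⁻¹ ∪ {1}`, `β = |S'|` (so `|S'| ≤ 2^β`), and `d g = ` the least `n` with
`g ∈ S'^n ∨ n = ϱ` (`Nat.find`); `ball = (S'^ϱ).filter (d < ϱ)` (`Finset.card_pow_le`,
`Finset.pow_subset_pow_right`). -/
theorem exists_len (S : Finset G) : ∃ β : ℕ, 1 ≤ β ∧ ∀ ϱ : ℕ, 1 ≤ ϱ →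
    ∃ L : Len G β ϱ, ∀ s ∈ S, L.d s ≤ 1 := by
  obtain ⟨T, h1, hS, hT⟩ : ∃ T : Finset G, 1 ∈ T ∧ S ⊆ T ∧ T⁻¹ = T := by
    refine ⟨insert 1 (S ∪ S⁻¹), mem_insert_self _ _,
      subset_union_left.trans (subset_insert _ _), ?_⟩
    ext g
    simp only [mem_inv', mem_insert, mem_union, inv_eq_one, inv_inv]
    tauto
  refine ⟨T.card, card_pos.2 ⟨1, h1⟩, fun ϱ _ => ?_⟩
  have hex : ∀ g : G, ∃ n, g ∈ T ^ n ∨ n = ϱ := fun g => ⟨ϱ, Or.inr rfl⟩
  have hle : ∀ g, Nat.find (hex g) ≤ ϱ := fun g => Nat.find_min' _ (Or.inr rfl)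
  have hinv : ∀ (g : G) (n : ℕ), g⁻¹ ∈ T ^ n ↔ g ∈ T ^ n := fun g n => by
    rw [← mem_inv', ← inv_pow, hT]
  refine ⟨⟨fun g => Nat.find (hex g), (Nat.find_eq_zero _).2 (Or.inl (by simp)),
    fun g => by simp only [hinv], fun g g' => ?_, hle,
    (T ^ ϱ).filter fun g => Nat.find (hex g) < ϱ, fun g => ?_, ?_⟩,
    fun s hs => Nat.find_min' _ (Or.inl (by simpa using hS hs))⟩
  · rcases Nat.find_spec (hex g) with h2 | h2
    · rcases Nat.find_spec (hex g') with h3 | h3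
      · exact Nat.find_min' _ (Or.inl (by rw [pow_add]; exact mul_mem_mul h2 h3))
      · have := hle (g * g')
        omega
    · have := hle (g * g')
      omega
  · rw [mem_filter, and_iff_right_iff_imp]
    exact fun h => pow_subset_pow_right h1 h.le ((Nat.find_spec (hex g)).resolve_right h.ne)
  · refine (card_filter_le _ _).trans (card_pow_le.trans ?_)
    rw [pow_mul]
    exact Nat.pow_le_pow_left Nat.lt_two_pow_self.le _

variable {β ϱ : ℕ} (L : Len G β ϱ)

/-- If `x⁻¹ z ∈ ball` and `x⁻¹ h z ∈ ball` then `z⁻¹ h z ∈ nb ball`. -/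
theorem Len.good_of_miss {h : G} (hh : ∀ g, g * h * g⁻¹ ∉ L.nb L.ball) : L.Good h 1 := by
  intro x z
  have h1 : ((range (2 ^ 1)).filter fun u => x⁻¹ * (h ^ u * z) ∈ L.ball).card < (range (2 ^ 1)).card := by
    refine card_lt_card (filter_ssubset.2 ?_)
    by_contra hno
    push Not at hno
    have h0 := hno 0 (by simp)
    have h2 := hno 1 (by simp)
    rw [L.mem_ball, ← L.d_inv, ← L.mem_ball] at h0
    refine hh z⁻¹ (mem_image₂.2 ⟨_, h0, _, h2, ?_⟩)
    group
  rw [card_range] at h1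
  omega

/-- `u ↦ x⁻¹ h^u z` is injective, so the count is at most `|ball| ≤ 2^{βϱ}`. -/
theorem Len.good_of_infinite {h : G} (hh : ¬IsOfFinOrder h) : L.Good h (β * ϱ + 1) := by
  intro x z
  have h1 : ((range (2 ^ (β * ϱ + 1))).filter fun u => x⁻¹ * (h ^ u * z) ∈ L.ball).card ≤
      L.ball.card :=
    card_le_card_of_injOn (fun u => x⁻¹ * (h ^ u * z)) (fun u hu => (mem_filter.1 hu).2)
      fun u _ v _ e => injective_pow_iff_not_isOfFinOrder.2 hh
        (mul_right_cancel (mul_left_cancel e))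
  have h2 := L.card_ball
  omega

end Crest.Agent.R192
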