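import Mathlib

/-!
# R192: Newton iteration for almost idempotents and the asymptotic `p - q` trick
-/

set_option autoImplicit false

open Finset

namespace Crest.Agent.R192

theorem newton_pow {A : Type} [Ring A] (ν : RingSeminorm A) (h1 : ν 1 ≤ 1) {M : ℝ} {a : A}
    (ha : ν a ≤ M) (k : ℕ) : ν (a ^ k) ≤ M ^ k := by
  have hM : 0 ≤ M := (apply_nonneg ν a).trans ha
  induction k with
  | zero => simpa using h1
  | succ k ih =>
    rw [pow_succ, pow_succ]
    exact (map_mul_le_mul ν _ _).trans (mul_le_mul ih ha (apply_nonneg ν _) (by positivity))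

/-- Newton iteration `a ↦ 3a² - 2a³`.  With `ω = a² - a`: the new defect is `ω² (4ω - 3)` and the
increment is `-(2a - 1) ω` (identities in the commutative subring generated by `a`:
`noncomm_ring`).  By induction `ν ω_k ≤ δ 2^{-k}`, `ν (a_k - a_0) ≤ (2M+3) · 2δ (1 - 2^{-k}) ≤ 1/4`,
where `δ = 1/(8(2M+3))` (`ν (3 : A) ≤ 3`, `ν (4 ω) ≤ 4 ν ω`). -/
theorem newton {A : Type} [Ring A] (ν : RingSeminorm A) (h1 : ν 1 ≤ 1) {M : ℝ} (hM : 1 ≤ M)
    (a₀ : A) (ha : ν a₀ ≤ M) (hω : ν (a₀ * a₀ - a₀) ≤ 1 / (8 * (2 * M + 3))) {η : ℝ} (hη : 0 < η) :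
    ∃ a : A, ν a ≤ M + 1 ∧ ν (a - a₀) ≤ 1 / 4 ∧ ν (a * a - a) ≤ η := by
  have hd : (0 : ℝ) < 2 * M + 3 := by linarith
  set δ : ℝ := 1 / (8 * (2 * M + 3)) with hδ
  have hδ0 : 0 < δ := by positivity
  have hδ1 : (2 * M + 3) * δ = 1 / 8 := by
    rw [hδ]
    field_simp
  have hδ2 : δ ≤ 1 / 40 := by nlinarith
  have key : ∀ k : ℕ, ∃ a : A, ν (a - a₀) ≤ 1 / 4 * (1 - (1 / 2) ^ k) ∧
      ν (a * a - a) ≤ δ * (1 / 2) ^ k := by
    intro k
    induction k with
    | zero => exact ⟨a₀, by simp, by simpa using hω⟩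
    | succ k ih =>
      obtain ⟨a, h2, h3⟩ := ih
      have hp : (0 : ℝ) < (1 / 2) ^ k := by positivity
      have hp1 : ((1 : ℝ) / 2) ^ k ≤ 1 := pow_le_one₀ (by norm_num) (by norm_num)
      have hw0 := apply_nonneg ν (a * a - a)
      have ha1 : ν a ≤ M + 1 := by
        have := map_add_le_add ν (a - a₀) a₀
        rw [sub_add_cancel] at this
        linarith
      refine ⟨a - (a + a - 1) * (a * a - a), ?_, ?_⟩
      · have e : a - (a + a - 1) * (a * a - a) - a₀ = (a - a₀) - (a + a - 1) * (a * a - a) := by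
          abel
        rw [e]
        have b1 := map_sub_le_add ν (a - a₀) ((a + a - 1) * (a * a - a))
        have b2 := map_mul_le_mul ν (a + a - 1) (a * a - a)
        have b3 := map_sub_le_add ν (a + a) 1
        have b4 := map_add_le_add ν a a
        have b5 : ν (a + a - 1) * ν (a * a - a) ≤ (2 * M + 3) * (δ * (1 / 2) ^ k) :=
          mul_le_mul (by linarith) h3 hw0 hd.le
        rw [← mul_assoc, hδ1] at b5
        rw [pow_succ]
        linarith
      · have e : (a - (a + a - 1) * (a * a - a)) * (a - (a + a - 1) * (a * a - a)) -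
            (a - (a + a - 1) * (a * a - a)) = (a * a - a) * ((a * a - a) *
              ((a * a - a) + (a * a - a) + (a * a - a) + (a * a - a) - 1 - 1 - 1)) := by
          noncomm_ring
        rw [e]
        set ω := a * a - a
        have b1 := map_mul_le_mul ν ω (ω * (ω + ω + ω + ω - 1 - 1 - 1))
        have b2 := map_mul_le_mul ν ω (ω + ω + ω + ω - 1 - 1 - 1)
        have c1 := map_sub_le_add ν (ω + ω + ω + ω - 1 - 1) 1
        have c2 := map_sub_le_add ν (ω + ω + ω + ω - 1) 1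
        have c3 := map_sub_le_add ν (ω + ω + ω + ω) 1
        have c4 := map_add_le_add ν (ω + ω + ω) ω
        have c5 := map_add_le_add ν (ω + ω) ω
        have c6 := map_add_le_add ν ω ω
        have hw : ν ω ≤ 1 / 40 := by nlinarith
        have b3 : ν ω * ν (ω + ω + ω + ω - 1 - 1 - 1) ≤ 1 / 40 * 4 :=
          mul_le_mul hw (by linarith) (apply_nonneg ν _) (by norm_num)
        have b4 : ν ω * ν (ω * (ω + ω + ω + ω - 1 - 1 - 1)) ≤ ν ω * (1 / 2) :=
          mul_le_mul_of_nonneg_left (by linarith) hw0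
        rw [pow_succ]
        linarith
  obtain ⟨k, hk⟩ := exists_pow_lt_of_lt_one hη (by norm_num : (1 : ℝ) / 2 < 1)
  obtain ⟨a, h2, h3⟩ := key k
  have hp : (0 : ℝ) < (1 / 2) ^ k := by positivity
  refine ⟨a, ?_, by linarith, by nlinarith⟩
  have := map_add_le_add ν (a - a₀) a₀
  rw [sub_add_cancel] at this
  linarith

/-- `a^{k+2} - a^{k+1} = a^k (a² - a)`. -/
theorem trace_pow (M : ℝ) (N : ℕ) : ∃ K : ℝ, 0 ≤ K ∧ ∀ (A : Type) [Ring A] (ν : RingSeminorm A),
    ν 1 ≤ 1 → ∀ (τ : A →+ ℂ) (c : ℝ), 0 ≤ c → (∀ a, ‖τ a‖ ≤ c * ν a) → ∀ a : A, ν a ≤ M →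
      ‖τ (a ^ (N + 1)) - τ a‖ ≤ c * (K * ν (a * a - a)) := by
  induction N with
  | zero => exact ⟨0, le_rfl, fun A _ ν _ τ c _ _ a _ => by simp⟩
  | succ N ih =>
    obtain ⟨K, hK, h⟩ := ih
    refine ⟨K + |M| ^ N, by positivity, fun A _ ν h1 τ c hc hτ a ha => ?_⟩
    have e : τ (a ^ (N + 1 + 1)) - τ a = τ (a ^ N * (a * a - a)) + (τ (a ^ (N + 1)) - τ a) := by
      rw [mul_sub, map_sub, pow_succ, pow_succ, mul_assoc]
      abel
    rw [e]
    refine (norm_add_le _ _).trans ?_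
    have b1 := h A ν h1 τ c hc hτ a ha
    have b2 := hτ (a ^ N * (a * a - a))
    have b3 : ν (a ^ N * (a * a - a)) ≤ |M| ^ N * ν (a * a - a) :=
      (map_mul_le_mul ν _ _).trans (mul_le_mul_of_nonneg_right
        (newton_pow ν h1 (ha.trans (le_abs_self M)) N) (apply_nonneg ν _))
    have b4 := mul_le_mul_of_nonneg_left b3 hc
    nlinarith

/-- Let `u = p - q`, `v = 1 - p - q`, `ωp = p² - p`, `ωq = q² - q`. Then
`u² + v² = 1 + e₁`, `e₁ = 2(ωp + ωq)`, and `u v + v u = e₂`, `e₂ = 2(ωq - ωp)`.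
By induction `v u^{2k+1} + u^{2k+1} v = err_k` with `ν err_k ≤ (2k+1) ν e₂` (as `ν u ≤ 1`;
`v u^{j+2} = u² v u^j + (e₂ u - u e₂) u^j`).
So `2 τ (u^{2k+1} v²) = τ (u^{2k+1} v v) + τ (v u^{2k+1} v) = τ (err_k v)` and
`τ u^{2k+1} - τ u^{2k+3} = τ (u^{2k+1} v²) - τ (u^{2k+1} e₁)`.
Summing over `k < m`: `τ u = τ u^{2m+1} + O(ν ωp + ν ωq)`, `ν u^{2m+1} ≤ 2^{-m}`. -/
theorem trace_pq (M : ℝ) (m : ℕ) : ∃ K : ℝ, 0 ≤ K ∧ ∀ (A : Type) [Ring A] (ν : RingSeminorm A),
    ν 1 ≤ 1 → ∀ (τ : A →+ ℂ) (c : ℝ), 0 ≤ c → (∀ a, ‖τ a‖ ≤ c * ν a) →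
      (∀ a b, τ (a * b) = τ (b * a)) → ∀ p q : A, ν p ≤ M → ν q ≤ M → ν (p - q) ≤ 1 / 2 →
        ‖τ p - τ q‖ ≤ c * ((1 / 2) ^ m + K * (ν (p * p - p) + ν (q * q - q))) := by
  refine ⟨∑ k ∈ range m, ((2 * k + 1) * (1 + 2 * |M|) + 2), by positivity,
    fun A _ ν h1 τ c hc hτ hcomm p q hp hq hu => ?_⟩
  rw [← map_sub]
  have e1 : (p - q) * (p - q) + (1 - p - q) * (1 - p - q) - 1 =
      (p * p - p) + (q * q - q) + ((p * p - p) + (q * q - q)) := by noncomm_ring
  have e2 : (1 - p - q) * (p - q) + (p - q) * (1 - p - q) =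
      (q * q - q) - (p * p - p) + ((q * q - q) - (p * p - p)) := by noncomm_ring
  set s := ν (p * p - p) + ν (q * q - q) with hs
  have hs0 : 0 ≤ s := add_nonneg (apply_nonneg ν _) (apply_nonneg ν _)
  have n1 : ν ((p - q) * (p - q) + (1 - p - q) * (1 - p - q) - 1) ≤ 2 * s := by
    rw [e1]
    have := map_add_le_add ν ((p * p - p) + (q * q - q)) ((p * p - p) + (q * q - q))
    have := map_add_le_add ν (p * p - p) (q * q - q)
    linarith
  have n2 : ν ((1 - p - q) * (p - q) + (p - q) * (1 - p - q)) ≤ 2 * s := by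
    rw [e2]
    have := map_add_le_add ν ((q * q - q) - (p * p - p)) ((q * q - q) - (p * p - p))
    have := map_sub_le_add ν (q * q - q) (p * p - p)
    linarith
  have n3 : ν (1 - p - q) ≤ 1 + 2 * |M| := by
    have := map_sub_le_add ν (1 - p) q
    have := map_sub_le_add ν 1 p
    have := le_abs_self M
    linarith
  set u := p - q
  set v := 1 - p - q
  have hu1 : ν u ≤ 1 := by linarith
  have hpow : ∀ j : ℕ, ν (u ^ j) ≤ 1 := fun j => by simpa using newton_pow ν h1 hu1 j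
  have hml : ∀ (j : ℕ) (x : A), ν (u ^ j * x) ≤ ν x := fun j x =>
    (map_mul_le_mul ν _ _).trans (mul_le_of_le_one_left (apply_nonneg ν _) (hpow j))
  have hmr : ∀ (j : ℕ) (x : A), ν (x * u ^ j) ≤ ν x := fun j x =>
    (map_mul_le_mul ν _ _).trans (mul_le_of_le_one_right (apply_nonneg ν _) (hpow j))
  have c1 : ∀ k : ℕ, ν (v * u ^ (2 * k + 1) + u ^ (2 * k + 1) * v) ≤ (2 * k + 1) * (2 * s) := by
    intro k
    induction k with
    | zero => simpa using n2
    | succ k ih =>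
      have e3 : 2 * (k + 1) + 1 = 2 + (2 * k + 1) := by ring
      have e : v * u ^ (2 * (k + 1) + 1) + u ^ (2 * (k + 1) + 1) * v =
          u ^ 2 * (v * u ^ (2 * k + 1) + u ^ (2 * k + 1) * v) +
            ((v * u + u * v) * u ^ 1 - u ^ 1 * (v * u + u * v)) * u ^ (2 * k + 1) := by
        rw [e3, pow_add]
        generalize u ^ (2 * k + 1) = w
        noncomm_ring
      rw [e]
      have b1 := map_add_le_add ν (u ^ 2 * (v * u ^ (2 * k + 1) + u ^ (2 * k + 1) * v))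
        (((v * u + u * v) * u ^ 1 - u ^ 1 * (v * u + u * v)) * u ^ (2 * k + 1))
      have b2 := hml 2 (v * u ^ (2 * k + 1) + u ^ (2 * k + 1) * v)
      have b3 := hmr (2 * k + 1) ((v * u + u * v) * u ^ 1 - u ^ 1 * (v * u + u * v))
      have b4 := map_sub_le_add ν ((v * u + u * v) * u ^ 1) (u ^ 1 * (v * u + u * v))
      have b5 := hmr 1 (v * u + u * v)
      have b6 := hml 1 (v * u + u * v)
      push_cast
      linarith
  have c2 : ∀ k : ℕ, ‖τ (u ^ (2 * k + 1)) - τ (u ^ (2 * (k + 1) + 1))‖ ≤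
      c * (((2 * k + 1) * (1 + 2 * |M|) + 2) * s) := by
    intro k
    have e3 : 2 * (k + 1) + 1 = (2 * k + 1) + 2 := by ring
    have b1 := c1 k
    have b2 := hml (2 * k + 1) (u * u + v * v - 1)
    rw [e3, pow_add u (2 * k + 1) 2]
    generalize u ^ (2 * k + 1) = w at b1 b2 ⊢
    have e : τ w - τ (w * u ^ 2) = τ (w * v * v) - τ (w * (u * u + v * v - 1)) := by
      rw [← map_sub, ← map_sub]
      congr 1
      noncomm_ring
    have e4 : τ ((v * w + w * v) * v) = 2 * τ (w * v * v) := by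
      rw [add_mul, map_add, mul_assoc v w v, hcomm v (w * v)]
      ring
    have b3 := hτ ((v * w + w * v) * v)
    rw [e4, norm_mul, Complex.norm_ofNat] at b3
    have b4 : ν ((v * w + w * v) * v) ≤ (2 * k + 1) * (2 * s) * (1 + 2 * |M|) :=
      (map_mul_le_mul ν _ _).trans (mul_le_mul b1 n3 (apply_nonneg ν _) (by positivity))
    have b5 := mul_le_mul_of_nonneg_left b4 hc
    have b6 := hτ (w * (u * u + v * v - 1))
    have b7 := mul_le_mul_of_nonneg_left (b2.trans n1) hc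
    rw [e]
    refine (norm_sub_le _ _).trans ?_
    nlinarith
  have c3 : ∀ m : ℕ, ‖τ u - τ (u ^ (2 * m + 1))‖ ≤
      c * ((∑ k ∈ range m, ((2 * k + 1) * (1 + 2 * |M|) + 2)) * s) := by
    intro m
    induction m with
    | zero => simp
    | succ m ih =>
      have b1 := norm_sub_le_norm_sub_add_norm_sub (τ u) (τ (u ^ (2 * m + 1)))
        (τ (u ^ (2 * (m + 1) + 1)))
      have b2 := c2 m
      rw [sum_range_succ]
      linarith
  have b1 := c3 m
  have b2 := hτ (u ^ (2 * m + 1))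
  have b3 : ν (u ^ (2 * m + 1)) ≤ (1 / 2) ^ m :=
    (newton_pow ν h1 hu _).trans (pow_le_pow_of_le_one (by norm_num) (by norm_num) (by omega))
  have b4 := mul_le_mul_of_nonneg_left b3 hc
  have b5 := norm_add_le (τ u - τ (u ^ (2 * m + 1))) (τ (u ^ (2 * m + 1)))
  rw [sub_add_cancel] at b5
  linarith

end Crest.Agent.R192
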