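import Crest.Agent.R192.WN
import Crest.Prelude.Def_L1GroupAlgebra

/-!
# R192: finite truncations of an ℓ¹ idempotent matrix
-/

set_option autoImplicit false

open Finset Filter Topology Crest.AlgebraR.L1
open scoped Classical Matrix.Norms.Operator

namespace Crest.Agent.R192

/-- The matrix trace as an additive map. -/
noncomputable def mtr (q : ℕ) : Matrix (Fin q) (Fin q) ℂ →+ ℂ := Matrix.traceAddMonoidHom _ _

private theorem trunc_entry {q : ℕ} (a : Matrix (Fin q) (Fin q) ℂ) (i j : Fin q) :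
    ‖a i j‖ ≤ ‖a‖ := by
  have : ‖a i j‖₊ ≤ ‖a‖₊ := by
    rw [Matrix.linfty_opNNNorm_def]
    exact (single_le_sum (f := fun j => ‖a i j‖₊) (fun _ _ => zero_le) (mem_univ j)).trans
      (le_sup (f := fun i => ∑ j, ‖a i j‖₊) (mem_univ i))
  exact this

private theorem trunc_norm {q : ℕ} (a : Matrix (Fin q) (Fin q) ℂ) : ‖a‖ ≤ ∑ i, ∑ j, ‖a i j‖ := by
  have : ‖a‖₊ ≤ ∑ i, ∑ j, ‖a i j‖₊ := by
    rw [Matrix.linfty_opNNNorm_def]
    exact Finset.sup_le fun i _ =>
      single_le_sum (f := fun i => ∑ j, ‖a i j‖₊) (fun _ _ => zero_le) (mem_univ i)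
  simpa only [NNReal.coe_sum, coe_nnnorm] using NNReal.coe_le_coe.2 this

section general
variable {𝔐 : Type} [NormedRing 𝔐] {G : Type} (E : G → 𝔐)

/-- Truncation. -/
private noncomputable def trc (F : Finset G) : MonoidAlgebra 𝔐 G :=
  ∑ g ∈ F, MonoidAlgebra.single g (E g)

private theorem coeff_trc (F : Finset G) (g : G) :
    (trc E F).coeff g = if g ∈ F then E g else 0 := by
  rw [trc, MonoidAlgebra.coeff_sum, Finsupp.finsetSum_apply]
  simp only [MonoidAlgebra.coeff_single, Finsupp.single_apply, sum_ite_eq']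

private theorem wn_trc (F : Finset G) : wn (fun _ => 1) (trc E F) ≤ ∑ g ∈ F, ‖E g‖ :=
  (wn_sum_le (fun _ => zero_le_one) _ _).trans_eq
    (sum_congr rfl fun g _ => by rw [wn_single, one_mul])

private theorem wn_trc_sub {F F' : Finset G} {ε : ℝ}
    (ht : ∀ T, Disjoint T F → ∑ g ∈ T, ‖E g‖ ≤ ε) (h : F ⊆ F') :
    wn (fun _ => 1) (trc E F' - trc E F) ≤ ε := by
  rw [trc, trc, ← sum_sdiff h, add_sub_cancel_right]
  exact (wn_trc E _).trans (ht _ sdiff_disjoint)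

private theorem sum_le_wn (x : MonoidAlgebra 𝔐 G) (T : Finset G) :
    ∑ g ∈ T, ‖x.coeff g‖ ≤ wn (fun _ => 1) x := by
  rw [wn_eq_sum _ x (subset_union_right (s₁ := T))]
  simp only [one_mul]
  exact sum_le_sum_of_subset_of_nonneg subset_union_left fun _ _ _ => norm_nonneg _

private theorem trc_pr {tr : 𝔐 →+ ℂ} {cτ : ℝ} (htr : IsTr tr cτ) {C : Set G} {x : ℂ}
    (hx : HasSum (fun g => (ind C g : ℂ) * tr (E g)) x) {F : Finset G} {ε : ℝ}
    (ht : ∀ T, Disjoint T F → ∑ g ∈ T, ‖E g‖ ≤ ε) : ‖pr tr (ind C) (trc E F) - x‖ ≤ cτ * ε := by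
  have h1 : ∀ F, pr tr (ind C) (trc E F) = ∑ g ∈ F, (ind C g : ℂ) * tr (E g) := fun F => by
    simp only [trc, map_sum, pr_single]
  have h2 : Tendsto (fun F' : Finset G => ∑ g ∈ F', (ind C g : ℂ) * tr (E g)) atTop (𝓝 x) := hx
  rw [norm_sub_rev]
  refine le_of_tendsto (h2.sub_const _).norm ((eventually_ge_atTop F).mono fun F' hF' => ?_)
  rw [← h1, ← map_sub]
  exact (norm_pr_ind_le htr C _).trans (mul_le_mul_of_nonneg_left (wn_trc_sub E ht hF') htr.nonneg)

private theorem trc_idem [Group G]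
    (hc : ∀ g, Tendsto (fun F : Finset G => ‖∑ h ∈ F, E h * E (h⁻¹ * g) - E g‖) atTop (𝓝 0))
    {M ε : ℝ} (hM : ∀ T : Finset G, ∑ g ∈ T, ‖E g‖ ≤ M) {F : Finset G}
    (ht : ∀ T, Disjoint T F → ∑ g ∈ T, ‖E g‖ ≤ ε) :
    wn (fun _ => 1) (trc E F * trc E F - trc E F) ≤ (2 * M + 1) * ε := by
  obtain ⟨T, hT⟩ : ∃ T, T = (trc E F * trc E F - trc E F).coeff.support := ⟨_, rfl⟩
  have h0 : ∀ _ : G, (0 : ℝ) ≤ 1 := fun _ => zero_le_one
  have hM0 : 0 ≤ M := by simpa using hM ∅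
  have hε : 0 ≤ ε := by simpa using ht ∅ (disjoint_empty_left _)
  have h1 := (tendsto_finsetSum T fun g _ => hc g).const_add ((2 * M + 1) * ε)
  rw [sum_const_zero, add_zero] at h1
  refine ge_of_tendsto h1 ((eventually_ge_atTop F).mono fun F' hF' => ?_)
  obtain ⟨F'', hF, hF''⟩ : ∃ F'' : Finset G, F ⊆ F'' ∧ ∀ h ∈ F', ∀ g ∈ T, h⁻¹ * g ∈ F'' :=
    ⟨F ∪ image₂ (fun h g => h⁻¹ * g) F' T, subset_union_left, fun h hh g hg =>
      mem_union_right _ (mem_image₂_of_mem hh hg)⟩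
  have h2 : wn (fun _ => 1) (trc E F' * trc E F'' - trc E F * trc E F) ≤ 2 * M * ε := by
    rw [show trc E F' * trc E F'' - trc E F * trc E F =
      (trc E F' - trc E F) * trc E F'' + trc E F * (trc E F'' - trc E F) by noncomm_ring]
    refine (wn_add_le h0 _ _).trans ?_
    have a1 := (wn_mul_le isWt_one _ _).trans (mul_le_mul (wn_trc_sub E ht hF')
      ((wn_trc E F'').trans (hM _)) (wn_nonneg h0 _) hε)
    have a2 := (wn_mul_le isWt_one _ _).trans (mul_le_mul ((wn_trc E F).trans (hM _))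
      (wn_trc_sub E ht hF) (wn_nonneg h0 _) hM0)
    linarith
  have h3 : ∑ g ∈ T, ‖E g - (trc E F).coeff g‖ ≤ ε := by
    refine le_trans (le_of_eq ?_) (ht (T.filter fun g => g ∉ F)
      (disjoint_left.2 fun g hg => (mem_filter.1 hg).2))
    rw [sum_filter]
    refine sum_congr rfl fun g _ => ?_
    rw [coeff_trc]
    by_cases hg : g ∈ F <;> simp [hg]
  have h4 := sum_le_wn (trc E F' * trc E F'' - trc E F * trc E F) T
  rw [wn_eq_sum _ _ hT.ge]
  refine le_trans (sum_le_sum (g := fun g => ‖(trc E F' * trc E F'' - trc E F * trc E F).coeff g‖ +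
    ‖E g - (trc E F).coeff g‖ + ‖∑ h ∈ F', E h * E (h⁻¹ * g) - E g‖) fun g hg => ?_) ?_
  · have h5 : (trc E F' * trc E F'').coeff g = ∑ h ∈ F', E h * E (h⁻¹ * g) := by
      rw [trc.eq_1 E F', sum_mul, MonoidAlgebra.coeff_sum, Finsupp.finsetSum_apply]
      refine sum_congr rfl fun h hh => ?_
      rw [MonoidAlgebra.coeff_single_mul_apply, coeff_trc, if_pos (hF'' h hh g hg)]
    simp only [MonoidAlgebra.coeff_sub, Finsupp.sub_apply, h5, one_mul]
    generalize ∑ h ∈ F', E h * E (h⁻¹ * g) = x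
    generalize (trc E F * trc E F).coeff g = y
    generalize (trc E F).coeff g = z
    rw [show y - z = (E g - z) + (x - E g) - (x - y) by abel]
    linarith [norm_sub_le ((E g - z) + (x - E g)) (x - y), norm_add_le (E g - z) (x - E g)]
  · simp only [sum_add_distrib]
    linarith

end general

/-- `|m i i| ≤ ‖m‖` for the `ℓ^∞` operator norm (`Matrix.linfty_opNorm_def`). -/
theorem isTr_mtr (q : ℕ) : IsTr (mtr q) q :=
  ⟨fun a b => Matrix.trace_mul_comm a b, fun a => by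
    change ‖∑ i, a i i‖ ≤ _
    refine (norm_sum_le _ _).trans ((sum_le_card_nsmul _ _ _ fun i _ => trunc_entry a i i).trans ?_)
    simp, Nat.cast_nonneg q⟩

/-- Let `E g = Matrix.of fun i j => e i j g`; `‖E g‖ ≤ ∑ i j, ‖e i j g‖` is summable, with sum
`≤ M`; `∑' h, E h * E (h⁻¹ g) = E g` (entrywise this is `he.2`).  Choose an increasing sequence of
finite sets `F k` with tails `t k = ∑' g ∉ F k, ‖E g‖ → 0` (e.g. from
`summable_iff_vanishing`/`tendsto_tsum_compl_atTop_zero`, or accumulate the finite sets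
`{g | ‖E g‖ > 1/(k+1)}`), and let `a k` be the restriction of `E` to `F k`
(`Finsupp.onFinset`).  For any finite set `T`:
`∑_{g ∈ T} ‖(a k * a k) g - E g‖ ≤ ∑_{g ∈ T} ∑'_{h} (‖E h‖ 1[h ∉ F k] ‖E (h⁻¹g)‖ + ‖E h‖ ‖E(h⁻¹ g)‖ 1[h⁻¹ g ∉ F k]) ≤ 2 M t k`,
so `‖a k * a k - a k‖₁ ≤ (2M + 1) t k`. The class trace differs by at most `q t k`. -/
theorem exists_trunc {G : Type} [Group G] {q : ℕ} (e : Fin q → Fin q → G → ℂ)
    (he : IsL1IdempotentMatrix e) :
    ∃ M : ℝ, 1 ≤ M ∧ ∃ a : ℕ → MonoidAlgebra (Matrix (Fin q) (Fin q) ℂ) G,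
      (∀ k, wn (fun _ => 1) (a k) ≤ M) ∧ ∀ δ : ℝ, 0 < δ → ∃ k₀, ∀ k, k₀ ≤ k →
        wn (fun _ => 1) (a k * a k - a k) ≤ δ ∧ wn (fun _ => 1) (a k - a k₀) ≤ δ ∧
          ∀ C : Set G, ‖pr (mtr q) (ind C) (a k) - classTrace e C‖ ≤ δ := by
  obtain ⟨E, hE⟩ : ∃ E : G → Matrix (Fin q) (Fin q) ℂ, ∀ g i j, E g i j = e i j g :=
    ⟨fun g => Matrix.of fun i j => e i j g, fun _ _ _ => rfl⟩
  have hs : Summable fun g => ‖E g‖ :=
    .of_nonneg_of_le (fun _ => norm_nonneg _) (fun g => by simpa only [hE] using trunc_norm (E g))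
      (summable_sum fun i (_ : i ∈ univ) => summable_sum fun j (_ : j ∈ univ) => he.1 i j)
  have hc : ∀ g, Tendsto (fun F : Finset G => ‖∑ h ∈ F, E h * E (h⁻¹ * g) - E g‖) atTop (𝓝 0) := by
    intro g
    refine squeeze_zero (fun _ => norm_nonneg _) (fun F => trunc_norm _) ?_
    have h0 : (0 : ℝ) = ∑ _i : Fin q, ∑ _j : Fin q, 0 := by simp
    rw [h0]
    refine tendsto_finsetSum _ fun i _ => tendsto_finsetSum _ fun j _ => ?_
    have h1 : ∀ k, HasSum (fun h => e i k h * e k j (h⁻¹ * g)) (conv (e i k) (e k j) g) := fun k =>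
      (Summable.of_norm_bounded ((he.1 i k).mul_right (∑' x, ‖e k j x‖)) fun h => by
        rw [norm_mul]
        exact mul_le_mul_of_nonneg_left ((he.1 k j).le_tsum _ fun _ _ => norm_nonneg _)
          (norm_nonneg _)).hasSum
    have h2 := hasSum_sum fun k (_ : k ∈ univ) => h1 k
    rw [he.2] at h2
    refine (tendsto_iff_norm_sub_tendsto_zero.1 h2).congr fun F => ?_
    simp only [Matrix.sub_apply, Matrix.sum_apply, Matrix.mul_apply, hE]
  have hx : ∀ C : Set G, HasSum (fun g => (ind C g : ℂ) * mtr q (E g)) (classTrace e C) := by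
    intro C
    have h1 : (fun g => (ind C g : ℂ) * mtr q (E g)) = C.indicator fun g => ∑ i, e i i g := by
      funext g
      by_cases hg : g ∈ C
      · simp [ind, hg, mtr, Matrix.trace, hE]
      · simp [ind, hg]
    rw [h1, classTrace, tsum_subtype C fun g => ∑ i, e i i g]
    exact ((summable_sum fun i (_ : i ∈ univ) => (he.1 i i).of_norm).indicator C).hasSum
  have hM : ∀ T : Finset G, ∑ g ∈ T, ‖E g‖ ≤ 1 + ∑' g, ‖E g‖ := fun T =>
    (hs.sum_le_tsum T fun _ _ => norm_nonneg _).trans (by linarith)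
  have hM0 : 0 ≤ ∑' g, ‖E g‖ := tsum_nonneg fun _ => norm_nonneg _
  choose s hs' using fun k : ℕ => summable_iff_vanishing_norm.1 hs (1 / (k + 1)) (by positivity)
  refine ⟨1 + ∑' g, ‖E g‖, by linarith, fun k => trc E ((range (k + 1)).biUnion s),
    fun k => (wn_trc E _).trans (hM _), fun δ hδ => ?_⟩
  generalize ∑' g, ‖E g‖ = M at *
  obtain ⟨k₀, hk₀⟩ := exists_nat_one_div_lt (show 0 < δ / (2 * (1 + M) + 1 + q) by positivity)
  rw [lt_div_iff₀ (by positivity)] at hk₀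
  have ht : ∀ k, k₀ ≤ k → ∀ T, Disjoint T ((range (k + 1)).biUnion s) →
      ∑ g ∈ T, ‖E g‖ ≤ 1 / (k₀ + 1) := fun k hk T hT =>
    (le_abs_self _).trans (hs' k₀ T (hT.mono_right
      (subset_biUnion_of_mem s (mem_range.2 (Nat.lt_succ_of_le hk))))).le
  have hε : (0 : ℝ) ≤ 1 / (k₀ + 1) := by positivity
  have hq : (0 : ℝ) ≤ q := Nat.cast_nonneg q
  refine ⟨k₀, fun k hk => ⟨(trc_idem E hc hM (ht k hk)).trans ?_,
    (wn_trc_sub E (ht k₀ le_rfl) (biUnion_subset_biUnion_of_subset_left s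
      (range_subset_range.2 (Nat.succ_le_succ hk)))).trans ?_,
    fun C => (trc_pr E (isTr_mtr q) (hx C) (ht k hk)).trans ?_⟩⟩ <;>
  nlinarith [mul_nonneg hε hq, mul_nonneg hε hM0]

end Crest.Agent.R192
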