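import Crest.Agent.R192.Steps
import Crest.Agent.R192.Newton
import Crest.Agent.R192.LenEx
import Crest.Agent.R192.Trunc

/-!
# R192: the ℓ¹-Bass conjecture
-/

set_option autoImplicit false

open Finset Crest.AlgebraR.L1
open scoped Classical Matrix.Norms.Operator Pointwise

namespace Crest.Agent.R192

theorem Len.isWt {G : Type} [Group G] {β ϱ : ℕ} (L : Len G β ϱ) :
    IsWt (fun g => (4 : ℝ) ^ L.d g) :=
  ⟨fun _ => one_le_pow₀ (by norm_num), by simp [L.d_one], fun g g' => by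
    rw [← pow_add]; exact pow_le_pow_right₀ (by norm_num) (L.d_mul g g')⟩

theorem d_le_two_of_mem {𝔐 : Type} [NormedRing 𝔐] {G : Type} [Group G] {β ϱ : ℕ} (L : Len G β ϱ)
    (a₀ : MonoidAlgebra 𝔐 G) (hS : ∀ s ∈ a₀.coeff.support, L.d s ≤ 1) :
    ∀ g ∈ (a₀ * a₀ - a₀).coeff.support, L.d g ≤ 2 := by
  intro g hg
  by_contra hlt
  push Not at hlt
  apply Finsupp.mem_support_iff.1 hg
  have h1 : a₀.coeff g = 0 := by
    by_contra h
    have := hS g (Finsupp.mem_support_iff.2 h)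
    omega
  have h2 : (a₀ * a₀).coeff g = 0 := by
    by_contra h
    have hm := MonoidAlgebra.support_coeff_mul_subset a₀ a₀ (Finsupp.mem_support_iff.2 h)
    obtain ⟨u, hu, v, hv, rfl⟩ := Finset.mem_mul.1 hm
    have := L.d_mul u v
    have := hS u hu
    have := hS v hv
    omega
  rw [MonoidAlgebra.coeff_sub, Finsupp.sub_apply, h1, h2, sub_zero]

/-- Let `S = supp a₀`, `β` from `exists_len S`, `M' = 4M + 1`, `ε = 1/(2 M'²)`, `K` with
`72 M'² ≤ 4^K / 2`, `ϱ` from `cocycle β K ε`, `L` from `exists_len`, `𝓕 = L.nb L.ball`, weight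
`w g = 4^(d g)` (an `IsWt`). `wn w a₀ ≤ 4M`, `wn w (a₀² - a₀) ≤ 16 ‖a₀² - a₀‖₁` (`d ≤ 2` on the
support). Given `C`, all `h ∈ C` are `Good` for `w = 1` or `w = βϱ + 1`. Choose `n` large (so that
`cτ M' 2^{-n} ≤ η/3`), get the `ListData`, then run `newton` for `wnS` with a tiny final defect, and
combine `ListData.bound` (`δ M'^{2n+1} ≤ 2^{-n} M'`) with `trace_pow`. -/
theorem core {𝔐 : Type} [NormedRing 𝔐] [NormOneClass 𝔐] {tr : 𝔐 →+ ℂ} {cτ : ℝ}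
    (htr : IsTr tr cτ) {G : Type} [Group G] {M : ℝ} (hM : 1 ≤ M) (a₀ : MonoidAlgebra 𝔐 G)
    (ha : wn (fun _ => 1) a₀ ≤ M)
    (hω : wn (fun _ => 1) (a₀ * a₀ - a₀) ≤ 1 / (128 * (8 * M + 3))) :
    ∃ 𝓕 : Finset G, ∀ C : Set G, (∀ g h, h ∈ C → g * h * g⁻¹ ∈ C) →
      ((∀ h ∈ C, h ∉ 𝓕) ∨ ∀ h ∈ C, ¬IsOfFinOrder h) → ∀ η : ℝ, 0 < η →
        ∃ a : MonoidAlgebra 𝔐 G, wn (fun _ => 1) a ≤ 4 * M + 1 ∧
          wn (fun _ => 1) (a - a₀) ≤ 1 / 4 ∧ wn (fun _ => 1) (a * a - a) ≤ η ∧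
            ‖pr tr (ind C) a‖ ≤ η := by
  obtain ⟨β, hβ, hlen⟩ := exists_len a₀.coeff.support
  set M' : ℝ := 4 * M + 1 with hM'
  have hM'1 : 1 ≤ M' := by linarith
  obtain ⟨K, hK⟩ := pow_unbounded_of_one_lt (144 * M' ^ 2) (show (1 : ℝ) < 4 by norm_num)
  have hε : (0 : ℝ) < 1 / (2 * M' ^ 2) := by positivity
  obtain ⟨ϱ, hϱ, hcoc⟩ := cocycle β K hβ hε
  obtain ⟨L, hL⟩ := hlen ϱ hϱ
  refine ⟨L.nb L.ball, fun C hC hC' η hη => ?_⟩
  obtain ⟨w, hw⟩ : ∃ w, ∀ h ∈ C, L.Good h w := by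
    rcases hC' with h1 | h1
    · exact ⟨1, fun h hh => L.good_of_miss fun g => h1 _ (hC g h hh)⟩
    · exact ⟨_, fun h hh => L.good_of_infinite (h1 h hh)⟩
  have hcτ := htr.nonneg
  obtain ⟨n₀, hn₀⟩ := exists_pow_lt_of_lt_one (show 0 < η / (2 * ((cτ + 1) * M')) by positivity)
    (show (1 / 2 : ℝ) < 1 by norm_num)
  obtain ⟨m, n, hn, hmn, ⟨D⟩⟩ := hcoc G L w n₀
  obtain ⟨Kn, ⟨D'⟩⟩ := D.toList hε.le hC hw
  obtain ⟨K', hK'0, hK'⟩ := trace_pow M' (m + 1)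
  have hwt := L.isWt
  set η' : ℝ := min η (η / (2 * ((cτ + 1) * (Kn ^ 2 * M' ^ m + K' + 1)))) with hη'
  have hη'0 : 0 < η' := lt_min hη (by positivity)
  have hle : ∀ a : MonoidAlgebra 𝔐 G, wn (fun _ => 1) a ≤ wn (fun g => (4 : ℝ) ^ L.d g) a :=
    fun a => wn_mono a fun g _ => hwt.one_le g
  have ha' : wnS hwt a₀ ≤ 4 * M := by
    rw [wnS_apply]
    refine (wn_mono (w' := fun _ => 4 * 1) a₀ fun g hg => ?_).trans ?_
    · calc (4 : ℝ) ^ L.d g ≤ 4 ^ 1 := pow_le_pow_right₀ (by norm_num) (hL g hg)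
        _ = 4 * 1 := by norm_num
    · rw [wn_const_mul]; linarith
  have hω' : wnS hwt (a₀ * a₀ - a₀) ≤ 1 / (8 * (2 * (4 * M) + 3)) := by
    rw [wnS_apply]
    refine (wn_mono (w' := fun _ => 16 * 1) _ fun g hg => ?_).trans ?_
    · calc (4 : ℝ) ^ L.d g ≤ 4 ^ 2 := pow_le_pow_right₀ (by norm_num) (d_le_two_of_mem L a₀ hL g hg)
        _ = 16 * 1 := by norm_num
    · rw [wn_const_mul]
      refine (mul_le_mul_of_nonneg_left hω (by norm_num)).trans (le_of_eq ?_)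
      field_simp
      ring
  obtain ⟨a, ha1, ha2, ha3⟩ := newton (wnS hwt) (le_of_eq (wn_one hwt)) (by linarith) a₀ ha' hω'
    hη'0
  rw [wnS_apply] at ha1 ha2 ha3
  have ha1' : wn (fun _ => 1) a ≤ M' := (hle a).trans ha1
  have ha3' : wn (fun _ => 1) (a * a - a) ≤ η' := (hle _).trans ha3
  refine ⟨a, ha1', (hle _).trans ha2, ha3'.trans (min_le_left _ _), ?_⟩
  have hδ0 : 0 ≤ max ((1 / (2 * M' ^ 2)) ^ n) ((72 : ℝ) ^ n / 2 ^ (K * (m + 2))) :=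
    le_max_of_le_left (by positivity)
  have hb := D'.bound htr hwt hδ0 a
  have hp := hK' (MonoidAlgebra 𝔐 G) (wnS isWt_one) (le_of_eq (wn_one isWt_one)) (pr tr (ind C)) cτ
    hcτ (fun a => norm_pr_ind_le htr C a) a ha1'
  rw [wnS_apply] at hp
  have hn0 : ∀ b : MonoidAlgebra 𝔐 G, 0 ≤ wn (fun _ => 1) b := wn_nonneg fun _ => zero_le_one
  have hδ : max ((1 / (2 * M' ^ 2)) ^ n) ((72 : ℝ) ^ n / 2 ^ (K * (m + 2))) * M' ^ (m + 2) ≤
      (1 / 2) ^ n * M' := by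
    have e1 : M' ^ (m + 2) = (M' ^ 2) ^ n * M' := by
      rw [← pow_mul, ← pow_succ]; congr 1; omega
    rw [e1, ← mul_assoc]
    refine mul_le_mul_of_nonneg_right ?_ (by positivity)
    rw [max_mul_of_nonneg _ _ (by positivity)]
    refine max_le ?_ ?_
    · rw [← mul_pow]
      refine pow_le_pow_left₀ (by positivity) (le_of_eq ?_) n
      field_simp
    · have e2 : ((4 : ℝ) ^ K) ^ n ≤ 2 ^ (K * (m + 2)) := by
        rw [show (4 : ℝ) = 2 ^ 2 by norm_num, ← pow_mul, ← pow_mul]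
        refine pow_le_pow_right₀ (by norm_num) ?_
        have : m + 2 = 2 * n + 1 := by omega
        rw [this]; nlinarith
      calc (72 : ℝ) ^ n / 2 ^ (K * (m + 2)) * (M' ^ 2) ^ n
          ≤ 72 ^ n / (4 ^ K) ^ n * (M' ^ 2) ^ n := by gcongr
        _ = (72 * M' ^ 2 / 4 ^ K) ^ n := by rw [div_pow, mul_pow]; ring
        _ ≤ (1 / 2) ^ n := by
          refine pow_le_pow_left₀ (by positivity) ?_ n
          rw [div_le_iff₀ (by positivity)]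
          linarith
  have h1 : max ((1 / (2 * M' ^ 2)) ^ n) ((72 : ℝ) ^ n / 2 ^ (K * (m + 2))) *
      wn (fun g => (4 : ℝ) ^ L.d g) a ^ (m + 2) ≤ (1 / 2) ^ n₀ * M' := by
    refine le_trans (mul_le_mul_of_nonneg_left (pow_le_pow_left₀
      (wn_nonneg (fun g => by positivity) a) ha1 _) hδ0) (hδ.trans ?_)
    exact mul_le_mul_of_nonneg_right (pow_le_pow_of_le_one (by norm_num) (by norm_num) hn)
      (by positivity)
  have h2 : Kn ^ 2 * wn (fun _ => 1) a ^ m * wn (fun _ => 1) (a * a - a) ≤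
      Kn ^ 2 * M' ^ m * η' := by
    have := hn0 a
    have := hn0 (a * a - a)
    gcongr
  have h3 : K' * wn (fun _ => 1) (a * a - a) ≤ K' * η' := mul_le_mul_of_nonneg_left ha3' hK'0
  have h4 : (cτ + 1) * ((1 / 2) ^ n₀ * M') ≤ η / 2 := by
    rw [lt_div_iff₀ (by positivity)] at hn₀
    nlinarith
  have h5 : (cτ + 1) * ((Kn ^ 2 * M' ^ m + K' + 1) * η') ≤ η / 2 := by
    have := min_le_right η (η / (2 * ((cτ + 1) * (Kn ^ 2 * M' ^ m + K' + 1))))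
    rw [← hη', le_div_iff₀ (by positivity)] at this
    nlinarith
  have h6 : ‖pr tr (ind C) a‖ ≤ ‖pr tr (ind C) (a ^ (m + 2))‖ +
      ‖pr tr (ind C) (a ^ (m + 1 + 1)) - pr tr (ind C) a‖ := by
    have := norm_sub_le (pr tr (ind C) (a ^ (m + 2)))
      (pr tr (ind C) (a ^ (m + 1 + 1)) - pr tr (ind C) a)
    rwa [show m + 1 + 1 = m + 2 from rfl, sub_sub_cancel] at this
  have h7 : ‖pr tr (ind C) (a ^ (m + 2))‖ ≤ cτ * ((1 / 2) ^ n₀ * M' + Kn ^ 2 * M' ^ m * η') :=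
    hb.trans (mul_le_mul_of_nonneg_left (add_le_add h1 h2) hcτ)
  have h8 := hp.trans (mul_le_mul_of_nonneg_left h3 hcτ)
  have h9 : 0 ≤ (1 / 2 : ℝ) ^ n₀ * M' := by positivity
  have h10 : 0 ≤ (Kn ^ 2 * M' ^ m + K' + 1) * η' := by positivity
  have h11 : 0 ≤ cτ * η' := by positivity
  nlinarith

/-- Take `a₀ = a k₀` from `exists_trunc` with `δ = min (1/4) (1/(128(8M+3)))`, `𝓕` from `core`.
For `C` as in `core`, `trace_pq` applied to `p = a k` (`k` large) and `q = a` shows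
`‖classTrace e C‖ ≤ δ' + q (2^{-m} + K (δ' + η)) + η` for all `m, δ', η`. -/
theorem bass_aux {G : Type} [Group G] {q : ℕ} (hq : 1 ≤ q) (e : Fin q → Fin q → G → ℂ)
    (he : IsL1IdempotentMatrix e) :
    ∃ 𝓕 : Finset G, ∀ C : Set G, (∀ g h, h ∈ C → g * h * g⁻¹ ∈ C) →
      ((∀ h ∈ C, h ∉ 𝓕) ∨ ∀ h ∈ C, ¬IsOfFinOrder h) → classTrace e C = 0 := by
  have : Nonempty (Fin q) := ⟨⟨0, hq⟩⟩
  obtain ⟨M, hM, a, haM, ha⟩ := exists_trunc e he
  obtain ⟨k₀, hk₀⟩ := ha (min (1 / 4) (1 / (128 * (8 * M + 3)))) (lt_min (by norm_num) (by positivity))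
  obtain ⟨𝓕, h𝓕⟩ := core (isTr_mtr q) hM (a k₀) (haM k₀)
    ((hk₀ k₀ le_rfl).1.trans (min_le_right _ _))
  refine ⟨𝓕, fun C hC hC' => ?_⟩
  refine norm_le_zero_iff.1 (le_of_forall_pos_le_add fun η hη => ?_)
  rw [zero_add]
  have hq0 : (0 : ℝ) ≤ q := Nat.cast_nonneg q
  obtain ⟨m, hm⟩ := exists_pow_lt_of_lt_one (show 0 < η / (2 * (q + 1)) by positivity)
    (show (1 / 2 : ℝ) < 1 by norm_num)
  obtain ⟨K, hK0, hK⟩ := trace_pq (4 * M + 1) m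
  set δ : ℝ := η / (4 * (q * K + 1)) with hδ
  have hδ0 : 0 < δ := by positivity
  obtain ⟨k₁, hk₁⟩ := ha δ hδ0
  obtain ⟨b, hb1, hb2, hb3, hb4⟩ := h𝓕 C hC hC' δ hδ0
  obtain ⟨h1, -, h3⟩ := hk₁ (max k₀ k₁) (le_max_right _ _)
  obtain ⟨-, h2, -⟩ := hk₀ (max k₀ k₁) (le_max_left _ _)
  have hd : wn (fun _ => 1) (a (max k₀ k₁) - b) ≤ 1 / 2 := by
    have e1 : a (max k₀ k₁) - b = (a (max k₀ k₁) - a k₀) + -(b - a k₀) := by abel
    rw [e1]
    refine (wn_add_le (fun _ => zero_le_one) _ _).trans ?_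
    rw [wn_neg]
    have := min_le_left (1 / 4 : ℝ) (1 / (128 * (8 * M + 3)))
    linarith
  have h4 := hK _ (wnS isWt_one) (le_of_eq (wn_one isWt_one)) (pr (mtr q) (ind C)) q hq0
    (fun a => norm_pr_ind_le (isTr_mtr q) C a) (pr_ind_comm (isTr_mtr q) hC) (a (max k₀ k₁)) b
    ((haM _).trans (by linarith)) hb1 hd
  rw [wnS_apply, wnS_apply] at h4
  have h5 : ‖classTrace e C‖ ≤ ‖pr (mtr q) (ind C) (a (max k₀ k₁)) - classTrace e C‖ +
      ‖pr (mtr q) (ind C) (a (max k₀ k₁)) - pr (mtr q) (ind C) b‖ + ‖pr (mtr q) (ind C) b‖ := by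
    have e1 : classTrace e C = -(pr (mtr q) (ind C) (a (max k₀ k₁)) - classTrace e C) +
        (pr (mtr q) (ind C) (a (max k₀ k₁)) - pr (mtr q) (ind C) b) + pr (mtr q) (ind C) b := by
      ring
    conv_lhs => rw [e1]
    refine (norm_add_le _ _).trans (add_le_add ((norm_add_le _ _).trans (le_of_eq ?_)) le_rfl)
    rw [norm_neg]
  have h6 : (q : ℝ) * ((1 / 2) ^ m + K * (wn (fun _ => 1) (a (max k₀ k₁) * a (max k₀ k₁) -
      a (max k₀ k₁)) + wn (fun _ => 1) (b * b - b))) ≤ q * ((1 / 2) ^ m + K * (δ + δ)) := by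
    gcongr
  have h7 : (q + 1 : ℝ) * (1 / 2) ^ m ≤ η / 2 := by
    rw [lt_div_iff₀ (by positivity)] at hm
    nlinarith
  have h8 : (q * K + 1) * δ = η / 4 := by rw [hδ]; field_simp
  have h9 : (0 : ℝ) ≤ (1 / 2) ^ m := by positivity
  have h10 := h3 C
  nlinarith

/-- The classes with nonzero trace meet `𝓕`, so they lie in the image of `𝓕` under
`ConjClasses.mk`. -/
theorem bass (G : Type) [Group G] (q : ℕ) (hq : 1 ≤ q) (e : Fin q → Fin q → G → ℂ)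
    (he : IsL1IdempotentMatrix e) :
    Set.Finite {C : ConjClasses G | classTrace e C.carrier ≠ 0} ∧
      ∀ g : G, ¬IsOfFinOrder g → classTrace e (ConjClasses.mk g).carrier = 0 := by
  obtain ⟨𝓕, h𝓕⟩ := bass_aux hq e he
  have hconj : ∀ C : ConjClasses G, ∀ g h, h ∈ C.carrier → g * h * g⁻¹ ∈ C.carrier := by
    intro C g h hh
    rw [ConjClasses.mem_carrier_iff_mk_eq] at hh ⊢
    rw [← hh, ConjClasses.mk_eq_mk_iff_isConj]
    exact (isConj_iff.2 ⟨g, rfl⟩).symm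
  refine ⟨((𝓕.finite_toSet).image ConjClasses.mk).subset fun C hC => ?_, fun g hg => ?_⟩
  · by_contra hn
    refine hC (h𝓕 _ (hconj C) (Or.inl fun h hh hF => hn ⟨h, hF, ?_⟩))
    exact ConjClasses.mem_carrier_iff_mk_eq.1 hh
  · refine h𝓕 _ (hconj _) (Or.inr fun h hh hf => hg ?_)
    rw [ConjClasses.mem_carrier_iff_mk_eq, ConjClasses.mk_eq_mk_iff_isConj] at hh
    obtain ⟨c, rfl⟩ := isConj_iff.1 hh
    exact (MonoidHom.isOfFinOrder (MulAut.conj c).toMonoidHom hf)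

end Crest.Agent.R192
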