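import Crest.Agent.R192.Grass

/-!
# R192: Chern–Simons/Stokes formula on the cone over a simplex
-/

set_option autoImplicit false

open Finset ExteriorAlgebra MeasureTheory

namespace Crest.Agent.R192

variable {N : ℕ}

/-- A smooth bump supported in `[1,2]`, positive on `(1,2)`. -/
noncomputable def bump (T : ℝ) : ℝ :=
  Real.smoothTransition (2 * T - 2) * Real.smoothTransition (4 - 2 * T)

theorem contDiff_bump (n : ℕ) : ContDiff ℝ n bump := by
  have h : ContDiff ℝ n Real.smoothTransition := Real.smoothTransition.contDiff (n := n)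
  exact (h.comp (by fun_prop)).mul (h.comp (by fun_prop))

theorem bump_nonneg (T : ℝ) : 0 ≤ bump T :=
  mul_nonneg (Real.smoothTransition.nonneg _) (Real.smoothTransition.nonneg _)

theorem bump_le_one (T : ℝ) : bump T ≤ 1 :=
  mul_le_one₀ (Real.smoothTransition.le_one _) (Real.smoothTransition.nonneg _)
    (Real.smoothTransition.le_one _)

theorem bump_eq_zero {T : ℝ} (hT : T ≤ 1 ∨ 2 ≤ T) : bump T = 0 := by
  rcases hT with h | h
  · rw [bump, Real.smoothTransition.zero_of_nonpos (by linarith), zero_mul]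
  · rw [bump, Real.smoothTransition.zero_of_nonpos (x := 4 - 2 * T) (by linarith), mul_zero]

theorem bump_pos {T : ℝ} (h1 : 1 < T) (h2 : T < 2) : 0 < bump T :=
  mul_pos (Real.smoothTransition.pos_of_pos (by linarith))
    (Real.smoothTransition.pos_of_pos (by linarith))

/-- The box `[0,3]^N`. -/
def box (N : ℕ) : Set (Fin N → ℝ) := Set.Icc 0 fun _ => 3

/-- `∫ ψ(T) dT ∧ (da)^n`. -/
noncomputable def Itop (n : ℕ) (a : (Fin N → ℝ) → Fin N → ℝ) : ℝ :=
  ∫ t in box N, bump (∑ i, t i) * top N (ι ℝ (1 : Fin N → ℝ) * omega a t ^ n)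

noncomputable def Theta (n : ℕ) (a₀ a₁ : (Fin N → ℝ) → Fin N → ℝ) (t : Fin N → ℝ) : Gr N :=
  ∑ i ∈ range n, omega a₁ t ^ i * omega a₀ t ^ (n - 1 - i)

/-- `∫ ψ(T) dT ∧ (a₁ - a₀) ∧ Θ`. -/
noncomputable def Chi (n : ℕ) (a₀ a₁ : (Fin N → ℝ) → Fin N → ℝ) : ℝ :=
  ∫ t in box N, bump (∑ i, t i) *
    top N (ι ℝ (1 : Fin N → ℝ) * ι ℝ (a₁ t - a₀ t) * Theta n a₀ a₁ t)

/-- Restriction of a 1-form to the face `t i = 0`. -/
def face (i : Fin (N + 1)) (a : (Fin (N + 1) → ℝ) → Fin (N + 1) → ℝ) : (Fin N → ℝ) → Fin N → ℝ :=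
  fun t j => a (i.insertNth 0 t) (i.succAbove j)

/-- The exterior derivative of a Grassmann-valued function. -/
noncomputable def DD (f : (Fin N → ℝ) → Gr N) (t : Fin N → ℝ) : Gr N :=
  ∑ k, ee k * fderiv ℝ f t (Pi.single k 1)

/-- `d ω = ∑ k i, e_k e_i ι (∂_k ∂_i a) = 0` by symmetry of the second derivative. -/
theorem DD_omega {a : (Fin N → ℝ) → Fin N → ℝ} (ha : ContDiff ℝ 2 a) (t : Fin N → ℝ) :
    DD (omega a) t = 0 := by
  let L : ((Fin N → ℝ) →L[ℝ] (Fin N → ℝ)) →L[ℝ] Gr N := ∑ i, ContinuousLinearMap.mul ℝ (Gr N) (ee i) ∘L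
    iotaL N ∘L ContinuousLinearMap.apply ℝ (Fin N → ℝ) (Pi.single i 1)
  have hL : ∀ B, L B = ∑ i, ee i * ι ℝ (B (Pi.single i 1)) := fun B => by
    simp [L, iotaL_apply]
  have h1 : DifferentiableAt ℝ (fderiv ℝ a) t :=
    ((ha.fderiv_right (m := 1) (by norm_num)).differentiable (by norm_num)) t
  have e : omega a = L ∘ fderiv ℝ a := funext fun t => (hL _).symm
  rw [DD, e, (L.hasFDerivAt.comp t h1.hasFDerivAt).fderiv]
  simp only [ContinuousLinearMap.comp_apply, hL, ι_eq_sum, mul_sum, mul_smul_comm, ← mul_assoc]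
  conv_lhs => enter [2, k]; rw [sum_comm]
  rw [sum_comm]
  refine sum_eq_zero fun j _ => ?_
  simp only [← smul_mul_assoc _ _ (ee j), ← sum_mul]
  rw [sum_symm_eq_zero (fun k i => fderiv ℝ (fderiv ℝ a) t (Pi.single k 1) (Pi.single i 1) j), zero_mul]
  intro k i
  rw [(ha.contDiffAt.isSymmSndFDerivAt (by simp)).eq]

theorem DD_mul {f g : (Fin N → ℝ) → Gr N} {t : Fin N → ℝ} (hf : DifferentiableAt ℝ f t)
    (hg : DifferentiableAt ℝ g t) : DD (fun t => f t * g t) t =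
      ∑ k, ee k * f t * fderiv ℝ g t (Pi.single k 1) + DD f t * g t := by
  simp [DD, fderiv_fun_mul' hf hg, mul_add, sum_add_distrib, sum_mul, mul_assoc]

/-- Closed central `C¹` functions. -/
structure StCl (f : (Fin N → ℝ) → Gr N) : Prop where
  sm : ContDiff ℝ 1 f
  cen : ∀ t ξ, Commute (f t) ξ
  cl : ∀ t, DD f t = 0

theorem StCl.const {c : Gr N} (hc : ∀ ξ, Commute c ξ) : StCl fun _ => c :=
  ⟨contDiff_const, fun _ => hc, fun t => by simp [DD]⟩

theorem StCl.mul {f g : (Fin N → ℝ) → Gr N} (hf : StCl f) (hg : StCl g) :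
    StCl fun t => f t * g t := by
  refine ⟨hf.sm.mul hg.sm, fun t ξ => (hf.cen t ξ).mul_left (hg.cen t ξ), fun t => ?_⟩
  rw [DD_mul (hf.sm.differentiable one_ne_zero t) (hg.sm.differentiable one_ne_zero t), hf.cl,
    zero_mul, add_zero]
  simp only [← (hf.cen t _).eq, mul_assoc, ← mul_sum]
  exact (congrArg (f t * ·) (hg.cl t)).trans (mul_zero _)

theorem StCl.add {f g : (Fin N → ℝ) → Gr N} (hf : StCl f) (hg : StCl g) :
    StCl fun t => f t + g t := by
  refine ⟨hf.sm.add hg.sm, fun t ξ => (hf.cen t ξ).add_left (hg.cen t ξ), fun t => ?_⟩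
  have h1 := hf.cl t
  have h2 := hg.cl t
  simp only [DD] at h1 h2 ⊢
  simp [fderiv_fun_add (hf.sm.differentiable one_ne_zero t) (hg.sm.differentiable one_ne_zero t),
    mul_add, sum_add_distrib, h1, h2]

theorem StCl.pow {f : (Fin N → ℝ) → Gr N} (hf : StCl f) (k : ℕ) : StCl fun t => f t ^ k := by
  induction k with
  | zero => simpa using StCl.const (N := N) Commute.one_left
  | succ k ih => simpa only [pow_succ] using ih.mul hf

theorem StCl.sum {β : Type*} (s : Finset β) {f : β → (Fin N → ℝ) → Gr N} (hf : ∀ b, StCl (f b)) :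
    StCl fun t => ∑ b ∈ s, f b t := by
  classical
  induction s using Finset.induction_on with
  | empty => simpa using StCl.const (N := N) Commute.zero_left
  | insert b s hb ih => simpa only [sum_insert hb] using (hf b).add ih

theorem stCl_omega {a : (Fin N → ℝ) → Fin N → ℝ} (ha : ContDiff ℝ 2 a) : StCl (omega a) :=
  ⟨contDiff_omega (n := 1) ha, commute_omega a, DD_omega ha⟩

theorem stCl_Theta (n : ℕ) {a₀ a₁ : (Fin N → ℝ) → Fin N → ℝ} (h₀ : ContDiff ℝ 2 a₀)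
    (h₁ : ContDiff ℝ 2 a₁) : StCl (Theta n a₀ a₁) :=
  StCl.sum _ fun _ => ((stCl_omega h₁).pow _).mul ((stCl_omega h₀).pow _)

/-- Closed central functions are stable under products, powers and sums
(Leibniz rule: `DD (f g) = DD f * g + f * DD g` when `f t` is central). -/
theorem DD_Theta (n : ℕ) {a₀ a₁ : (Fin N → ℝ) → Fin N → ℝ} (h₀ : ContDiff ℝ 2 a₀)
    (h₁ : ContDiff ℝ 2 a₁) (t : Fin N → ℝ) : DD (Theta n a₀ a₁) t = 0 := (stCl_Theta n h₀ h₁).cl t

/-- `ζ = ψ(T) ι𝟙 ιβ Θ`; `∂_k (ψ(T)) = ψ'(T)` and `∑ e_k = ι𝟙`, `ι𝟙 ι𝟙 = 0`;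
`e_k ι𝟙 = -ι𝟙 e_k`, `DD (ιβ) = ω₁ - ω₀`, `(ω₁ - ω₀) Θ = ω₁^n - ω₀^n` (`Commute.mul_geom_sum₂`). -/
theorem DD_zeta (n : ℕ) {a₀ a₁ : (Fin N → ℝ) → Fin N → ℝ} (h₀ : ContDiff ℝ 2 a₀)
    (h₁ : ContDiff ℝ 2 a₁) (t : Fin N → ℝ) :
    DD (fun t => bump (∑ i, t i) •
        (ι ℝ (1 : Fin N → ℝ) * ι ℝ (a₁ t - a₀ t) * Theta n a₀ a₁ t)) t =
      -(bump (∑ i, t i) • (ι ℝ (1 : Fin N → ℝ) * (omega a₁ t ^ n - omega a₀ t ^ n))) := by
  have hΘ := stCl_Theta n h₀ h₁
  have dΘ := hΘ.sm.differentiable one_ne_zero t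
  have d₀ := h₀.differentiable two_ne_zero t
  have d₁ := h₁.differentiable two_ne_zero t
  have hβ := (iotaL N).hasFDerivAt.comp t (d₁.fun_sub d₀).hasFDerivAt
  have dβ : DifferentiableAt ℝ (fun t => (ι ℝ (a₁ t - a₀ t) : Gr N)) t := hβ.differentiableAt
  have eβ : DD (fun t => (ι ℝ (a₁ t - a₀ t) : Gr N)) t = omega a₁ t - omega a₀ t := by
    rw [← omega_sub d₁ d₀]
    exact sum_congr rfl fun k _ => congrArg (ee k * · (Pi.single k 1)) hβ.fderiv
  let T : (Fin N → ℝ) →L[ℝ] ℝ := ∑ i, ContinuousLinearMap.proj i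
  have hT : ∀ t, T t = ∑ i, t i := fun t => by simp [T]
  have hψ := ((((contDiff_bump 1).differentiable (by simp)) (T t)).hasDerivAt.comp_hasFDerivAt t
    T.hasFDerivAt).smul_const (ι ℝ (1 : Fin N → ℝ) : Gr N)
  simp only [Function.comp, hT] at hψ
  have eψ : DD (fun t => bump (∑ i, t i) • (ι ℝ (1 : Fin N → ℝ) : Gr N)) t = 0 := by
    have : ∑ k, ee k = (ι ℝ (1 : Fin N → ℝ) : Gr N) := by simp [ι_eq_sum]
    simp [DD, hψ.fderiv, hT, ← smul_sum, ← sum_mul, this]
  have anti : ∀ (k : Fin N) (v : Fin N → ℝ), ee k * ι ℝ v = -(ι ℝ v * ee k) := fun k v => ι_anti _ _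
  have e1 : DD (fun t => ι ℝ (a₁ t - a₀ t) * Theta n a₀ a₁ t) t =
      omega a₁ t ^ n - omega a₀ t ^ n := by
    rw [DD_mul dβ dΘ, eβ, Theta, (commute_omega a₁ t _).mul_geom_sum₂]
    simp only [anti, neg_mul, mul_assoc, sum_neg_distrib, ← mul_sum]
    rw [add_eq_right, neg_eq_zero]
    exact (congrArg (ι ℝ (a₁ t - a₀ t) * ·) (hΘ.cl t)).trans (mul_zero _)
  simp only [mul_assoc, ← smul_mul_assoc]
  rw [DD_mul hψ.differentiableAt (dβ.fun_mul dΘ), eψ, zero_mul, add_zero, ← e1, DD]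
  simp only [mul_smul_comm, anti, smul_neg, neg_mul, smul_mul_assoc, mul_assoc, sum_neg_distrib,
    mul_sum]

/-- Chain rule along the linear map `t ↦ i.insertNth 0 t`, and `Fin.sum_univ_succAbove`
(the generator `e_i` is killed by the restriction). -/
theorem omega_face (i : Fin (N + 1)) {a : (Fin (N + 1) → ℝ) → Fin (N + 1) → ℝ}
    (ha : Differentiable ℝ a) (t : Fin N → ℝ) :
    omega (face i a) t =
      ExteriorAlgebra.map (LinearMap.funLeft ℝ ℝ i.succAbove) (omega a (i.insertNth 0 t)) := by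
  let I : (Fin N → ℝ) →ₗ[ℝ] (Fin (N + 1) → ℝ) :=
    { toFun := fun t => i.insertNth 0 t
      map_add' := fun x y => funext fun k => i.succAboveCases (by simp) (fun j => by simp) k
      map_smul' := fun c x => funext fun k => i.succAboveCases (by simp) (fun j => by simp) k }
  let F : (Fin (N + 1) → ℝ) →ₗ[ℝ] (Fin N → ℝ) := LinearMap.funLeft ℝ ℝ i.succAbove
  have h := (LinearMap.toContinuousLinearMap F).hasFDerivAt.comp t
    ((ha (I t)).hasFDerivAt.comp t (LinearMap.toContinuousLinearMap I).hasFDerivAt)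
  have e : fderiv ℝ (face i a) t = _ := h.fderiv
  have hI : ∀ j, I (Pi.single j 1) = Pi.single (i.succAbove j) 1 := fun j =>
    funext fun k => i.succAboveCases (by simp [I]) (fun l => by simp [I, Pi.single_apply]) k
  have hF : ∀ j, F (Pi.single (i.succAbove j) 1) = Pi.single j 1 := fun j =>
    funext fun k => by simp [F, LinearMap.funLeft_apply, Pi.single_apply]
  have hF0 : F (Pi.single i 1) = 0 := funext fun k => by simp [F, LinearMap.funLeft_apply]
  change _ = ExteriorAlgebra.map F (omega a (I t))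
  simp only [omega, ee, map_sum, map_mul, map_apply_ι, e]
  rw [Fin.sum_univ_succAbove _ i, hF0, map_zero, zero_mul, zero_add]
  simp only [hF, ContinuousLinearMap.comp_apply, LinearMap.coe_toContinuousLinearMap', hI]

/-- Apply `integral_divergence_of_hasFDerivAt_off_countable'` on `[0,3]^{N+1}` to
`f i t = top (e_i * ζ t)`; on the front faces `T ≥ 3` so `ψ = 0`; on the back faces use
`top_face` and `omega_face`. (`σ i = (-1)^i`.) -/
theorem stokes (N n : ℕ) : ∃ σ : Fin (N + 1) → ℝ,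
    ∀ a₀ a₁ : (Fin (N + 1) → ℝ) → Fin (N + 1) → ℝ, ContDiff ℝ 2 a₀ → ContDiff ℝ 2 a₁ →
      Itop n a₁ - Itop n a₀ = ∑ i, σ i * Chi n (face i a₀) (face i a₁) := by
  refine ⟨fun i => (-1) ^ (i : ℕ), fun a₀ a₁ h₀ h₁ => ?_⟩
  have hψ : ContDiff ℝ 1 fun t : Fin (N + 1) → ℝ => bump (∑ i, t i) :=
    (contDiff_bump 1).comp (by fun_prop)
  have hβ : ContDiff ℝ 1 fun t => (ι ℝ (a₁ t - a₀ t) : Gr (N + 1)) :=
    (iotaL _).contDiff.comp ((h₁.sub h₀).of_le (by norm_num))
  obtain ⟨ζ, hζ⟩ : ∃ ζ : (Fin (N + 1) → ℝ) → Gr (N + 1), ζ = fun t => bump (∑ i, t i) •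
    (ι ℝ (1 : Fin (N + 1) → ℝ) * ι ℝ (a₁ t - a₀ t) * Theta n a₀ a₁ t) := ⟨_, rfl⟩
  have sζ : ContDiff ℝ 1 ζ := hζ ▸ hψ.smul ((contDiff_const.mul hβ).mul (stCl_Theta n h₀ h₁).sm)
  have hI : ∀ a : (Fin (N + 1) → ℝ) → Fin (N + 1) → ℝ, ContDiff ℝ 2 a → IntegrableOn (fun t =>
      bump (∑ i, t i) * top (N + 1) (ι ℝ (1 : Fin (N + 1) → ℝ) * omega a t ^ n)) (box (N + 1)) :=
    fun a ha => (hψ.continuous.mul ((topL _).continuous.comp (continuous_const.mul
      ((stCl_omega ha).sm.continuous.pow n)))).continuousOn.integrableOn_compact isCompact_Icc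
  let L : Fin (N + 1) → Gr (N + 1) →L[ℝ] ℝ := fun i =>
    topL _ ∘L ContinuousLinearMap.mul ℝ (Gr (N + 1)) (ee i)
  have hL : ∀ i ξ, L i ξ = top _ (ee i * ξ) := fun i ξ => rfl
  have e1 : ∀ t, ∑ i, (L i ∘L fderiv ℝ ζ t) (Pi.single i 1) =
      bump (∑ i, t i) * top (N + 1) (ι ℝ (1 : Fin (N + 1) → ℝ) * omega a₀ t ^ n) -
      bump (∑ i, t i) * top (N + 1) (ι ℝ (1 : Fin (N + 1) → ℝ) * omega a₁ t ^ n) := fun t => by
    have := congrArg (top (N + 1)) (DD_zeta n h₀ h₁ t)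
    rw [← hζ, DD, map_sum] at this
    simp only [ContinuousLinearMap.comp_apply, hL, this, map_neg, map_smul, mul_sub, map_sub,
      smul_eq_mul]
    ring
  have h := integral_divergence_of_hasFDerivAt_off_countable' (0 : Fin (N + 1) → ℝ) (fun _ => 3)
    (fun _ => by norm_num) (fun i t => L i (ζ t)) (fun i t => L i ∘L fderiv ℝ ζ t) ∅
    Set.countable_empty (fun i => ((L i).continuous.comp sζ.continuous).continuousOn)
    (fun t _ i => (L i).hasFDerivAt.comp t (sζ.differentiable one_ne_zero t).hasFDerivAt)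
    (by simp only [e1]; exact (hI a₀ h₀).sub (hI a₁ h₁))
  simp only [e1] at h
  have h' := (integral_sub (hI a₀ h₀) (hI a₁ h₁)).symm.trans h
  rw [← neg_sub, Itop, Itop, h', ← sum_neg_distrib]
  refine sum_congr rfl fun i _ => ?_
  rw [setIntegral_eq_zero_of_forall_eq_zero, zero_sub, neg_neg, Chi, ← integral_const_mul]
  · refine integral_congr_ae (Filter.Eventually.of_forall fun x => ?_)
    have d₀ := h₀.differentiable two_ne_zero
    have d₁ := h₁.differentiable two_ne_zero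
    simp only [hζ, hL, top_face, map_smul, map_mul, map_apply_ι, Theta, map_sum, map_pow,
      omega_face i d₀, omega_face i d₁, Pi.zero_apply, smul_eq_mul]
    rw [Fin.sum_univ_succAbove _ i]
    simp only [Fin.insertNth_apply_same, Fin.insertNth_apply_succAbove, zero_add]
    rfl
  · intro x hx
    have : 0 ≤ ∑ j, x j := sum_nonneg fun j _ => hx.1 j
    rw [hζ]
    dsimp only
    rw [bump_eq_zero, zero_smul, map_zero]
    rw [Fin.sum_univ_succAbove _ i]
    simp only [Fin.insertNth_apply_same, Fin.insertNth_apply_succAbove]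
    exact Or.inr (by linarith)

end Crest.Agent.R192
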