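import Crest.Agent.R192.Gauge
import Crest.Agent.R192.Stokes

/-!
# R192: connection form and curvature of a generating function
-/

set_option autoImplicit false

open Finset ExteriorAlgebra

namespace Crest.Agent.R192

variable {N M : ℕ}

/-- The transposed differential of the inner jump times: `e_a ↦ ∇ (sh · (a+1))`. -/
noncomputable def Lsh (t : Fin (M + 1) → ℝ) : (Fin M → ℝ) →ₗ[ℝ] (Fin (M + 1) → ℝ) :=
  Matrix.mulVecLin (Matrix.of fun (m : Fin (M + 1)) (a : Fin M) =>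
    fderiv ℝ (fun t => sh t a.succ.castSucc) t (Pi.single m 1))

section

variable {E E' : Type} [NormedAddCommGroup E] [NormedSpace ℝ E] [NormedAddCommGroup E']
  [NormedSpace ℝ E'] {F : E → E → ℝ}

theorem Sm2.d1_eq (h : Sm2 F) (s s' v : E) :
    d1 F s s' v = fderiv ℝ (fun p : E × E => F p.1 p.2) (s, s') (v, 0) := by
  have := HasFDerivAt.comp (f := fun e => (e, s')) s
    (ContDiff.differentiable h (by norm_num) (s, s')).hasFDerivAt (hasFDerivAt_prodMk_left s s')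
  exact congrArg (· v) this.fderiv

theorem Sm2.diff2 (h : Sm2 F) : Differentiable ℝ (fderiv ℝ fun p : E × E => F p.1 p.2) :=
  (ContDiff.fderiv_right h (m := 1) (by norm_num)).differentiable (by norm_num)

theorem Sm2.d12_eq (h : Sm2 F) (s s' v v' : E) :
    d12 F s s' v v' = fderiv ℝ (fderiv ℝ fun p : E × E => F p.1 p.2) (s, s') (0, v') (v, 0) := by
  have := ((h.diff2 (s, s')).hasFDerivAt.comp s' (hasFDerivAt_prodMk_right s s')).clm_apply
    (hasFDerivAt_const ((v, 0) : E × E) s')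
  simp only [d12, h.d1_eq]
  refine (congrArg (· v') this.fderiv).trans ?_
  simp

theorem Sm2.comp (h : Sm2 F) {φ : E' → E} (hφ : ContDiff ℝ 3 φ) :
    Sm2 fun t t' => F (φ t) (φ t') :=
  ContDiff.comp (g := fun p : E × E => F p.1 p.2) h
    ((hφ.comp contDiff_fst).prodMk (hφ.comp contDiff_snd))

theorem Sm2.d1_comp (h : Sm2 F) {φ : E' → E} (hφ : ContDiff ℝ 3 φ) (t t' v : E') :
    d1 (fun t t' => F (φ t) (φ t')) t t' v = d1 F (φ t) (φ t') (fderiv ℝ φ t v) :=
  congrArg (· v) (((h.left (φ t')).differentiable (by norm_num) (φ t)).hasFDerivAt.comp t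
    (hφ.differentiable (by norm_num) t).hasFDerivAt).fderiv

theorem Sm2.d12_comp (h : Sm2 F) {φ : E' → E} (hφ : ContDiff ℝ 3 φ) (t t' v v' : E') :
    d12 (fun t t' => F (φ t) (φ t')) t t' v v' =
      d12 F (φ t) (φ t') (fderiv ℝ φ t v) (fderiv ℝ φ t' v') := by
  simp only [d12, h.d1_comp hφ]
  exact congrArg (· v') (((h.d1_right (φ t) (fderiv ℝ φ t v)).differentiable (by norm_num)
    (φ t')).hasFDerivAt.comp t' (hφ.differentiable (by norm_num) t').hasFDerivAt).fderiv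

theorem Sm2.d12_sum (h : Sm2 F) (s s' : E) {β : Type} [Fintype β] (c c' : β → ℝ) (v v' : β → E) :
    d12 F s s' (∑ a, c a • v a) (∑ b, c' b • v' b) =
      ∑ a, ∑ b, c a * c' b * d12 F s s' (v a) (v' b) := by
  have e1 : ((∑ a, c a • v a, 0) : E × E) = ∑ a, c a • (v a, 0) := by
    ext <;> simp [Prod.fst_sum, Prod.snd_sum]
  have e2 : ((0, ∑ a, c' a • v' a) : E × E) = ∑ a, c' a • (0, v' a) := by
    ext <;> simp [Prod.fst_sum, Prod.snd_sum]
  simp only [h.d12_eq, e1, e2, map_sum, map_smul, _root_.sum_apply, _root_.smul_apply, smul_eq_mul,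
    mul_sum, mul_assoc]

end

/-- Chain rule. -/
theorem form_apply {𝔈 : (Fin (N + 1) → ℝ) → (Fin (N + 1) → ℝ) → ℝ} (h : Sm2 𝔈) (t : Fin N → ℝ)
    (m : Fin N) : form 𝔈 t m = d1 𝔈 (sh t) (sh t) (fderiv ℝ sh t (Pi.single m 1)) :=
  h.d1_comp (contDiff_sh 3) t t _

/-- `form 𝔈 t m = d1 𝔈' t t (single m 1)` for the `C³` function `𝔈' t t' = 𝔈 (sh t) (sh t')`;
`Sm2.contDiff_d1`. -/
theorem contDiff_form {𝔈 : (Fin (N + 1) → ℝ) → (Fin (N + 1) → ℝ) → ℝ} (h : Sm2 𝔈) :
    ContDiff ℝ 2 (form 𝔈) :=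
  contDiff_pi.2 fun m => ContDiff.comp
    (g := fun p : (Fin N → ℝ) × (Fin N → ℝ) => d1 (fun t t' => 𝔈 (sh t) (sh t')) p.1 p.2 (Pi.single m 1))
    ((h.comp (contDiff_sh 3)).contDiff_d1 _) (contDiff_id.prodMk contDiff_id)

/-- For `T > 1/2` the first and last jump times are locally constant. -/
theorem fderiv_sh_eq {t : Fin (M + 1) → ℝ} (hT : 1 / 2 < ∑ k, t k) (m : Fin (M + 1)) :
    fderiv ℝ sh t (Pi.single m 1) = ∑ a : Fin M, Lsh t (Pi.single a 1) m • inn a := by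
  have d : ∀ k, DifferentiableAt ℝ (fun t : Fin (M + 1) → ℝ => sh t k) t :=
    differentiableAt_pi.1 ((contDiff_sh 1).differentiable (by simp) t)
  have ev : ∀ᶠ s : Fin (M + 1) → ℝ in nhds t, 1 / 2 < ∑ i, s i :=
    (continuous_finsetSum _ fun i _ => continuous_apply i).continuousAt.eventually (lt_mem_nhds hT)
  have e : fderiv ℝ sh t = _ := fderiv_pi d
  funext k
  rw [e, ContinuousLinearMap.pi_apply]
  simp only [Finset.sum_apply, Pi.smul_apply, inn, Pi.single_apply, smul_eq_mul, mul_ite, mul_one,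
    mul_zero]
  refine Fin.lastCases ?_ (fun k => Fin.cases ?_ (fun a => ?_) k) k
  · rw [Filter.EventuallyEq.fderiv_eq (f := fun _ => (1 : ℝ)) (ev.mono fun s hs => sh_last hs),
      sum_eq_zero fun a _ => if_neg (Fin.castSucc_lt_last _).ne']
    simp
  · rw [sum_eq_zero fun a _ => if_neg ((Fin.castSucc_injective _).ne (Fin.succ_ne_zero a).symm)]
    simp [sh_zero]
  · simp [Lsh]

theorem form_eq {𝔈 : (Fin (M + 2) → ℝ) → (Fin (M + 2) → ℝ) → ℝ} (h : Sm2 𝔈) {t : Fin (M + 1) → ℝ}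
    (hT : 1 / 2 < ∑ k, t k) : form 𝔈 t = Lsh t fun a => d1 𝔈 (sh t) (sh t) (inn a) := by
  funext m
  rw [form_apply h, fderiv_sh_eq hT]
  simp [d1, Lsh, Matrix.mulVec, dotProduct, Pi.single_apply]

/-- For a `C³` function `F` of two variables, `∂_{m'} (t ↦ d1 F t t e_m)` is the sum of the second
derivative of `t ↦ F t t₀` at `t₀` (symmetric in `m, m'`, so it drops by `sum_symm_eq_zero`) and of
`d12 F t₀ t₀ e_m e_{m'}`. -/
theorem omega_diag {F : (Fin N → ℝ) → (Fin N → ℝ) → ℝ} (h : Sm2 F) (t : Fin N → ℝ) :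
    omega (fun t m => d1 F t t (Pi.single m 1)) t =
      ∑ m', ∑ m, d12 F t t (Pi.single m 1) (Pi.single m' 1) • (ee m' * ee m) := by
  have k : ∀ m' m : Fin N, fderiv ℝ (fun t m => d1 F t t (Pi.single m 1)) t (Pi.single m' 1) m =
      fderiv ℝ (fderiv ℝ fun p : (Fin N → ℝ) × (Fin N → ℝ) => F p.1 p.2) (t, t)
        (Pi.single m' 1, 0) (Pi.single m 1, 0) + d12 F t t (Pi.single m 1) (Pi.single m' 1) := by
    intro m' m
    have a := fun m : Fin N => (HasFDerivAt.comp (f := fun e => (e, e)) t (h.diff2 (t, t)).hasFDerivAt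
      ((hasFDerivAt_id t).prodMk (hasFDerivAt_id t))).clm_apply
      (hasFDerivAt_const ((Pi.single m 1, 0) : (Fin N → ℝ) × (Fin N → ℝ)) t)
    simp only [h.d1_eq]
    rw [h.d12_eq, ← _root_.add_apply, ← map_add]
    refine (congrArg (· (Pi.single m' 1) m) (hasFDerivAt_pi.2 a).fderiv).trans ?_
    simp
  rw [omega_eq_sum]
  simp only [k, add_smul, sum_add_distrib]
  rw [sum_symm_eq_zero, zero_add]
  intro i j
  exact ((ContDiff.contDiffAt h).isSymmSndFDerivAt (by simp; norm_num)).eq _ _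

/-- `d12 (𝔈 ∘ (sh × sh)) t t v v' = d12 𝔈 (sh t) (sh t) (D sh v) (D sh v')`, bilinearity of `d12`
in the last two arguments, `fderiv_sh_eq`, `map_om`, `ι_eq_sum`. -/
theorem omega_form {𝔈 : (Fin (M + 2) → ℝ) → (Fin (M + 2) → ℝ) → ℝ} (h : Sm2 𝔈)
    {t : Fin (M + 1) → ℝ} (hT : 1 / 2 < ∑ k, t k) :
    omega (form 𝔈) t = ExteriorAlgebra.map (Lsh t) (om (curv 𝔈 (sh t))) := by
  refine (omega_diag (h.comp (contDiff_sh 3)) t).trans ?_
  simp only [h.d12_comp (contDiff_sh 3), fderiv_sh_eq hT, h.d12_sum, map_om, ι_eq_sum, sum_mul,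
    mul_sum, smul_sum, smul_mul_smul_comm, smul_smul, sum_smul, curv, Matrix.of_apply]
  conv_lhs => enter [2, m']; rw [sum_comm]; enter [2, a]; rw [sum_comm]
  conv_lhs => rw [sum_comm]; enter [2, a]; rw [sum_comm]; enter [2, b]; rw [sum_comm]
  refine sum_congr rfl fun a _ => sum_congr rfl fun b _ => sum_congr rfl fun m _ =>
    sum_congr rfl fun m' _ => ?_
  congr 1
  ring

end Crest.Agent.R192
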