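import Crest.Agent.R192.Curv

/-!
# R192: volume factor, faces and cyclic shift of the connection form
-/

set_option autoImplicit false

open Finset ExteriorAlgebra

namespace Crest.Agent.R192

variable {N M : ℕ}

theorem Lsh_single {t : Fin (M + 1) → ℝ} (hT : 1 / 2 < ∑ k, t k) (a : Fin M) (m : Fin (M + 1)) :
    Lsh t (Pi.single a 1) m =
      (if (m : ℕ) < a + 1 then 1 else 0) / (∑ k, t k) - ps t (a + 1) / (∑ k, t k) ^ 2 := by
  rw [Lsh, Matrix.mulVecLin_apply, Matrix.mulVec_single_one, Matrix.col_apply, Matrix.of_apply,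
    fderiv_sh hT]
  rfl

theorem curvB_det (M : ℕ) : |(Matrix.of (Fin.cons (fun _ => (1 : ℝ))
    fun (a : Fin M) (m : Fin (M + 1)) => if (m : ℕ) < a + 1 then (1 : ℝ) else 0 :
      Fin (M + 1) → Fin (M + 1) → ℝ)).det| = 1 := by
  set C : Matrix (Fin (M + 1)) (Fin (M + 1)) ℝ := Matrix.of (Fin.cons (fun _ => (1 : ℝ))
    fun (a : Fin M) (m : Fin (M + 1)) => if (m : ℕ) < a + 1 then (1 : ℝ) else 0 :
      Fin (M + 1) → Fin (M + 1) → ℝ) with hC
  have e : ∀ i m, C.submatrix (finRotate (M + 1)) id i m = if m ≤ i then 1 else 0 := fun i m => by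
    refine Fin.lastCases ?_ (fun a => ?_) i
    · simp [hC, Fin.le_last]
    · simp [hC, Fin.coeSucc_eq_succ, Fin.le_def]
  have h1 : (C.submatrix (finRotate (M + 1)) id).det = 1 := by
    rw [Matrix.det_of_isLowerTriangular _ fun i m h => by
      rw [e, if_neg (not_le.2 (show i < m from h))]]
    simp only [e, le_refl, if_true, prod_const_one]
  rw [Matrix.det_permute] at h1
  have h2 := congrArg (|·|) h1
  rcases Int.units_eq_one_or (Equiv.Perm.sign (finRotate (M + 1))) with h | h <;>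
    simpa [h] using h2

/-- `ι𝟙 * map L (vol M) = ιMulti (Fin.cons 𝟙 (L e_a))`; `L e_a = 1_{≤ a} / T - (ps/T²) 𝟙`
(`fderiv_sh`), so the determinant is `T^{-M} det (𝟙, 1_{≤ 0}, …, 1_{≤ M-1})` (row operations, e.g.
factor the matrix as (lower triangular) × (constant matrix)), and the constant determinant is `±1`
(a cyclic permutation of the rows of a unitriangular matrix). -/
theorem top_Lsh (M : ℕ) : ∃ σ : ℝ, |σ| = 1 ∧ ∀ t : Fin (M + 1) → ℝ, 1 / 2 < ∑ k, t k →
    top (M + 1) (ι ℝ (1 : Fin (M + 1) → ℝ) * ExteriorAlgebra.map (Lsh t) (vol M)) =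
      σ / (∑ k, t k) ^ M := by
  refine ⟨_, curvB_det M, fun t hT => ?_⟩
  have e : (ι ℝ (1 : Fin (M + 1) → ℝ) : Gr (M + 1)) * ExteriorAlgebra.map (Lsh t) (vol M) =
      ιMulti ℝ (M + 1) (Fin.cons 1 fun a => Lsh t (Pi.single a 1) :
        Fin (M + 1) → Fin (M + 1) → ℝ) := by
    rw [vol, map_apply_ιMulti, ιMulti_succ_apply]
    rfl
  rw [e, top_ιMulti, div_eq_inv_mul, ← inv_pow]
  have h1 : ((∑ k, t k)⁻¹) ^ M =
      ∏ i, (Fin.cons 1 fun _ : Fin M => (∑ k, t k)⁻¹ : Fin (M + 1) → ℝ) i := by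
    simp [Fin.prod_univ_succ]
  rw [h1, ← Matrix.det_mul_column]
  refine Matrix.det_eq_of_forall_row_eq_smul_add_const
    (Fin.cons 0 fun a => -(ps t (a + 1) / (∑ k, t k) ^ 2)) 0 rfl fun i m => ?_
  refine Fin.cases ?_ (fun a => ?_) i
  · simp
  · simp only [Matrix.of_apply, Fin.cons_succ, Fin.cons_zero, Lsh_single hT]
    ring

theorem abs_Lsh_le {t : Fin (M + 1) → ℝ} (ht : ∀ k, 0 ≤ t k) (hT : 1 ≤ ∑ k, t k) (a : Fin M)
    (m : Fin (M + 1)) : |Lsh t (Pi.single a 1) m| ≤ 1 := by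
  have hT0 : 0 < ∑ k, t k := by linarith
  have h1 : 0 ≤ ps t (a + 1) := sum_nonneg fun k _ => by
    split_ifs
    exacts [ht k, le_rfl]
  have h2 : ps t (a + 1) ≤ ∑ k, t k := sum_le_sum fun k _ => by
    split_ifs
    exacts [le_rfl, ht k]
  have h3 : 0 ≤ ps t (a + 1) / (∑ k, t k) ^ 2 := by positivity
  have h4 : ps t (a + 1) / (∑ k, t k) ^ 2 ≤ 1 := by
    rw [div_le_one (by positivity)]
    nlinarith
  have h5 : 1 / ∑ k, t k ≤ 1 := (div_le_one hT0).2 hT
  have h6 : 0 ≤ 1 / ∑ k, t k := by positivity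
  rw [Lsh_single (by linarith), abs_le]
  split_ifs
  · constructor <;> linarith
  · rw [zero_div]
    constructor <;> linarith

/-- Insertion of a zero coordinate as a continuous linear map. -/
noncomputable def insL (i : Fin (N + 1)) : (Fin N → ℝ) →L[ℝ] (Fin (N + 1) → ℝ) :=
  LinearMap.toContinuousLinearMap
    { toFun := fun t => i.insertNth 0 t
      map_add' := fun t t' => by
        funext k
        refine i.succAboveCases ?_ (fun j => ?_) k <;> simp
      map_smul' := fun c t => by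
        funext k
        refine i.succAboveCases ?_ (fun j => ?_) k <;> simp }

theorem insL_apply (i : Fin (N + 1)) (t : Fin N → ℝ) : insL i t = i.insertNth 0 t := rfl

theorem diff_sh (t : Fin N → ℝ) : DifferentiableAt ℝ (sh : (Fin N → ℝ) → Fin (N + 1) → ℝ) t :=
  (contDiff_sh 1).differentiable (by norm_num) t

/-- `𝔈 (sh (ins t')) (sh (ins t)) = 𝔈' (sh t') (sh t)` for all `t'` by `fc_sh`; chain rule along the
linear map `ins = i.insertNth 0`, which sends `single j 1` to `single (i.succAbove j) 1`. -/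
theorem face_form {i : Fin (N + 1)} {𝔈 : (Fin (N + 2) → ℝ) → (Fin (N + 2) → ℝ) → ℝ}
    {𝔈' : (Fin (N + 1) → ℝ) → (Fin (N + 1) → ℝ) → ℝ} (h : Sm2 𝔈) (hf : FaceRel i 𝔈 𝔈') :
    face i (form 𝔈) = form 𝔈' := by
  funext t j
  have e : (fun t' => 𝔈' (sh t') (sh t)) =
      (fun t' => 𝔈 (sh t') (sh (insL i t))) ∘ insL i := funext fun t' =>
    (hf _ _ _ _ (fc_sh i t') (fc_sh i t)).symm
  have hd : DifferentiableAt ℝ (fun t' => 𝔈 (sh t') (sh (insL i t))) (insL i t) :=
    ((h.left _).differentiable (by norm_num) _).comp _ (diff_sh _)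
  have e2 : insL i (Pi.single j 1) = Pi.single (i.succAbove j) 1 := by
    funext k
    refine i.succAboveCases ?_ (fun l => ?_) k <;> simp [insL_apply, Pi.single_apply]
  rw [form, e, fderiv_comp _ hd (insL i).differentiableAt, (insL i).fderiv,
    ContinuousLinearMap.comp_apply, e2]
  rfl

theorem diff_shS (s : Fin (N + 2) → ℝ) :
    DifferentiableAt ℝ (shS : (Fin (N + 2) → ℝ) → Fin (N + 2) → ℝ) s := by
  refine differentiableAt_pi.2 fun m => ?_
  refine Fin.lastCases ?_ (fun m => ?_) m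
  · simp only [shS_last]
    fun_prop
  · simp only [shS_castSucc]
    fun_prop

/-- Let `s = sh t`, `ρ = finRotate`, `P t = t ∘ ρ` (so `P (single (ρ j) 1) = single j 1`),
`w = single (ρ j) 1`. Near `t`, `sh (P t') = shS (sh t') - u t'`, `u t' = sh t' 1` (`sh_rotate`).
So `form 𝔈' (P t) j = d1 𝔈' (shS s - u) (shS s - u) (D (shS ∘ sh) w - Du w • 𝟙)
 = d1 𝔈' (shS s) (shS s) (D (shS ∘ sh) w) - Du w` (`transl`, `norm`, `per_shS`), and
`d1 𝔈' (shS s) (shS s) (D (shS ∘ sh) w)` is the derivative in direction `w` of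
`t' ↦ 𝔈' (shS (sh t')) (shS s) = 𝔈 (sh t') s + g s` (near `t`), i.e. `form 𝔈 t (ρ j)`. -/
theorem shift_form {𝔈 𝔈' : (Fin (N + 2) → ℝ) → (Fin (N + 2) → ℝ) → ℝ} (h : Sm2 𝔈)
    (h' : IsConn 𝔈') (hs : ShiftRel 𝔈 𝔈') {t : Fin (N + 1) → ℝ} (hT : 1 / 2 < ∑ k, t k)
    (j : Fin (N + 1)) :
    form 𝔈' (fun i => t (finRotate (N + 1) i)) j =
      form 𝔈 t (finRotate (N + 1) j) -
        fderiv ℝ (fun t => sh t 1) t (Pi.single (finRotate (N + 1) j) 1) := by
  obtain ⟨g, hg⟩ := hs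
  let P : (Fin (N + 1) → ℝ) →L[ℝ] (Fin (N + 1) → ℝ) :=
    ContinuousLinearMap.pi fun i => ContinuousLinearMap.proj (finRotate (N + 1) i)
  have hP : ∀ t, P t = fun i => t (finRotate (N + 1) i) := fun _ => rfl
  have e1 : P (Pi.single (finRotate (N + 1) j) 1) = Pi.single j 1 := by
    funext k
    simp only [hP, Pi.single_apply, EmbeddingLike.apply_eq_iff_eq]
  have ev : ∀ᶠ s : Fin (N + 1) → ℝ in nhds t, 1 / 2 < ∑ i, s i :=
    (continuous_finsetSum _ fun i _ => continuous_apply i).continuousAt.eventually (lt_mem_nhds hT)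
  have d0 : DifferentiableAt ℝ (fun t' : Fin (N + 1) → ℝ => shS (sh t')) t :=
    (diff_shS _).comp _ (diff_sh t)
  have d1' : DifferentiableAt ℝ (fun t' : Fin (N + 1) → ℝ => sh t' 1) t :=
    differentiableAt_pi.1 (diff_sh t) 1
  have e2 : fderiv ℝ sh (P t) (Pi.single j 1) =
      fderiv ℝ (fun t' => shS (sh t')) t (Pi.single (finRotate (N + 1) j) 1) -
        fderiv ℝ (fun t => sh t 1) t (Pi.single (finRotate (N + 1) j) 1) • fun _ => (1 : ℝ) := by
    have h1 := (diff_sh (P t)).hasFDerivAt.comp t P.hasFDerivAt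
    have h2 := (d0.hasFDerivAt.sub (d1'.hasFDerivAt.smul_const fun _ : Fin (N + 2) => (1 : ℝ))
      ).congr_of_eventuallyEq (f₁ := sh ∘ P) (ev.mono fun s hs => by
        rw [Function.comp_apply, hP, sh_rotate hs]
        funext m
        simp [sub_eq_add_neg])
    rw [← e1]
    exact congrArg (· (Pi.single (finRotate (N + 1) j) 1)) (h1.unique h2)
  have e3 : d1 𝔈' (shS (sh t)) (shS (sh t))
      (fderiv ℝ (fun t' => shS (sh t')) t (Pi.single (finRotate (N + 1) j) 1)) =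
      form 𝔈 t (finRotate (N + 1) j) := by
    have h1 := ((h'.smooth.left (shS (sh t))).differentiable (by norm_num)
      (shS (sh t))).hasFDerivAt.comp t d0.hasFDerivAt
    have h2 := (((h.left (sh t)).differentiable (by norm_num) _).comp t
      (diff_sh t)).hasFDerivAt.add_const (g (sh t)) |>.congr_of_eventuallyEq
        (f₁ := (fun s => 𝔈' s (shS (sh t))) ∘ fun t' => shS (sh t'))
        (ev.mono fun s hs => hg _ _ (per_sh hs) (per_sh hT))
    exact congrArg (· (Pi.single (finRotate (N + 1) j) 1)) (h1.unique h2)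
  rw [form_apply h'.smooth, ← hP, e2, hP, sh_rotate hT, h'.transl _ _ _ per_shS, ← e3, d1, map_sub,
    map_smul, smul_eq_mul]
  have h4 := h'.norm (shS (sh t)) per_shS
  rw [d1] at h4
  rw [h4, mul_one, d1]

end Crest.Agent.R192
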