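import Mathlib

/-!
# R192 (ℓ¹-Bass), basic definitions

`Len G β ϱ` : a truncated word length `d ≤ ϱ` on a group with finite open ball of radius `ϱ`.
`L.c a b = ϱ - d(a⁻¹ b) ∈ [0, ϱ]` is a symmetric, left invariant kernel of finite range.
`L.B f f' = ∑ f a * c a b * f' b` on finitely supported real functions.
`Mech` : the API of the "mechanism" `μ ↦ Q μ` (smoothing of probability vectors).
-/

set_option autoImplicit false

open Finset Filter Topology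
open scoped Classical

namespace Crest.Agent.R192

/-- A truncated length function. -/
structure Len (G : Type) [Group G] (β ϱ : ℕ) where
  d : G → ℕ
  d_one : d 1 = 0
  d_inv : ∀ g, d g⁻¹ = d g
  d_mul : ∀ g g', d (g * g') ≤ d g + d g'
  d_le : ∀ g, d g ≤ ϱ
  ball : Finset G
  mem_ball : ∀ g, g ∈ ball ↔ d g < ϱ
  card_ball : ball.card ≤ 2 ^ (β * ϱ)

variable {G : Type} [Group G] {β ϱ : ℕ}

/-- The kernel `c(a,b) = ϱ - d(a⁻¹ b)`. -/
def Len.c (L : Len G β ϱ) (a b : G) : ℝ := (ϱ : ℝ) - (L.d (a⁻¹ * b) : ℝ)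

/-- `(C f)(z) = ∑ a, c(z,a) f(a)`. -/
noncomputable def Len.Cv (L : Len G β ϱ) (f : G →₀ ℝ) (z : G) : ℝ :=
  f.sum fun a m => L.c z a * m

/-- The bilinear pairing `B(f,f') = ∑ a b, f a * c a b * f' b`. -/
noncomputable def Len.B (L : Len G β ϱ) (f f' : G →₀ ℝ) : ℝ :=
  f.sum fun a m => m * L.Cv f' a

/-- The neighbourhood `F · ball`. -/
noncomputable def Len.nb (L : Len G β ϱ) (F : Finset G) : Finset G :=
  Finset.image₂ (fun a b => a * b) F L.ball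

/-- Left translation of a finitely supported function. -/
noncomputable def lt (g : G) (f : G →₀ ℝ) : G →₀ ℝ := Finsupp.mapDomain (fun a => g * a) f

/-- Total mass. -/
noncomputable def tot (f : G →₀ ℝ) : ℝ := f.sum fun _ m => m

/-- ℓ¹ norm. -/
noncomputable def n1 (f : G →₀ ℝ) : ℝ := f.sum fun _ m => |m|

/-- Finitely supported probability vectors. -/
def Prob (μ : G →₀ ℝ) : Prop := (∀ a, 0 ≤ μ a) ∧ tot μ = 1

/-- `C³` families of finitely supported functions with locally uniformly finite support. -/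
def SmF {E : Type} [NormedAddCommGroup E] [NormedSpace ℝ E] (f : E → G →₀ ℝ) : Prop :=
  (∀ p, ∃ F : Finset G, ∀ᶠ p' in 𝓝 p, (f p').support ⊆ F) ∧
    ∀ a, ContDiff ℝ 3 fun p => f p a

/-- `ν` is a nonnegative combination of dipoles `δ_x - δ_x'` of total moment at most `Λ`. -/
def Len.Dip (L : Len G β ϱ) (ν : G →₀ ℝ) (Λ : ℝ) : Prop :=
  ∃ (K : Finset ℤ) (κ : ℤ → ℝ) (x x' : ℤ → G), (∀ k, 0 ≤ κ k) ∧
    ∑ k ∈ K, κ k * (L.d ((x k)⁻¹ * x' k) : ℝ) ≤ Λ ∧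
    ν = ∑ k ∈ K, κ k • (Finsupp.single (x k) (1 : ℝ) - Finsupp.single (x' k) 1)

/-- The API of the mechanism with resolution `R` and sensitivity `b`. -/
structure Mech (L : Len G β ϱ) (R b : ℝ) where
  /-- potential -/
  P : (G →₀ ℝ) → G → ℝ
  φ : ℝ → ℝ
  Q : (G →₀ ℝ) → G →₀ ℝ
  φ_smooth : ContDiff ℝ 3 φ
  φ'_nonneg : ∀ u, 0 ≤ deriv φ u
  Q_eq : ∀ μ y, Q μ y = φ (P μ y)
  Q_lt : ∀ g μ, Q (lt g μ) = lt g (Q μ)
  loc : ∀ μ y, y ∉ L.nb (L.nb μ.support) → Q μ y = 0 ∧ deriv φ (P μ y) = 0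
  smooth : ∀ (E : Type) [NormedAddCommGroup E] [NormedSpace ℝ E] (f : E → G →₀ ℝ), SmF f →
    ∀ y, ContDiff ℝ 3 fun p => P (f p) y
  Q_nonneg : ∀ μ y, 0 ≤ Q μ y
  Q_tot : ∀ μ, Prob μ → tot (Q μ) ≤ 2
  approx : ∀ μ, Prob μ → ∀ z, |L.Cv (Q μ - μ) z| ≤ 5 * R
  w_sum : ∀ μ, Prob μ → ∀ F : Finset G, ∑ y ∈ F, deriv φ (P μ y) ≤ 1
  sens : ∀ (E : Type) [NormedAddCommGroup E] [NormedSpace ℝ E] (f : E → G →₀ ℝ), SmF f →
    ∀ (p v : E) (ν : G →₀ ℝ) (Λ : ℝ), Prob (f p) →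
      (∀ a, fderiv ℝ (fun p => f p a) p v = ν a) → L.Dip ν Λ → ∀ F : Finset G,
        ∑ y ∈ F, deriv φ (P (f p) y) * (fderiv ℝ (fun p => P (f p) y) p v) ^ 2 ≤ b * Λ ^ 2

/-- At most half of the points `h^u z` (`u < 2^w`) lie in a ball of radius `ϱ`. -/
def Len.Good (L : Len G β ϱ) (h : G) (w : ℕ) : Prop :=
  ∀ x z : G, 2 * ((range (2 ^ w)).filter fun u => x⁻¹ * (h ^ u * z) ∈ L.ball).card ≤ 2 ^ w

/-- `1 +` length of the `a`-th inner step of the loop `(h; x)`. -/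
def Len.lam (L : Len G β ϱ) {M : ℕ} (x : Fin (M + 1) → G) (a : Fin M) : ℝ :=
  1 + (L.d ((x a.castSucc)⁻¹ * x a.succ) : ℝ)

/-- Total length of the loop `(h; x)`. -/
def Len.len (L : Len G β ϱ) {M : ℕ} (h : G) (x : Fin (M + 1) → G) : ℕ :=
  ∑ a : Fin M, L.d ((x a.castSucc)⁻¹ * x a.succ) + L.d ((x (Fin.last M))⁻¹ * (h * x 0))

end Crest.Agent.R192
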