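import Mathlib

/-!
# R192: global `C³` inverse of a monotone map
-/

set_option autoImplicit false

open Finset

namespace Crest.Agent.R192

/-- An injective `C³` map with injective derivatives and bounded preimages of bounded sets. -/
private theorem fix_abs {V : Type} [NormedAddCommGroup V] [NormedSpace ℝ V] [FiniteDimensional ℝ V]
    {g : V → V} (hg : ContDiff ℝ 3 g) (hi : Function.Injective g)
    (hd : ∀ x v, fderiv ℝ g x v = 0 → v = 0) (hb : ∀ K, ∃ M, ∀ x, ‖g x‖ ≤ K → ‖x‖ ≤ M) :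
    ∃ X : V → V, ContDiff ℝ 3 X ∧ ∀ m, g (X m) = m := by
  have : CompleteSpace V := FiniteDimensional.complete ℝ V
  have : ProperSpace V := FiniteDimensional.proper ℝ V
  have h1 : ∀ x, ∃ D : V ≃L[ℝ] V, (D : V →L[ℝ] V) = fderiv ℝ g x := fun x =>
    ⟨(LinearEquiv.ofInjectiveEndo (fderiv ℝ g x : V →ₗ[ℝ] V)
      ((injective_iff_map_eq_zero _).2 (hd x))).toContinuousLinearEquiv, by ext v; rfl⟩
  choose D hD using h1
  have h2 : ∀ x, HasStrictFDerivAt g (D x : V →L[ℝ] V) x := fun x => by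
    rw [hD]
    exact hg.contDiffAt.hasStrictFDerivAt (by norm_num)
  have h3 : IsOpenMap g := isOpenMap_of_hasStrictFDerivAt_equiv h2
  have h4 : IsProperMap g := isProperMap_iff_isCompact_preimage.2 ⟨hg.continuous, fun K hK => by
    obtain ⟨r, hr⟩ := hK.isBounded.exists_norm_le
    obtain ⟨M, hM⟩ := hb r
    exact Metric.isCompact_of_isClosed_isBounded (hK.isClosed.preimage hg.continuous)
      (isBounded_iff_forall_norm_le.2 ⟨M, fun x hx => hM x (hr _ hx)⟩)⟩
  have h5 : Function.Surjective g := Set.range_eq_univ.1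
    (IsClopen.eq_univ ⟨h4.isClosedMap.isClosed_range, h3.isOpen_range⟩ (Set.range_nonempty g))
  let e : V ≃ₜ V := (Equiv.ofBijective g ⟨hi, h5⟩).toHomeomorphOfContinuousOpen hg.continuous h3
  exact ⟨e.symm, e.contDiff_symm (fun x => (h2 x).hasFDerivAt) hg, fun m => e.apply_symm_apply m⟩

private theorem fix_dual {A B : Type} [Fintype A] [Fintype B] (c : A → B → ℝ) {γ : ℝ} (hγ : 0 < γ)
    (y : A → ℝ) (w : B → ℝ) :
    ∑ a, y a * ∑ b, c a b * w b = -(1 / γ) * ∑ b, w b * (-γ * ∑ a, c a b * y a) := by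
  simp only [mul_sum]
  rw [sum_comm]
  refine sum_congr rfl fun b _ => sum_congr rfl fun a _ => ?_
  field_simp

private theorem fix_mono {f : ℝ → ℝ} (hf : Monotone f) (s t : ℝ) : 0 ≤ (f s - f t) * (s - t) := by
  rcases le_total s t with h | h
  · exact mul_nonneg_of_nonpos_of_nonpos (sub_nonpos.2 (hf h)) (sub_nonpos.2 h)
  · exact mul_nonneg (sub_nonneg.2 (hf h)) (sub_nonneg.2 h)

private theorem fix_bound {A : Type} [Fintype A] {Y : ℝ → ℝ} (hY : StrictMono Y) (hY0 : Y 0 = 0)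
    {K : ℝ} (hK : 0 ≤ K) :
    ∃ M, 0 ≤ M ∧ ∀ x : A → ℝ, ∑ a, |Y (x a)| * (|x a| - K) ≤ 0 → ∀ a, |x a| ≤ M := by
  classical
  have h1 : 0 < Y 1 := hY0 ▸ hY one_pos
  have h2 : 0 < - Y (-1) := neg_pos.2 (hY0 ▸ hY (by norm_num))
  have h3 : 0 < min (Y 1) (- Y (-1)) := lt_min h1 h2
  have h4 : 0 ≤ max (Y K) (- Y (-K)) := le_max_of_le_left (hY0 ▸ hY.monotone hK)
  have h5 : ∀ t, -(K * max (Y K) (- Y (-K))) ≤ |Y t| * (|t| - K) := fun t => by
    rcases le_total K |t| with h | h
    · exact le_trans (neg_nonpos.2 (mul_nonneg hK h4)) (mul_nonneg (abs_nonneg _) (sub_nonneg.2 h))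
    · have h6 : |Y t| ≤ max (Y K) (- Y (-K)) := abs_le.2
        ⟨by linarith [hY.monotone (abs_le.1 h).1, le_max_right (Y K) (- Y (-K))],
          (hY.monotone (abs_le.1 h).2).trans (le_max_left _ _)⟩
      nlinarith [abs_nonneg t, abs_nonneg (Y t)]
  have h6 : ∀ t, 1 ≤ |t| → min (Y 1) (- Y (-1)) ≤ |Y t| := fun t ht => by
    rcases le_abs.1 ht with h | h
    · exact (min_le_left _ _).trans ((hY.monotone h).trans (le_abs_self _))
    · exact (min_le_right _ _).trans
        ((neg_le_neg (hY.monotone (by linarith : t ≤ -1))).trans (neg_le_abs _))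
  generalize min (Y 1) (- Y (-1)) = m0 at h3 h6
  generalize hC : K * max (Y K) (- Y (-K)) = C at h5
  have hC0 : 0 ≤ C := hC ▸ mul_nonneg hK h4
  refine ⟨1 + K + Fintype.card A * C / m0, by positivity, fun x hx a => ?_⟩
  by_contra h7
  rw [not_le] at h7
  have h8 : 0 ≤ Fintype.card A * C / m0 := by positivity
  have h9 : |Y (x a)| * (|x a| - K) + C ≤ ∑ a, (|Y (x a)| * (|x a| - K) + C) :=
    single_le_sum (f := fun a => |Y (x a)| * (|x a| - K) + C)
      (fun a _ => by linarith [h5 (x a)]) (mem_univ a)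
  rw [sum_add_distrib, sum_const, card_univ, nsmul_eq_mul] at h9
  have h10 : m0 * (|x a| - K) ≤ |Y (x a)| * (|x a| - K) :=
    mul_le_mul_of_nonneg_right (h6 _ (by linarith)) (by linarith)
  have h11 : Fintype.card A * C / m0 < |x a| - K := by linarith
  rw [div_lt_iff₀ h3] at h11
  linarith

/-- Let `Gm x a = x a - ∑ b, c a b * φ (u x b)`, `u x b = -γ ∑ a', c a' b * Y (x a')`.
Then `Gm` has a global `C³` right inverse.

Proof. (1) Injective: if `Gm x = Gm x'` then
`∑ (x - x') (Y x - Y x') = ∑_b (φ u - φ u') ∑_a c a b (Y x - Y x') = -(1/γ) ∑ (φ u - φ u')(u - u') ≤ 0`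
and each term `(x a - x' a)(Y (x a) - Y (x' a))` is `≥ 0`, `> 0` if `x a ≠ x' a`
(`Y` strictly monotone since `deriv Y > 0`).
(2) The derivative `D v = v + γ c φ'(u) cᵀ (Y'(x) v)` is injective: pair `D v = 0` with `Y'(x) v`:
`∑ Y' v² + γ ∑ φ'(u) (cᵀ Y' v)² = 0` (`deriv φ ≥ 0` by `Monotone.deriv_nonneg`), so it is a
continuous linear equivalence (finite dimension).
(3) A priori bound: `∑ a, Y (x a) * (x a - Gm x a) = (1/γ)·(-∑ u φ(u)) ≤ 0`... precisely
`∑ Y(x a) * Gm x a = ∑ Y(x a) x a + (1/γ) ∑ u φ(u) ≥ ∑ Y (x a) x a`; so if `‖Gm x‖ ≤ K` then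
`∑ |Y (x a)| (|x a| - K) ≤ 0`, which bounds `‖x‖` in terms of `K` (terms with `|x a| ≤ K` are
`≥ -K max(Y K, -Y(-K))`, a term with `|x a| ≥ K + 1` is `≥ min (Y 1, -Y (-1)) (|x a| - K)`).
Hence the range of `Gm` is closed (bounded sequences have convergent subsequences / the
preimage of a closed ball is compact), open (inverse function theorem,
`HasStrictFDerivAt.map_nhds_eq_of_equiv`), nonempty, so everything (`isClopen_iff`).
(4) The inverse `X` agrees near every point with `ContDiffAt.localInverse`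
(injectivity), which is `C³` (`ContDiffAt.to_localInverse`); alternatively build a
`Homeomorph` and use `Homeomorph.contDiff_symm`. -/
theorem exists_inverse {A B : Type} [Fintype A] [Fintype B] (c : A → B → ℝ) (γ : ℝ) (hγ : 0 < γ)
    (φ Y : ℝ → ℝ) (hφ : ContDiff ℝ 3 φ) (hφm : Monotone φ) (hφ0 : ∀ u, 0 ≤ u * φ u)
    (hY : ContDiff ℝ 3 Y) (hY' : ∀ t, 0 < deriv Y t) (hY0 : Y 0 = 0) :
    ∃ X : (A → ℝ) → (A → ℝ), ContDiff ℝ 3 X ∧
      ∀ m a, X m a - ∑ b, c a b * φ (-γ * ∑ a', c a' b * Y (X m a')) = m a := by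
  have hYm : StrictMono Y := strictMono_of_deriv_pos hY'
  have hγ' : 0 < 1 / γ := by positivity
  have hu : ∀ b, ContDiff ℝ 3 fun x : A → ℝ => -γ * ∑ a', c a' b * Y (x a') := fun b =>
    contDiff_const.mul (ContDiff.sum fun a _ => contDiff_const.mul (hY.comp (contDiff_apply ℝ ℝ a)))
  set g : (A → ℝ) → A → ℝ :=
    fun x a => x a - ∑ b, c a b * φ (-γ * ∑ a', c a' b * Y (x a')) with hg
  have hgs : ContDiff ℝ 3 g := contDiff_pi.2 fun a =>
    (contDiff_apply ℝ ℝ a).sub (ContDiff.sum fun b _ => contDiff_const.mul (hφ.comp (hu b)))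
  refine (fix_abs hgs (fun x x' h => ?_) (fun x v h => ?_) fun K => ?_).imp
    fun X h => ⟨h.1, fun m a => congrFun (h.2 m) a⟩
  · have e1 : ∀ a, x a - x' a = ∑ b, c a b * (φ (-γ * ∑ a', c a' b * Y (x a')) -
        φ (-γ * ∑ a', c a' b * Y (x' a'))) := fun a => by
      have := congrFun h a
      simp only [hg] at this
      simp only [mul_sub, sum_sub_distrib]
      linarith
    have e2 := fix_dual c hγ (fun a => Y (x a) - Y (x' a)) fun b =>
      φ (-γ * ∑ a', c a' b * Y (x a')) - φ (-γ * ∑ a', c a' b * Y (x' a'))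
    simp only [← e1] at e2
    have e3 : ∑ a, (Y (x a) - Y (x' a)) * (x a - x' a) ≤ 0 := by
      rw [e2, neg_mul, neg_nonpos]
      refine mul_nonneg hγ'.le (sum_nonneg fun b _ => ?_)
      simp only [mul_sub (c _ b), sum_sub_distrib, mul_sub (-γ)]
      exact fix_mono hφm _ _
    have e4 := (sum_eq_zero_iff_of_nonneg fun a _ => fix_mono hYm.monotone (x a) (x' a)).1
      (le_antisymm e3 (sum_nonneg fun a _ => fix_mono hYm.monotone (x a) (x' a)))
    funext a
    rcases mul_eq_zero.1 (e4 a (mem_univ a)) with h5 | h5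
    · exact hYm.injective (sub_eq_zero.1 h5)
    · exact sub_eq_zero.1 h5
  · have d0 : ∀ a, HasFDerivAt (fun x : A → ℝ => x a)
        (ContinuousLinearMap.proj (R := ℝ) (φ := fun _ : A => ℝ) a) x := fun a =>
      hasFDerivAt_apply a x
    have d1 := fun a => (hY.differentiable (by norm_num) (x a)).hasDerivAt.comp_hasFDerivAt x (d0 a)
    have d2 := fun b => (HasFDerivAt.fun_sum (u := univ)
      fun a _ => (d1 a).const_mul (c a b)).const_mul (-γ)
    have d3 := fun b => (hφ.differentiable (by norm_num)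
      (-γ * ∑ a', c a' b * Y (x a'))).hasDerivAt.comp_hasFDerivAt x (d2 b)
    have d4 := fun a => (d0 a).fun_sub
      (HasFDerivAt.fun_sum (u := univ) fun b _ => (d3 b).const_mul (c a b))
    have e1 : ∀ a, v a = ∑ b, c a b * (deriv φ (-γ * ∑ a', c a' b * Y (x a')) *
        (-γ * ∑ a', c a' b * (deriv Y (x a') * v a'))) := fun a => by
      have h5 := (hasFDerivAt_pi'.1 (hgs.differentiable (by norm_num) x).hasFDerivAt a).unique (d4 a)
      have h6 := congrArg (fun D : (A → ℝ) →L[ℝ] ℝ => D v) h5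
      simp only [ContinuousLinearMap.comp_apply, h, map_zero, _root_.sub_apply, _root_.sum_apply,
        _root_.smul_apply, smul_eq_mul, ContinuousLinearMap.proj_apply] at h6
      linarith
    have e2 := fix_dual c hγ (fun a => deriv Y (x a) * v a) fun b =>
      deriv φ (-γ * ∑ a', c a' b * Y (x a')) * (-γ * ∑ a', c a' b * (deriv Y (x a') * v a'))
    simp only [← e1] at e2
    have e0 : ∀ a ∈ (univ : Finset A), 0 ≤ deriv Y (x a) * v a * v a := fun a _ => by
      rw [mul_assoc]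
      exact mul_nonneg (hY' _).le (mul_self_nonneg _)
    have e3 : ∑ a, deriv Y (x a) * v a * v a ≤ 0 := by
      rw [e2, neg_mul, neg_nonpos]
      refine mul_nonneg hγ'.le (sum_nonneg fun b _ => ?_)
      rw [mul_assoc]
      exact mul_nonneg hφm.deriv_nonneg (mul_self_nonneg _)
    have e4 := (sum_eq_zero_iff_of_nonneg e0).1 (le_antisymm e3 (sum_nonneg e0))
    funext a
    have h5 := e4 a (mem_univ a)
    rw [mul_assoc] at h5
    exact mul_self_eq_zero.1 ((mul_eq_zero.1 h5).resolve_left (hY' _).ne')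
  · obtain ⟨M, hM0, hM⟩ := fix_bound (A := A) hYm hY0 (abs_nonneg K)
    refine ⟨M, fun x hx => (pi_norm_le_iff_of_nonneg hM0).2 (hM x ?_)⟩
    have e1 : ∀ a, x a - g x a = ∑ b, c a b * φ (-γ * ∑ a', c a' b * Y (x a')) := fun a => by
      simp only [hg]
      ring
    have e2 := fix_dual c hγ (fun a => Y (x a)) fun b => φ (-γ * ∑ a', c a' b * Y (x a'))
    simp only [← e1] at e2
    have e3 : ∑ a, Y (x a) * (x a - g x a) ≤ 0 := by
      rw [e2, neg_mul, neg_nonpos]
      exact mul_nonneg hγ'.le (sum_nonneg fun b _ => by rw [mul_comm]; exact hφ0 _)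
    refine le_trans (sum_le_sum fun a _ => ?_) e3
    have e4 : |Y (x a)| * |x a| = Y (x a) * x a := by
      have := fix_mono hYm.monotone (x a) 0
      rw [hY0, sub_zero, sub_zero] at this
      rw [← abs_mul, abs_of_nonneg this]
    have e5 : Y (x a) * g x a ≤ |Y (x a)| * |K| := by
      refine (le_abs_self _).trans ?_
      rw [abs_mul]
      exact mul_le_mul_of_nonneg_left
        ((norm_le_pi_norm (g x) a).trans (hx.trans (le_abs_self K))) (abs_nonneg _)
    rw [mul_sub, mul_sub, e4]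
    linarith

end Crest.Agent.R192
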