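import Crest.Agent.R192.WN

/-!
# R192: pairing a cyclic cocycle with powers of an almost idempotent

Lift `a ∈ 𝔐[G]` to `â = mapDomain FreeMonoid.of a ∈ 𝔐[FreeMonoid G]`.
-/

set_option autoImplicit false

open Finset
open scoped Classical

namespace Crest.Agent.R192

/-- The combinatorial data extracted from the cocycle, in terms of lists of steps
(`N = n + 2` steps). -/
structure ListData {G : Type} [Group G] (C : Set G) (w : G → ℝ) (n : ℕ) (δ Kn : ℝ) where
  f : List G → ℝ
  χ : List G → ℝ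
  F : ℕ → List G → ℝ
  σ : ℕ → ℝ
  eq : ∀ l : List G, l.length = n + 2 → ind C l.prod = f l - ∑ i ∈ range (n + 2), σ i * F i l
  F_zero : ∀ (g g' : G) (l : List G), l.length = n → F 0 (g :: (l ++ [g'])) = χ (l ++ [g' * g])
  F_succ : ∀ (g g' : G) (l l' : List G), l.length + l'.length = n →
    F (l.length + 1) (l ++ (g :: g' :: l')) = χ (l ++ (g * g') :: l')
  odd : ∀ (g : G) (l : List G), l.length = n → χ (l ++ [g]) = -χ (g :: l)
  χ_le : ∀ l, |χ l| ≤ Kn
  σ_le : ∑ i ∈ range (n + 2), |σ i| ≤ Kn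
  f_le : ∀ l : List G, l.length = n + 2 → |f l| ≤ δ * (l.map w).prod

section helpers

variable {𝔐 : Type} [NormedRing 𝔐] {G : Type}

/-- The lift to the free monoid. -/
noncomputable def freeHat (a : MonoidAlgebra 𝔐 G) : MonoidAlgebra 𝔐 (FreeMonoid G) :=
  MonoidAlgebra.mapDomain FreeMonoid.of a

theorem freeHat_zero : freeHat (0 : MonoidAlgebra 𝔐 G) = 0 := MonoidAlgebra.mapDomain_zero _

theorem freeHat_add (a b : MonoidAlgebra 𝔐 G) : freeHat (a + b) = freeHat a + freeHat b :=
  MonoidAlgebra.mapDomain_add _ _ _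

theorem freeHat_single (g : G) (r : 𝔐) :
    freeHat (MonoidAlgebra.single g r) = MonoidAlgebra.single (FreeMonoid.of g) r :=
  MonoidAlgebra.mapDomain_single

/-- Homogeneous elements. -/
def FreeHom (k : ℕ) (ξ : MonoidAlgebra 𝔐 (FreeMonoid G)) : Prop :=
  ∀ l ∈ ξ.coeff.support, l.toList.length = k

theorem freeHom_one : FreeHom 0 (1 : MonoidAlgebra 𝔐 (FreeMonoid G)) := by
  intro l hl
  have := MonoidAlgebra.support_coeff_one_subset hl
  rw [Finset.mem_one] at this
  rw [this]
  rfl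

theorem FreeHom.mul {k k' : ℕ} {ξ ξ' : MonoidAlgebra 𝔐 (FreeMonoid G)} (h : FreeHom k ξ)
    (h' : FreeHom k' ξ') : FreeHom (k + k') (ξ * ξ') := by
  intro l hl
  obtain ⟨x, hx, y, hy, rfl⟩ := Finset.mem_mul.1 (MonoidAlgebra.support_coeff_mul_subset ξ ξ' hl)
  rw [FreeMonoid.toList_mul, List.length_append, h x hx, h' y hy]

theorem freeHom_hat (a : MonoidAlgebra 𝔐 G) : FreeHom 1 (freeHat a) := by
  intro l hl
  obtain ⟨g, -, rfl⟩ := Finset.mem_image.1 (Finsupp.mapDomain_support hl)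
  rfl

theorem freeHom_pow (a : MonoidAlgebra 𝔐 G) (k : ℕ) : FreeHom k (freeHat a ^ k) := by
  induction k with
  | zero => rw [pow_zero]; exact freeHom_one
  | succ k ih => rw [pow_succ]; exact ih.mul (freeHom_hat a)

@[elab_as_elim]
theorem FreeHom.induction {k : ℕ} {motive : MonoidAlgebra 𝔐 (FreeMonoid G) → Prop}
    {ξ : MonoidAlgebra 𝔐 (FreeMonoid G)} (h : FreeHom k ξ) (zero : motive 0)
    (add : ∀ x y, motive x → motive y → motive (x + y))
    (single : ∀ (l : FreeMonoid G) (r : 𝔐), l.toList.length = k →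
      motive (MonoidAlgebra.single l r)) : motive ξ := by
  rw [← MonoidAlgebra.sum_coeff_single ξ]
  exact Finset.sum_induction _ motive add zero fun l hl => single l _ (h l hl)

variable {tr : 𝔐 →+ ℂ} {cτ : ℝ}

theorem free_merge [Monoid G] {φ ψ : FreeMonoid G → ℝ} {m m' : ℕ}
    (H : ∀ (l l' : FreeMonoid G) (g g' : G), l.toList.length = m → l'.toList.length = m' →
      φ (l * (FreeMonoid.of g * FreeMonoid.of g') * l') = ψ (l * FreeMonoid.of (g * g') * l'))
    {X Y : MonoidAlgebra 𝔐 (FreeMonoid G)} (hX : FreeHom m X) (hY : FreeHom m' Y)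
    (b b' : MonoidAlgebra 𝔐 G) :
    pr tr φ (X * (freeHat b * freeHat b') * Y) = pr tr ψ (X * freeHat (b * b') * Y) := by
  refine hX.induction (by simp) (fun x y hx hy => by simp only [add_mul, map_add, hx, hy])
    fun l r hl => ?_
  refine hY.induction (by simp) (fun x y hx hy => by simp only [mul_add, map_add, hx, hy])
    fun l' r' hl' => ?_
  induction b using MonoidAlgebra.induction_linear with
  | zero => simp [freeHat_zero]
  | add x y hx hy => simp only [freeHat_add, add_mul, mul_add, map_add, hx, hy]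
  | single g s =>
    induction b' using MonoidAlgebra.induction_linear with
    | zero => simp [freeHat_zero]
    | add x y hx hy => simp only [freeHat_add, add_mul, mul_add, map_add, hx, hy]
    | single g' s' =>
      simp only [freeHat_single, MonoidAlgebra.single_mul_single, pr_single, H l l' g g' hl hl']

theorem free_merge0 [Monoid G] (htr : IsTr tr cτ) {φ ψ : FreeMonoid G → ℝ} {m : ℕ}
    (H : ∀ (l : FreeMonoid G) (g g' : G), l.toList.length = m →
      φ (FreeMonoid.of g * (l * FreeMonoid.of g')) = ψ (l * FreeMonoid.of (g' * g)))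
    {X : MonoidAlgebra 𝔐 (FreeMonoid G)} (hX : FreeHom m X) (b b' : MonoidAlgebra 𝔐 G) :
    pr tr φ (freeHat b * (X * freeHat b')) = pr tr ψ (X * freeHat (b' * b)) := by
  refine hX.induction (by simp) (fun x y hx hy => by simp only [add_mul, mul_add, map_add, hx, hy])
    fun l r hl => ?_
  induction b using MonoidAlgebra.induction_linear with
  | zero => simp [freeHat_zero]
  | add x y hx hy => simp only [freeHat_add, add_mul, mul_add, map_add, hx, hy]
  | single g s =>
    induction b' using MonoidAlgebra.induction_linear with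
    | zero => simp [freeHat_zero]
    | add x y hx hy => simp only [freeHat_add, add_mul, mul_add, map_add, hx, hy]
    | single g' s' =>
      simp only [freeHat_single, MonoidAlgebra.single_mul_single, pr_single, H l g g' hl]
      rw [htr.comm, mul_assoc]

theorem free_odd (htr : IsTr tr cτ) {φ : FreeMonoid G → ℝ} {m : ℕ}
    (H : ∀ (l : FreeMonoid G) (g : G), l.toList.length = m →
      φ (l * FreeMonoid.of g) = -φ (FreeMonoid.of g * l))
    {X : MonoidAlgebra 𝔐 (FreeMonoid G)} (hX : FreeHom m X) (b : MonoidAlgebra 𝔐 G) :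
    pr tr φ (X * freeHat b) = -pr tr φ (freeHat b * X) := by
  refine hX.induction (by simp)
    (fun x y hx hy => by simp only [add_mul, mul_add, map_add, hx, hy, neg_add]) fun l r hl => ?_
  induction b using MonoidAlgebra.induction_linear with
  | zero => simp [freeHat_zero]
  | add x y hx hy => simp only [freeHat_add, add_mul, mul_add, map_add, hx, hy, neg_add]
  | single g s =>
    simp only [freeHat_single, MonoidAlgebra.single_mul_single, pr_single, H l g hl]
    rw [htr.comm]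
    push_cast
    ring

theorem free_odd_pow (htr : IsTr tr cτ) {φ : FreeMonoid G → ℝ} {m : ℕ}
    (H : ∀ (l : FreeMonoid G) (g : G), l.toList.length = m →
      φ (l * FreeMonoid.of g) = -φ (FreeMonoid.of g * l)) (b : MonoidAlgebra 𝔐 G) :
    pr tr φ (freeHat b ^ (m + 1)) = 0 := by
  have h := free_odd htr H (freeHom_pow b m) b
  rw [← pow_succ, ← pow_succ'] at h
  linear_combination h / 2

theorem free_isWt [Monoid G] {w : G → ℝ} (hw : IsWt w) :
    IsWt fun l : FreeMonoid G => (l.toList.map w).prod where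
  one_le l := by
    induction l.toList with
    | nil => simp
    | cons g l ih =>
      rw [List.map_cons, List.prod_cons]
      exact one_le_mul_of_one_le_of_one_le (hw.one_le g) ih
  one := rfl
  mul l l' := by rw [FreeMonoid.toList_mul, List.map_append, List.prod_append]

theorem free_wn_pow [NormOneClass 𝔐] {W : FreeMonoid G → ℝ} (hW : IsWt W) (a : MonoidAlgebra 𝔐 G)
    (k : ℕ) : wn W (freeHat a ^ k) ≤ wn (fun g => W (FreeMonoid.of g)) a ^ k :=
  (wn_pow_le hW _ k).trans (pow_le_pow_left₀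
    (wn_nonneg (fun g => zero_le_one.trans (hW.one_le g)) _)
    (wn_mapDomain_le (fun g => zero_le_one.trans (hW.one_le g)) _ a) k)

theorem free_norm_le [NormOneClass 𝔐] (htr : IsTr tr cτ) {φ : FreeMonoid G → ℝ} {K : ℝ}
    (hφ : ∀ l, |φ l| ≤ K) (a b : MonoidAlgebra 𝔐 G) (m m' : ℕ) :
    ‖pr tr φ (freeHat a ^ m * freeHat b * freeHat a ^ m')‖ ≤
      cτ * (K * (wn (fun _ => 1) a ^ (m + m') * wn (fun _ => 1) b)) := by
  have hK : 0 ≤ K := (abs_nonneg _).trans (hφ 1)
  refine (norm_pr_le htr (w := fun l => K * (fun _ => (1 : ℝ)) l) _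
    fun l _ => by simpa using hφ l).trans (mul_le_mul_of_nonneg_left ?_ htr.nonneg)
  rw [wn_const_mul]
  refine mul_le_mul_of_nonneg_left ?_ hK
  have h0 : ∀ ξ : MonoidAlgebra 𝔐 (FreeMonoid G), 0 ≤ wn (fun _ => 1) ξ :=
    wn_nonneg fun _ => zero_le_one
  have h0' : ∀ ξ : MonoidAlgebra 𝔐 G, 0 ≤ wn (fun _ => 1) ξ := wn_nonneg fun _ => zero_le_one
  have h1 := free_wn_pow isWt_one a m
  have h2 := free_wn_pow isWt_one a m'
  have h3 : wn (fun _ => 1) (freeHat b) ≤ wn (fun _ => 1) b :=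
    wn_mapDomain_le (fun _ => zero_le_one) _ b
  have h4 := h0' a
  have h5 := h0' b
  calc _ ≤ wn (fun _ => 1) (freeHat a ^ m * freeHat b) * wn (fun _ => 1) (freeHat a ^ m') :=
        wn_mul_le isWt_one _ _
    _ ≤ wn (fun _ => 1) (freeHat a ^ m) * wn (fun _ => 1) (freeHat b) *
        wn (fun _ => 1) (freeHat a ^ m') :=
        mul_le_mul_of_nonneg_right (wn_mul_le isWt_one _ _) (h0 _)
    _ ≤ wn (fun _ => 1) a ^ m * wn (fun _ => 1) b * wn (fun _ => 1) a ^ m' :=
        mul_le_mul (mul_le_mul h1 h3 (h0 _) (by positivity)) h2 (h0 _) (by positivity)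
    _ = _ := by ring

theorem free_lift_pow [Monoid G] (a : MonoidAlgebra 𝔐 G) (k : ℕ) :
    MonoidAlgebra.mapDomain (FreeMonoid.lift (id : G → G)) (freeHat a ^ k) = a ^ k := by
  have h : MonoidAlgebra.mapDomainRingHom 𝔐 (FreeMonoid.lift (id : G → G)) (freeHat a) = a := by
    induction a using MonoidAlgebra.induction_linear with
    | zero => rw [freeHat_zero, map_zero]
    | add x y hx hy => rw [freeHat_add, map_add, hx, hy]
    | single g s => simp [freeHat_single]
  have h2 := map_pow (MonoidAlgebra.mapDomainRingHom 𝔐 (FreeMonoid.lift (id : G → G))) (freeHat a) k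
  rwa [h] at h2

end helpers

theorem ListData.face_le {𝔐 : Type} [NormedRing 𝔐] [NormOneClass 𝔐] {tr : 𝔐 →+ ℂ} {cτ : ℝ}
    (htr : IsTr tr cτ) {G : Type} [Group G] {C : Set G} {w : G → ℝ} {n : ℕ}
    {δ Kn : ℝ} (D : ListData C w n δ Kn) (a : MonoidAlgebra 𝔐 G) {i : ℕ} (hi : i < n + 2) :
    ‖pr tr (fun l : FreeMonoid G => D.F i l.toList) (freeHat a ^ (n + 2))‖ ≤
      cτ * (Kn * (wn (fun _ => 1) a ^ n * wn (fun _ => 1) (a * a - a))) := by
  have h0 : pr tr (fun l : FreeMonoid G => D.χ l.toList) (freeHat a ^ (n + 1)) = 0 :=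
    free_odd_pow htr (fun l g hl => D.odd g _ hl) a
  have h1 : freeHat (a * a) = freeHat a + freeHat (a * a - a) := by
    rw [← freeHat_add, add_sub_cancel]
  have key : ∀ m m', m + m' = n →
      ‖pr tr (fun l : FreeMonoid G => D.χ l.toList)
        (freeHat a ^ m * freeHat (a * a) * freeHat a ^ m')‖ ≤
      cτ * (Kn * (wn (fun _ => 1) a ^ n * wn (fun _ => 1) (a * a - a))) := by
    rintro m m' rfl
    rw [h1, mul_add, add_mul, map_add, ← pow_succ, ← pow_add, add_right_comm, h0, zero_add]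
    exact free_norm_le htr (fun l => D.χ_le _) a _ m m'
  rcases i with _ | m
  · have h2 := key n 0 rfl
    rw [pow_zero, mul_one, ← free_merge0 htr (φ := fun l : FreeMonoid G => D.F 0 l.toList)
      (ψ := fun l : FreeMonoid G => D.χ l.toList) (fun l g g' hl => D.F_zero g g' _ hl) (freeHom_pow a n), ← pow_succ, ← pow_succ'] at h2
    exact h2
  · obtain ⟨m', hm'⟩ : ∃ m', m + m' = n := ⟨n - m, by omega⟩
    have h2 := key m m' hm'
    rw [← free_merge (φ := fun l : FreeMonoid G => D.F (m + 1) l.toList) (fun l l' g g' hl hl' => ?_)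
      (freeHom_pow a m) (freeHom_pow a m'), ← sq, ← pow_add, ← pow_add,
      show m + 2 + m' = n + 2 by omega] at h2
    · exact h2
    · have h3 := D.F_succ g g' l.toList l'.toList (by omega)
      rw [hl] at h3
      simpa using h3

/-- Write `⟨φ, ξ⟩ = pr tr (fun l : FreeMonoid G => φ l.toList) ξ`, `â`, `ω = a² - a`, `ω̂`.
* Elements of the support of `â^k` are lists of length `k` (`MonoidAlgebra.support_coeff_mul`-type
  inclusion, induction); the same for products with one factor `b̂`.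
* `pr tr (ind C) (a^{n+2}) = ⟨ind C ∘ prod, â^{n+2}⟩` (`mapDomain (FreeMonoid.lift id)` is a ring
  homomorphism sending `â` to `a`; `pr_mapDomain`) `= ⟨f, â^{n+2}⟩ - ∑ σ i ⟨F i, â^{n+2}⟩`.
* `‖⟨f, â^{n+2}⟩‖ ≤ cτ δ wn W (â^{n+2}) ≤ cτ δ (wn w a)^{n+2}`, where `W l = (l.map w).prod` is a
  weight on the free monoid (`norm_pr_le`, `wn_pow_le`, `wn_mapDomain_le`).
* Merge: `⟨F (m+1), â^m â â â^{n-m}⟩ = ⟨χ, â^m (a a)^ â^{n-m}⟩` (induction on the two middle factors
  over `single`s, or `pr_mul` expansions), and by cyclicity (`pr_mul_comm`)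
  `⟨F 0, â (â^n â)⟩ = ⟨F 0 ∘ rotate, â^n â â⟩ = ⟨χ, â^n (a a)^⟩`.
* `(a a)^ = â + ω̂`; `⟨χ, â^{n+1}⟩ = ⟨χ, â^n â⟩ = -⟨χ, â â^n⟩`, so it vanishes;
  `‖⟨χ, â^m ω̂ â^{n-m}⟩‖ ≤ cτ Kn ‖a‖₁^n ‖ω‖₁`. -/
theorem ListData.bound {𝔐 : Type} [NormedRing 𝔐] [NormOneClass 𝔐] {tr : 𝔐 →+ ℂ} {cτ : ℝ}
    (htr : IsTr tr cτ) {G : Type} [Group G] {C : Set G} {w : G → ℝ} (hw : IsWt w) {n : ℕ}
    {δ Kn : ℝ} (hδ : 0 ≤ δ) (D : ListData C w n δ Kn) (a : MonoidAlgebra 𝔐 G) :
    ‖pr tr (ind C) (a ^ (n + 2))‖ ≤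
      cτ * (δ * wn w a ^ (n + 2) + Kn ^ 2 * wn (fun _ => 1) a ^ n * wn (fun _ => 1) (a * a - a)) := by
  have hK : 0 ≤ Kn := (abs_nonneg _).trans (D.χ_le [])
  have h1 : pr tr (ind C) (a ^ (n + 2)) =
      pr tr (fun l : FreeMonoid G => D.f l.toList) (freeHat a ^ (n + 2)) -
        ∑ i ∈ range (n + 2), (D.σ i : ℂ) *
          pr tr (fun l : FreeMonoid G => D.F i l.toList) (freeHat a ^ (n + 2)) := by
    rw [← free_lift_pow a, pr_mapDomain, ← pr_sum_fun, ← pr_sub_fun]
    refine pr_congr tr _ fun l hl => ?_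
    rw [← D.eq _ (freeHom_pow a _ l hl), FreeMonoid.lift_apply, List.map_id]
  have h2 : ‖pr tr (fun l : FreeMonoid G => D.f l.toList) (freeHat a ^ (n + 2))‖ ≤
      cτ * (δ * wn w a ^ (n + 2)) := by
    refine (norm_pr_le htr (w := fun l => δ * (fun l : FreeMonoid G => (l.toList.map w).prod) l) _
      fun l hl => D.f_le _ (freeHom_pow a _ l hl)).trans (mul_le_mul_of_nonneg_left ?_ htr.nonneg)
    rw [wn_const_mul]
    refine mul_le_mul_of_nonneg_left ?_ hδ
    simpa using free_wn_pow (free_isWt hw) a (n + 2)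
  set B : ℝ := cτ * (Kn * (wn (fun _ => 1) a ^ n * wn (fun _ => 1) (a * a - a))) with hB
  have hB0 : 0 ≤ B := (norm_nonneg _).trans (D.face_le htr a (i := 0) (by omega))
  have h3 : ‖∑ i ∈ range (n + 2), (D.σ i : ℂ) *
      pr tr (fun l : FreeMonoid G => D.F i l.toList) (freeHat a ^ (n + 2))‖ ≤ Kn * B := by
    refine (norm_sum_le _ _).trans (le_trans (sum_le_sum fun i hi => ?_)
      ((le_of_eq (sum_mul _ _ _).symm).trans (mul_le_mul_of_nonneg_right D.σ_le hB0)))
    rw [norm_mul, Complex.norm_real, Real.norm_eq_abs]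
    exact mul_le_mul_of_nonneg_left (D.face_le htr a (mem_range.1 hi)) (abs_nonneg _)
  rw [h1]
  refine (norm_sub_le _ _).trans ((add_le_add h2 h3).trans (le_of_eq ?_))
  rw [hB]
  ring

end Crest.Agent.R192
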