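import Crest.Agent.R192.GH

/-!
# R192: the Hilbert–Schmidt gain of a dense bounded kernel
-/

set_option autoImplicit false

open Finset Matrix MeasureTheory

namespace Crest.Agent.R192

theorem ghi_sum1 {κ : Type} [Fintype κ] (c : κ → ℝ) {f : κ → ℝ → ℝ} (hf : ∀ k, Continuous (f k))
    (a b : ℝ) : ∫ τ in a..b, ∑ k, c k * f k τ = ∑ k, c k * ∫ τ in a..b, f k τ := by
  rw [intervalIntegral.integral_finsetSum fun k _ =>
    ((hf k).const_mul (c k)).intervalIntegrable a b]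
  simp only [intervalIntegral.integral_const_mul]

theorem ghi_cont {f : ℝ → ℝ → ℝ} (hf : Continuous f.uncurry) (a b : ℝ) :
    Continuous fun τ => ∫ l in a..b, f τ l :=
  intervalIntegral.continuous_parametric_intervalIntegral_of_continuous' hf a b

theorem ghi_sum2 {κ : Type} [Fintype κ] (c : κ → ℝ) {f : κ → ℝ → ℝ → ℝ}
    (hf : ∀ k, Continuous (f k).uncurry) (a b a' b' : ℝ) :
    ∫ τ in a..b, ∫ l in a'..b', ∑ k, c k * f k τ l =
      ∑ k, c k * ∫ τ in a..b, ∫ l in a'..b', f k τ l := by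
  rw [← ghi_sum1 c fun k => ghi_cont (hf k) a' b']
  exact intervalIntegral.integral_congr fun τ _ =>
    ghi_sum1 c (fun k => (hf k).uncurry_left τ) a' b'

theorem ghi_mono2 {f g : ℝ → ℝ → ℝ} (hf : Continuous f.uncurry) (hg : Continuous g.uncurry)
    (h : ∀ τ l, f τ l ≤ g τ l) {a b a' b' : ℝ} (hab : a ≤ b) (hab' : a' ≤ b') :
    ∫ τ in a..b, ∫ l in a'..b', f τ l ≤ ∫ τ in a..b, ∫ l in a'..b', g τ l :=
  intervalIntegral.integral_mono_on hab ((ghi_cont hf a' b').intervalIntegrable a b)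
    ((ghi_cont hg a' b').intervalIntegrable a b) fun τ _ =>
      intervalIntegral.integral_mono_on hab' ((hf.uncurry_left τ).intervalIntegrable a' b')
        ((hg.uncurry_left τ).intervalIntegrable a' b') fun l _ => h τ l

theorem ghi_abs2 {f g : ℝ → ℝ → ℝ} (hf : Continuous f.uncurry) (hg : Continuous g.uncurry)
    (h : ∀ τ l, |f τ l| ≤ g τ l) {a b a' b' : ℝ} (hab : a ≤ b) (hab' : a' ≤ b') :
    |∫ τ in a..b, ∫ l in a'..b', f τ l| ≤ ∫ τ in a..b, ∫ l in a'..b', g τ l := by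
  refine abs_le'.2 ⟨ghi_mono2 hf hg (fun τ l => (le_abs_self _).trans (h τ l)) hab hab', ?_⟩
  have := ghi_mono2 (f := fun τ l => - f τ l) hf.neg hg (fun τ l => (neg_le_abs _).trans (h τ l))
    hab hab'
  simpa only [intervalIntegral.integral_neg] using this

theorem ghi_enl {Q : ℝ → ℝ → ℝ} (hQ : Continuous Q.uncurry) (h0 : ∀ τ l, 0 ≤ Q τ l) {h : ℝ}
    (hh : 0 ≤ h) :
    ∫ τ in (0 : ℝ)..1, ∫ l in (0 : ℝ)..h, Q τ (τ + l) ≤
      ∫ τ in (0 : ℝ)..(1 + h), ∫ l in (0 : ℝ)..(1 + h), Q τ l := by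
  have h1 : Continuous (fun τ l => Q τ (τ + l)).uncurry :=
    hQ.comp (continuous_fst.prodMk (continuous_fst.add continuous_snd))
  have h2 := ghi_cont hQ 0 (1 + h)
  calc ∫ τ in (0 : ℝ)..1, ∫ l in (0 : ℝ)..h, Q τ (τ + l)
      ≤ ∫ τ in (0 : ℝ)..1, ∫ l in (0 : ℝ)..(1 + h), Q τ l := by
        refine intervalIntegral.integral_mono_on zero_le_one
          ((ghi_cont h1 0 h).intervalIntegrable _ _) (h2.intervalIntegrable _ _) fun τ hτ => ?_
        rw [intervalIntegral.integral_comp_add_left (Q τ) τ]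
        exact intervalIntegral.integral_mono_interval (by linarith [hτ.1]) (by linarith)
          (by linarith [hτ.2]) (Filter.Eventually.of_forall (h0 τ))
          ((hQ.uncurry_left τ).intervalIntegrable _ _)
    _ ≤ _ := intervalIntegral.integral_mono_interval le_rfl zero_le_one (by linarith)
        (Filter.Eventually.of_forall fun τ =>
          intervalIntegral.integral_nonneg (by linarith) fun l _ => h0 τ l)
        (h2.intervalIntegrable _ _)

theorem ghi_opt {X ϱ q h : ℝ} (hϱ : 0 ≤ ϱ) (hq : 0 ≤ q) (hh : 0 < h)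
    (H : ∀ t, 0 < t → X ≤ ϱ * t / 2 * q + ϱ / (2 * t) * h) : X ≤ ϱ * √h * √q := by
  rcases hq.eq_or_lt with rfl | hq'
  · rw [Real.sqrt_zero, mul_zero]
    refine le_of_forall_pos_le_add fun ε hε => ?_
    have h1 : 0 < ϱ * h + 1 := by positivity
    refine (H ((ϱ * h + 1) / ε) (by positivity)).trans ?_
    rw [mul_zero, zero_add, zero_add, div_mul_eq_mul_div, div_le_iff₀ (by positivity)]
    field_simp
    nlinarith [mul_nonneg hϱ hh.le]
  · have h1 := Real.sqrt_pos.2 hq'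
    have h2 := Real.sqrt_pos.2 hh
    refine (H (√h / √q) (by positivity)).trans (le_of_eq ?_)
    have h3 := Real.mul_self_sqrt hq
    have h4 := Real.mul_self_sqrt hh.le
    generalize √q = u at *
    generalize √h = v at *
    subst h3 h4
    field_simp
    ring

theorem ghi_comm {Y κ : Type} [Fintype κ] (F : Finset Y) (f : Y → Y → κ → ℝ) :
    ∑ y ∈ F, ∑ y' ∈ F, ∑ k, f y y' k = ∑ k, ∑ y ∈ F, ∑ y' ∈ F, f y y' k := by
  rw [sum_congr rfl fun y _ => sum_comm, sum_comm]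

theorem ghi_QF {ι : Type} [Fintype ι] [DecidableEq ι] (Γ T : Matrix ι ι ℝ) :
    QF Γ T = ∑ k : (ι × ι) × ι × ι,
      T k.1.1 k.1.2 * T k.2.1 k.2.2 * (Γ k.1.1 k.2.1 * Γ k.2.2 k.1.2) := by
  simp only [QF, Matrix.trace, Matrix.diag_apply, Matrix.mul_apply, Matrix.transpose_apply,
    sum_mul, Fintype.sum_prod_type]
  rw [sum_congr rfl fun b _ => ghi_comm univ _, sum_comm]
  refine sum_congr rfl fun a _ => sum_congr rfl fun b _ => ?_
  rw [sum_comm]
  exact sum_congr rfl fun a' _ => sum_congr rfl fun b' _ => by ring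

theorem ghi_amgm {c g ϱ t : ℝ} (hc : |c| ≤ ϱ) (ht : 0 < t) :
    |c * g| ≤ ϱ * t / 2 * g ^ 2 + ϱ / (2 * t) := by
  have h1 : |g| ≤ t / 2 * g ^ 2 + 1 / (2 * t) := by
    have h2 : 0 ≤ (t * |g| - 1) ^ 2 / (2 * t) := by positivity
    have h3 : (t * |g| - 1) ^ 2 / (2 * t) = t / 2 * |g| ^ 2 + 1 / (2 * t) - |g| := by
      field_simp
      ring
    rw [h3, sq_abs] at h2
    linarith
  rw [abs_mul]
  calc |c| * |g| ≤ ϱ * (t / 2 * g ^ 2 + 1 / (2 * t)) :=
        mul_le_mul hc h1 (abs_nonneg _) ((abs_nonneg _).trans hc)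
    _ = _ := by ring

/-- Put `γ τ = ∑ y ∈ F, w τ y • vecMulVec (V τ y) (V τ y)` and `Γ a b = ∫ τ in 0..1+h, γ τ a b`
(positive semidefinite: `xᵀ Γ x = ∫ ∑ w (x·V)² ≥ 0`).  For a test matrix `T` let
`g τ τ' y y' = ∑ a b, T a b * V τ y a * V τ' y' b`.  Then
`∑ T A = ∫₀¹ ∫₀ʰ ∑ w τ y * w (τ+l) y' * c y y' * g τ (τ+l) y y'`, so by `|c| ≤ ϱ` and
Cauchy–Schwarz (e.g. `|g| ≤ (t g² + 1/t)/2` for every `t > 0`, then optimise in `t`)
`|∑ T A| ≤ ϱ √h √(∫₀¹ ∫₀ʰ ∑ w w g²)`, and, substituting `τ' = τ + l ∈ [τ, τ+h] ⊆ [0, 1+h]`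
and enlarging the domains (nonnegative integrands),
`∫₀¹ ∫₀ʰ ∑ w w g² ≤ ∫₀^{1+h} ∫₀^{1+h} ∑ w τ y * w τ' y' * g τ τ' y y' ^ 2 = QF Γ T`
(expand the square: `QF Γ T = ∑ T a b * T a' b' * Γ a a' * Γ b b'` up to symmetry of `Γ`). -/
theorem GH_integral {ι : Type} [Fintype ι] [DecidableEq ι] {Y : Type} (F : Finset Y)
    (c : Y → Y → ℝ) {ϱ h : ℝ} (hϱ : 0 ≤ ϱ) (hc : ∀ y y', |c y y'| ≤ ϱ) (hh : 0 < h)
    (w : ℝ → Y → ℝ) (V : ℝ → Y → ι → ℝ) (hw : ∀ y, Continuous fun τ => w τ y)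
    (hV : ∀ y a, Continuous fun τ => V τ y a) (hw0 : ∀ τ y, 0 ≤ w τ y)
    (hw1 : ∀ τ, ∑ y ∈ F, w τ y ≤ 1) (lam : ι → ℝ)
    (hD : ∀ a, ∫ τ in (0 : ℝ)..(1 + h), ∑ y ∈ F, w τ y * V τ y a ^ 2 ≤ lam a ^ 2) :
    GH (Matrix.of fun a b => ∫ τ in (0 : ℝ)..1, ∫ l in (0 : ℝ)..h,
        ∑ y ∈ F, ∑ y' ∈ F, (w τ y * V τ y a) * c y y' * (w (τ + l) y' * V (τ + l) y' b))
      lam (√(ϱ * √h)) := by
  obtain ⟨γ, hγ⟩ : ∃ γ : ι → ι → ℝ → ℝ, ∀ a b τ, γ a b τ = ∑ y ∈ F, w τ y * (V τ y a * V τ y b) :=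
    ⟨_, fun _ _ _ => rfl⟩
  have cγ : ∀ a b, Continuous (γ a b) := fun a b => by
    rw [funext (hγ a b)]
    fun_prop
  have h1h : (0 : ℝ) ≤ 1 + h := by linarith
  refine ⟨Real.sqrt_nonneg _, Matrix.of fun a b => ∫ τ in (0 : ℝ)..(1 + h), γ a b τ, ?_,
    fun a => ?_, fun T => ?_⟩
  · refine PosSemidef.of_dotProduct_mulVec_nonneg ?_ fun x => ?_
    · ext a b
      simp only [conjTranspose_apply, of_apply, star_trivial, hγ, mul_comm (V _ _ b)]
    · have e1 := ghi_sum1 (fun p : ι × ι => x p.1 * x p.2) (fun p => cγ p.1 p.2) 0 (1 + h)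
      have e2 : ∀ τ, ∑ p : ι × ι, x p.1 * x p.2 * γ p.1 p.2 τ =
          ∑ y ∈ F, w τ y * (∑ a, x a * V τ y a) ^ 2 := fun τ => by
        simp only [hγ, sq, sum_mul_sum, ← Fintype.sum_prod_type']
        simp only [mul_sum]
        rw [sum_comm]
        exact sum_congr rfl fun y _ => sum_congr rfl fun p _ => by ring
      have e3 : 0 ≤ ∫ τ in (0 : ℝ)..(1 + h), ∑ p : ι × ι, x p.1 * x p.2 * γ p.1 p.2 τ :=
        intervalIntegral.integral_nonneg h1h fun τ _ => by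
          rw [e2]
          exact sum_nonneg fun y _ => mul_nonneg (hw0 τ y) (sq_nonneg _)
      rw [e1, Fintype.sum_prod_type] at e3
      refine e3.trans_eq ?_
      simp only [dotProduct, mulVec, of_apply, star_trivial, mul_sum]
      exact sum_congr rfl fun a _ => sum_congr rfl fun b _ => by ring
  · simpa only [of_apply, hγ, sq] using hD a
  obtain ⟨g, hg⟩ : ∃ g : Y → Y → ℝ → ℝ → ℝ, ∀ y y' τ σ,
      g y y' τ σ = ∑ p : ι × ι, T p.1 p.2 * (V τ y p.1 * V σ y' p.2) := ⟨_, fun _ _ _ _ => rfl⟩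
  have cg : ∀ y y', Continuous fun p : ℝ × ℝ => g y y' p.1 p.2 := fun y y' => by
    simp only [hg]
    fun_prop
  obtain ⟨Q, hQ⟩ : ∃ Q : ℝ → ℝ → ℝ, ∀ τ σ,
      Q τ σ = ∑ y ∈ F, ∑ y' ∈ F, w τ y * w σ y' * g y y' τ σ ^ 2 := ⟨_, fun _ _ => rfl⟩
  have cQ : Continuous Q.uncurry := by
    change Continuous fun p : ℝ × ℝ => Q p.1 p.2
    simp only [hQ]
    fun_prop
  have Q0 : ∀ τ σ, 0 ≤ Q τ σ := fun τ σ => by
    rw [hQ]
    exact sum_nonneg fun y _ => sum_nonneg fun y' _ =>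
      mul_nonneg (mul_nonneg (hw0 _ _) (hw0 _ _)) (sq_nonneg _)
  -- the quadratic form as a double integral
  have e1 : QF (Matrix.of fun a b => ∫ τ in (0 : ℝ)..(1 + h), γ a b τ) T =
      ∫ τ in (0 : ℝ)..(1 + h), ∫ σ in (0 : ℝ)..(1 + h), Q τ σ := by
    have e2 : ∀ τ σ, Q τ σ = ∑ k : (ι × ι) × ι × ι,
        T k.1.1 k.1.2 * T k.2.1 k.2.2 * (γ k.1.1 k.2.1 τ * γ k.2.2 k.1.2 σ) := fun τ σ => by
      simp only [hQ, hg, hγ, sq, sum_mul_sum, ← Fintype.sum_prod_type']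
      simp only [mul_sum]
      rw [ghi_comm]
      exact sum_congr rfl fun k _ => sum_congr rfl fun y _ => sum_congr rfl fun y' _ => by ring
    simp only [e2]
    rw [ghi_sum2 (fun k : (ι × ι) × ι × ι => T k.1.1 k.1.2 * T k.2.1 k.2.2)
      (f := fun k τ σ => γ k.1.1 k.2.1 τ * γ k.2.2 k.1.2 σ)
      (fun k => ((cγ _ _).comp continuous_fst).mul ((cγ _ _).comp continuous_snd)), ghi_QF]
    simp only [of_apply, intervalIntegral.integral_const_mul, intervalIntegral.integral_mul_const]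
  have e3 : 0 ≤ ∫ τ in (0 : ℝ)..(1 + h), ∫ σ in (0 : ℝ)..(1 + h), Q τ σ :=
    intervalIntegral.integral_nonneg h1h fun τ _ =>
      intervalIntegral.integral_nonneg h1h fun σ _ => Q0 τ σ
  have cQ' : Continuous (fun τ l => Q τ (τ + l)).uncurry :=
    cQ.comp (continuous_fst.prodMk (continuous_fst.add continuous_snd))
  -- the pairing as a double integral
  have e4 := ghi_sum2 (fun p : ι × ι => T p.1 p.2) (f := fun p τ l => ∑ y ∈ F, ∑ y' ∈ F,
      (w τ y * V τ y p.1) * c y y' * (w (τ + l) y' * V (τ + l) y' p.2))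
    (fun p => by
      change Continuous fun q : ℝ × ℝ => ∑ y ∈ F, ∑ y' ∈ F,
        (w q.1 y * V q.1 y p.1) * c y y' * (w (q.1 + q.2) y' * V (q.1 + q.2) y' p.2)
      fun_prop) 0 1 0 h
  have e5 : ∀ τ σ, ∑ p : ι × ι, T p.1 p.2 * ∑ y ∈ F, ∑ y' ∈ F,
      (w τ y * V τ y p.1) * c y y' * (w σ y' * V σ y' p.2) =
      ∑ y ∈ F, ∑ y' ∈ F, w τ y * w σ y' * (c y y' * g y y' τ σ) := fun τ σ => by
    simp only [hg, mul_sum]
    rw [ghi_comm]
    exact sum_congr rfl fun k _ => sum_congr rfl fun y _ => sum_congr rfl fun y' _ => by ring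
  simp only [e5] at e4
  rw [Fintype.sum_prod_type] at e4
  simp only [of_apply]
  rw [← e4, e1, Real.sq_sqrt (mul_nonneg hϱ (Real.sqrt_nonneg _))]
  refine ghi_opt hϱ e3 hh fun t ht => ?_
  refine (ghi_abs2 (g := fun τ l => ϱ * t / 2 * Q τ (τ + l) + ϱ / (2 * t)) ?_
    ((cQ'.const_mul _).add_const _) (fun τ l => ?_) zero_le_one hh.le).trans ?_
  · change Continuous fun q : ℝ × ℝ => ∑ y ∈ F, ∑ y' ∈ F,
      w q.1 y * w (q.1 + q.2) y' * (c y y' * g y y' q.1 (q.1 + q.2))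
    have cg' : ∀ y y', Continuous fun q : ℝ × ℝ => g y y' q.1 (q.1 + q.2) := fun y y' =>
      (cg y y').comp (continuous_fst.prodMk (continuous_fst.add continuous_snd))
    fun_prop
  · have e6 : (∑ y ∈ F, w τ y) * ∑ y ∈ F, w (τ + l) y ≤ 1 :=
      mul_le_one₀ (hw1 _) (sum_nonneg fun y _ => hw0 _ y) (hw1 _)
    have e7 : 0 ≤ ϱ / (2 * t) := by positivity
    calc _ ≤ ∑ y ∈ F, ∑ y' ∈ F, w τ y * w (τ + l) y' *
          (ϱ * t / 2 * g y y' τ (τ + l) ^ 2 + ϱ / (2 * t)) := by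
          refine (abs_sum_le_sum_abs _ _).trans (sum_le_sum fun y _ =>
            (abs_sum_le_sum_abs _ _).trans (sum_le_sum fun y' _ => ?_))
          have e8 := mul_nonneg (hw0 τ y) (hw0 (τ + l) y')
          rw [abs_mul, abs_of_nonneg e8]
          exact mul_le_mul_of_nonneg_left (ghi_amgm (hc y y') ht) e8
      _ = ϱ * t / 2 * Q τ (τ + l) + ϱ / (2 * t) * ((∑ y ∈ F, w τ y) * ∑ y ∈ F, w (τ + l) y) := by
          simp only [hQ, sum_mul_sum]
          simp only [mul_sum, ← sum_add_distrib]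
          exact sum_congr rfl fun y _ => sum_congr rfl fun y' _ => by ring
      _ ≤ _ := add_le_add_right (mul_le_of_le_one_right e7 e6) _
  · have e6 : ∀ τ, ∫ l in (0 : ℝ)..h, (ϱ * t / 2 * Q τ (τ + l) + ϱ / (2 * t)) =
        ϱ * t / 2 * (∫ l in (0 : ℝ)..h, Q τ (τ + l)) + ϱ / (2 * t) * h := fun τ => by
      rw [intervalIntegral.integral_add
        (((cQ'.uncurry_left τ).const_mul _).intervalIntegrable _ _)
        (continuous_const.intervalIntegrable _ _), intervalIntegral.integral_const_mul,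
        intervalIntegral.integral_const, sub_zero, smul_eq_mul, mul_comm h]
    simp only [e6]
    rw [intervalIntegral.integral_add
      (((ghi_cont cQ' 0 h).const_mul _).intervalIntegrable _ _)
      (continuous_const.intervalIntegrable _ _), intervalIntegral.integral_const_mul]
    simp only [intervalIntegral.integral_const, sub_zero, one_smul]
    exact add_le_add_left (mul_le_mul_of_nonneg_left (ghi_enl cQ Q0 hh.le) (by positivity)) _

end Crest.Agent.R192
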