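import Mathlib

/-!
# R192: jump times, generating functions of connections

A loop with `N` slots has jump times `s : Fin (N+1) → ℝ` (slot `i` is occupied during
`[s i.castSucc, s i.succ]`).  `sh t` are the jump times for the durations `t / ∑ t`.
-/

set_option autoImplicit false

open Finset

namespace Crest.Agent.R192

variable {N M : ℕ}

/-- A smooth positive function equal to `T` for `T ≥ 1/2`. -/
noncomputable def rho (T : ℝ) : ℝ := T + (1 - T) * (1 - Real.smoothTransition (4 * T - 1))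

/-- Partial sums. -/
def ps (t : Fin N → ℝ) (m : ℕ) : ℝ := ∑ k : Fin N, if (k : ℕ) < m then t k else 0

/-- Normalised jump times. -/
noncomputable def sh (t : Fin N → ℝ) : Fin (N + 1) → ℝ := fun m => ps t m / rho (∑ k, t k)

section

variable {E : Type} [NormedAddCommGroup E] [NormedSpace ℝ E]

/-- Derivative in the first variable. -/
noncomputable def d1 (𝔈 : E → E → ℝ) (s s' v : E) : ℝ := fderiv ℝ (fun s => 𝔈 s s') s v

/-- Mixed second derivative. -/
noncomputable def d12 (𝔈 : E → E → ℝ) (s s' v v' : E) : ℝ :=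
  fderiv ℝ (fun s' => d1 𝔈 s s' v) s' v'

/-- Joint `C³` smoothness. -/
def Sm2 (𝔈 : E → E → ℝ) : Prop := ContDiff ℝ 3 fun p : E × E => 𝔈 p.1 p.2

end

/-- The direction of the `a`-th inner jump time. -/
def inn (a : Fin M) : Fin (M + 2) → ℝ := Pi.single a.succ.castSucc 1

/-- The curvature matrix in the inner jump times. -/
noncomputable def curv (𝔈 : (Fin (M + 2) → ℝ) → (Fin (M + 2) → ℝ) → ℝ) (s : Fin (M + 2) → ℝ) :
    Matrix (Fin M) (Fin M) ℝ := Matrix.of fun a b => d12 𝔈 s s (inn a) (inn b)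

/-- The connection form in the coordinates `t`. -/
noncomputable def form (𝔈 : (Fin (N + 1) → ℝ) → (Fin (N + 1) → ℝ) → ℝ) (t : Fin N → ℝ) :
    Fin N → ℝ := fun m => fderiv ℝ (fun t' => 𝔈 (sh t') (sh t)) t (Pi.single m 1)

/-- The generating function of the Kontsevich connection. -/
def E0 (N : ℕ) (s s' : Fin (N + 1) → ℝ) : ℝ :=
  ∑ i : Fin N, (s' i.succ - s' i.castSucc) * s i.castSucc

/-- Jump times of one period. -/
def Per (s : Fin (N + 1) → ℝ) : Prop := s (Fin.last N) = s 0 + 1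

/-- The simplex. -/
def Cell (s : Fin (N + 1) → ℝ) : Prop := Monotone s ∧ s 0 = 0 ∧ s (Fin.last N) = 1

/-- `s` lies on the face where slot `i` is empty, and `s'` are the jump times of the face. -/
def Fc (i : Fin (N + 1)) (s : Fin (N + 2) → ℝ) (s' : Fin (N + 1) → ℝ) : Prop :=
  s i.castSucc = s i.succ ∧
    ∀ j : Fin N, s (i.succAbove j).castSucc = s' j.castSucc ∧ s (i.succAbove j).succ = s' j.succ

/-- Cyclic shift of the jump times. -/
def shS (s : Fin (N + 2) → ℝ) : Fin (N + 2) → ℝ := Fin.snoc (α := fun _ => ℝ) (Fin.tail s) (s 1 + 1)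

/-- Cyclic shift of the slots. -/
def shX {G : Type} [Group G] (h : G) (x : Fin (N + 1) → G) : Fin (N + 1) → G :=
  Fin.snoc (α := fun _ => G) (Fin.tail x) (h * x 0)

def FaceRel (i : Fin (N + 1)) (𝔈 : (Fin (N + 2) → ℝ) → (Fin (N + 2) → ℝ) → ℝ)
    (𝔈' : (Fin (N + 1) → ℝ) → (Fin (N + 1) → ℝ) → ℝ) : Prop :=
  ∀ s₁ s₂ s₁' s₂', Fc i s₁ s₁' → Fc i s₂ s₂' → 𝔈 s₁ s₂ = 𝔈' s₁' s₂'

def ShiftRel (𝔈 𝔈' : (Fin (N + 2) → ℝ) → (Fin (N + 2) → ℝ) → ℝ) : Prop :=
  ∃ g : (Fin (N + 2) → ℝ) → ℝ, ∀ s s', Per s → Per s' → 𝔈' (shS s) (shS s') = 𝔈 s s' + g s'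

/-- The generating function of a connection on the time-rotation circle bundle. -/
structure IsConn (𝔈 : (Fin (N + 1) → ℝ) → (Fin (N + 1) → ℝ) → ℝ) : Prop where
  smooth : Sm2 𝔈
  transl : ∀ s (c : ℝ) v, Per s →
    d1 𝔈 (fun i => s i + c) (fun i => s i + c) v = d1 𝔈 s s v
  norm : ∀ s, Per s → d1 𝔈 s s (fun _ => 1) = 1

theorem rho_pos (T : ℝ) : 0 < rho T := by
  have h0 := Real.smoothTransition.nonneg (4 * T - 1)
  have h1 := Real.smoothTransition.le_one (4 * T - 1)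
  rw [rho]
  rcases le_or_gt T (1 / 4) with h | h
  · rw [Real.smoothTransition.zero_of_nonpos (by linarith)]
    linarith
  · rcases le_or_gt T 1 with h' | h'
    · nlinarith [mul_nonneg (sub_nonneg.2 h') (sub_nonneg.2 h1)]
    · nlinarith [mul_nonneg (sub_nonneg.2 h'.le) h0]

theorem rho_eq {T : ℝ} (hT : 1 / 2 ≤ T) : rho T = T := by
  rw [rho, Real.smoothTransition.one_of_one_le (by linarith)]
  ring

theorem contDiff_rho (n : ℕ) : ContDiff ℝ n rho := by
  have h : ContDiff ℝ n Real.smoothTransition := Real.smoothTransition.contDiff (n := n)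
  exact contDiff_id.add ((contDiff_const.sub contDiff_id).mul
    (contDiff_const.sub (h.comp (by fun_prop))))

theorem contDiff_sh (n : ℕ) : ContDiff ℝ n (sh : (Fin N → ℝ) → Fin (N + 1) → ℝ) := by
  refine contDiff_pi.2 fun m => ContDiff.div (ContDiff.sum fun k _ => ?_)
    ((contDiff_rho n).comp (by fun_prop)) fun t => (rho_pos _).ne'
  split_ifs <;> fun_prop

theorem sh_zero (t : Fin N → ℝ) : sh t 0 = 0 := by
  simp [sh, ps]

theorem sh_last {t : Fin N → ℝ} (hT : 1 / 2 < ∑ k, t k) : sh t (Fin.last N) = 1 := by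
  have : ps t N = ∑ k, t k := by simp [ps]
  rw [sh, Fin.val_last, this, rho_eq hT.le, div_self (by linarith)]

theorem per_sh {t : Fin N → ℝ} (hT : 1 / 2 < ∑ k, t k) : Per (sh t) := by
  rw [Per, sh_last hT, sh_zero, zero_add]

theorem cell_sh {t : Fin N → ℝ} (ht : ∀ k, 0 ≤ t k) (hT : 1 / 2 < ∑ k, t k) : Cell (sh t) := by
  refine ⟨fun m m' h => div_le_div_of_nonneg_right (sum_le_sum fun k _ => ?_) (rho_pos _).le,
    sh_zero t, sh_last hT⟩
  have : (m : ℕ) ≤ m' := h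
  split_ifs with h1 h2
  exacts [le_rfl, by omega, ht k, le_rfl]

theorem gauge_val (i : Fin (N + 1)) (k : Fin N) :
    ((i.succAbove k : Fin (N + 1)) : ℕ) = if (k : ℕ) < i then (k : ℕ) else k + 1 := by
  simp only [Fin.succAbove, Fin.lt_def, Fin.val_castSucc]
  split_ifs <;> simp

/-- `Fin.sum_univ_succAbove`, `Fin.succAbove` is strictly monotone. -/
theorem fc_sh (i : Fin (N + 1)) (t : Fin N → ℝ) : Fc i (sh (i.insertNth 0 t)) (sh t) := by
  have h1 : ∑ k, (i.insertNth 0 t : Fin (N + 1) → ℝ) k = ∑ k, t k := by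
    rw [Fin.sum_univ_succAbove _ i]
    simp
  have h2 : ∀ m, ps (i.insertNth 0 t : Fin (N + 1) → ℝ) m =
      ∑ k : Fin N, if ((i.succAbove k : Fin (N + 1)) : ℕ) < m then t k else 0 := fun m => by
    rw [ps, Fin.sum_univ_succAbove _ i]
    simp
  refine ⟨?_, fun j => ⟨?_, ?_⟩⟩ <;>
  · simp only [sh, h1, h2]
    simp only [ps, Fin.val_castSucc, Fin.val_succ, gauge_val]
    congr 1
    refine sum_congr rfl fun k _ => if_congr ?_ rfl rfl
    split_ifs <;> omega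

theorem shS_last (s : Fin (N + 2) → ℝ) : shS s (Fin.last (N + 1)) = s 1 + 1 := by
  simp [shS]

theorem shS_castSucc (s : Fin (N + 2) → ℝ) (m : Fin (N + 1)) : shS s m.castSucc = s m.succ := by
  simp [shS, Fin.tail]

theorem per_shS {s : Fin (N + 2) → ℝ} : Per (shS s) := by
  rw [Per, shS_last, ← Fin.castSucc_zero, shS_castSucc]
  rfl

theorem sh_rotate {t : Fin (N + 1) → ℝ} (hT : 1 / 2 < ∑ k, t k) :
    sh (fun i => t (finRotate (N + 1) i)) = fun m => shS (sh t) m + -sh t 1 := by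
  have hs : ∑ i, t (finRotate (N + 1) i) = ∑ k, t k := Equiv.sum_comp _ t
  funext m
  refine Fin.lastCases ?_ (fun m => ?_) m
  · rw [sh_last (by rwa [hs]), shS_last]
    ring
  · rw [shS_castSucc]
    simp only [sh, hs]
    rw [← sub_eq_add_neg, ← sub_div]
    congr 1
    have := m.2
    rw [ps, ps, ps, Fin.sum_univ_castSucc, Fin.sum_univ_succ, Fin.sum_univ_succ, if_neg (by simp; omega)]
    simp [Fin.coeSucc_eq_succ]

/-- Near `t`, `sh t' m = ps t' m / ∑ t'`. -/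
theorem fderiv_sh {t : Fin N → ℝ} (hT : 1 / 2 < ∑ k, t k) (m : Fin (N + 1)) (k : Fin N) :
    fderiv ℝ (fun t => sh t m) t (Pi.single k 1) =
      (if (k : ℕ) < m then 1 else 0) / (∑ k, t k) - ps t m / (∑ k, t k) ^ 2 := by
  let T : (Fin N → ℝ) →L[ℝ] ℝ := ∑ i, ContinuousLinearMap.proj i
  have hT' : ∀ t, T t = ∑ i, t i := fun t => by simp [T]
  let Q : (Fin N → ℝ) →L[ℝ] ℝ := ∑ i : Fin N, if (i : ℕ) < m then ContinuousLinearMap.proj i else 0
  have hQ : ∀ t, Q t = ps t m := fun t => by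
    simp only [Q, ps, _root_.sum_apply]
    refine sum_congr rfl fun i _ => ?_
    split_ifs <;> rfl
  have h0 : T t ≠ 0 := by rw [hT']; linarith
  have h1 := Q.hasFDerivAt.mul ((hasDerivAt_inv h0).comp_hasFDerivAt t T.hasFDerivAt)
  have ev : ∀ᶠ s : Fin N → ℝ in nhds t, 1 / 2 < ∑ i, s i :=
    (continuous_finsetSum _ fun i _ => continuous_apply i).continuousAt.eventually (lt_mem_nhds hT)
  have h2 := h1.congr_of_eventuallyEq (f₁ := fun t => sh t m) (ev.mono fun s hs => by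
    simp [sh, rho_eq hs.le, hQ, hT', div_eq_mul_inv])
  have h3 : ps (Pi.single k (1 : ℝ)) m = if (k : ℕ) < m then 1 else 0 := by
    rw [ps, sum_eq_single k (fun j _ hj => by simp [hj]) (by simp)]
    simp
  rw [h2.fderiv]
  simp [hQ, hT', h3]
  split_ifs <;> ring

theorem sm2_E0 : Sm2 (E0 N) := by
  unfold Sm2 E0
  fun_prop

theorem d1_E0 (s s' v : Fin (N + 1) → ℝ) :
    d1 (E0 N) s s' v = ∑ i : Fin N, (s' i.succ - s' i.castSucc) * v i.castSucc := by
  let L : (Fin (N + 1) → ℝ) →L[ℝ] ℝ :=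
    ∑ i : Fin N, (s' i.succ - s' i.castSucc) • ContinuousLinearMap.proj i.castSucc
  have hL : ∀ s, L s = E0 N s s' := fun s => by simp [L, E0]
  rw [d1, show (fun s => E0 N s s') = L from (funext hL).symm, L.fderiv, hL, E0]

/-- Telescoping (`Fin.sum_univ_succ`/`Fin.sum_univ_castSucc`). -/
theorem sum_succ_sub_castSucc (s : Fin (N + 1) → ℝ) :
    ∑ i : Fin N, (s i.succ - s i.castSucc) = s (Fin.last N) - s 0 := by
  have h1 := Fin.sum_univ_succ s
  have h2 := Fin.sum_univ_castSucc s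
  rw [sum_sub_distrib]
  linarith

theorem isConn_E0 : IsConn (E0 N) := by
  refine ⟨sm2_E0, fun s c v _ => by simp [d1_E0], fun s hs => ?_⟩
  simp only [d1_E0, mul_one, sum_succ_sub_castSucc]
  rw [hs]
  ring

theorem d1_E0_inn (s s' : Fin (M + 2) → ℝ) (a : Fin M) :
    d1 (E0 (M + 1)) s s' (inn a) = s' a.succ.succ - s' a.succ.castSucc := by
  rw [d1_E0, sum_eq_single a.succ (fun j _ hj => by
    rw [inn, Pi.single_eq_of_ne (Fin.castSucc_injective _ |>.ne hj), mul_zero]) (by simp)]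
  simp [inn]

theorem curv_E0 (s : Fin (M + 2) → ℝ) (a b : Fin M) :
    curv (E0 (M + 1)) s a b = (if (b : ℕ) = a + 1 then 1 else 0) - (if b = a then 1 else 0) := by
  let L : (Fin (M + 2) → ℝ) →L[ℝ] ℝ :=
    ContinuousLinearMap.proj (R := ℝ) (φ := fun _ => ℝ) a.succ.succ -
      ContinuousLinearMap.proj (R := ℝ) (φ := fun _ => ℝ) a.succ.castSucc
  have e : (fun s' => d1 (E0 (M + 1)) s s' (inn a)) = L := funext fun s' => d1_E0_inn s s' a
  rw [curv, Matrix.of_apply, d12, e, L.fderiv]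
  simp [L, inn, Pi.single_apply, Fin.ext_iff, eq_comm]

theorem E0_face (i : Fin (N + 1)) : FaceRel i (E0 (N + 1)) (E0 N) := by
  intro s₁ s₂ s₁' s₂' h₁ h₂
  rw [E0, Fin.sum_univ_succAbove _ i, h₂.1, sub_self, zero_mul, zero_add]
  exact sum_congr rfl fun j _ => by rw [(h₂.2 j).1, (h₂.2 j).2, (h₁.2 j).1]

theorem E0_shS {s s' : Fin (N + 2) → ℝ} (hs : Per s) (hs' : Per s') :
    E0 (N + 1) (shS s) (shS s') = E0 (N + 1) s s' + (s' 1 - s' 0) := by
  rw [E0, E0, Fin.sum_univ_castSucc, Fin.sum_univ_succ]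
  simp only [shS_castSucc, Fin.succ_last, shS_last, Fin.succ_castSucc]
  rw [hs, hs']
  simp only [Fin.succ_zero_eq_one, Fin.castSucc_zero]
  ring

theorem E0_transl (s s' : Fin (N + 1) → ℝ) (c : ℝ) :
    E0 N (fun i => s i + c) (fun i => s' i + c) = E0 N s s' + c * (s' (Fin.last N) - s' 0) := by
  rw [← sum_succ_sub_castSucc, E0, E0, mul_sum, ← sum_add_distrib]
  exact sum_congr rfl fun i _ => by ring

section

variable {E : Type} [NormedAddCommGroup E] [NormedSpace ℝ E]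

theorem Sm2.left {𝔈 : E → E → ℝ} (h : Sm2 𝔈) (s' : E) : ContDiff ℝ 3 fun s => 𝔈 s s' :=
  ContDiff.comp (g := fun p : E × E => 𝔈 p.1 p.2) h (contDiff_id.prodMk contDiff_const)

theorem Sm2.contDiff_d1 {𝔈 : E → E → ℝ} (h : Sm2 𝔈) (v : E) :
    ContDiff ℝ 2 fun p : E × E => d1 𝔈 p.1 p.2 v := by
  have h1 : ContDiff ℝ 3 (Function.uncurry fun (p : E × E) (s : E) => 𝔈 s p.2) :=
    ContDiff.comp (g := fun p : E × E => 𝔈 p.1 p.2) h (contDiff_snd.prodMk contDiff_fst.snd)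
  exact (h1.fderiv contDiff_fst (by norm_num)).clm_apply contDiff_const

theorem Sm2.d1_right {𝔈 : E → E → ℝ} (h : Sm2 𝔈) (s v : E) :
    ContDiff ℝ 2 fun s' => d1 𝔈 s s' v :=
  ContDiff.comp (g := fun p : E × E => d1 𝔈 p.1 p.2 v) (h.contDiff_d1 v)
    (contDiff_const.prodMk contDiff_id)

/-- If `𝔈 (s + c) (s' + c) = 𝔈 s s' + g s'` for all `s` then `d1` is translation invariant. -/
theorem d1_transl {𝔈 : E → E → ℝ} (c s s' v : E) (g : ℝ)
    (h : ∀ s, 𝔈 (s + c) (s' + c) = 𝔈 s s' + g) : d1 𝔈 (s + c) (s' + c) v = d1 𝔈 s s' v := by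
  have e : (fun s => 𝔈 s (s' + c)) = fun s => 𝔈 (s - c) s' + g := funext fun s => by
    rw [← h, sub_add_cancel]
  rw [d1, d1, e, fderiv_add_const, fderiv_comp_sub (f := fun s => 𝔈 s s'), add_sub_cancel_right]

/-- Derivatives of `θ₀(s') 𝔈₀(s,s') - ∑ θ_j(s') 𝔈_j(s,s')`. -/
theorem d1_comb {𝔈₀ : E → E → ℝ} {𝔈 : ℕ → E → E → ℝ} (θ₀ : E → ℝ) (θ : ℕ → E → ℝ) (J : ℕ)
    (h₀ : Sm2 𝔈₀) (h : ∀ j, Sm2 (𝔈 j)) (s s' v : E) :
    d1 (fun s s' => θ₀ s' * 𝔈₀ s s' - ∑ j ∈ range J, θ j s' * 𝔈 j s s') s s' v =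
      θ₀ s' * d1 𝔈₀ s s' v - ∑ j ∈ range J, θ j s' * d1 (𝔈 j) s s' v := by
  have a := (((h₀.left s').differentiable (by norm_num) s).hasFDerivAt.const_mul (θ₀ s')).fun_sub
    (HasFDerivAt.fun_sum (u := range J) fun j _ =>
      (((h j).left s').differentiable (by norm_num) s).hasFDerivAt.const_mul (θ j s'))
  rw [d1, a.fderiv]
  simp [d1]

theorem d12_comb {𝔈₀ : E → E → ℝ} {𝔈 : ℕ → E → E → ℝ} {θ₀ : E → ℝ} {θ : ℕ → E → ℝ} (J : ℕ)
    (h₀ : Sm2 𝔈₀) (h : ∀ j, Sm2 (𝔈 j)) (hθ₀ : ContDiff ℝ 3 θ₀) (hθ : ∀ j, ContDiff ℝ 3 (θ j))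
    (s s' v v' : E) :
    d12 (fun s s' => θ₀ s' * 𝔈₀ s s' - ∑ j ∈ range J, θ j s' * 𝔈 j s s') s s' v v' =
      (θ₀ s' * d12 𝔈₀ s s' v v' + d1 𝔈₀ s s' v * fderiv ℝ θ₀ s' v') -
        ∑ j ∈ range J, (θ j s' * d12 (𝔈 j) s s' v v' + d1 (𝔈 j) s s' v * fderiv ℝ (θ j) s' v') := by
  have a := ((hθ₀.differentiable (by norm_num) s').hasFDerivAt.fun_mul
    ((h₀.d1_right s v).differentiable (by norm_num) s').hasFDerivAt).fun_sub
    (HasFDerivAt.fun_sum (u := range J) fun j _ =>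
      ((hθ j).differentiable (by norm_num) s').hasFDerivAt.fun_mul
        (((h j).d1_right s v).differentiable (by norm_num) s').hasFDerivAt)
  simp only [d12, d1_comb θ₀ θ J h₀ h]
  rw [a.fderiv]
  simp

end

end Crest.Agent.R192
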