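import Mathlib

/-!
# R192: smoothness of parametric interval integrals
-/

set_option autoImplicit false

open MeasureTheory

namespace Crest.Agent.R192

/-- Differentiation under the integral sign for a jointly `C¹` integrand.
Use `intervalIntegral.hasFDerivAt_integral_of_dominated_of_fderiv_le` with
`F' p t = (fderiv ℝ f (p,t)).comp (ContinuousLinearMap.inl ℝ E ℝ)`; the bound is the maximum of
`‖fderiv ℝ f‖` on the compact set `closedBall p 1 ×ˢ uIcc a b` (`E` is finite dimensional, so
proper). -/
theorem hasFDerivAt_pint {E F : Type} [NormedAddCommGroup E] [NormedSpace ℝ E]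
    [FiniteDimensional ℝ E] [NormedAddCommGroup F] [NormedSpace ℝ F] [CompleteSpace F]
    {f : E × ℝ → F} (hf : ContDiff ℝ 1 f) (a b : ℝ) (p : E) :
    HasFDerivAt (fun p => ∫ t in a..b, f (p, t))
      (∫ t in a..b, (fderiv ℝ f (p, t)).comp (ContinuousLinearMap.inl ℝ E ℝ)) p := by
  have : ProperSpace E := FiniteDimensional.proper_real E
  have hc : Continuous (fderiv ℝ f) := hf.continuous_fderiv (by norm_num)
  have hc' : Continuous fun q : E × ℝ => (fderiv ℝ f q).comp (ContinuousLinearMap.inl ℝ E ℝ) :=
    hc.clm_comp continuous_const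
  obtain ⟨C, hC⟩ := ((isCompact_closedBall p 1).prod
    (isCompact_uIcc (a := a) (b := b))).exists_bound_of_continuousOn hc'.continuousOn
  refine intervalIntegral.hasFDerivAt_integral_of_dominated_of_fderiv_le
    (F := fun p t => f (p, t))
    (F' := fun p t => (fderiv ℝ f (p, t)).comp (ContinuousLinearMap.inl ℝ E ℝ))
    (bound := fun _ => C) (s := Metric.closedBall p 1) (Metric.closedBall_mem_nhds p one_pos)
    (Filter.Eventually.of_forall fun x =>
      (hf.continuous.comp (Continuous.prodMk_right x)).aestronglyMeasurable)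
    ((hf.continuous.comp (Continuous.prodMk_right p)).intervalIntegrable _ _)
    (hc'.comp (Continuous.prodMk_right p)).aestronglyMeasurable
    (Filter.Eventually.of_forall fun t ht x hx => hC (x, t) ⟨hx, Set.uIoc_subset_uIcc ht⟩)
    intervalIntegrable_const
    (Filter.Eventually.of_forall fun t _ x _ => ?_)
  exact ((hf.differentiable (by norm_num)) (x, t)).hasFDerivAt.comp x (hasFDerivAt_prodMk_left x t)

theorem fderiv_pint {E F : Type} [NormedAddCommGroup E] [NormedSpace ℝ E]
    [FiniteDimensional ℝ E] [NormedAddCommGroup F] [NormedSpace ℝ F] [CompleteSpace F]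
    {f : E × ℝ → F} (hf : ContDiff ℝ 1 f) (a b : ℝ) (p v : E) :
    fderiv ℝ (fun p => ∫ t in a..b, f (p, t)) p v = ∫ t in a..b, fderiv ℝ f (p, t) (v, 0) := by
  have hc : Continuous (fderiv ℝ f) := hf.continuous_fderiv (by norm_num)
  have hc' : Continuous fun q : E × ℝ => (fderiv ℝ f q).comp (ContinuousLinearMap.inl ℝ E ℝ) :=
    hc.clm_comp continuous_const
  rw [(hasFDerivAt_pint hf a b p).fderiv]
  exact ContinuousLinearMap.intervalIntegral_apply
    ((hc'.comp (Continuous.prodMk_right p)).intervalIntegrable a b) v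

/-- Version with the partial derivative in the parameter. -/
theorem fderiv_pint' {E F : Type} [NormedAddCommGroup E] [NormedSpace ℝ E]
    [FiniteDimensional ℝ E] [NormedAddCommGroup F] [NormedSpace ℝ F] [CompleteSpace F]
    {f : E × ℝ → F} (hf : ContDiff ℝ 1 f) (a b : ℝ) (p v : E) :
    fderiv ℝ (fun p => ∫ t in a..b, f (p, t)) p v =
      ∫ t in a..b, fderiv ℝ (fun p => f (p, t)) p v := by
  rw [fderiv_pint hf]
  refine intervalIntegral.integral_congr fun t _ => ?_
  have h := ((hf.differentiable (by norm_num)) (p, t)).hasFDerivAt.comp p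
    (hasFDerivAt_prodMk_left (𝕜 := ℝ) p t)
  have h2 : fderiv ℝ (fun p => f (p, t)) p = _ := h.fderiv
  simp only [h2]
  rfl

/-- Induction on `n`, generalizing `F` (`contDiff_succ_iff_fderiv`; the case `n = 0` is
`intervalIntegral.continuous_parametric_intervalIntegral_of_continuous'`). -/
theorem contDiff_pint (n : ℕ) {E : Type} [NormedAddCommGroup E] [NormedSpace ℝ E]
    [FiniteDimensional ℝ E] {F : Type} [NormedAddCommGroup F] [NormedSpace ℝ F] [CompleteSpace F]
    {f : E × ℝ → F} (hf : ContDiff ℝ n f) (a b : ℝ) :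
    ContDiff ℝ n fun p => ∫ t in a..b, f (p, t) := by
  induction n generalizing F with
  | zero =>
    have hc : Continuous f := hf.continuous
    exact contDiff_zero.2 (intervalIntegral.continuous_parametric_intervalIntegral_of_continuous'
      (f := fun p t => f (p, t)) hc a b)
  | succ n ih =>
    have h1 : ContDiff ℝ 1 f := hf.of_le (by exact_mod_cast Nat.le_add_left 1 n)
    have hf' : ContDiff ℝ ((n : WithTop ℕ∞) + 1) f := by exact_mod_cast hf
    have h2 : ContDiff ℝ n (fderiv ℝ f) := (contDiff_succ_iff_fderiv.1 hf').2.2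
    have h3 : ContDiff ℝ n fun q : E × ℝ => (fderiv ℝ f q).comp (ContinuousLinearMap.inl ℝ E ℝ) :=
      h2.clm_comp contDiff_const
    have h4 := ih h3
    have e : fderiv ℝ (fun p => ∫ t in a..b, f (p, t)) =
        fun p => ∫ t in a..b, (fderiv ℝ f (p, t)).comp (ContinuousLinearMap.inl ℝ E ℝ) :=
      funext fun p => (hasFDerivAt_pint h1 a b p).fderiv
    have h5 : ContDiff ℝ ((n : WithTop ℕ∞) + 1) fun p => ∫ t in a..b, f (p, t) := by
      refine contDiff_succ_iff_fderiv.2
        ⟨fun p => (hasFDerivAt_pint h1 a b p).differentiableAt, fun h => ?_, ?_⟩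
      · exact absurd h (by simp)
      · rw [e]
        exact h4
    exact_mod_cast h5

/-- The partial derivative in the first variable of a `C^{n+1}` function is jointly `C^n`. -/
theorem contDiff_partial (n : ℕ) {E E' F : Type} [NormedAddCommGroup E] [NormedSpace ℝ E]
    [NormedAddCommGroup E'] [NormedSpace ℝ E'] [NormedAddCommGroup F] [NormedSpace ℝ F]
    {f : E × E' → F} (hf : ContDiff ℝ (n + 1 : ℕ) f) (v : E) :
    ContDiff ℝ n fun q : E × E' => fderiv ℝ (fun p => f (p, q.2)) q.1 v := by
  have h1 : ContDiff ℝ 1 f := hf.of_le (by exact_mod_cast Nat.le_add_left 1 n)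
  have hf' : ContDiff ℝ ((n : WithTop ℕ∞) + 1) f := by exact_mod_cast hf
  have h2 : ContDiff ℝ n (fderiv ℝ f) := (contDiff_succ_iff_fderiv.1 hf').2.2
  have e : (fun q : E × E' => fderiv ℝ (fun p => f (p, q.2)) q.1 v) =
      fun q => fderiv ℝ f q (v, 0) := by
    funext q
    have h := ((h1.differentiable (by norm_num)) (q.1, q.2)).hasFDerivAt.comp q.1
      (hasFDerivAt_prodMk_left (𝕜 := ℝ) q.1 q.2)
    have h3 : fderiv ℝ (fun p => f (p, q.2)) q.1 = _ := h.fderiv
    rw [h3]
    rfl
  rw [e]
  exact h2.clm_apply contDiff_const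

end Crest.Agent.R192
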