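import Crest.Agent.R192.Mass
import Crest.Agent.R192.PInt

/-!
# R192: the generating function of one scale — identities
-/

set_option autoImplicit false

open Finset Filter Topology MeasureTheory
open scoped Classical

namespace Crest.Agent.R192

variable {G : Type} [Group G] {β ϱ N M : ℕ} {L : Len G β ϱ} {R b : ℝ}

/-- The smoothed window measure. -/
noncomputable def Mech.qq (m : Mech L R b) (K : ℝ → ℝ) (h : G) (x : Fin N → G)
    (s : Fin (N + 1) → ℝ) (τ : ℝ) : G →₀ ℝ := m.Q (mass K h x s τ)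

noncomputable def Mech.EE (m : Mech L R b) (K : ℝ → ℝ) (hh : ℝ) (h : G) (x : Fin N → G)
    (s s' : Fin (N + 1) → ℝ) : ℝ :=
  ∫ τ in (0 : ℝ)..1, ∫ l in (0 : ℝ)..hh, L.B (m.qq K h x s τ) (m.qq K h x s' (τ + l))

noncomputable def Mech.ZZ (m : Mech L R b) (K : ℝ → ℝ) (hh : ℝ) (h : G) (x : Fin N → G)
    (s : Fin (N + 1) → ℝ) : ℝ :=
  ∫ τ in (0 : ℝ)..1,
    (L.B (m.qq K h x s τ) (m.qq K h x s τ) - L.B (m.qq K h x s τ) (m.qq K h x s (τ + hh)))

variable (m : Mech L R b) {K : ℝ → ℝ} {hh : ℝ}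

theorem Mech.qq_smF (hK : IsWin K hh) (h : G) (x : Fin N → G) :
    SmF fun p : (Fin (N + 1) → ℝ) × ℝ => m.qq K h x p.1 p.2 := m.smF L (mass_smF hK h x)

theorem Mech.qq_add_one (hK : IsWin K hh) (h : G) (x : Fin N → G) (s : Fin (N + 1) → ℝ) (τ : ℝ) :
    m.qq K h x s (τ + 1) = lt h (m.qq K h x s τ) := by
  rw [Mech.qq, mass_add_one hK, m.Q_lt, Mech.qq]

/-- The integrand is jointly `C³` in `(s, s', τ, τ')` (`contDiff_B`, `SmF.comp`). -/
theorem Mech.contDiff_Bqq (hK : IsWin K hh) (h : G) (x : Fin N → G) :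
    ContDiff ℝ 3 fun p : ((Fin (N + 1) → ℝ) × (Fin (N + 1) → ℝ)) × ℝ × ℝ =>
      L.B (m.qq K h x p.1.1 p.2.1) (m.qq K h x p.1.2 p.2.2) :=
  L.contDiff_B
    ((m.qq_smF hK h x).comp
      (g := fun p : ((Fin (N + 1) → ℝ) × (Fin (N + 1) → ℝ)) × ℝ × ℝ => (p.1.1, p.2.1)) (by fun_prop))
    ((m.qq_smF hK h x).comp
      (g := fun p : ((Fin (N + 1) → ℝ) × (Fin (N + 1) → ℝ)) × ℝ × ℝ => (p.1.2, p.2.2)) (by fun_prop))

/-- Composition form of `contDiff_Bqq`. -/
theorem Mech.contDiff_Bqq' (hK : IsWin K hh) (h : G) (x : Fin N → G) {E : Type}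
    [NormedAddCommGroup E] [NormedSpace ℝ E] {s s' : E → Fin (N + 1) → ℝ} {t t' : E → ℝ}
    (hs : ContDiff ℝ 3 s) (hs' : ContDiff ℝ 3 s') (ht : ContDiff ℝ 3 t) (ht' : ContDiff ℝ 3 t') :
    ContDiff ℝ 3 fun p => L.B (m.qq K h x (s p) (t p)) (m.qq K h x (s' p) (t' p)) :=
  L.contDiff_B ((m.qq_smF hK h x).comp (g := fun p => (s p, t p)) (hs.prodMk ht))
    ((m.qq_smF hK h x).comp (g := fun p => (s' p, t' p)) (hs'.prodMk ht'))

/-- The inner integral is jointly `C³`. -/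
theorem Mech.contDiff_inner (hK : IsWin K hh) (h : G) (x : Fin N → G) {E : Type}
    [NormedAddCommGroup E] [NormedSpace ℝ E] [FiniteDimensional ℝ E]
    {s s' : E → Fin (N + 1) → ℝ} {t t' : E → ℝ}
    (hs : ContDiff ℝ 3 s) (hs' : ContDiff ℝ 3 s') (ht : ContDiff ℝ 3 t) (ht' : ContDiff ℝ 3 t') :
    ContDiff ℝ 3 fun p => ∫ l in (0 : ℝ)..hh,
      L.B (m.qq K h x (s p) (t p)) (m.qq K h x (s' p) (t' p + l)) :=
  contDiff_pint 3 (f := fun q : E × ℝ =>
    L.B (m.qq K h x (s q.1) (t q.1)) (m.qq K h x (s' q.1) (t' q.1 + q.2)))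
    (m.contDiff_Bqq' hK h x (by fun_prop) (by fun_prop) (by fun_prop) (by fun_prop)) 0 hh

/-- `contDiff_pint` twice. -/
theorem Mech.sm2_EE (hK : IsWin K hh) (h : G) (x : Fin N → G) : Sm2 (m.EE K hh h x) :=
  contDiff_pint 3 (f := fun q : ((Fin (N + 1) → ℝ) × (Fin (N + 1) → ℝ)) × ℝ => ∫ l in (0 : ℝ)..hh,
    L.B (m.qq K h x q.1.1 q.2) (m.qq K h x q.1.2 (q.2 + l)))
    (m.contDiff_inner hK h x (by fun_prop) (by fun_prop) (by fun_prop) (by fun_prop)) 0 1

theorem Mech.contDiff_ZZ (hK : IsWin K hh) (h : G) (x : Fin N → G) :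
    ContDiff ℝ 3 (m.ZZ K hh h x) :=
  contDiff_pint 3 (f := fun q : (Fin (N + 1) → ℝ) × ℝ =>
    L.B (m.qq K h x q.1 q.2) (m.qq K h x q.1 q.2) -
      L.B (m.qq K h x q.1 q.2) (m.qq K h x q.1 (q.2 + hh)))
    ((m.contDiff_Bqq' hK h x (by fun_prop) (by fun_prop) (by fun_prop) (by fun_prop)).sub
      (m.contDiff_Bqq' hK h x (by fun_prop) (by fun_prop) (by fun_prop) (by fun_prop))) 0 1

theorem Mech.EE_conj (hK : IsWin K hh) (g h : G) (x : Fin N → G) :
    m.EE K hh (g * h * g⁻¹) (fun i => g * x i) = m.EE K hh h x := by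
  funext s s'
  simp only [Mech.EE, Mech.qq, mass_conj hK, m.Q_lt, L.B_lt]

theorem Mech.ZZ_conj (hK : IsWin K hh) (g h : G) (x : Fin N → G) :
    m.ZZ K hh (g * h * g⁻¹) (fun i => g * x i) = m.ZZ K hh h x := by
  funext s
  simp only [Mech.ZZ, Mech.qq, mass_conj hK, m.Q_lt, L.B_lt]

theorem Mech.EE_face (h : G) (x : Fin (N + 1) → G) (i : Fin (N + 1)) :
    FaceRel i (m.EE K hh h x) (m.EE K hh h fun j => x (i.succAbove j)) := fun _ _ _ _ h1 h2 => by
  simp only [Mech.EE, Mech.qq, mass_face h x h1, mass_face h x h2]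

theorem Mech.ZZ_face (h : G) (x : Fin (N + 1) → G) {i : Fin (N + 1)} {s : Fin (N + 2) → ℝ}
    {s' : Fin (N + 1) → ℝ} (hs : Fc i s s') :
    m.ZZ K hh h x s = m.ZZ K hh h (fun j => x (i.succAbove j)) s' := by
  simp only [Mech.ZZ, Mech.qq, mass_face h x hs]

theorem Mech.EE_shift (hK : IsWin K hh) (h : G) (x : Fin (N + 1) → G) {s s' : Fin (N + 2) → ℝ}
    (hs : Per s) (hs' : Per s') :
    m.EE K hh h (shX h x) (shS s) (shS s') = m.EE K hh h x s s' := by
  simp only [Mech.EE, Mech.qq, mass_shift hK h x hs, mass_shift hK h x hs']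

theorem Mech.ZZ_shift (hK : IsWin K hh) (h : G) (x : Fin (N + 1) → G) {s : Fin (N + 2) → ℝ}
    (hs : Per s) : m.ZZ K hh h (shX h x) (shS s) = m.ZZ K hh h x s := by
  simp only [Mech.ZZ, Mech.qq, mass_shift hK h x hs]

private theorem ga_per {f : ℝ → ℝ} (hf : Function.Periodic f 1) (c : ℝ) :
    ∫ τ in (0 : ℝ)..1, f (τ - c) = ∫ τ in (0 : ℝ)..1, f τ := by
  rw [intervalIntegral.integral_comp_sub_right, show 1 - c = 0 - c + 1 by ring,
    hf.intervalIntegral_add_eq _ 0, zero_add]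

theorem Mech.qq_transl (h : G) (x : Fin N → G) (s : Fin (N + 1) → ℝ) (c τ : ℝ) :
    m.qq K h x (fun i => s i + c) τ = m.qq K h x s (τ - c) := by
  rw [Mech.qq, mass_transl, Mech.qq]

/-- `mass_transl`, and the outer integrand is `1`-periodic in `τ` (`qq_add_one`, `B_lt`,
`Function.Periodic.intervalIntegral_add_eq`, `intervalIntegral.integral_comp_sub_right`). -/
theorem Mech.EE_transl (hK : IsWin K hh) (h : G) (x : Fin N → G) (s s' : Fin (N + 1) → ℝ) (c : ℝ) :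
    m.EE K hh h x (fun i => s i + c) (fun i => s' i + c) = m.EE K hh h x s s' := by
  simp only [Mech.EE, m.qq_transl, add_sub_right_comm]
  refine ga_per (f := fun τ => ∫ l in (0 : ℝ)..hh,
    L.B (m.qq K h x s τ) (m.qq K h x s' (τ + l))) (fun τ => ?_) c
  simp only [add_right_comm τ 1, m.qq_add_one hK, L.B_lt]

theorem Mech.ZZ_transl (hK : IsWin K hh) (h : G) (x : Fin N → G) (s : Fin (N + 1) → ℝ) (c : ℝ) :
    m.ZZ K hh h x (fun i => s i + c) = m.ZZ K hh h x s := by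
  simp only [Mech.ZZ, m.qq_transl, add_sub_right_comm]
  refine ga_per (f := fun τ => L.B (m.qq K h x s τ) (m.qq K h x s τ) -
    L.B (m.qq K h x s τ) (m.qq K h x s (τ + hh))) (fun τ => ?_) c
  simp only [add_right_comm τ 1, m.qq_add_one hK, L.B_lt]

private theorem ga_ftc {φ : ℝ → ℝ} (hφ : Continuous φ) (τ a : ℝ) :
    HasDerivAt (fun c => ∫ l in (0 : ℝ)..a, φ (τ + c + l)) (φ (τ + a) - φ τ) 0 := by
  have h1 := ((hφ.integral_hasStrictDerivAt 0 (τ + 0 + a)).hasDerivAt.comp (0 : ℝ)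
    (((hasDerivAt_id (0 : ℝ)).const_add τ).add_const a)).sub
    ((hφ.integral_hasStrictDerivAt 0 (τ + 0)).hasDerivAt.comp (0 : ℝ)
      ((hasDerivAt_id (0 : ℝ)).const_add τ))
  simp only [add_zero, mul_one] at h1
  refine h1.congr_of_eventuallyEq (Eventually.of_forall fun c => ?_)
  simp only [Pi.sub_apply, Function.comp_apply, id]
  rw [intervalIntegral.integral_comp_add_left φ (τ + c), add_zero,
    intervalIntegral.integral_interval_sub_left (hφ.intervalIntegrable _ _)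
      (hφ.intervalIntegrable _ _)]

/-- `EE (s + c) s = EE s (s - c) = ∫₀¹ (Φ τ (τ + hh + c) - Φ τ (τ + c)) dτ` where
`Φ τ t = ∫₀^t B(q τ, q t') dt'`; equivalently `EE (s + c) s = ∫₀¹ ∫_c^{hh+c} B(q τ, q (τ + l)) dl dτ
= EE s s + ∫₀¹ ∫₀^c (B(q τ, q (τ + hh + l)) - B(q τ, q (τ + l))) dl dτ`.  Swap the last two integrals
(continuous integrand; or rescale `l = c l'` and use continuity of parametric integrals) to see that
the derivative at `c = 0` is `-ZZ s`; `d1 … (fun _ => 1)` is this derivative by the chain rule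
(`sm2_EE`). -/
theorem Mech.d1_EE_one (hK : IsWin K hh) (h : G) (x : Fin N → G) (s : Fin (N + 1) → ℝ) :
    d1 (m.EE K hh h x) s s (fun _ => 1) = -m.ZZ K hh h x s := by
  have h0 : ContDiff ℝ 3 fun s₁ => m.EE K hh h x s₁ s := (m.sm2_EE hK h x).left s
  have h1 : HasDerivAt (fun c : ℝ => fun i => s i + c) (fun _ => (1 : ℝ)) 0 :=
    hasDerivAt_pi.2 fun i => (hasDerivAt_id (0 : ℝ)).const_add (s i)
  have h2 := (h0.differentiable (by norm_num) s).hasFDerivAt.comp_hasDerivAt_of_eq (0 : ℝ) h1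
    (by funext i; simp)
  have e : ((fun s₁ => m.EE K hh h x s₁ s) ∘ fun c : ℝ => fun i => s i + c) = fun c =>
      ∫ τ in (0 : ℝ)..1, ∫ l in (0 : ℝ)..hh, L.B (m.qq K h x s τ) (m.qq K h x s (τ + c + l)) := by
    funext c
    have := m.EE_transl hK h x s (fun i => s i + -c) c
    simp only [neg_add_cancel_right] at this
    refine this.trans ?_
    simp only [Mech.EE, m.qq_transl, sub_neg_eq_add, add_right_comm _ c]
  have h3 := fderiv_pint' (f := fun q : ℝ × ℝ => ∫ l in (0 : ℝ)..hh,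
    L.B (m.qq K h x s q.2) (m.qq K h x s (q.2 + q.1 + l)))
    ((m.contDiff_inner hK h x (by fun_prop) (by fun_prop) (by fun_prop) (by fun_prop)).of_le
      (by norm_num)) 0 1 0 1
  rw [e] at h2
  rw [d1, ← h2.deriv, ← fderiv_apply_one_eq_deriv, h3, Mech.ZZ, ← intervalIntegral.integral_neg]
  refine intervalIntegral.integral_congr fun τ _ => ?_
  have hφ : Continuous fun t => L.B (m.qq K h x s τ) (m.qq K h x s t) :=
    (m.contDiff_Bqq' hK h x (by fun_prop) (by fun_prop) (by fun_prop) (by fun_prop)).continuous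
  simp only [fderiv_apply_one_eq_deriv, neg_sub]
  exact (ga_ftc hφ τ hh).deriv

end Crest.Agent.R192
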