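import Crest.Agent.R192.GenA
import Crest.Agent.R192.GHInt

/-!
# R192: the generating function of one scale — estimates
-/

set_option autoImplicit false

open Finset Filter Topology MeasureTheory
open scoped Classical

namespace Crest.Agent.R192

variable {G : Type} [Group G] {β ϱ N M : ℕ} {L : Len G β ϱ} {R b : ℝ}

/-- The derivative of `q(s,τ)` in `s` in the direction `v`, as a finitely supported function. -/
noncomputable def Mech.dq (m : Mech L R b) {K : ℝ → ℝ} {hh : ℝ} (hK : IsWin K hh) (h : G)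
    (x : Fin N → G) (s : Fin (N + 1) → ℝ) (τ : ℝ) (v : Fin (N + 1) → ℝ) : G →₀ ℝ :=
  (SmF.exists_deriv (m.smF L (mass_smF_left hK h x τ)) s v).choose

variable (m : Mech L R b) {K : ℝ → ℝ} {hh : ℝ} (hK : IsWin K hh) (h : G)

theorem Mech.dq_apply (x : Fin N → G) (s : Fin (N + 1) → ℝ) (τ : ℝ) (v : Fin (N + 1) → ℝ) (y : G) :
    fderiv ℝ (fun s => m.qq K h x s τ y) s v = m.dq hK h x s τ v y :=
  (SmF.exists_deriv (m.smF L (mass_smF_left hK h x τ)) s v).choose_spec y

omit [Group G] in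
theorem smF_const {E : Type} [NormedAddCommGroup E] [NormedSpace ℝ E] (ν : G →₀ ℝ) :
    SmF fun _ : E => ν :=
  ⟨fun _ => ⟨ν.support, Eventually.of_forall fun _ => Subset.rfl⟩, fun _ => contDiff_const⟩

include hK in
theorem Mech.qq_smF_left (x : Fin N → G) (τ : ℝ) : SmF fun s => m.qq K h x s τ :=
  m.smF L (mass_smF_left hK h x τ)

theorem Mech.fderiv_B_left (x : Fin N → G) (s v : Fin (N + 1) → ℝ) (τ : ℝ) (ν : G →₀ ℝ) :
    fderiv ℝ (fun s => L.B (m.qq K h x s τ) ν) s v = L.B (m.dq hK h x s τ v) ν := by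
  rw [L.fderiv_B (m.qq_smF_left hK h x τ) (smF_const ν) s v (m.dq_apply hK h x s τ v)
    (ν' := 0) fun a => by simp, L.B_symm _ 0]
  simp [Len.B]

theorem Mech.fderiv_B_right (x : Fin N → G) (s v : Fin (N + 1) → ℝ) (τ : ℝ) (ν : G →₀ ℝ) :
    fderiv ℝ (fun s => L.B ν (m.qq K h x s τ)) s v = L.B ν (m.dq hK h x s τ v) := by
  simp only [L.B_symm ν, m.fderiv_B_left hK]

/-- `B(dq, q)` is jointly `C²`. -/
theorem Mech.contDiff_Bdq (x : Fin N → G) (v : Fin (N + 1) → ℝ) {E : Type}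
    [NormedAddCommGroup E] [NormedSpace ℝ E] {s s' : E → Fin (N + 1) → ℝ} {t t' : E → ℝ}
    (hs : ContDiff ℝ 3 s) (hs' : ContDiff ℝ 3 s') (ht : ContDiff ℝ 3 t) (ht' : ContDiff ℝ 3 t') :
    ContDiff ℝ 2 fun p => L.B (m.dq hK h x (s p) (t p) v) (m.qq K h x (s' p) (t' p)) := by
  have h1 := contDiff_partial 2 (f := fun q : (Fin (N + 1) → ℝ) × E =>
    L.B (m.qq K h x q.1 (t q.2)) (m.qq K h x (s' q.2) (t' q.2)))
    (m.contDiff_Bqq' hK h x (by fun_prop) (by fun_prop) (by fun_prop) (by fun_prop)) v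
  simp only [m.fderiv_B_left hK] at h1
  have h2 := h1.comp (f := fun p : E => (s p, p))
    ((hs.of_le (by norm_num)).prodMk contDiff_id)
  simp only [Function.comp_def] at h2
  exact h2

/-- `fderiv_pint'` twice (`contDiff_Bqq`, `contDiff_pint`) and `fderiv_B` (the second factor is
constant in `s`). -/
theorem Mech.d1_EE (x : Fin N → G) (s s' v : Fin (N + 1) → ℝ) :
    d1 (m.EE K hh h x) s s' v =
      ∫ τ in (0 : ℝ)..1, ∫ l in (0 : ℝ)..hh, L.B (m.dq hK h x s τ v) (m.qq K h x s' (τ + l)) := by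
  refine (fderiv_pint' (f := fun q : (Fin (N + 1) → ℝ) × ℝ => ∫ l in (0 : ℝ)..hh,
    L.B (m.qq K h x q.1 q.2) (m.qq K h x s' (q.2 + l)))
    ((m.contDiff_inner hK h x (by fun_prop) (by fun_prop) (by fun_prop) (by fun_prop)).of_le
      (by norm_num)) 0 1 s v).trans (intervalIntegral.integral_congr fun τ _ => ?_)
  refine (fderiv_pint' (f := fun q : (Fin (N + 1) → ℝ) × ℝ =>
    L.B (m.qq K h x q.1 τ) (m.qq K h x s' (τ + q.2)))
    ((m.contDiff_Bqq' hK h x (by fun_prop) (by fun_prop) (by fun_prop) (by fun_prop)).of_le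
      (by norm_num)) 0 hh s v).trans (intervalIntegral.integral_congr fun l _ => ?_)
  exact m.fderiv_B_left hK h x s v τ (m.qq K h x s' (τ + l))

/-- The integrand of `d1_EE` is a partial derivative of a `C³` function, so it is jointly `C²` in
`(s', τ, l)` (`contDiff_partial`); differentiate again. -/
theorem Mech.d12_EE (x : Fin N → G) (s s' v v' : Fin (N + 1) → ℝ) :
    d12 (m.EE K hh h x) s s' v v' =
      ∫ τ in (0 : ℝ)..1, ∫ l in (0 : ℝ)..hh,
        L.B (m.dq hK h x s τ v) (m.dq hK h x s' (τ + l) v') := by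
  simp only [d12, m.d1_EE hK]
  have h1 := contDiff_pint 2 (f := fun q : ((Fin (N + 1) → ℝ) × ℝ) × ℝ =>
    L.B (m.dq hK h x s q.1.2 v) (m.qq K h x q.1.1 (q.1.2 + q.2)))
    (m.contDiff_Bdq hK h x v (by fun_prop) (by fun_prop) (by fun_prop) (by fun_prop)) 0 hh
  refine (fderiv_pint' (f := fun q : (Fin (N + 1) → ℝ) × ℝ => ∫ l in (0 : ℝ)..hh,
    L.B (m.dq hK h x s q.2 v) (m.qq K h x q.1 (q.2 + l)))
    (h1.of_le (by norm_num)) 0 1 s' v').trans (intervalIntegral.integral_congr fun τ _ => ?_)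
  refine (fderiv_pint' (f := fun q : (Fin (N + 1) → ℝ) × ℝ =>
    L.B (m.dq hK h x s τ v) (m.qq K h x q.1 (τ + q.2)))
    ((m.contDiff_Bdq hK h x v (by fun_prop) (by fun_prop) (by fun_prop) (by fun_prop)).of_le
      (by norm_num)) 0 hh s' v').trans (intervalIntegral.integral_congr fun l _ => ?_)
  exact m.fderiv_B_right hK h x s' v' (τ + l) (m.dq hK h x s τ v)

theorem Mech.fderiv_ZZ (x : Fin N → G) (s v : Fin (N + 1) → ℝ) :
    fderiv ℝ (m.ZZ K hh h x) s v = ∫ τ in (0 : ℝ)..1,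
      ((L.B (m.dq hK h x s τ v) (m.qq K h x s τ) + L.B (m.qq K h x s τ) (m.dq hK h x s τ v)) -
        (L.B (m.dq hK h x s τ v) (m.qq K h x s (τ + hh)) +
          L.B (m.qq K h x s τ) (m.dq hK h x s (τ + hh) v))) := by
  refine (fderiv_pint' (f := fun q : (Fin (N + 1) → ℝ) × ℝ =>
    L.B (m.qq K h x q.1 q.2) (m.qq K h x q.1 q.2) -
      L.B (m.qq K h x q.1 q.2) (m.qq K h x q.1 (q.2 + hh)))
    (((m.contDiff_Bqq' hK h x (by fun_prop) (by fun_prop) (by fun_prop) (by fun_prop)).sub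
      (m.contDiff_Bqq' hK h x (by fun_prop) (by fun_prop) (by fun_prop) (by fun_prop))).of_le
      (by norm_num)) 0 1 s v).trans (intervalIntegral.integral_congr fun τ _ => ?_)
  have h1 := m.qq_smF_left hK h x τ
  have h2 := m.qq_smF_left hK h x (τ + hh)
  simp only
  rw [fderiv_fun_sub ((L.contDiff_B h1 h1).differentiable (by norm_num) s)
    ((L.contDiff_B h1 h2).differentiable (by norm_num) s), _root_.sub_apply,
    L.fderiv_B h1 h1 s v (m.dq_apply hK h x s τ v) (m.dq_apply hK h x s τ v),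
    L.fderiv_B h1 h2 s v (m.dq_apply hK h x s τ v) (m.dq_apply hK h x s (τ + hh) v)]

end Crest.Agent.R192
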