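import Crest.Agent.R192.GenB

/-!
# R192: the generating function of one scale — bounds
-/

set_option autoImplicit false

open Finset Filter Topology MeasureTheory
open scoped Classical

namespace Crest.Agent.R192

variable {G : Type} [Group G] {β ϱ N M : ℕ} {L : Len G β ϱ} {R b : ℝ}

variable (m : Mech L R b) {K : ℝ → ℝ} {hh : ℝ} (hK : IsWin K hh) (h : G)

private theorem gc_per {s : Fin (N + 1) → ℝ} (hs : Cell s) : Per s := by
  rw [Per, hs.2.1, hs.2.2, zero_add]

private theorem gc_lam (x : Fin (M + 1) → G) (a : Fin M) :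
    (L.d ((x a.castSucc)⁻¹ * x a.succ) : ℝ) ≤ L.lam x a := le_add_of_nonneg_left zero_le_one

/-- `mass_deriv`, `mass_prob`, `n1_deriv_le`. -/
theorem Mech.n1_dq_le (hb : 0 ≤ b) (x : Fin (M + 1) → G) {s : Fin (M + 2) → ℝ} (hs : Cell s)
    (τ : ℝ) (a : Fin M) :
    n1 (m.dq hK h x s τ (inn a)) ≤ √b * (L.lam x a * kap K (s a.succ.castSucc - τ)) := by
  obtain ⟨ν, hν, hD⟩ := mass_deriv L hK h x s τ a
  refine (m.n1_deriv_le L hb (mass_smF_left hK h x τ) s (inn a)
    (mass_prob hK h x hs.1 (gc_per hs) τ) hν hD (m.dq_apply hK h x s τ (inn a))).trans ?_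
  exact mul_le_mul_of_nonneg_left (mul_le_mul_of_nonneg_right (gc_lam x a) (hK.kap_nonneg _))
    (Real.sqrt_nonneg _)

private theorem gc_B (hb : 0 ≤ b) (x : Fin (M + 1) → G) {s : Fin (M + 2) → ℝ} (hs : Cell s)
    (τ τ' : ℝ) (a : Fin M) :
    |L.B (m.dq hK h x s τ (inn a)) (m.qq K h x s τ')| ≤
      2 * ϱ * √b * L.lam x a * kap K (s a.succ.castSucc - τ) := by
  have h1 : ∀ z, |L.Cv (m.qq K h x s τ') z| ≤ ϱ * 2 := fun z => by
    refine (L.abs_Cv_le _ z).trans (mul_le_mul_of_nonneg_left ?_ (Nat.cast_nonneg _))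
    rw [Mech.qq, n1_eq_tot _ (m.Q_nonneg _)]
    exact m.Q_tot _ (mass_prob hK h x hs.1 (gc_per hs) τ')
  refine (L.abs_B_le _ _ _ h1).trans ((mul_le_mul_of_nonneg_right
    (m.n1_dq_le hK h hb x hs τ a) (by positivity)).trans (le_of_eq (by ring)))

include hK in
private theorem gc_kap (σ : ℝ) : ∫ τ in (0 : ℝ)..1, kap K (σ - τ) = 1 := by
  simpa using hK.integral_kap σ 0

include hK in
/-- `|B(dq, q')| ≤ n1 dq * (ϱ * 2)` (`abs_B_le`, `abs_Cv_le`, `Q_tot`), `∫₀¹ kap = 1`
(`intervalIntegral.norm_integral_le_of_norm_le`: only the bound has to be integrable). -/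
theorem Mech.abs_d1_EE_le (hb : 0 ≤ b) (x : Fin (M + 1) → G) {s : Fin (M + 2) → ℝ} (hs : Cell s)
    (a : Fin M) : |d1 (m.EE K hh h x) s s (inn a)| ≤ 2 * ϱ * hh * √b * L.lam x a := by
  have hc := hK.continuous_kap
  rw [m.d1_EE hK, ← Real.norm_eq_abs]
  refine (intervalIntegral.norm_integral_le_of_norm_le zero_le_one
    (g := fun τ => 2 * ϱ * hh * √b * L.lam x a * kap K (s a.succ.castSucc - τ))
    (Eventually.of_forall fun τ _ => ?_) (Continuous.intervalIntegrable (by fun_prop) _ _)).trans ?_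
  · refine (intervalIntegral.norm_integral_le_of_norm_le_const fun l _ =>
      gc_B m hK h hb x hs τ (τ + l) a).trans (le_of_eq ?_)
    rw [sub_zero, abs_of_pos hK.pos]
    ring
  · rw [intervalIntegral.integral_const_mul, gc_kap hK, mul_one]

include hK in
/-- Four terms, each with integral at most `2 ϱ √b lam` (`integral_kap` with `a = 0`, `a = hh`). -/
theorem Mech.abs_fderiv_ZZ_le (hb : 0 ≤ b) (x : Fin (M + 1) → G) {s : Fin (M + 2) → ℝ}
    (hs : Cell s) (a : Fin M) :
    |fderiv ℝ (m.ZZ K hh h x) s (inn a)| ≤ 8 * ϱ * √b * L.lam x a := by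
  have hc := hK.continuous_kap
  rw [m.fderiv_ZZ hK, ← Real.norm_eq_abs]
  refine (intervalIntegral.norm_integral_le_of_norm_le zero_le_one
    (g := fun τ => 6 * ϱ * √b * L.lam x a * kap K (s a.succ.castSucc - τ) +
      2 * ϱ * √b * L.lam x a * kap K (s a.succ.castSucc - hh - τ))
    (Eventually.of_forall fun τ _ => ?_) (Continuous.intervalIntegrable (by fun_prop) _ _)).trans ?_
  · have h1 := abs_le.1 (gc_B m hK h hb x hs τ τ a)
    have h2 := abs_le.1 (gc_B m hK h hb x hs τ (τ + hh) a)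
    have h3 := abs_le.1 (gc_B m hK h hb x hs (τ + hh) τ a)
    rw [L.B_symm (m.qq K h x s τ), L.B_symm (m.qq K h x s τ), Real.norm_eq_abs, abs_le,
      sub_sub, add_comm hh]
    constructor <;> linarith [h1.1, h1.2, h2.1, h2.2, h3.1, h3.2]
  · rw [intervalIntegral.integral_add, intervalIntegral.integral_const_mul,
      intervalIntegral.integral_const_mul, gc_kap hK, gc_kap hK]
    · exact le_of_eq (by ring)
    all_goals exact Continuous.intervalIntegrable (by fun_prop) _ _

include hK in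
/-- Apply `GH_integral` with `w τ y = deriv φ (P (mass s τ) y)`,
`V τ y a = fderiv (fun s => P (mass s τ) y) s (inn a)` (continuous in `τ` by `m.smooth`, `mass_smF`,
`contDiff_partial`), `dq τ (inn a) y = w τ y * V τ y a` (`fderiv_Q`), and a finite set `F` containing
`nb (nb (supp (mass s τ)))` for all `τ ∈ [0, 1 + hh]` (`SmF.exists_finset`, `m.loc`), so that
`B(dq, dq')` is the double sum over `F` (`B_eq_sum`, `intervalIntegral.integral_congr`).
The diagonal bound is `∫ b (lam · kap)² ≤ (ρ lam)²`, `ρ = √(b c0 (1 + 1/hh)(2 + hh))`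
(`sens`, `mass_deriv`, `integral_kap_sq_le`); finish with `GH.scale`. -/
theorem Mech.GH_curv_EE (hb : 0 < b) (x : Fin (M + 1) → G) {s : Fin (M + 2) → ℝ} (hs : Cell s) :
    GH (curv (m.EE K hh h x) s) (L.lam x)
      (√(ϱ * (√hh * (b * (c0 * (1 + 1 / hh) * (2 + hh)))))) := by
  have hc := hK.continuous_kap
  have h0 := hK.pos
  have hc0 := one_le_c0
  have hX : 0 < b * (c0 * (1 + 1 / hh) * (2 + hh)) := by positivity
  have hf : SmF fun τ => mass K h x s τ :=
    (mass_smF hK h x).comp (g := fun τ : ℝ => (s, τ)) (by fun_prop)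
  obtain ⟨F, hF⟩ := hf.exists_finset (isCompact_Icc (a := 0) (b := 1 + hh))
  have hw : ∀ y, Continuous fun τ => deriv m.φ (m.P (mass K h x s τ) y) := fun y =>
    (m.φ_smooth.continuous_deriv (by norm_num)).comp (m.smooth ℝ _ hf y).continuous
  have hV : ∀ y (a : Fin M),
      Continuous fun τ => fderiv ℝ (fun s => m.P (mass K h x s τ) y) s (inn a) := fun y a => by
    have h1 := (contDiff_partial 2 (f := fun q : (Fin (M + 2) → ℝ) × ℝ => m.P (mass K h x q.1 q.2) y)
      (m.smooth _ _ (mass_smF hK h x) y) (inn a)).continuous.comp (Continuous.prodMk_right s)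
    simp only [Function.comp_def] at h1
    exact h1
  have hdq : ∀ τ y (a : Fin M), m.dq hK h x s τ (inn a) y = deriv m.φ (m.P (mass K h x s τ) y) *
      fderiv ℝ (fun s => m.P (mass K h x s τ) y) s (inn a) := fun τ y a =>
    (m.dq_apply hK h x s τ (inn a) y).symm.trans (m.fderiv_Q L (mass_smF_left hK h x τ) s (inn a) y)
  have hsupp : ∀ τ ∈ Set.Icc 0 (1 + hh), ∀ a : Fin M,
      (m.dq hK h x s τ (inn a)).support ⊆ L.nb (L.nb F) := fun τ hτ a y hy => by
    by_contra hy'
    refine Finsupp.mem_support_iff.1 hy ?_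
    rw [hdq, (m.loc _ _ fun h' => hy' (L.nb_mono (L.nb_mono (hF τ hτ).self_of_nhds) h')).2,
      zero_mul]
  have key := GH_integral (L.nb (L.nb F)) L.c (Nat.cast_nonneg ϱ) L.abs_c_le h0
    (fun τ y => deriv m.φ (m.P (mass K h x s τ) y))
    (fun τ y (a : Fin M) => fderiv ℝ (fun s => m.P (mass K h x s τ) y) s (inn a)) hw hV
    (fun τ y => m.φ'_nonneg _) (fun τ => m.w_sum _ (mass_prob hK h x hs.1 (gc_per hs) τ) _)
    (fun a => √(b * (c0 * (1 + 1 / hh) * (2 + hh))) * L.lam x a) fun a => by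
      refine (intervalIntegral.integral_mono_on (μ := volume) (by linarith)
        (Continuous.intervalIntegrable (by fun_prop) _ _)
        (g := fun τ => b * L.lam x a ^ 2 * kap K (s a.succ.castSucc - τ) ^ 2)
        (Continuous.intervalIntegrable (by fun_prop) _ _) fun τ _ => ?_).trans ?_
      · obtain ⟨ν, hν, hD⟩ := mass_deriv L hK h x s τ a
        refine (m.sens _ _ (mass_smF_left hK h x τ) s (inn a) ν _
          (mass_prob hK h x hs.1 (gc_per hs) τ) hν hD _).trans ?_
        rw [mul_assoc, mul_pow]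
        exact mul_le_mul_of_nonneg_left (mul_le_mul_of_nonneg_right
          (pow_le_pow_left₀ (Nat.cast_nonneg _) (gc_lam x a) 2) (sq_nonneg _)) hb.le
      · rw [intervalIntegral.integral_const_mul, mul_pow, Real.sq_sqrt hX.le]
        refine (mul_le_mul_of_nonneg_left (hK.integral_kap_sq_le _) (by positivity)).trans
          (le_of_eq (by ring))
  have h2 := GH.scale (Real.sqrt_pos.2 hX) key
  rw [← Real.sqrt_mul hX.le, mul_comm (b * _), mul_assoc] at h2
  refine (congrArg (fun A => GH A _ _) (Matrix.ext fun a a' => ?_)).mp h2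
  refine ((m.d12_EE hK h x s s _ _).trans
    (intervalIntegral.integral_congr fun τ hτ => intervalIntegral.integral_congr fun l hl => ?_)).symm
  rw [Set.uIcc_of_le zero_le_one] at hτ
  rw [Set.uIcc_of_le h0.le] at hl
  simp only [← hdq]
  exact L.B_eq_sum _ _ (hsupp τ ⟨hτ.1, by linarith [hτ.2]⟩ a)
    (hsupp (τ + l) ⟨add_nonneg hτ.1 hl.1, add_le_add hτ.2 hl.2⟩ a')

include hK in
/-- `abs_B_sub` twice, and monotonicity of the integral (continuous integrands). -/
theorem Mech.ZZ_ge (x : Fin N → G) {s : Fin (N + 1) → ℝ} (hs : Cell s) :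
    (∫ τ in (0 : ℝ)..1, (L.B (mass K h x s τ) (mass K h x s τ) -
        L.B (mass K h x s τ) (mass K h x s (τ + hh)))) - 30 * R ≤ m.ZZ K hh h x s := by
  have hf : ∀ c : ℝ, SmF fun τ => mass K h x s (τ + c) := fun c =>
    (mass_smF hK h x).comp (g := fun τ : ℝ => (s, τ + c)) (by fun_prop)
  have c1 := (L.contDiff_B (hf 0) (hf 0)).continuous
  have c2 := (L.contDiff_B (hf 0) (hf hh)).continuous
  have c3 := (L.contDiff_B (m.smF L (hf 0)) (m.smF L (hf 0))).continuous
  have c4 := (L.contDiff_B (m.smF L (hf 0)) (m.smF L (hf hh))).continuous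
  simp only [add_zero] at c1 c2 c3 c4
  have hp := mass_prob hK h x hs.1 (gc_per hs)
  have h1 := intervalIntegral.integral_mono_on (μ := volume) zero_le_one
    (((c1.fun_sub c2).fun_sub (continuous_const (y := 30 * R))).intervalIntegrable 0 1)
    ((c3.fun_sub c4).intervalIntegrable 0 1) fun τ _ => by
      have h1 := abs_le.1 (m.abs_B_sub L (hp τ) (hp τ))
      have h2 := abs_le.1 (m.abs_B_sub L (hp τ) (hp (τ + hh)))
      linarith [h1.1, h2.2]
  rw [intervalIntegral.integral_sub ((c1.fun_sub c2).intervalIntegrable 0 1)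
    (continuous_const.intervalIntegrable 0 1)] at h1
  simpa [Mech.ZZ, Mech.qq] using h1

end Crest.Agent.R192
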