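import Mathlib

/-!
# R192: the Grassmann algebra of `ℝ^N` as a normed algebra, the top-degree functional
-/

set_option autoImplicit false

open Finset ExteriorAlgebra

namespace Crest.Agent.R192

/-- The Grassmann algebra on `N` generators. -/
abbrev Gr (N : ℕ) : Type := ExteriorAlgebra ℝ (Fin N → ℝ)

noncomputable def grBasis (N : ℕ) : Module.Basis (Finset (Fin N)) ℝ (Gr N) :=
  (Pi.basisFun ℝ (Fin N)).ExteriorAlgebra

instance grFinite (N : ℕ) : Module.Finite ℝ (Gr N) := Module.Finite.of_basis (grBasis N)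

noncomputable instance grNormedRing (N : ℕ) : NormedRing (Gr N) :=
  letI : NormedRing (Matrix (Finset (Fin N)) (Finset (Fin N)) ℝ) := Matrix.linftyOpNormedRing
  NormedRing.induced (Gr N) (Matrix (Finset (Fin N)) (Finset (Fin N)) ℝ)
    (Algebra.leftMulMatrix (grBasis N)) (Algebra.leftMulMatrix_injective (grBasis N))

noncomputable instance grNormedAlgebra (N : ℕ) : NormedAlgebra ℝ (Gr N) :=
  letI : NormedRing (Matrix (Finset (Fin N)) (Finset (Fin N)) ℝ) := Matrix.linftyOpNormedRing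
  letI : NormedAlgebra ℝ (Matrix (Finset (Fin N)) (Finset (Fin N)) ℝ) :=
    Matrix.linftyOpNormedAlgebra
  NormedAlgebra.induced ℝ (Gr N) (Matrix (Finset (Fin N)) (Finset (Fin N)) ℝ)
    (Algebra.leftMulMatrix (grBasis N))

instance grComplete (N : ℕ) : CompleteSpace (Gr N) := FiniteDimensional.complete ℝ (Gr N)

variable {N N' : ℕ}

/-- The generators. -/
noncomputable def ee (i : Fin N) : Gr N := ι ℝ (Pi.single i (1 : ℝ))

/-- The volume element `e₀ ⋯ e_{N-1}`. -/
noncomputable def vol (N : ℕ) : Gr N := ιMulti ℝ N fun i => (Pi.single i (1 : ℝ) : Fin N → ℝ)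

/-- The coefficient of the volume element. -/
noncomputable def top (N : ℕ) : Gr N →ₗ[ℝ] ℝ :=
  liftAlternating (Function.update (0 : ∀ k, (Fin N → ℝ) [⋀^Fin k]→ₗ[ℝ] ℝ) N
    Matrix.detRowAlternating)

/-- The 2-form `∑ a b, A a b • e_b e_a` of a matrix. -/
noncomputable def om (A : Matrix (Fin N) (Fin N) ℝ) : Gr N := ∑ a, ∑ b, A a b • (ee b * ee a)

/-- The exterior derivative of the 1-form with coefficient vector `a`. -/
noncomputable def omega (a : (Fin N → ℝ) → Fin N → ℝ) (t : Fin N → ℝ) : Gr N :=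
  ∑ i, ee i * ι ℝ (fderiv ℝ a t (Pi.single i 1))

/-- `ι` as a continuous linear map. -/
noncomputable def iotaL (N : ℕ) : (Fin N → ℝ) →L[ℝ] Gr N := LinearMap.toContinuousLinearMap (ι ℝ)

/-- `top` as a continuous linear map. -/
noncomputable def topL (N : ℕ) : Gr N →L[ℝ] ℝ := LinearMap.toContinuousLinearMap (top N)

theorem iotaL_apply (v : Fin N → ℝ) : iotaL N v = ι ℝ v := rfl

theorem topL_apply (ξ : Gr N) : topL N ξ = top N ξ := rfl

theorem top_ιMulti (v : Fin N → Fin N → ℝ) : top N (ιMulti ℝ N v) = (Matrix.of v).det := by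
  rw [top, liftAlternating_apply_ιMulti, Function.update_self]
  rfl

theorem top_ιMulti_ne {k : ℕ} (hk : k ≠ N) (v : Fin k → Fin N → ℝ) :
    top N (ιMulti ℝ k v) = 0 := by
  rw [top, liftAlternating_apply_ιMulti, Function.update_of_ne hk]
  rfl

theorem ι_eq_sum (v : Fin N → ℝ) : (ι ℝ v : Gr N) = ∑ i, v i • ee i := by
  simp only [ee, ← map_smul, ← map_sum]
  congr 1
  funext j
  simp [Pi.single_apply]

/-- An alternating `N`-form on `ℝ^N` is a multiple of the determinant. -/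
theorem ιMulti_eq_det (v : Fin N → Fin N → ℝ) :
    (ιMulti ℝ N v : Gr N) = (Matrix.of v).det • vol N := by
  refine (grBasis N).ext_elem fun s => ?_
  have h := congrArg (fun f => f v) (AlternatingMap.eq_smul_basis_det (Pi.basisFun ℝ (Fin N))
    (((grBasis N).coord s).compAlternatingMap (ιMulti ℝ N)))
  simp only [AlternatingMap.smul_apply, Pi.basisFun_det_apply, LinearMap.compAlternatingMap_apply,
    Module.Basis.coord_apply, smul_eq_mul] at h
  rw [h, map_smul, Finsupp.smul_apply, smul_eq_mul, mul_comm, vol]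
  congr 4
  funext i
  simp

theorem gr_ext {f g : Gr N →ₗ[ℝ] ℝ} (h : ∀ k v, f (ιMulti ℝ k v) = g (ιMulti ℝ k v)) (ξ : Gr N) :
    f ξ = g ξ := by
  rw [lhom_ext (f := f) (g := g) fun k => AlternatingMap.ext (h k)]

/-- `lhom_ext`; `map L (ιMulti k v) = ιMulti k (L ∘ v)`. -/
theorem top_map (L : (Fin N → ℝ) →ₗ[ℝ] (Fin N → ℝ)) (ξ : Gr N) :
    top N (ExteriorAlgebra.map L ξ) = LinearMap.det L * top N ξ := by
  refine gr_ext (f := top N ∘ₗ (ExteriorAlgebra.map L).toLinearMap)
    (g := LinearMap.det L • top N) (fun k v => ?_) ξ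
  simp only [LinearMap.comp_apply, AlgHom.toLinearMap_apply, map_apply_ιMulti, LinearMap.smul_apply,
    smul_eq_mul]
  by_cases hk : k = N
  · subst hk
    rw [top_ιMulti, top_ιMulti, ← Pi.basisFun_det_apply, ← Pi.basisFun_det_apply,
      Module.Basis.det_comp]
  · rw [top_ιMulti_ne hk, top_ιMulti_ne hk, mul_zero]

/-- `lhom_ext`; `ι e * ιMulti k v = ιMulti (k+1) (Fin.cons e v)`, Laplace expansion
(`Matrix.det_succ_row_zero`). -/
theorem top_face (i : Fin (N + 1)) (ξ : Gr (N + 1)) :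
    top (N + 1) (ee i * ξ) =
      (-1) ^ (i : ℕ) * top N (ExteriorAlgebra.map (LinearMap.funLeft ℝ ℝ i.succAbove) ξ) := by
  refine gr_ext (f := top (N + 1) ∘ₗ LinearMap.mulLeft ℝ (ee i))
    (g := ((-1 : ℝ) ^ (i : ℕ)) • (top N ∘ₗ
      (ExteriorAlgebra.map (LinearMap.funLeft ℝ ℝ i.succAbove)).toLinearMap)) (fun k v => ?_) ξ
  have e : (ee i : Gr (N + 1)) * ιMulti ℝ k v =
      ιMulti ℝ (k + 1) (Fin.cons (Pi.single i (1 : ℝ)) v : Fin (k + 1) → Fin (N + 1) → ℝ) := by
    rw [ιMulti_succ_apply]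
    rfl
  simp only [LinearMap.comp_apply, AlgHom.toLinearMap_apply, map_apply_ιMulti, LinearMap.smul_apply,
    smul_eq_mul, LinearMap.mulLeft_apply, e]
  by_cases hk : k = N
  · subst hk
    rw [top_ιMulti, top_ιMulti, Matrix.det_succ_row_zero, sum_eq_single i]
    · simp only [Matrix.of_apply, Fin.cons_zero, Pi.single_eq_same, mul_one]
      rfl
    · intro j _ hj
      simp [Pi.single_eq_of_ne hj]
    · simp
  · rw [top_ιMulti_ne hk, top_ιMulti_ne (by omega), mul_zero]

theorem ι_anti (u v : Fin N → ℝ) : (ι ℝ u * ι ℝ v : Gr N) = -(ι ℝ v * ι ℝ u) :=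
  eq_neg_of_add_eq_zero_left (ι_add_mul_swap u v)

/-- Products of two vectors are central. -/
theorem commute_ι_mul_ι (u v : Fin N → ℝ) (ξ : Gr N) : Commute (ι ℝ u * ι ℝ v) ξ := by
  induction ξ using ExteriorAlgebra.induction with
  | algebraMap r => exact Algebra.commute_algebraMap_right r _
  | ι w =>
    rw [Commute, SemiconjBy, mul_assoc, ι_anti v w, mul_neg, ← mul_assoc, ι_anti u w, neg_mul,
      neg_neg, mul_assoc]
  | mul a b ha hb => exact ha.mul_right hb
  | add a b ha hb => exact ha.add_right hb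

theorem commute_omega (a : (Fin N → ℝ) → Fin N → ℝ) (t : Fin N → ℝ) (ξ : Gr N) :
    Commute (omega a t) ξ :=
  Commute.sum_left _ _ _ fun _ _ => commute_ι_mul_ι _ _ ξ

theorem commute_om (A : Matrix (Fin N) (Fin N) ℝ) (ξ : Gr N) : Commute (om A) ξ :=
  Commute.sum_left _ _ _ fun _ _ => Commute.sum_left _ _ _ fun _ _ =>
    (commute_ι_mul_ι _ _ ξ).smul_left _

/-- A symmetric coefficient matrix gives zero (`e_i e_j = - e_j e_i`). -/
theorem sum_symm_eq_zero (S : Fin N → Fin N → ℝ) (hS : ∀ i j, S i j = S j i) :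
    ∑ i, ∑ j, S i j • (ee i * ee j : Gr N) = 0 := by
  have h : ∑ i, ∑ j, S i j • (ee i * ee j : Gr N) = -∑ i, ∑ j, S i j • (ee i * ee j : Gr N) := by
    conv_lhs => rw [sum_comm]
    simp only [← sum_neg_distrib, ← smul_neg]
    refine sum_congr rfl fun i _ => sum_congr rfl fun j _ => ?_
    rw [hS j i, ee, ee, ι_anti]
  have h2 : (2 : ℝ) • ∑ i, ∑ j, S i j • (ee i * ee j : Gr N) = 0 := by
    rw [two_smul]
    exact eq_neg_iff_add_eq_zero.1 h
  exact (smul_eq_zero.1 h2).resolve_left two_ne_zero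

theorem omega_eq_sum (a : (Fin N → ℝ) → Fin N → ℝ) (t : Fin N → ℝ) :
    omega a t = ∑ i, ∑ j, fderiv ℝ a t (Pi.single i 1) j • (ee i * ee j) := by
  refine sum_congr rfl fun i _ => ?_
  rw [ι_eq_sum, mul_sum]
  simp only [mul_smul_comm]

theorem map_om (L : (Fin N → ℝ) →ₗ[ℝ] (Fin N' → ℝ)) (A : Matrix (Fin N) (Fin N) ℝ) :
    ExteriorAlgebra.map L (om A) =
      ∑ a, ∑ b, A a b • (ι ℝ (L (Pi.single b 1)) * ι ℝ (L (Pi.single a 1))) := by
  simp only [om, ee, map_sum, map_smul, map_mul, map_apply_ι]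

theorem omega_congr {a a' : (Fin N → ℝ) → Fin N → ℝ} {t : Fin N → ℝ} (h : a =ᶠ[nhds t] a') :
    omega a t = omega a' t := by
  simp only [omega, h.fderiv_eq]

theorem omega_sub {a a' : (Fin N → ℝ) → Fin N → ℝ} {t : Fin N → ℝ} (ha : DifferentiableAt ℝ a t)
    (ha' : DifferentiableAt ℝ a' t) : omega (fun t => a t - a' t) t = omega a t - omega a' t := by
  simp only [omega, fderiv_fun_sub ha ha', ContinuousLinearMap.sub_apply, map_sub, mul_sub,
    sum_sub_distrib]

/-- `d d u = 0` (symmetry of the second derivative, `ContDiffAt.isSymmSndFDerivAt`). -/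
theorem omega_grad {u : (Fin N → ℝ) → ℝ} (hu : ContDiff ℝ 2 u) (t : Fin N → ℝ) :
    omega (fun t j => fderiv ℝ u t (Pi.single j 1)) t = 0 := by
  have h1 : DifferentiableAt ℝ (fderiv ℝ u) t :=
    ((hu.fderiv_right (m := 1) (by norm_num)).differentiable (by norm_num)) t
  have h2 : ∀ i j : Fin N, fderiv ℝ (fun t j => fderiv ℝ u t (Pi.single j 1)) t (Pi.single i 1) j =
      fderiv ℝ (fderiv ℝ u) t (Pi.single i 1) (Pi.single j 1) := by
    intro i j
    rw [fderiv_pi fun j => h1.clm_apply (differentiableAt_const _), ContinuousLinearMap.pi_apply,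
      fderiv_clm_apply h1 (differentiableAt_const _)]
    simp
  rw [omega_eq_sum]
  refine sum_symm_eq_zero _ fun i j => ?_
  rw [h2, h2]
  exact (hu.contDiffAt.isSymmSndFDerivAt (by simp)).eq _ _

theorem contDiff_omega {n : ℕ} {a : (Fin N → ℝ) → Fin N → ℝ} (ha : ContDiff ℝ (n + 1 : ℕ) a) :
    ContDiff ℝ n (omega a) := by
  refine ContDiff.sum fun i _ => contDiff_const.mul ((iotaL N).contDiff.comp ?_)
  exact (ha.fderiv_right (m := n) (by norm_cast)).clm_apply contDiff_const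

end Crest.Agent.R192
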