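import Mathlib
import Crest.Prelude.Def_L1GroupAlgebra

/-!
Row 192: the Kaplansky idempotent statement from the `ℓ¹`-Bass statement (specialisation to `ℂ`
and Kaplansky's positivity of the trace).
-/

set_option autoImplicit false

namespace Crest.Agent.R192

open Crest.AlgebraR.L1
open scoped ComplexConjugate

/-- right translation on `ℓ²(G)` -/
noncomputable def kapR {G : Type} [Group G] (g : G) (v : lp (fun _ : G => ℂ) 2) :
    lp (fun _ : G => ℂ) 2 :=
  ⟨fun x => v (x * g), memℓp_gen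
    ((Equiv.mulRight g).summable_iff.2 ((memℓp_gen_iff (by norm_num)).1 v.2))⟩

/-- Kaplansky positivity -/
theorem kap_pos {G : Type} [Group G] (s : Finset G) (a : G → ℂ) (hs : ∀ g ∉ s, a g = 0)
    (ha : ∀ x, ∑ y ∈ s, a y * a (y⁻¹ * x) = a x) (h1 : a 1 = 0) (g : G) : a g = 0 := by
  classical
  let V : Submodule ℂ (lp (fun _ : G => ℂ) 2) :=
    { carrier := {v | ∀ x, ∑ y ∈ s, a y * v (y⁻¹ * x) = v x}
      zero_mem' := fun x => by simp
      add_mem' := fun {v w} hv hw x => by
        simp only [lp.coeFn_add, Pi.add_apply, mul_add, Finset.sum_add_distrib]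
        rw [hv x, hw x]
      smul_mem' := fun c v hv x => by
        simp only [lp.coeFn_smul, Pi.smul_apply, smul_eq_mul]
        rw [← hv x, Finset.mul_sum]
        exact Finset.sum_congr rfl fun y _ => by ring }
  have hev : ∀ x : G, Continuous fun v : lp (fun _ : G => ℂ) 2 => v x :=
    fun x => (lp.lipschitzWith_one_eval 2 x).continuous
  have hcl : IsClosed (V : Set (lp (fun _ : G => ℂ) 2)) := by
    change IsClosed {v : lp (fun _ : G => ℂ) 2 | ∀ x, ∑ y ∈ s, a y * v (y⁻¹ * x) = v x}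
    simp only [Set.ofPred_forall]
    exact isClosed_iInter fun x => isClosed_eq
      (continuous_finsetSum _ fun y _ => continuous_const.mul (hev _)) (hev x)
  have := hcl.completeSpace_coe
  obtain ⟨ξ, hξ, hperp⟩ :=
    Submodule.HasOrthogonalProjection.exists_orthogonal (K := V) (lp.single 2 (1 : G) (1 : ℂ))
  have key : ∀ v ∈ V, v 1 = inner ℂ ξ v := by
    intro v hv
    have h := Submodule.inner_left_of_mem_orthogonal hv hperp
    rw [inner_sub_left, lp.inner_single_left, sub_eq_zero] at h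
    simpa using h
  have hR : ∀ (k : G), ∀ v ∈ V, kapR k v ∈ V := by
    intro k v hv x
    have := hv (x * k)
    simpa only [kapR, mul_assoc] using this
  have hval : ∀ k : G, ∀ v ∈ V, v k = inner ℂ ξ (kapR k v) := by
    intro k v hv
    rw [← key _ (hR k v hv)]
    change v k = v (1 * k)
    rw [one_mul]
  have hsym : ∀ k : G, conj (ξ k) = ξ k⁻¹ := by
    intro k
    rw [hval k ξ hξ, hval k⁻¹ ξ hξ, inner_conj_symm, lp.inner_eq_tsum, lp.inner_eq_tsum,
      ← (Equiv.mulRight k).tsum_eq fun x => inner ℂ (ξ x) (kapR k⁻¹ ξ x)]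
    refine tsum_congr fun x => ?_
    change inner ℂ (ξ (x * k)) (ξ x) = inner ℂ (ξ (x * k)) (ξ (x * k * k⁻¹))
    rw [mul_inv_cancel_right]
  let av : lp (fun _ : G => ℂ) 2 := ⟨a, memℓp_gen (summable_of_ne_finset_zero (s := s)
    fun x hx => by simp [hs x hx])⟩
  have hav : av ∈ V := ha
  have h2 : inner ℂ ξ ξ = 0 := by
    rw [← key ξ hξ, ← hξ 1, ← h1]
    have h3 : a 1 = inner ℂ ξ av := key av hav
    rw [h3, lp.inner_eq_tsum, tsum_eq_sum (s := s) fun x hx => by
      change inner ℂ (ξ x) (a x) = 0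
      rw [hs x hx, inner_zero_right]]
    refine Finset.sum_congr rfl fun y _ => ?_
    change _ = inner ℂ (ξ y) (a y)
    rw [RCLike.inner_apply, mul_one, hsym]
  have h3 : a g = inner ℂ ξ (kapR g av) := hval g av hav
  rw [h3, inner_self_eq_zero.1 h2, inner_zero_left]

theorem kap_pos' {G : Type} [Group G] (e : MonoidAlgebra ℂ G) (he : e * e = e)
    (h1 : e.coeff 1 = 0) : e = 0 := by
  ext g
  refine kap_pos e.coeff.support e.coeff (fun g hg => Finsupp.notMem_support_iff.1 hg)
    (fun x => ?_) h1 g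
  conv_rhs => rw [← he]
  rw [MonoidAlgebra.coeff_mul_apply_left]
  rfl

theorem kap_complex {G : Type} [Group G]
    (hB : ∀ e : Fin 1 → Fin 1 → G → ℂ, IsL1IdempotentMatrix e →
      ∀ g : G, ¬ IsOfFinOrder g → classTrace e (ConjClasses.mk g).carrier = 0)
    (hG : ∀ g : G, IsOfFinOrder g → g = 1) (e : MonoidAlgebra ℂ G) (he : e * e = e) :
    e = 0 ∨ e = 1 := by
  classical
  set s := e.coeff.support with hs
  have hs0 : ∀ g ∉ s, e.coeff g = 0 := fun g hg => Finsupp.notMem_support_iff.1 hg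
  have hid : IsL1IdempotentMatrix fun (_ _ : Fin 1) => (e.coeff : G → ℂ) := by
    refine ⟨fun _ _ => summable_of_ne_finset_zero (s := s) fun x hx => by simp [hs0 x hx],
      fun _ _ x => ?_⟩
    beta_reduce
    rw [Fin.sum_univ_one, conv, tsum_eq_sum (s := s) fun y hy => by rw [hs0 y hy, zero_mul]]
    conv_rhs => rw [← he]
    rw [MonoidAlgebra.coeff_mul_apply_left]
    rfl
  have hcl : ∀ g : G, g ≠ 1 → ∑ x ∈ s with ConjClasses.mk x = ConjClasses.mk g, e.coeff x = 0 := by
    intro g hg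
    have h := hB _ hid g fun h => hg (hG g h)
    rw [classTrace, tsum_subtype (ConjClasses.mk g).carrier fun x => ∑ _i : Fin 1, e.coeff x,
      tsum_eq_sum (s := s) fun y hy => by simp [Set.indicator, hs0 y hy]] at h
    rw [← h, Finset.sum_filter]
    refine Finset.sum_congr rfl fun y _ => ?_
    simp [Set.indicator, ConjClasses.mem_carrier_iff_mk_eq]
  have hsum : ∑ x ∈ s, e.coeff x = e.coeff 1 := by
    rw [← Finset.sum_fiberwise_of_maps_to (s := s) (t := insert 1 (s.image ConjClasses.mk))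
      (g := ConjClasses.mk) fun x hx => Finset.mem_insert_of_mem (Finset.mem_image_of_mem _ hx),
      Finset.sum_eq_single_of_mem 1 (Finset.mem_insert_self _ _)]
    · rw [Finset.sum_filter, Finset.sum_eq_single 1]
      · simp [ConjClasses.one_eq_mk_one]
      · intro b _ hb
        rw [if_neg]
        rw [ConjClasses.one_eq_mk_one, ConjClasses.mk_eq_mk_iff_isConj, isConj_one_left]
        exact hb
      · intro h
        simp [hs0 1 h]
    · intro C _ hC
      obtain ⟨g, rfl⟩ := ConjClasses.mk_surjective C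
      refine hcl g fun h => hC ?_
      rw [h, ConjClasses.one_eq_mk_one]
  have haug : MonoidAlgebra.lift ℂ ℂ G 1 e = e.coeff 1 := by
    rw [MonoidAlgebra.lift_apply, ← hsum]
    simp [Finsupp.sum, hs]
  have hidem : IsIdempotentElem (e.coeff 1) := by
    rw [← haug]
    exact (show IsIdempotentElem e from he).map _
  rcases IsIdempotentElem.iff_eq_zero_or_one.1 hidem with h | h
  · exact Or.inl (kap_pos' e he h)
  · refine Or.inr (sub_eq_zero.1 (kap_pos' (1 - e) (show IsIdempotentElem e from he).one_sub ?_)).symm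
    rw [MonoidAlgebra.coeff_sub, Finsupp.sub_apply, h, MonoidAlgebra.coeff_one_one, sub_self]

theorem kap_hom (B : Type) [CommRing B] [Nontrivial B] [Algebra ℚ B] [Algebra.FiniteType ℚ B] :
    Nonempty (B →+* ℂ) := by
  obtain ⟨m, hm⟩ := Ideal.exists_maximal B
  let := Ideal.Quotient.field m
  let : Algebra ℚ (B ⧸ m) := Ideal.Quotient.algebra ℚ
  have : Module.Finite ℚ (B ⧸ m) := finite_of_finite_type_of_isJacobsonRing ℚ (B ⧸ m)
  let ψ : (B ⧸ m) →ₐ[ℚ] ℂ := IsAlgClosed.lift
  exact ⟨ψ.toRingHom.comp (Ideal.Quotient.mk m)⟩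

/-- specialisation of finitely many elements of a domain of characteristic zero to `ℂ` -/
theorem kap_spec {R : Type} [CommRing R] [IsDomain R] [CharZero R] (t : Finset R) {c : R}
    (hc : c ≠ 0) : ∃ (A : Subring R) (hcA : c ∈ A) (φ : A →+* ℂ), (∀ x ∈ t, x ∈ A) ∧
      φ ⟨c, hcA⟩ ≠ 0 := by
  classical
  let K := FractionRing R
  let ι := algebraMap R K
  let u : Finset K := insert (ι c)⁻¹ ((insert c t).image ι)
  let B : Subalgebra ℚ K := Algebra.adjoin ℚ (u : Set K)
  have : Algebra.FiniteType ℚ B :=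
    (Subalgebra.fg_iff_finiteType B).1 ⟨u, rfl⟩
  obtain ⟨ψ⟩ := kap_hom B
  let A : Subring R := B.toSubring.comap ι
  have hA : ∀ x ∈ insert c t, x ∈ A := fun x hx =>
    Algebra.subset_adjoin (Finset.mem_insert_of_mem (Finset.mem_image_of_mem _ hx))
  let j : A →+* B := (ι.comp A.subtype).codRestrict B fun x => x.2
  refine ⟨A, hA c (Finset.mem_insert_self _ _), ψ.comp j,
    fun x hx => hA x (Finset.mem_insert_of_mem hx), ?_⟩
  have hinv : (ι c)⁻¹ ∈ B := Algebra.subset_adjoin (Finset.mem_insert_self _ _)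
  have hu : j ⟨c, hA c (Finset.mem_insert_self _ _)⟩ * ⟨_, hinv⟩ = 1 :=
    Subtype.ext (mul_inv_cancel₀ ((map_ne_zero_iff ι (IsFractionRing.injective R K)).2 hc))
  exact ((IsUnit.of_mul_eq_one _ hu).map ψ).ne_zero

theorem kaplansky_of_bass
    (hB : ∀ (G : Type) [Group G] (q : ℕ) (_ : 1 ≤ q) (e : Fin q → Fin q → G → ℂ)
      (_ : IsL1IdempotentMatrix e),
      Set.Finite {C : ConjClasses G | classTrace e C.carrier ≠ 0} ∧
        ∀ g : G, ¬ IsOfFinOrder g → classTrace e (ConjClasses.mk g).carrier = 0)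
    (G : Type) [Group G] (hG : ∀ g : G, IsOfFinOrder g → g = 1) (R : Type) [CommRing R]
    [IsDomain R] [CharZero R] (e : MonoidAlgebra R G) (he : e * e = e) : e = 0 ∨ e = 1 := by
  classical
  by_contra hcon
  obtain ⟨h0, h1⟩ := not_or.1 hcon
  obtain ⟨g₀, hg₀⟩ : ∃ g, e.coeff g ≠ 0 := by
    by_contra! h
    exact h0 (by ext g; simpa using h g)
  obtain ⟨g₁, hg₁⟩ : ∃ g, (1 - e).coeff g ≠ 0 := by
    by_contra! h
    exact h1 (sub_eq_zero.1 (by ext g; simpa using h g)).symm
  obtain ⟨A, hcA, φ, hA, hφ⟩ := kap_spec (e.coeff.support.image e.coeff) (mul_ne_zero hg₀ hg₁)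
  have hmem : ∀ g, e.coeff g ∈ A := by
    intro g
    by_cases hg : g ∈ e.coeff.support
    · exact hA _ (Finset.mem_image_of_mem _ hg)
    · rw [Finsupp.notMem_support_iff.1 hg]; exact A.zero_mem
  let eA : MonoidAlgebra A G := .ofCoeff (Finsupp.onFinset e.coeff.support
    (fun g => ⟨e.coeff g, hmem g⟩) fun g hg => Finsupp.mem_support_iff.2 fun h => hg (Subtype.ext h))
  have hmap : MonoidAlgebra.mapRingHom G A.subtype eA = e := by
    ext g
    rw [MonoidAlgebra.coeff_mapRingHom]
    rfl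
  have hinj : Function.Injective (MonoidAlgebra.mapRingHom G A.subtype) :=
    MonoidAlgebra.map_injective _ Subtype.val_injective
  have heA : eA * eA = eA := hinj (by rw [map_mul, hmap, he])
  have hprod : (⟨_, hcA⟩ : A) = eA.coeff g₀ * (1 - eA).coeff g₁ := by
    apply Subtype.ext
    have e1 := MonoidAlgebra.coeff_mapRingHom A.subtype (1 - eA) g₁
    rw [map_sub, map_one, hmap] at e1
    change e.coeff g₀ * (1 - e).coeff g₁ = e.coeff g₀ * A.subtype ((1 - eA).coeff g₁)
    rw [e1]
  rw [hprod, map_mul, ← MonoidAlgebra.coeff_mapRingHom, ← MonoidAlgebra.coeff_mapRingHom,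
    map_sub, map_one] at hφ
  rcases kap_complex (fun e he => (hB G 1 le_rfl e he).2) hG (MonoidAlgebra.mapRingHom G φ eA)
    (by rw [← map_mul, heA]) with h | h
  · simp [h] at hφ
  · simp [h] at hφ

end Crest.Agent.R192
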