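import Crest.Agent.R192.Defs

/-!
# R192: elementary properties of the kernel, the pairing `B` and of `SmF` families

All proofs are elementary: write `Finsupp.sum` as a `Finset.sum` over a finset containing the
support (`Finsupp.sum_of_support_subset`).  For `SmF`: `ContDiff` is local
(`contDiff_iff_contDiffAt`), and near a point the pairing is a fixed finite sum
(`ContDiffAt.congr_of_eventuallyEq`).
-/

set_option autoImplicit false

open Finset Filter Topology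
open scoped Classical

namespace Crest.Agent.R192

variable {G : Type} [Group G] {β ϱ : ℕ} (L : Len G β ϱ)

theorem Len.c_nonneg (a b : G) : 0 ≤ L.c a b := sub_nonneg.2 (Nat.cast_le.2 (L.d_le _))

theorem Len.c_le (a b : G) : L.c a b ≤ ϱ := sub_le_self _ (Nat.cast_nonneg _)

theorem Len.abs_c_le (a b : G) : |L.c a b| ≤ ϱ := by
  rw [abs_of_nonneg (L.c_nonneg a b)]
  exact L.c_le a b

theorem Len.c_symm (a b : G) : L.c a b = L.c b a := by
  rw [Len.c, Len.c, ← L.d_inv (a⁻¹ * b), mul_inv_rev, inv_inv]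

theorem Len.c_mul (g a b : G) : L.c (g * a) (g * b) = L.c a b := by
  rw [Len.c, Len.c, mul_inv_rev, mul_assoc, inv_mul_cancel_left]

theorem Len.c_eq_zero {a b : G} (h : a⁻¹ * b ∉ L.ball) : L.c a b = 0 := by
  rw [L.mem_ball, not_lt] at h
  rw [Len.c, le_antisymm (L.d_le _) h, sub_self]

theorem Len.abs_c_sub (z a a' : G) : |L.c z a - L.c z a'| ≤ L.d (a⁻¹ * a') := by
  have h1 := L.d_mul (z⁻¹ * a) (a⁻¹ * a')
  have h2 := L.d_mul (z⁻¹ * a') (a⁻¹ * a')⁻¹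
  rw [mul_assoc, mul_inv_cancel_left] at h1
  rw [L.d_inv, mul_inv_rev, inv_inv, mul_assoc, mul_inv_cancel_left] at h2
  have h3 : (L.d (z⁻¹ * a') : ℝ) ≤ L.d (z⁻¹ * a) + L.d (a⁻¹ * a') := by exact_mod_cast h1
  have h4 : (L.d (z⁻¹ * a) : ℝ) ≤ L.d (z⁻¹ * a') + L.d (a⁻¹ * a') := by exact_mod_cast h2
  rw [Len.c, Len.c, abs_le]
  constructor <;> linarith

theorem Len.inv_mem_ball {g : G} (h : g ∈ L.ball) : g⁻¹ ∈ L.ball := by
  rwa [L.mem_ball, L.d_inv, ← L.mem_ball]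

theorem Len.one_mem_ball (hϱ : 1 ≤ ϱ) : (1 : G) ∈ L.ball := by
  rw [L.mem_ball, L.d_one]
  exact hϱ

theorem Len.mem_nb {F : Finset G} {y : G} : y ∈ L.nb F ↔ ∃ a ∈ F, a⁻¹ * y ∈ L.ball := by
  rw [Len.nb, mem_image₂]
  constructor
  · rintro ⟨a, ha, b, hb, rfl⟩
    exact ⟨a, ha, by rwa [inv_mul_cancel_left]⟩
  · rintro ⟨a, ha, hb⟩
    exact ⟨a, ha, _, hb, mul_inv_cancel_left a y⟩

theorem Len.nb_mono {F F' : Finset G} (h : F ⊆ F') : L.nb F ⊆ L.nb F' := fun _ hy => by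
  obtain ⟨a, ha, hb⟩ := L.mem_nb.1 hy
  exact L.mem_nb.2 ⟨a, h ha, hb⟩

theorem Len.subset_nb (hϱ : 1 ≤ ϱ) (F : Finset G) : F ⊆ L.nb F := fun a ha =>
  L.mem_nb.2 ⟨a, ha, by rw [inv_mul_cancel]; exact L.one_mem_ball hϱ⟩

theorem Len.Cv_eq_sum (f : G →₀ ℝ) {F : Finset G} (hF : f.support ⊆ F) (z : G) :
    L.Cv f z = ∑ a ∈ F, L.c z a * f a :=
  Finsupp.sum_of_support_subset f hF _ fun _ _ => mul_zero _

theorem Len.Cv_add (f f' : G →₀ ℝ) (z : G) : L.Cv (f + f') z = L.Cv f z + L.Cv f' z :=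
  Finsupp.sum_add_index' (fun _ => mul_zero _) fun _ _ _ => mul_add _ _ _

theorem Len.Cv_sub (f f' : G →₀ ℝ) (z : G) : L.Cv (f - f') z = L.Cv f z - L.Cv f' z := by
  rw [eq_sub_iff_add_eq, ← L.Cv_add, sub_add_cancel]

theorem Len.Cv_smul (r : ℝ) (f : G →₀ ℝ) (z : G) : L.Cv (r • f) z = r * L.Cv f z := by
  rw [L.Cv_eq_sum _ Finsupp.support_smul, L.Cv_eq_sum f Subset.rfl, mul_sum]
  exact sum_congr rfl fun a _ => by rw [Finsupp.smul_apply, smul_eq_mul, mul_left_comm]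

theorem Len.Cv_single (a : G) (r : ℝ) (z : G) : L.Cv (Finsupp.single a r) z = L.c z a * r :=
  Finsupp.sum_single_index (mul_zero _)

theorem Len.Cv_sum {ι : Type} (s : Finset ι) (f : ι → G →₀ ℝ) (z : G) :
    L.Cv (∑ i ∈ s, f i) z = ∑ i ∈ s, L.Cv (f i) z := by
  induction s using Finset.induction_on with
  | empty => simp [Len.Cv]
  | insert i s hi ih => rw [sum_insert hi, sum_insert hi, L.Cv_add, ih]

theorem Len.Cv_lt (g : G) (f : G →₀ ℝ) (z : G) : L.Cv (lt g f) (g * z) = L.Cv f z := by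
  rw [Len.Cv, lt, Finsupp.sum_mapDomain_index (fun _ => mul_zero _) fun _ _ _ => mul_add _ _ _]
  simp only [L.c_mul]
  rfl

theorem Len.Cv_eq_zero (f : G →₀ ℝ) {z : G} (hz : z ∉ L.nb f.support) : L.Cv f z = 0 := by
  rw [L.Cv_eq_sum f Subset.rfl]
  refine sum_eq_zero fun a ha => ?_
  rw [L.c_symm, L.c_eq_zero fun h => hz (L.mem_nb.2 ⟨a, ha, h⟩), zero_mul]

theorem lt_apply (g : G) (f : G →₀ ℝ) (z : G) : lt g f (g * z) = f z :=
  Finsupp.mapDomain_apply (mul_right_injective g) f z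

theorem lt_single (g a : G) (r : ℝ) : lt g (Finsupp.single a r) = Finsupp.single (g * a) r :=
  Finsupp.mapDomain_single

theorem lt_sub (g : G) (f f' : G →₀ ℝ) : lt g (f - f') = lt g f - lt g f' := by
  ext z
  rw [← mul_inv_cancel_left g z, Finsupp.sub_apply, lt_apply, lt_apply, lt_apply, Finsupp.sub_apply]

theorem tot_eq_sum (f : G →₀ ℝ) {F : Finset G} (hF : f.support ⊆ F) :
    tot f = ∑ a ∈ F, f a :=
  Finsupp.sum_of_support_subset f hF _ fun _ _ => rfl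

theorem n1_eq_sum (f : G →₀ ℝ) {F : Finset G} (hF : f.support ⊆ F) :
    n1 f = ∑ a ∈ F, |f a| :=
  Finsupp.sum_of_support_subset f hF _ fun _ _ => abs_zero

theorem n1_eq_tot (f : G →₀ ℝ) (hf : ∀ a, 0 ≤ f a) : n1 f = tot f := by
  rw [n1_eq_sum f Subset.rfl, tot_eq_sum f Subset.rfl]
  exact sum_congr rfl fun a _ => abs_of_nonneg (hf a)

theorem Len.B_eq_sum' (f f' : G →₀ ℝ) {F : Finset G} (hF : f.support ⊆ F) :
    L.B f f' = ∑ a ∈ F, f a * L.Cv f' a :=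
  Finsupp.sum_of_support_subset f hF _ fun _ _ => zero_mul _

theorem Len.B_eq_sum (f f' : G →₀ ℝ) {F F' : Finset G} (hF : f.support ⊆ F)
    (hF' : f'.support ⊆ F') : L.B f f' = ∑ a ∈ F, ∑ b ∈ F', f a * L.c a b * f' b := by
  rw [L.B_eq_sum' f f' hF]
  refine sum_congr rfl fun a _ => ?_
  rw [L.Cv_eq_sum f' hF', mul_sum]
  exact sum_congr rfl fun b _ => (mul_assoc _ _ _).symm

theorem Len.B_symm (f f' : G →₀ ℝ) : L.B f f' = L.B f' f := by
  rw [L.B_eq_sum f f' Subset.rfl Subset.rfl, L.B_eq_sum f' f Subset.rfl Subset.rfl, sum_comm]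
  refine sum_congr rfl fun a _ => sum_congr rfl fun b _ => ?_
  rw [L.c_symm a b]
  ring

theorem Len.B_add_left (f g f' : G →₀ ℝ) : L.B (f + g) f' = L.B f f' + L.B g f' :=
  Finsupp.sum_add_index' (fun _ => zero_mul _) fun _ _ _ => add_mul _ _ _

theorem Len.B_add_right (f f' g' : G →₀ ℝ) : L.B f (f' + g') = L.B f f' + L.B f g' := by
  rw [L.B_symm, L.B_add_left, L.B_symm f', L.B_symm g']

theorem Len.B_sub_left (f g f' : G →₀ ℝ) : L.B (f - g) f' = L.B f f' - L.B g f' := by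
  rw [eq_sub_iff_add_eq, ← L.B_add_left, sub_add_cancel]

theorem Len.B_sub_right (f f' g' : G →₀ ℝ) : L.B f (f' - g') = L.B f f' - L.B f g' := by
  rw [eq_sub_iff_add_eq, ← L.B_add_right, sub_add_cancel]

theorem Len.B_smul_left (r : ℝ) (f f' : G →₀ ℝ) : L.B (r • f) f' = r * L.B f f' := by
  rw [L.B_eq_sum' _ _ Finsupp.support_smul, L.B_eq_sum' f f' Subset.rfl, mul_sum]
  exact sum_congr rfl fun a _ => by rw [Finsupp.smul_apply, smul_eq_mul, mul_assoc]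

theorem Len.B_smul_right (r : ℝ) (f f' : G →₀ ℝ) : L.B f (r • f') = r * L.B f f' := by
  rw [L.B_symm, L.B_smul_left, L.B_symm]

theorem Len.B_lt (g : G) (f f' : G →₀ ℝ) : L.B (lt g f) (lt g f') = L.B f f' := by
  rw [Len.B, lt, Finsupp.sum_mapDomain_index (fun _ => zero_mul _) fun _ _ _ => add_mul _ _ _]
  simp only [L.Cv_lt]
  rfl

/-- `|B(f,f')| ≤ ‖f‖₁ ‖C f'‖_∞`. -/
theorem Len.abs_B_le (f f' : G →₀ ℝ) (K : ℝ) (hK : ∀ z, |L.Cv f' z| ≤ K) :
    |L.B f f'| ≤ n1 f * K := by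
  rw [L.B_eq_sum' f f' Subset.rfl, n1_eq_sum f Subset.rfl, sum_mul]
  refine (abs_sum_le_sum_abs _ _).trans (sum_le_sum fun a _ => ?_)
  rw [abs_mul]
  exact mul_le_mul_of_nonneg_left (hK a) (abs_nonneg _)

theorem Len.abs_Cv_le (f : G →₀ ℝ) (z : G) : |L.Cv f z| ≤ ϱ * n1 f := by
  rw [L.Cv_eq_sum f Subset.rfl, n1_eq_sum f Subset.rfl, mul_sum]
  refine (abs_sum_le_sum_abs _ _).trans (sum_le_sum fun a _ => ?_)
  rw [abs_mul]
  exact mul_le_mul_of_nonneg_right (L.abs_c_le _ _) (abs_nonneg _)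

/-- Replacing probability vectors by their smoothings changes `B` by at most `15 R`:
`B(q,q') - B(μ,μ') = B(q', q - μ) + B(μ, q' - μ')`, `‖q'‖₁ ≤ 2`, `‖μ‖₁ = 1`. -/
theorem Mech.abs_B_sub {R b : ℝ} (m : Mech L R b) {μ μ' : G →₀ ℝ} (hμ : Prob μ) (hμ' : Prob μ') :
    |L.B (m.Q μ) (m.Q μ') - L.B μ μ'| ≤ 15 * R := by
  have h1 := L.abs_B_le (m.Q μ') _ _ (m.approx μ hμ)
  have h2 := L.abs_B_le μ _ _ (m.approx μ' hμ')
  have h3 : 0 ≤ 5 * R := (abs_nonneg _).trans (m.approx μ hμ 1)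
  rw [n1_eq_tot _ (m.Q_nonneg μ')] at h1
  rw [n1_eq_tot _ hμ.1, hμ.2] at h2
  have h4 := mul_le_mul_of_nonneg_right (m.Q_tot μ' hμ') h3
  have e : L.B (m.Q μ) (m.Q μ') - L.B μ μ' = L.B (m.Q μ') (m.Q μ - μ) + L.B μ (m.Q μ' - μ') := by
    rw [L.B_sub_right, L.B_sub_right, L.B_symm (m.Q μ') (m.Q μ), L.B_symm (m.Q μ') μ]
    ring
  rw [e]
  refine (abs_add_le _ _).trans ?_
  linarith

section smooth

variable {E E' : Type} [NormedAddCommGroup E] [NormedSpace ℝ E] [NormedAddCommGroup E']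
  [NormedSpace ℝ E']

theorem SmF.comp {f : E → G →₀ ℝ} (hf : SmF f) {g : E' → E} (hg : ContDiff ℝ 3 g) :
    SmF fun p => f (g p) := by
  refine ⟨fun p => ?_, fun a => (hf.2 a).comp hg⟩
  obtain ⟨F, hF⟩ := hf.1 (g p)
  exact ⟨F, (hg.continuous.tendsto p).eventually hF⟩

/-- On a compact set the supports lie in a fixed finite set. -/
theorem SmF.exists_finset {f : E → G →₀ ℝ} (hf : SmF f) {K : Set E} (hK : IsCompact K) :
    ∃ F : Finset G, ∀ p ∈ K, ∀ᶠ p' in 𝓝 p, (f p').support ⊆ F := by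
  choose F hF using hf.1
  obtain ⟨t, -, ht⟩ := hK.elim_nhds_subcover
    (fun p => {p' | ∀ᶠ p'' in 𝓝 p', (f p'').support ⊆ F p}) fun p _ => (hF p).eventually_nhds
  refine ⟨t.biUnion F, fun p hp => ?_⟩
  obtain ⟨p₀, hp₀, h⟩ := Set.mem_iUnion₂.1 (ht hp)
  exact Eventually.mono h fun p' h' => h'.trans (subset_biUnion_of_mem F hp₀)

theorem Mech.smF {R b : ℝ} (m : Mech L R b) {f : E → G →₀ ℝ} (hf : SmF f) :
    SmF fun p => m.Q (f p) := by
  refine ⟨fun p => ?_, fun a => ?_⟩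
  · obtain ⟨F, hF⟩ := hf.1 p
    refine ⟨L.nb (L.nb F), hF.mono fun p' hp' a ha => ?_⟩
    by_contra h
    exact Finsupp.mem_support_iff.1 ha (m.loc _ _ fun h' => h (L.nb_mono (L.nb_mono hp') h')).1
  · simp only [m.Q_eq]
    exact m.φ_smooth.comp (m.smooth E f hf a)

theorem Len.contDiff_Cv {f : E → G →₀ ℝ} (hf : SmF f) (z : G) :
    ContDiff ℝ 3 fun p => L.Cv (f p) z := by
  refine contDiff_iff_contDiffAt.2 fun p => ?_
  obtain ⟨F, hF⟩ := hf.1 p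
  have h1 : ContDiff ℝ 3 fun p => ∑ a ∈ F, L.c z a * f p a :=
    ContDiff.sum fun a _ => contDiff_const.mul (hf.2 a)
  exact h1.contDiffAt.congr_of_eventuallyEq (hF.mono fun p' hp' => L.Cv_eq_sum _ hp' z)

theorem Len.contDiff_B {f f' : E → G →₀ ℝ} (hf : SmF f) (hf' : SmF f') :
    ContDiff ℝ 3 fun p => L.B (f p) (f' p) := by
  refine contDiff_iff_contDiffAt.2 fun p => ?_
  obtain ⟨F, hF⟩ := hf.1 p
  have h1 : ContDiff ℝ 3 fun p => ∑ a ∈ F, f p a * L.Cv (f' p) a :=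
    ContDiff.sum fun a _ => (hf.2 a).mul (L.contDiff_Cv hf' a)
  exact h1.contDiffAt.congr_of_eventuallyEq (hF.mono fun p' hp' => L.B_eq_sum' _ _ hp')

omit [Group G] in
private theorem ker_zero {f : E → G →₀ ℝ} {p : E} {F : Finset G}
    (hF : ∀ᶠ p' in 𝓝 p, (f p').support ⊆ F) (v : E) {a : G} (ha : a ∉ F) :
    fderiv ℝ (fun p => f p a) p v = 0 := by
  have h : (fun p => f p a) =ᶠ[𝓝 p] fun _ => 0 :=
    hF.mono fun p' hp' => Finsupp.notMem_support_iff.1 fun h => ha (hp' h)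
  rw [h.fderiv_eq]
  simp

omit [Group G] in
private theorem ker_supp {f : E → G →₀ ℝ} {p v : E} {F : Finset G}
    (hF : ∀ᶠ p' in 𝓝 p, (f p').support ⊆ F) {ν : G →₀ ℝ}
    (hν : ∀ a, fderiv ℝ (fun p => f p a) p v = ν a) : ν.support ⊆ F := fun a ha => by
  by_contra h
  exact Finsupp.mem_support_iff.1 ha ((hν a).symm.trans (ker_zero hF v h))

/-- The derivative of an `SmF` family as a finitely supported function. -/
theorem SmF.exists_deriv {f : E → G →₀ ℝ} (hf : SmF f) (p v : E) :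
    ∃ ν : G →₀ ℝ, ∀ a, fderiv ℝ (fun p => f p a) p v = ν a := by
  obtain ⟨F, hF⟩ := hf.1 p
  exact ⟨Finsupp.onFinset F (fun a => fderiv ℝ (fun p => f p a) p v) fun a ha => by
    by_contra h
    exact ha (ker_zero hF v h), fun _ => rfl⟩

theorem Len.fderiv_Cv {f : E → G →₀ ℝ} (hf : SmF f) (p v : E) {ν : G →₀ ℝ}
    (hν : ∀ a, fderiv ℝ (fun p => f p a) p v = ν a) (z : G) :
    fderiv ℝ (fun p => L.Cv (f p) z) p v = L.Cv ν z := by
  obtain ⟨F, hF⟩ := hf.1 p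
  have h1 : (fun p => L.Cv (f p) z) =ᶠ[𝓝 p] fun p => ∑ a ∈ F, L.c z a * f p a :=
    hF.mono fun p' hp' => L.Cv_eq_sum _ hp' z
  have h2 := HasFDerivAt.fun_sum (u := F) fun a _ =>
    (((hf.2 a).differentiable (by norm_num) p).hasFDerivAt).const_mul (L.c z a)
  rw [h1.fderiv_eq, h2.fderiv, L.Cv_eq_sum ν (ker_supp hF hν)]
  simp only [_root_.sum_apply, _root_.smul_apply, smul_eq_mul, hν]

/-- Product rule for `B`. -/
theorem Len.fderiv_B {f f' : E → G →₀ ℝ} (hf : SmF f) (hf' : SmF f') (p v : E) {ν ν' : G →₀ ℝ}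
    (hν : ∀ a, fderiv ℝ (fun p => f p a) p v = ν a)
    (hν' : ∀ a, fderiv ℝ (fun p => f' p a) p v = ν' a) :
    fderiv ℝ (fun p => L.B (f p) (f' p)) p v = L.B ν (f' p) + L.B (f p) ν' := by
  obtain ⟨F, hF⟩ := hf.1 p
  have h1 : (fun p => L.B (f p) (f' p)) =ᶠ[𝓝 p] fun p => ∑ a ∈ F, f p a * L.Cv (f' p) a :=
    hF.mono fun p' hp' => L.B_eq_sum' _ _ hp'
  have h2 := HasFDerivAt.fun_sum (u := F) fun a _ =>
    (((hf.2 a).differentiable (by norm_num) p).hasFDerivAt).fun_mul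
      (((L.contDiff_Cv hf' a).differentiable (by norm_num) p).hasFDerivAt)
  rw [h1.fderiv_eq, h2.fderiv, L.B_eq_sum' ν _ (ker_supp hF hν),
    L.B_eq_sum' (f p) _ hF.self_of_nhds, ← sum_add_distrib]
  simp only [_root_.sum_apply, _root_.add_apply, _root_.smul_apply, smul_eq_mul, hν,
    L.fderiv_Cv hf' p v hν']
  exact sum_congr rfl fun a _ => by ring

/-- Chain rule for the mechanism: `∂ q(y) = φ'(P y) ∂P(y)`. -/
theorem Mech.fderiv_Q {R b : ℝ} (m : Mech L R b) {f : E → G →₀ ℝ} (hf : SmF f) (p v : E) (y : G) :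
    fderiv ℝ (fun p => m.Q (f p) y) p v =
      deriv m.φ (m.P (f p) y) * fderiv ℝ (fun p => m.P (f p) y) p v := by
  have h1 := (m.φ_smooth.differentiable (by norm_num) (m.P (f p) y)).hasDerivAt.comp_hasFDerivAt p
    ((m.smooth E f hf y).differentiable (by norm_num) p).hasFDerivAt
  have h2 : fderiv ℝ (fun p => m.φ (m.P (f p) y)) p = _ := h1.fderiv
  simp only [m.Q_eq]
  rw [h2]
  simp

/-- ℓ¹ sensitivity: Cauchy–Schwarz with `w_sum` and `sens`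
(`∑ |w V| ≤ √(∑ w) √(∑ w V²) ≤ √b Λ`). -/
theorem Mech.n1_deriv_le {R b : ℝ} (m : Mech L R b) (hb : 0 ≤ b) {f : E → G →₀ ℝ} (hf : SmF f)
    (p v : E) {ν ν' : G →₀ ℝ} {Λ : ℝ} (hp : Prob (f p))
    (hν : ∀ a, fderiv ℝ (fun p => f p a) p v = ν a) (hΛ : L.Dip ν Λ)
    (hν' : ∀ a, fderiv ℝ (fun p => m.Q (f p) a) p v = ν' a) : n1 ν' ≤ √b * Λ := by
  have hΛ0 : 0 ≤ Λ := by
    obtain ⟨K, κ, x, x', hκ, h, -⟩ := hΛ
    exact (sum_nonneg fun k _ => mul_nonneg (hκ k) (Nat.cast_nonneg _)).trans h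
  have h1 := m.w_sum _ hp ν'.support
  have h2 := m.sens E f hf p v ν Λ hp hν hΛ ν'.support
  have h3 := sum_sq_le_sum_mul_sum_of_sq_eq_mul ν'.support (r := fun a => |ν' a|)
    (fun a _ => m.φ'_nonneg (m.P (f p) a))
    (fun a _ => mul_nonneg (m.φ'_nonneg (m.P (f p) a))
      (sq_nonneg (fderiv ℝ (fun p => m.P (f p) a) p v)))
    fun a _ => by rw [sq_abs, ← hν' a, m.fderiv_Q L hf]; ring
  rw [n1_eq_sum ν' Subset.rfl]
  refine (abs_le_of_sq_le_sq' ?_ (mul_nonneg (Real.sqrt_nonneg _) hΛ0)).2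
  rw [mul_pow, Real.sq_sqrt hb]
  refine h3.trans ((mul_le_mul h1 h2 (sum_nonneg fun a _ => mul_nonneg (m.φ'_nonneg _)
    (sq_nonneg _)) zero_le_one).trans (one_mul _).le)

end smooth

end Crest.Agent.R192
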