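import Mathlib

/-!
# R192: dyadic window functions
-/

set_option autoImplicit false

open Finset MeasureTheory

namespace Crest.Agent.R192

theorem win_deriv_eq_zero {K : ℝ → ℝ} {h : ℝ} (hm : Monotone K) (h0 : ∀ y, y ≤ 0 → K y = 0)
    (h1 : ∀ y, h ≤ y → K y = 1) {y : ℝ} (hy : y ≤ 0 ∨ h ≤ y) : deriv K y = 0 := by
  rcases hy with hy | hy
  · refine IsLocalMin.deriv_eq_zero (Filter.Eventually.of_forall fun x => ?_)
    rw [h0 y hy, ← h0 (min x 0) (min_le_right _ _)]
    exact hm (min_le_left _ _)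
  · refine IsLocalMax.deriv_eq_zero (Filter.Eventually.of_forall fun x => ?_)
    rw [h1 y hy, ← h1 (max x h) (le_max_right _ _)]
    exact hm (le_max_left _ _)

/-- `deriv smoothTransition` is continuous and vanishes outside `[0,1]` (local extrema), so it is
bounded; it is nonnegative since `smoothTransition` is monotone. -/
theorem exists_c0 : ∃ c : ℝ, 1 ≤ c ∧ ∀ y, |deriv Real.smoothTransition y| ≤ c := by
  have hc : Continuous (deriv Real.smoothTransition) :=
    (Real.smoothTransition.contDiff (n := 1)).continuous_deriv le_rfl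
  obtain ⟨C, hC⟩ := (isCompact_Icc (a := (0 : ℝ)) (b := 1)).exists_bound_of_continuousOn
    hc.continuousOn
  refine ⟨max 1 C, le_max_left _ _, fun y => ?_⟩
  by_cases hy : y ≤ 0 ∨ 1 ≤ y
  · rw [win_deriv_eq_zero Real.smoothTransition.monotone
      (fun y hy => Real.smoothTransition.zero_of_nonpos hy)
      (fun y hy => Real.smoothTransition.one_of_one_le hy) hy, abs_zero]
    exact zero_le_one.trans (le_max_left _ _)
  · rw [not_or, not_le, not_le] at hy
    exact (hC y ⟨hy.1.le, hy.2.le⟩).trans (le_max_right _ _)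

/-- A universal bound for the derivative of `Real.smoothTransition`. -/
noncomputable def c0 : ℝ := exists_c0.choose

theorem one_le_c0 : 1 ≤ c0 := exists_c0.choose_spec.1

theorem abs_deriv_smoothTransition_le (y : ℝ) : |deriv Real.smoothTransition y| ≤ c0 :=
  exists_c0.choose_spec.2 y

/-- A distribution function of a window of width `h`. -/
structure IsWin (K : ℝ → ℝ) (h : ℝ) : Prop where
  pos : 0 < h
  smooth : ContDiff ℝ 3 K
  mono : Monotone K
  zero : ∀ y, y ≤ 0 → K y = 0
  one : ∀ y, h ≤ y → K y = 1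
  dle : ∀ y, deriv K y ≤ c0 / h

/-- The dyadic windows, of width `2^j h0`. -/
noncomputable def win (h0 : ℝ) : ℕ → ℝ → ℝ
  | 0 => fun y => Real.smoothTransition (y / h0)
  | j + 1 => fun y => (win h0 j y + win h0 j (y - 2 ^ j * h0)) / 2

/-- Induction on `j`. For `dle`: with `h = 2^j h0`, if `h ≤ y` then `deriv K y = 0`, and if
`y ≤ h` then `deriv K (y - h) = 0` (`IsWin.deriv_eq_zero`). -/
theorem isWin_win {h0 : ℝ} (hh : 0 < h0) (j : ℕ) : IsWin (win h0 j) (2 ^ j * h0) := by
  induction j with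
  | zero =>
    have hd : ∀ y, HasDerivAt (fun y => Real.smoothTransition (y / h0))
        (deriv Real.smoothTransition (y / h0) * (1 / h0)) y := fun y =>
      (((Real.smoothTransition.contDiff (n := 1)).differentiable one_ne_zero _).hasDerivAt).comp y
        ((hasDerivAt_id y).div_const h0)
    simp only [pow_zero, one_mul, win]
    refine ⟨hh, Real.smoothTransition.contDiff.comp (contDiff_id.div_const h0),
      fun x y hxy => Real.smoothTransition.monotone (div_le_div_of_nonneg_right hxy hh.le),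
      fun y hy => Real.smoothTransition.zero_of_nonpos (div_nonpos_of_nonpos_of_nonneg hy hh.le),
      fun y hy => Real.smoothTransition.one_of_one_le ((one_le_div hh).2 hy), fun y => ?_⟩
    rw [(hd y).deriv, mul_one_div]
    exact div_le_div_of_nonneg_right ((le_abs_self _).trans (abs_deriv_smoothTransition_le _)) hh.le
  | succ j ih =>
    have hp := ih.pos
    have e : (2 : ℝ) ^ (j + 1) * h0 = 2 * (2 ^ j * h0) := by ring
    simp only [win]
    rw [e]
    generalize (2 : ℝ) ^ j * h0 = h at ih hp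
    generalize win h0 j = K at ih
    have hdiff : Differentiable ℝ K := ih.smooth.differentiable (by norm_num)
    have hd : ∀ y, HasDerivAt (fun y => (K y + K (y - h)) / 2)
        ((deriv K y + deriv K (y - h)) / 2) y := fun y =>
      ((hdiff y).hasDerivAt.add ((hdiff (y - h)).hasDerivAt.comp_sub_const y h)).div_const 2
    refine ⟨by linarith, (ih.smooth.add (ih.smooth.comp (contDiff_id.sub contDiff_const))).div_const 2,
      fun x y hxy => ?_, fun y hy => ?_, fun y hy => ?_, fun y => ?_⟩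
    · have h1 := ih.mono hxy
      have h2 := ih.mono (sub_le_sub_right hxy h)
      linarith
    · rw [ih.zero y hy, ih.zero _ (by linarith)]
      norm_num
    · rw [ih.one y (by linarith), ih.one _ (by linarith)]
      norm_num
    · rw [(hd y).deriv, mul_comm, ← div_div]
      refine div_le_div_of_nonneg_right ?_ (by norm_num)
      rcases le_total y h with hy | hy
      · rw [win_deriv_eq_zero ih.mono ih.zero ih.one (y := y - h) (Or.inl (by linarith)), add_zero]
        exact ih.dle y
      · rw [win_deriv_eq_zero ih.mono ih.zero ih.one (Or.inr hy), zero_add]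
        exact ih.dle _

variable {K : ℝ → ℝ} {h : ℝ}

theorem IsWin.nonneg (hK : IsWin K h) (y : ℝ) : 0 ≤ K y := by
  rw [← hK.zero (min y 0) (min_le_right _ _)]
  exact hK.mono (min_le_left _ _)

theorem IsWin.le_one (hK : IsWin K h) (y : ℝ) : K y ≤ 1 := by
  rw [← hK.one (max y h) (le_max_right _ _)]
  exact hK.mono (le_max_left _ _)

theorem IsWin.deriv_nonneg (hK : IsWin K h) (y : ℝ) : 0 ≤ deriv K y := hK.mono.deriv_nonneg

/-- `y` is a global minimum / maximum (`IsLocalMin.deriv_eq_zero`). -/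
theorem IsWin.deriv_eq_zero (hK : IsWin K h) {y : ℝ} (hy : y ≤ 0 ∨ h ≤ y) : deriv K y = 0 :=
  win_deriv_eq_zero hK.mono hK.zero hK.one hy

/-- The periodised density. -/
noncomputable def kap (K : ℝ → ℝ) (y : ℝ) : ℝ := ∑ᶠ k : ℤ, deriv K (y + k)

theorem IsWin.kap_eq_sum (hK : IsWin K h) (y : ℝ) (T : Finset ℤ)
    (hT : ∀ k : ℤ, 0 < y + k → y + k < h → k ∈ T) : kap K y = ∑ k ∈ T, deriv K (y + k) := by
  refine finsum_eq_sum_of_support_subset _ fun k hk => ?_
  by_contra hkT
  refine hk (hK.deriv_eq_zero ?_)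
  by_contra hcon
  rw [not_or, not_le, not_le] at hcon
  exact hkT (hT k hcon.1 hcon.2)

theorem IsWin.kap_nonneg (hK : IsWin K h) (y : ℝ) : 0 ≤ kap K y :=
  finsum_nonneg fun _ => hK.deriv_nonneg _

/-- At most `h + 1` integers `k` have `0 < y + k < h`. -/
theorem IsWin.kap_le (hK : IsWin K h) (y : ℝ) : kap K y ≤ c0 * (1 + 1 / h) := by
  have hp := hK.pos
  have hc : 0 ≤ c0 := zero_le_one.trans one_le_c0
  rw [hK.kap_eq_sum y (Finset.Ioo ⌊-y⌋ ⌈h - y⌉) fun k h1 h2 =>
    Finset.mem_Ioo.2 ⟨Int.floor_lt.2 (by linarith), Int.lt_ceil.2 (by linarith)⟩]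
  refine (Finset.sum_le_card_nsmul _ _ _ fun k _ => hK.dle _).trans ?_
  have h1 : ((Finset.Ioo ⌊-y⌋ ⌈h - y⌉).card : ℝ) ≤ h + 1 := by
    rw [Int.card_Ioo]
    rcases le_total (⌈h - y⌉ - ⌊-y⌋ - 1) 0 with h0 | h0
    · rw [Int.toNat_eq_zero.2 h0]
      simp only [Nat.cast_zero]
      linarith
    · have h2 : (((⌈h - y⌉ - ⌊-y⌋ - 1).toNat : ℤ) : ℝ) = ((⌈h - y⌉ - ⌊-y⌋ - 1 : ℤ) : ℝ) := by
        rw [Int.toNat_of_nonneg h0]
      push_cast at h2
      have h3 := Int.ceil_lt_add_one (h - y)
      have h4 := Int.sub_one_lt_floor (-y)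
      rw [h2]
      linarith
  rw [nsmul_eq_mul]
  calc _ ≤ (h + 1) * (c0 / h) := mul_le_mul_of_nonneg_right h1 (by positivity)
    _ = c0 * (1 + 1 / h) := by field_simp

/-- Locally a fixed finite sum. -/
theorem IsWin.continuous_kap (hK : IsWin K h) : Continuous (kap K) := by
  have hc : Continuous (deriv K) := hK.smooth.continuous_deriv (by norm_num)
  refine continuous_iff_continuousAt.2 fun y0 => ?_
  have h1 : Continuous fun y : ℝ => ∑ k ∈ Finset.Ioo ⌊-y0 - 1⌋ ⌈h - y0 + 1⌉, deriv K (y + k) := by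
    fun_prop
  refine h1.continuousAt.congr ?_
  filter_upwards [Ioo_mem_nhds (sub_one_lt y0) (lt_add_one y0)] with y hy
  refine (hK.kap_eq_sum y _ fun k h1 h2 => ?_).symm
  exact Finset.mem_Ioo.2 ⟨Int.floor_lt.2 (by linarith [hy.2]), Int.lt_ceil.2 (by linarith [hy.1])⟩

/-- Telescoping: `∑ k, (K (s - a + k) - K (s - a - 1 + k)) = 1`. -/
theorem IsWin.integral_kap (hK : IsWin K h) (s a : ℝ) :
    ∫ τ in a..(a + 1), kap K (s - τ) = 1 := by
  have hc : Continuous (deriv K) := hK.smooth.continuous_deriv (by norm_num)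
  have hdiff : Differentiable ℝ K := hK.smooth.differentiable (by norm_num)
  rw [intervalIntegral.integral_comp_sub_left (kap K) s]
  obtain ⟨u, hu⟩ : ∃ u, u = s - (a + 1) := ⟨_, rfl⟩
  have e : s - a = u + 1 := by rw [hu]; ring
  rw [← hu, e]
  obtain ⟨m, hm⟩ : ∃ m : ℤ, u + 1 + m ≤ 0 := ⟨⌊-(u + 1)⌋, by linarith [Int.floor_le (-(u + 1))]⟩
  obtain ⟨N, hN⟩ : ∃ N : ℕ, h - u - m ≤ N := exists_nat_ge _
  have h1 : ∀ y ∈ Set.uIcc u (u + 1),
      kap K y = ∑ i ∈ Finset.range N, deriv K (y + (m + i)) := fun y hy => by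
    rw [Set.uIcc_of_le (by linarith)] at hy
    rw [hK.kap_eq_sum y ((Finset.range N).image fun i : ℕ => m + i) fun k h1 h2 => ?_,
      Finset.sum_image fun i _ j _ hij => by exact_mod_cast add_left_cancel hij]
    · simp
    · have h3 : m < k := by
        have : (m : ℝ) < k := by linarith [hy.2]
        exact_mod_cast this
      have h4 : k < m + N := by
        have : (k : ℝ) < m + N := by linarith [hy.1]
        exact_mod_cast this
      exact Finset.mem_image.2 ⟨(k - m).toNat, Finset.mem_range.2 (by omega), by omega⟩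
  rw [intervalIntegral.integral_congr h1, intervalIntegral.integral_finsetSum fun (i : ℕ) _ =>
    (by fun_prop : Continuous fun y : ℝ => deriv K (y + (m + i))).intervalIntegrable _ _]
  have h2 : ∀ i ∈ Finset.range N, ∫ y in u..(u + 1), deriv K (y + (m + i)) =
      K (u + (m + ((i + 1 : ℕ) : ℝ))) - K (u + (m + i)) := fun i _ => by
    rw [intervalIntegral.integral_comp_add_right (deriv K),
      intervalIntegral.integral_deriv_eq_sub (fun x _ => hdiff x) (hc.intervalIntegrable _ _)]
    congr 2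
    push_cast
    ring
  rw [Finset.sum_congr rfl h2, Finset.sum_range_sub fun i : ℕ => K (u + (m + i)),
    hK.one _ (by linarith), hK.zero _ (by simp only [Nat.cast_zero]; linarith), sub_zero]

/-- Cover `[0, 1 + h]` by `⌈h⌉ + 1 ≤ h + 2` periods. -/
theorem IsWin.integral_kap_le (hK : IsWin K h) (s : ℝ) :
    ∫ τ in (0 : ℝ)..(1 + h), kap K (s - τ) ≤ 2 + h := by
  have hp := hK.pos
  have hc : Continuous fun τ => kap K (s - τ) := hK.continuous_kap.comp (by fun_prop)
  have h1 : ∫ τ in (0 : ℝ)..((⌈h⌉₊ + 1 : ℕ) : ℝ), kap K (s - τ) = (⌈h⌉₊ + 1 : ℕ) := by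
    have := intervalIntegral.sum_integral_adjacent_intervals (μ := volume)
      (f := fun τ => kap K (s - τ)) (a := fun i : ℕ => (i : ℝ)) (n := ⌈h⌉₊ + 1)
      fun k _ => hc.intervalIntegrable _ _
    simp only [Nat.cast_zero] at this
    rw [← this, Finset.sum_congr rfl fun i _ => by rw [Nat.cast_succ i, hK.integral_kap]]
    simp
  have h2 := Nat.le_ceil h
  have h3 := Nat.ceil_lt_add_one hp.le
  refine (intervalIntegral.integral_mono_interval (c := 0) (d := ((⌈h⌉₊ + 1 : ℕ) : ℝ)) le_rfl
    (by linarith) (by push_cast; linarith)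
    (Filter.Eventually.of_forall fun τ => hK.kap_nonneg _) (hc.intervalIntegrable _ _)).trans ?_
  rw [h1]
  push_cast
  linarith

theorem IsWin.integral_kap_sq_le (hK : IsWin K h) (s : ℝ) :
    ∫ τ in (0 : ℝ)..(1 + h), kap K (s - τ) ^ 2 ≤ c0 * (1 + 1 / h) * (2 + h) := by
  have hp := hK.pos
  have hc0 : 0 ≤ c0 := zero_le_one.trans one_le_c0
  have hc : Continuous fun τ => kap K (s - τ) := hK.continuous_kap.comp (by fun_prop)
  refine (intervalIntegral.integral_mono_on (g := fun τ => c0 * (1 + 1 / h) * kap K (s - τ))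
    (by linarith) ((hc.pow 2).intervalIntegrable _ _)
    ((continuous_const.mul hc).intervalIntegrable _ _) fun τ _ => ?_).trans ?_
  · rw [sq]
    exact mul_le_mul_of_nonneg_right (hK.kap_le _) (hK.kap_nonneg _)
  · rw [intervalIntegral.integral_const_mul]
    exact mul_le_mul_of_nonneg_left (hK.integral_kap_le s) (by positivity)

end Crest.Agent.R192
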