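import Crest.Agent.R192.Ker
import Crest.Agent.R192.Win
import Crest.Agent.R192.Gauge

/-!
# R192: the window measure of a loop

The loop `(h; x; s)` sits at `h^k x i` during the time interval
`[s i.castSucc + k, s i.succ + k]`; `mass K h x s τ` is its occupation measure for the window
`K'(· - τ)`.
-/

set_option autoImplicit false

open Finset Filter Topology
open scoped Classical

namespace Crest.Agent.R192

variable {G : Type} [Group G] {N M : ℕ}

noncomputable def mass (K : ℝ → ℝ) (h : G) (x : Fin N → G) (s : Fin (N + 1) → ℝ) (τ : ℝ) :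
    G →₀ ℝ :=
  ∑ᶠ k : ℤ, ∑ i : Fin N,
    Finsupp.single (h ^ k * x i) (K (s i.succ + k - τ) - K (s i.castSucc + k - τ))

variable {K : ℝ → ℝ} {hh : ℝ}

/-- Outside `T` all the arguments of `K` are `≤ 0`, or all are `≥ hh`. -/
theorem mass_eq_sum (hK : IsWin K hh) (h : G) (x : Fin N → G) (s : Fin (N + 1) → ℝ) (τ : ℝ)
    (T : Finset ℤ)
    (hT : ∀ k : ℤ, k ∉ T → (∀ m, s m + k - τ ≤ 0) ∨ (∀ m, hh ≤ s m + k - τ)) :
    mass K h x s τ = ∑ k ∈ T, ∑ i : Fin N,
      Finsupp.single (h ^ k * x i) (K (s i.succ + k - τ) - K (s i.castSucc + k - τ)) := by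
  refine finsum_eq_sum_of_support_subset _ fun k hk => ?_
  by_contra hk'
  refine hk (sum_eq_zero fun i _ => ?_)
  rcases hT k hk' with h1 | h1
  · rw [hK.zero _ (h1 _), hK.zero _ (h1 _), sub_self, Finsupp.single_zero]
  · rw [hK.one _ (h1 _), hK.one _ (h1 _), sub_self, Finsupp.single_zero]

/-- A finite set `T = Icc (-n) n` that works on a bounded set of parameters. -/
theorem exists_T (hh B : ℝ) : ∃ n : ℕ, ∀ (s : Fin (N + 1) → ℝ) (τ : ℝ), ‖s‖ ≤ B → |τ| ≤ B →
    ∀ k : ℤ, (k < -(n : ℤ) → ∀ m, s m + k - τ ≤ 0) ∧ ((n : ℤ) < k → ∀ m, hh ≤ s m + k - τ) := by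
  refine ⟨⌈2 * B + |hh|⌉₊, fun s τ hs hτ k => ?_⟩
  have h1 := Nat.le_ceil (2 * B + |hh|)
  have h2 : ∀ m, |s m| ≤ B := fun m => (norm_le_pi_norm s m).trans hs
  obtain ⟨h3, h4⟩ := abs_le.1 hτ
  refine ⟨fun hk m => ?_, fun hk m => ?_⟩
  · have h5 : (k : ℝ) < -(⌈2 * B + |hh|⌉₊ : ℝ) := by exact_mod_cast hk
    linarith [(abs_le.1 (h2 m)).2, abs_nonneg hh]
  · have h5 : (⌈2 * B + |hh|⌉₊ : ℝ) < k := by exact_mod_cast hk
    linarith [(abs_le.1 (h2 m)).1, le_abs_self hh]

/-- The same with `Icc`. -/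
theorem exists_Icc (hh B : ℝ) : ∃ n : ℕ, ∀ (s : Fin (N + 1) → ℝ) (τ : ℝ), ‖s‖ ≤ B → |τ| ≤ B →
    ∀ k : ℤ, k ∉ Icc (-(n : ℤ)) n → (∀ m, s m + k - τ ≤ 0) ∨ (∀ m, hh ≤ s m + k - τ) := by
  obtain ⟨n, hn⟩ := exists_T (N := N) hh B
  refine ⟨n, fun s τ hs hτ k hk => ?_⟩
  rw [mem_Icc, not_and_or, not_le, not_le] at hk
  exact hk.imp (hn s τ hs hτ k).1 (hn s τ hs hτ k).2

theorem mass_fin (hK : IsWin K hh) (h : G) (x : Fin N → G) (s : Fin (N + 1) → ℝ) (τ : ℝ) :
    Function.HasFiniteSupport fun k : ℤ => ∑ i : Fin N,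
      Finsupp.single (h ^ k * x i) (K (s i.succ + k - τ) - K (s i.castSucc + k - τ)) := by
  obtain ⟨n, hn⟩ := exists_Icc (N := N) hh (max ‖s‖ |τ|)
  refine (Icc (-(n : ℤ)) n).finite_toSet.subset fun k hk => ?_
  by_contra hk'
  refine hk (sum_eq_zero fun i _ => ?_)
  rcases hn s τ (le_max_left _ _) (le_max_right _ _) k hk' with h1 | h1
  · rw [hK.zero _ (h1 _), hK.zero _ (h1 _), sub_self, Finsupp.single_zero]
  · rw [hK.one _ (h1 _), hK.one _ (h1 _), sub_self, Finsupp.single_zero]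

private theorem mass_lt (hK : IsWin K hh) (g h : G) (x : Fin N → G) (s : Fin (N + 1) → ℝ) (τ : ℝ) :
    lt g (mass K h x s τ) = ∑ᶠ k : ℤ, ∑ i : Fin N,
      Finsupp.single (g * (h ^ k * x i)) (K (s i.succ + k - τ) - K (s i.castSucc + k - τ)) := by
  refine ((Finsupp.mapDomain.addMonoidHom fun a => g * a).map_finsum (mass_fin hK h x s τ)).trans
    (finsum_congr fun k => ?_)
  rw [map_sum]
  exact sum_congr rfl fun i _ => Finsupp.mapDomain_single

theorem mass_transl (h : G) (x : Fin N → G) (s : Fin (N + 1) → ℝ) (c τ : ℝ) :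
    mass K h x (fun i => s i + c) τ = mass K h x s (τ - c) := by
  refine finsum_congr fun k => sum_congr rfl fun i _ => ?_
  congr 3 <;> ring

/-- Reindex `k ↦ k + 1`. -/
theorem mass_add_one (hK : IsWin K hh) (h : G) (x : Fin N → G) (s : Fin (N + 1) → ℝ) (τ : ℝ) :
    mass K h x s (τ + 1) = lt h (mass K h x s τ) := by
  rw [mass_lt hK, mass, ← finsum_comp_equiv (Equiv.addRight (1 : ℤ))]
  refine finsum_congr fun k => sum_congr rfl fun i _ => ?_
  rw [Equiv.coe_addRight, ← mul_assoc, ← zpow_one_add, add_comm 1 k]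
  push_cast
  congr 3 <;> ring

theorem mass_conj (hK : IsWin K hh) (g h : G) (x : Fin N → G) (s : Fin (N + 1) → ℝ) (τ : ℝ) :
    mass K (g * h * g⁻¹) (fun i => g * x i) s τ = lt g (mass K h x s τ) := by
  rw [mass_lt hK, mass]
  refine finsum_congr fun k => sum_congr rfl fun i _ => ?_
  rw [conj_zpow, mul_assoc, inv_mul_cancel_left, mul_assoc]

/-- `Fin.sum_univ_succAbove`. -/
theorem mass_face (h : G) (x : Fin (N + 1) → G) {i : Fin (N + 1)} {s : Fin (N + 2) → ℝ}
    {s' : Fin (N + 1) → ℝ} (hs : Fc i s s') (τ : ℝ) :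
    mass K h x s τ = mass K h (fun j => x (i.succAbove j)) s' τ := by
  refine finsum_congr fun k => ?_
  rw [Fin.sum_univ_succAbove _ i, hs.1, sub_self, Finsupp.single_zero, zero_add]
  exact sum_congr rfl fun j _ => by rw [(hs.2 j).1, (hs.2 j).2]

/-- Split off the last slot on the left, the first slot on the right, and reindex `k ↦ k + 1` in
that term (`finsum_add_distrib`, or `mass_eq_sum`-type finite sums). -/
theorem mass_shift (hK : IsWin K hh) (h : G) (x : Fin (N + 1) → G) {s : Fin (N + 2) → ℝ}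
    (hs : Per s) (τ : ℝ) : mass K h (shX h x) (shS s) τ = mass K h x s τ := by
  have h1 := mass_fin hK h (Fin.tail x) (Fin.tail s) τ
  have h2 := mass_fin hK h (fun _ : Fin 1 => x 0) ![s 0, s 1] τ
  have h3 := mass_fin hK h (fun _ : Fin 1 => h * x 0) ![s 0 + 1, s 1 + 1] τ
  have e1 : mass K h x s τ = mass K h (fun _ : Fin 1 => x 0) ![s 0, s 1] τ +
      mass K h (Fin.tail x) (Fin.tail s) τ := by
    rw [mass, mass, mass, ← finsum_add_distrib h2 h1]
    refine finsum_congr fun k => ?_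
    rw [Fin.sum_univ_succ, Fin.sum_univ_one]
    rfl
  have e2 : mass K h (shX h x) (shS s) τ = mass K h (Fin.tail x) (Fin.tail s) τ +
      mass K h (fun _ : Fin 1 => h * x 0) ![s 0 + 1, s 1 + 1] τ := by
    rw [mass, mass, mass, ← finsum_add_distrib h1 h3]
    refine finsum_congr fun k => ?_
    rw [Fin.sum_univ_castSucc, Fin.sum_univ_one]
    simp only [shX, shS, Fin.succ_castSucc, Fin.snoc_castSucc, Fin.succ_last, Fin.snoc_last]
    have e : Fin.tail s (Fin.last N) = s 0 + 1 := hs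
    rw [e]
    rfl
  have e3 : mass K h (fun _ : Fin 1 => h * x 0) ![s 0 + 1, s 1 + 1] τ =
      mass K h (fun _ : Fin 1 => x 0) ![s 0, s 1] τ := by
    rw [mass, mass, ← finsum_comp_equiv (Equiv.addRight (1 : ℤ))
      (f := fun k : ℤ => ∑ i : Fin 1, Finsupp.single (h ^ k * x 0)
        (K (![s 0, s 1] i.succ + k - τ) - K (![s 0, s 1] i.castSucc + k - τ)))]
    refine finsum_congr fun k => ?_
    rw [Fin.sum_univ_one, Fin.sum_univ_one, Equiv.coe_addRight, ← mul_assoc, ← zpow_add_one]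
    push_cast
    congr 3
    · change s 1 + 1 + k - τ = s 1 + (k + 1) - τ
      ring
    · change s 0 + 1 + k - τ = s 0 + (k + 1) - τ
      ring
  rw [e1, e2, e3, add_comm]

theorem mass_win_succ {h0 : ℝ} (h0pos : 0 < h0) (j : ℕ) (h : G) (x : Fin N → G)
    (s : Fin (N + 1) → ℝ) (τ : ℝ) :
    mass (win h0 (j + 1)) h x s τ =
      (1 / 2 : ℝ) • (mass (win h0 j) h x s τ + mass (win h0 j) h x s (τ + 2 ^ j * h0)) := by
  have hK := isWin_win h0pos j
  rw [mass, mass, mass, ← finsum_add_distrib (mass_fin hK h x s τ) (mass_fin hK h x s _),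
    smul_finsum]
  refine finsum_congr fun k => ?_
  rw [← sum_add_distrib, smul_sum]
  refine sum_congr rfl fun i _ => ?_
  rw [← Finsupp.single_add, Finsupp.smul_single, smul_eq_mul, win, ← sub_sub, ← sub_sub]
  congr 1
  ring

omit [Group G] in
theorem tot_sum {ι : Type} (T : Finset ι) (f : ι → G →₀ ℝ) :
    tot (∑ i ∈ T, f i) = ∑ i ∈ T, tot (f i) :=
  map_sum (Finsupp.liftAddHom fun _ => AddMonoidHom.id ℝ) f T

omit [Group G] in
theorem tot_single (g : G) (r : ℝ) : tot (Finsupp.single g r) = r := Finsupp.sum_single_index rfl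

/-- Nonnegative by monotonicity; the total mass telescopes in `i` and then in `k`. -/
theorem mass_prob (hK : IsWin K hh) (h : G) (x : Fin N → G) {s : Fin (N + 1) → ℝ}
    (hm : Monotone s) (hs : Per s) (τ : ℝ) : Prob (mass K h x s τ) := by
  obtain ⟨n, hn⟩ := exists_T (N := N) hh (max ‖s‖ |τ|)
  have hn' := hn s τ (le_max_left _ _) (le_max_right _ _)
  rw [mass_eq_sum hK h x s τ (Ico (-((n + 1 : ℕ) : ℤ)) (n + 1 : ℕ)) fun k hk => by
    rw [mem_Ico, not_and_or, not_le, not_lt] at hk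
    exact hk.imp (fun h1 => (hn' k).1 (by omega)) fun h1 => (hn' k).2 (by omega)]
  refine ⟨fun a => ?_, ?_⟩
  · rw [Finsupp.finsetSum_apply]
    refine sum_nonneg fun k _ => ?_
    rw [Finsupp.finsetSum_apply]
    refine sum_nonneg fun i _ => ?_
    rw [Finsupp.single_apply]
    split_ifs
    · exact sub_nonneg.2 (hK.mono (by linarith [hm (Fin.castSucc_lt_succ (i := i)).le]))
    · exact le_rfl
  · have e : ∀ k : ℤ, ∑ i : Fin N, (K (s i.succ + k - τ) - K (s i.castSucc + k - τ)) =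
        - K (s 0 + k - τ) - - K (s 0 + (k + 1 : ℤ) - τ) := fun k => by
      have h1 : ∀ g : Fin (N + 1) → ℝ, ∑ i : Fin N, (g i.succ - g i.castSucc) =
          g (Fin.last N) - g 0 := fun g => by
        have h2 := Fin.sum_univ_succ g
        have h3 := Fin.sum_univ_castSucc g
        rw [sum_sub_distrib]
        linarith
      rw [h1 fun m => K (s m + k - τ), hs, Int.cast_add, Int.cast_one, add_assoc (s 0),
        add_comm (1 : ℝ) k]
      ring
    simp only [tot_sum, tot_single, e]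
    rw [sum_Ico_int_sub (n + 1) fun k : ℤ => - K (s 0 + k - τ),
      hK.zero _ ((hn' _).1 (by omega) 0), hK.one _ ((hn' _).2 (by omega) 0)]
    ring

private theorem mass_near (hK : IsWin K hh) (h : G) (x : Fin N → G) (p : (Fin (N + 1) → ℝ) × ℝ) :
    ∃ T : Finset ℤ, ∀ᶠ p' : (Fin (N + 1) → ℝ) × ℝ in 𝓝 p,
      (∀ k : ℤ, k ∉ T → (∀ m, p'.1 m + k - p'.2 ≤ 0) ∨ (∀ m, hh ≤ p'.1 m + k - p'.2)) ∧
      mass K h x p'.1 p'.2 = ∑ k ∈ T, ∑ i : Fin N, (K (p'.1 i.succ + k - p'.2) -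
        K (p'.1 i.castSucc + k - p'.2)) • Finsupp.single (h ^ k * x i) (1 : ℝ) := by
  obtain ⟨n, hn⟩ := exists_Icc (N := N) hh (‖p‖ + 1)
  refine ⟨Icc (-(n : ℤ)) n, ((continuous_norm.tendsto p).eventually
    (Iio_mem_nhds (lt_add_one ‖p‖))).mono fun p' hp' => ?_⟩
  have h1 := hn p'.1 p'.2 ((norm_fst_le p').trans (le_of_lt hp'))
    ((norm_snd_le p').trans (le_of_lt hp'))
  refine ⟨h1, ?_⟩
  rw [mass_eq_sum hK h x _ _ _ h1]
  simp only [Finsupp.smul_single_one]

/-- Near a point, `mass` is a fixed finite sum (`exists_T`, `mass_eq_sum`). -/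
theorem mass_smF (hK : IsWin K hh) (h : G) (x : Fin N → G) :
    SmF fun p : (Fin (N + 1) → ℝ) × ℝ => mass K h x p.1 p.2 := by
  refine ⟨fun p => ?_, fun a => contDiff_iff_contDiffAt.2 fun p => ?_⟩
  · obtain ⟨T, hT⟩ := mass_near hK h x p
    refine ⟨T.biUnion fun k => univ.image fun i => h ^ k * x i, hT.mono fun p' hp' a ha => ?_⟩
    beta_reduce at ha
    rw [hp'.2] at ha
    obtain ⟨k, hk, ha⟩ := Finsupp.mem_support_finsetSum a ha
    obtain ⟨i, -, ha⟩ := Finsupp.mem_support_finsetSum a ha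
    exact mem_biUnion.2 ⟨k, hk, mem_image.2 ⟨i, mem_univ _, (mem_singleton.1
      (Finsupp.support_single_subset (Finsupp.support_smul ha))).symm⟩⟩
  · obtain ⟨T, hT⟩ := mass_near hK h x p
    have h1 : ∀ (m : Fin (N + 1)) (k : ℤ), ContDiff ℝ 3 fun p : (Fin (N + 1) → ℝ) × ℝ =>
        K (p.1 m + k - p.2) := fun m k => hK.smooth.comp (by fun_prop)
    have h2 : ContDiff ℝ 3 fun p : (Fin (N + 1) → ℝ) × ℝ => ∑ k ∈ T, ∑ i : Fin N,
        (K (p.1 i.succ + k - p.2) - K (p.1 i.castSucc + k - p.2)) *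
          Finsupp.single (h ^ k * x i) (1 : ℝ) a :=
      ContDiff.sum fun k _ => ContDiff.sum fun i _ => ((h1 _ _).sub (h1 _ _)).mul contDiff_const
    refine h2.contDiffAt.congr_of_eventuallyEq (hT.mono fun p' hp' => ?_)
    beta_reduce
    rw [hp'.2]
    simp only [Finsupp.finsetSum_apply, Finsupp.smul_apply, smul_eq_mul]

theorem mass_smF_left (hK : IsWin K hh) (h : G) (x : Fin N → G) (τ : ℝ) :
    SmF fun s : Fin (N + 1) → ℝ => mass K h x s τ :=
  (mass_smF hK h x).comp (g := fun s => (s, τ)) (by fun_prop)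

/-- The inner jump time `a + 1` is the end of slot `a.castSucc` and the start of slot `a.succ`
(`a.castSucc.succ = a.succ.castSucc`), so the derivative is
`ν = ∑ k ∈ T, deriv K (s (a+1) + k - τ) • (single (h^k x_a) 1 - single (h^k x_{a+1}) 1)`. -/
theorem mass_deriv {β ϱ : ℕ} (L : Len G β ϱ) (hK : IsWin K hh) (h : G) (x : Fin (M + 1) → G)
    (s : Fin (M + 2) → ℝ) (τ : ℝ) (a : Fin M) :
    ∃ ν : G →₀ ℝ, (∀ y, fderiv ℝ (fun s => mass K h x s τ y) s (inn a) = ν y) ∧
      L.Dip ν (L.d ((x a.castSucc)⁻¹ * x a.succ) * kap K (s a.succ.castSucc - τ)) := by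
  obtain ⟨T, hT⟩ := mass_near hK h x (s, τ)
  have hT' := (Continuous.prodMk_left τ).continuousAt.eventually hT
  refine ⟨∑ k ∈ T, deriv K (s a.succ.castSucc + k - τ) •
    (Finsupp.single (h ^ k * x a.castSucc) (1 : ℝ) - Finsupp.single (h ^ k * x a.succ) 1),
    fun y => ?_, T, _, _, _, fun k => hK.deriv_nonneg _, le_of_eq ?_, rfl⟩
  · have h1 : ∀ (m : Fin (M + 2)) (k : ℤ), HasFDerivAt (fun s : Fin (M + 2) → ℝ => K (s m + k - τ))
        (deriv K (s m + k - τ) • ContinuousLinearMap.proj (R := ℝ) (φ := fun _ => ℝ) m) s :=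
      fun m k => (hK.smooth.differentiable (by norm_num) _).hasDerivAt.comp_hasFDerivAt s
        (((hasFDerivAt_apply m s).add_const (k : ℝ)).sub_const τ)
    have h2 := HasFDerivAt.fun_sum (u := T) fun k _ => HasFDerivAt.fun_sum (u := univ)
      fun (i : Fin (M + 1)) _ => ((h1 i.succ k).fun_sub (h1 i.castSucc k)).mul_const
        (Finsupp.single (h ^ k * x i) (1 : ℝ) y)
    have h3 : (fun s => mass K h x s τ y) =ᶠ[𝓝 s] fun s => ∑ k ∈ T, ∑ i : Fin (M + 1),
        (K (s i.succ + k - τ) - K (s i.castSucc + k - τ)) *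
          Finsupp.single (h ^ k * x i) (1 : ℝ) y := hT'.mono fun s' hs' => by
      have h4 : mass K h x s' τ = _ := hs'.2
      simp only [h4, Finsupp.finsetSum_apply, Finsupp.smul_apply, smul_eq_mul]
    rw [h3.fderiv_eq, h2.fderiv, Finsupp.finsetSum_apply, _root_.sum_apply]
    refine sum_congr rfl fun k _ => ?_
    have e1 : ∀ i : Fin (M + 1), inn a i.succ = if i = a.castSucc then 1 else 0 := fun i => by
      rw [inn, Pi.single_apply, ← Fin.succ_castSucc]
      simp only [Fin.succ_inj]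
    have e2 : ∀ i : Fin (M + 1), inn a i.castSucc = if i = a.succ then 1 else 0 := fun i => by
      rw [inn, Pi.single_apply]
      simp only [Fin.castSucc_inj]
    simp only [_root_.sum_apply, _root_.smul_apply, _root_.sub_apply,
      ContinuousLinearMap.proj_apply, smul_eq_mul, e1, e2, mul_sub, sum_sub_distrib, mul_ite,
      mul_one, mul_zero, sum_ite_eq', mem_univ, if_true, Finsupp.smul_apply, Finsupp.sub_apply,
      Fin.succ_castSucc]
    ring
  · rw [hK.kap_eq_sum _ T fun k h1 h2 => ?_, mul_sum]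
    · refine sum_congr rfl fun k _ => ?_
      rw [mul_inv_rev, mul_assoc, inv_mul_cancel_left, mul_comm, sub_add_eq_add_sub]
    · by_contra hk
      rcases hT.self_of_nhds.1 k hk with h3 | h3
      · linarith [h3 a.succ.castSucc]
      · linarith [h3 a.succ.castSucc]

end Crest.Agent.R192
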