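import Crest.Agent.R192.Mass

/-!
# R192: self-energy of the window measure at the smallest and at the largest scale
-/

set_option autoImplicit false

open Finset Filter Topology MeasureTheory
open scoped Classical

namespace Crest.Agent.R192

variable {G : Type} [Group G] {β ϱ N M : ℕ} (L : Len G β ϱ) {K : ℝ → ℝ} {hh : ℝ}

/-- The self-energy. -/
noncomputable def Len.SS (L : Len G β ϱ) (K : ℝ → ℝ) (h : G) (x : Fin N → G) (s : Fin (N + 1) → ℝ) :
    ℝ := ∫ τ in (0 : ℝ)..1, L.B (mass K h x s τ) (mass K h x s τ)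

theorem Len.continuous_B_mass (hK : IsWin K hh) (h : G) (x : Fin N → G) (s : Fin (N + 1) → ℝ)
    (a b : ℝ) : Continuous fun τ => L.B (mass K h x s (τ + a)) (mass K h x s (τ + b)) :=
  (L.contDiff_B ((mass_smF hK h x).comp (g := fun τ : ℝ => (s, τ + a)) (by fun_prop))
    ((mass_smF hK h x).comp (g := fun τ : ℝ => (s, τ + b)) (by fun_prop))).continuous

private theorem mp_chain (y : ℤ → G) {a b : ℤ} (hab : a ≤ b) :
    L.d ((y a)⁻¹ * y b) ≤ ∑ n ∈ Ico a b, L.d ((y n)⁻¹ * y (n + 1)) := by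
  induction b, hab using Int.le_induction with
  | base => simp [L.d_one]
  | succ b hab ih =>
    have h1 := L.d_mul ((y a)⁻¹ * y b) ((y b)⁻¹ * y (b + 1))
    rw [mul_assoc, mul_inv_cancel_left] at h1
    rw [← insert_Ico_right_eq_Ico_add_one hab, sum_insert right_notMem_Ico]
    omega

private theorem mp_lex {m k k' i i' : ℤ} (hi : 0 ≤ i) (hi' : i' < m) (h : k * m + i ≤ k' * m + i') :
    k + 1 ≤ k' ∨ (k = k' ∧ i ≤ i') ∨ m ≤ 0 := by
  rcases lt_trichotomy k k' with h1 | rfl | h1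
  · exact Or.inl h1
  · exact Or.inr (Or.inl ⟨rfl, by omega⟩)
  · refine Or.inr (Or.inr ?_)
    by_contra h2
    have := mul_le_mul_of_nonneg_right (show k' + 1 ≤ k from h1) (not_le.1 h2).le
    rw [add_mul, one_mul] at this
    omega

/-- Two points that carry mass are close. -/
private theorem mp_dist (h : G) (x : Fin (M + 1) → G) {s : Fin (M + 2) → ℝ} (hs : Cell s) (τ : ℝ)
    (T : Finset ℤ)
    (hT : ∀ k : ℤ, k ∉ T → (∀ m, s m + k - τ ≤ 0) ∨ (∀ m, hh ≤ s m + k - τ))
    {k k' : ℤ} {i i' : Fin (M + 1)} (h1 : 0 < s i.succ + k - τ) (h2 : s i'.castSucc + k' - τ < hh)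
    (hle : k * (M + 1 : ℕ) + i ≤ k' * (M + 1 : ℕ) + i') :
    (L.d ((h ^ k * x i)⁻¹ * (h ^ k' * x i')) : ℝ) ≤ ∑ l ∈ T, ∑ j : Fin (M + 1),
      L.d ((x j)⁻¹ * shX h x j) * (Set.Ioo 0 hh).indicator (1 : ℝ → ℝ) (s j.succ + l - τ) := by
  set e := Int.divModEquiv (M + 1) with he
  have hsymm : ∀ p : ℤ × Fin (M + 1), e.symm p = p.1 * (M + 1 : ℕ) + p.2 := fun p => rfl
  have h3 := mp_chain L (fun n => h ^ (e n).1 * x (e n).2) (a := e.symm (k, i)) (b := e.symm (k', i'))
    hle
  simp only [Equiv.apply_symm_apply] at h3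
  have h4 : ∀ p : ℤ × Fin (M + 1), h ^ (e (e.symm p + 1)).1 * x (e (e.symm p + 1)).2 =
      h ^ p.1 * shX h x p.2 := by
    rintro ⟨l, j⟩
    induction j using Fin.lastCases with
    | last =>
      have : e.symm (l, Fin.last M) + 1 = e.symm (l + 1, 0) := by
        simp only [hsymm, Fin.val_last, Fin.val_zero]
        push_cast
        ring
      rw [this, Equiv.apply_symm_apply, shX, Fin.snoc_last, zpow_add_one, mul_assoc]
    | cast j =>
      have : e.symm (l, j.castSucc) + 1 = e.symm (l, j.succ) := by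
        simp only [hsymm, Fin.val_castSucc, Fin.val_succ]
        push_cast
        ring
      rw [this, Equiv.apply_symm_apply, shX, Fin.snoc_castSucc]
      rfl
  have hs0 : ∀ m, 0 ≤ s m := fun m => hs.2.1 ▸ hs.1 (Fin.zero_le m)
  have hs1 : ∀ m, s m ≤ 1 := fun m => hs.2.2 ▸ hs.1 (Fin.le_last m)
  have h5 : ∀ p : ℤ × Fin (M + 1), e.symm p ∈ Ico (e.symm (k, i)) (e.symm (k', i')) →
      s p.2.succ + p.1 - τ ∈ Set.Ioo 0 hh := by
    rintro ⟨l, j⟩ hp
    obtain ⟨h6, h7⟩ := mem_Ico.1 hp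
    simp only [hsymm] at h6 h7
    have hj := j.2
    have hi' := i'.2
    constructor
    · rcases mp_lex (by omega) (by omega) h6 with h8 | ⟨rfl, h8⟩ | h8
      · have : (k : ℝ) + 1 ≤ l := by exact_mod_cast h8
        linarith [hs0 j.succ, hs1 i.succ]
      · linarith [hs.1 (show i.succ ≤ j.succ from Fin.succ_le_succ_iff.2 (by exact_mod_cast h8))]
      · omega
    · rcases mp_lex (i := j + 1) (by omega) (by omega)
        (show l * (M + 1 : ℕ) + (j + 1) ≤ k' * (M + 1 : ℕ) + i' by omega) with h8 | ⟨rfl, h8⟩ | h8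
      · have : (l : ℝ) + 1 ≤ k' := by exact_mod_cast h8
        linarith [hs0 i'.castSucc, hs1 j.succ]
      · linarith [hs.1 (show j.succ ≤ i'.castSucc from Fin.le_def.2 (by
          rw [Fin.val_succ, Fin.val_castSucc]
          exact_mod_cast h8))]
      · omega
  refine (Nat.cast_le.2 h3).trans ?_
  rw [Nat.cast_sum, ← sum_product']
  refine le_trans (le_of_eq ?_) (sum_le_sum_of_subset_of_nonneg
    (s := (Ico (e.symm (k, i)) (e.symm (k', i'))).map e.toEmbedding) (fun p hp => ?_) fun p _ _ =>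
      mul_nonneg (Nat.cast_nonneg _) (Set.indicator_nonneg (fun _ _ => zero_le_one) _))
  · rw [sum_map]
    refine sum_congr rfl fun n hn => ?_
    obtain ⟨p, rfl⟩ := e.symm.surjective n
    rw [h4, Equiv.coe_toEmbedding, Equiv.apply_symm_apply, Set.indicator_of_mem (h5 p hn),
      Pi.one_apply, mul_one, mul_inv_rev, mul_assoc, inv_mul_cancel_left]
  · refine mem_product.2 ⟨?_, mem_univ _⟩
    have h6 := h5 p (mem_map_equiv.1 hp)
    by_contra h7
    rcases hT _ h7 with h8 | h8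
    · exact absurd (h8 _) (not_le.2 h6.1)
    · exact absurd (h8 _) (not_le.2 h6.2)

private theorem mp_int (hh0 : 0 < hh) (σ : ℝ) (T : Finset ℤ) :
    ∑ l ∈ T, ∫ τ in (0 : ℝ)..1, (Set.Ioo 0 hh).indicator (1 : ℝ → ℝ) (σ + l - τ) ≤ hh := by
  have h1 : Integrable ((Set.Ioo 0 hh).indicator (1 : ℝ → ℝ)) :=
    (integrable_indicator_iff measurableSet_Ioo).2 (integrableOn_const (by simp))
  have h2 := integral_biUnion_finset (μ := volume) (f := (Set.Ioo 0 hh).indicator (1 : ℝ → ℝ)) T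
    (s := fun l : ℤ => Set.Ioc (σ - 1 + l) (σ - 1 + l + 1)) (fun _ _ => measurableSet_Ioc)
    ((Set.pairwise_disjoint_Ioc_add_intCast (σ - 1)).set_pairwise _) fun _ _ => h1.integrableOn
  refine le_trans (le_of_eq ?_) (h2.symm.le.trans ((setIntegral_le_integral h1
    (Eventually.of_forall fun u => Set.indicator_nonneg (fun _ _ => zero_le_one) u)).trans ?_))
  · refine sum_congr rfl fun l _ => ?_
    rw [intervalIntegral.integral_comp_sub_left ((Set.Ioo 0 hh).indicator (1 : ℝ → ℝ)),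
      intervalIntegral.integral_of_le (by linarith)]
    congr 3 <;> ring
  · rw [integral_indicator_one measurableSet_Ioo]
    simp [hh0.le]

/-- Short windows see a small part of a short loop.  Linearise the indices: for `n : ℤ` put
`y n = h^(n / (M+1)) x (n % (M+1))`, `σ n = s (n % (M+1)) + n / (M+1)` (monotone), `l n` the length
of the step from `y (n-1)` to `y n`; `mass = ∑ n, single (y n) (K (σ (n+1) - τ) - K (σ n - τ))`.
If `y a`, `y b` (`a < b`) carry mass then `σ (a+1) - τ > 0` and `σ b - τ < hh`, so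
`0 < σ n - τ < hh` for `a < n ≤ b` and `d (y a⁻¹ y b) ≤ W τ := ∑ n, l n 1[0 < σ n - τ < hh]`.
Hence `B(μ,μ) ≥ ϱ - W τ`, and `∫₀¹ W = hh * len` since
`∫₀¹ ∑ k, 1[0 < σ + k - τ < hh] dτ = hh`.  (Any other proof is fine; one can avoid the linearisation
by working with pairs `(k, i)` in lexicographic order.) -/
theorem Len.SS_ge (hK : IsWin K hh) (h : G) (x : Fin (M + 1) → G) {s : Fin (M + 2) → ℝ}
    (hs : Cell s) : (ϱ : ℝ) - hh * L.len h x ≤ L.SS K h x s := by
  obtain ⟨n, hn⟩ := exists_Icc (N := M + 1) hh 1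
  have hs0 : ∀ m, 0 ≤ s m := fun m => hs.2.1 ▸ hs.1 (Fin.zero_le m)
  have hs1 : ∀ m, s m ≤ 1 := fun m => hs.2.2 ▸ hs.1 (Fin.le_last m)
  have hsn : ‖s‖ ≤ 1 := (pi_norm_le_iff_of_nonneg zero_le_one).2 fun m =>
    abs_le.2 ⟨by linarith [hs0 m], hs1 m⟩
  generalize Icc (-(n : ℤ)) n = T at hn
  have hI : ∀ c : ℝ, IntervalIntegrable
      (fun τ => (Set.Ioo 0 hh).indicator (1 : ℝ → ℝ) (c - τ)) volume 0 1 := fun c => by
    have h1 : Integrable ((Set.Ioo 0 hh).indicator (1 : ℝ → ℝ)) :=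
      (integrable_indicator_iff measurableSet_Ioo).2 (integrableOn_const (by simp))
    simpa using (h1.intervalIntegrable (a := c) (b := c - 1)).comp_sub_left c
  have hI2 : ∀ l : ℤ, ∀ j : Fin (M + 1), IntervalIntegrable (fun τ => L.d ((x j)⁻¹ * shX h x j) *
      (Set.Ioo 0 hh).indicator (1 : ℝ → ℝ) (s j.succ + l - τ)) volume 0 1 := fun l j =>
    (hI _).const_mul _
  have hI3 : ∀ l : ℤ, IntervalIntegrable (fun τ => ∑ j : Fin (M + 1), L.d ((x j)⁻¹ * shX h x j) *
      (Set.Ioo 0 hh).indicator (1 : ℝ → ℝ) (s j.succ + l - τ)) volume 0 1 := fun l => by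
    simpa only [Finset.sum_fn] using IntervalIntegrable.sum univ fun j _ => hI2 l j
  have hI4 : IntervalIntegrable (fun τ => ∑ l ∈ T, ∑ j : Fin (M + 1), L.d ((x j)⁻¹ * shX h x j) *
      (Set.Ioo 0 hh).indicator (1 : ℝ → ℝ) (s j.succ + l - τ)) volume 0 1 := by
    simpa only [Finset.sum_fn] using IntervalIntegrable.sum T fun l _ => hI3 l
  have hB := L.continuous_B_mass hK h x s 0 0
  simp only [add_zero] at hB
  refine le_trans ?_ (intervalIntegral.integral_mono_on zero_le_one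
    ((intervalIntegrable_const (c := (ϱ : ℝ))).sub hI4) (hB.intervalIntegrable 0 1) fun τ hτ => ?_)
  · rw [intervalIntegral.integral_sub intervalIntegrable_const hI4,
      intervalIntegral.integral_finsetSum fun l _ => hI3 l]
    simp only [intervalIntegral.integral_finsetSum fun j _ => hI2 _ j,
      intervalIntegral.integral_const_mul, intervalIntegral.integral_const, sub_zero, one_smul]
    refine sub_le_sub_left ?_ _
    have e : (L.len h x : ℝ) = ∑ j : Fin (M + 1), (L.d ((x j)⁻¹ * shX h x j) : ℝ) := by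
      rw [Fin.sum_univ_castSucc, Len.len]
      simp only [shX, Fin.snoc_castSucc, Fin.snoc_last, Nat.cast_add, Nat.cast_sum]
      rfl
    rw [sum_comm, e, mul_sum]
    refine sum_le_sum fun j _ => ?_
    rw [← mul_sum, mul_comm hh]
    exact mul_le_mul_of_nonneg_left (mp_int hK.pos _ T) (Nat.cast_nonneg _)
  · have hT := hn s τ hsn (abs_le.2 ⟨by linarith [hτ.1], hτ.2⟩)
    have hp := mass_prob hK h x hs.1 (show Per s by rw [Per, hs.2.1, hs.2.2, zero_add]) τ
    have h1 : ∀ a ∈ (mass K h x s τ).support, ∃ (k : ℤ) (i : Fin (M + 1)), a = h ^ k * x i ∧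
        0 < s i.succ + k - τ ∧ s i.castSucc + k - τ < hh := fun a ha => by
      rw [mass_eq_sum hK h x s τ T hT] at ha
      obtain ⟨k, -, ha⟩ := Finsupp.mem_support_finsetSum a ha
      obtain ⟨i, -, ha⟩ := Finsupp.mem_support_finsetSum a ha
      obtain ⟨h2, h3⟩ := (Finsupp.mem_support_single _ _ _).1 ha
      have h4 := hs.1 (Fin.castSucc_lt_succ (i := i)).le
      refine ⟨k, i, h2, ?_, ?_⟩
      · by_contra h5
        rw [hK.zero _ (not_lt.1 h5), hK.zero _ (by linarith [not_lt.1 h5]), sub_self] at h3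
        exact h3 rfl
      · by_contra h5
        rw [hK.one _ (not_lt.1 h5), hK.one _ (by linarith [not_lt.1 h5]), sub_self] at h3
        exact h3 rfl
    have h2 := fun k k' i i' => mp_dist L h x hs τ T hT (k := k) (k' := k') (i := i) (i' := i')
    generalize ∑ l ∈ T, ∑ j : Fin (M + 1), L.d ((x j)⁻¹ * shX h x j) *
      (Set.Ioo 0 hh).indicator (1 : ℝ → ℝ) (s j.succ + l - τ) = W at h2 ⊢
    generalize mass K h x s τ = μ at hp h1
    have h3 : ∀ a ∈ μ.support, ∀ b ∈ μ.support, (ϱ : ℝ) - W ≤ L.c a b := fun a ha b hb => by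
      obtain ⟨k, i, rfl, h4, h5⟩ := h1 a ha
      obtain ⟨k', i', rfl, h6, h7⟩ := h1 b hb
      rcases le_total (k * (M + 1 : ℕ) + i) (k' * (M + 1 : ℕ) + i') with h8 | h8
      · exact sub_le_sub_left (h2 k k' i i' h4 h7 h8) _
      · rw [L.c_symm]
        exact sub_le_sub_left (h2 k' k i' i h6 h5 h8) _
    have h4 : ∑ a ∈ μ.support, μ a = 1 := hp.2
    rw [L.B_eq_sum μ μ Subset.rfl Subset.rfl]
    refine le_trans (le_of_eq ?_) (sum_le_sum fun a ha => sum_le_sum fun b hb =>
      mul_le_mul_of_nonneg_right (mul_le_mul_of_nonneg_left (h3 a ha b hb) (hp.1 a)) (hp.1 b))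
    simp only [← mul_sum, ← sum_mul, h4, mul_one, one_mul]

end Crest.Agent.R192
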