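import Crest.Agent.R192.Ker
import Crest.Agent.R192.Fix

/-!
# R192: the mechanism — definition, existence, uniqueness, smoothness

For a finitely supported signed `μ` we look for a finitely supported `q` with
`q a = pw r (u a)`, `u a = -(1/R) ∑ b, c(a,b) y b`, `y b = sinh (x b / η) / A`, `x = C (q - μ)`.
-/

set_option autoImplicit false

open Finset Filter Topology
open scoped Classical

namespace Crest.Agent.R192

/-- `(u - 1)₊ ^ r`. -/
noncomputable def pw (r : ℕ) (u : ℝ) : ℝ := (max (u - 1) 0) ^ r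

/-- For `k ≥ 1` the derivative of `pw (k+1)` is `(k+1) * pw k` (check `u < 1`, `u > 1` by local
equality, and `u = 1` by hand, e.g. `HasDerivAt` via `isLittleO` or one-sided derivatives). -/
theorem hasDerivAt_pw {k : ℕ} (hk : 1 ≤ k) (u : ℝ) :
    HasDerivAt (pw (k + 1)) (((k + 1 : ℕ) : ℝ) * pw k u) u := by
  rcases lt_trichotomy u 1 with h | rfl | h
  · have e : pw k u = 0 := by
      rw [pw, max_eq_right (by linarith), zero_pow (by omega)]
    rw [e, mul_zero]
    refine (hasDerivAt_const u (0 : ℝ)).congr_of_eventuallyEq ?_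
    filter_upwards [Iio_mem_nhds h] with t ht
    rw [pw, max_eq_right (by linarith [Set.mem_Iio.1 ht]), zero_pow (by omega)]
  · have e : ∀ j, 1 ≤ j → pw j 1 = 0 := fun j hj => by
      rw [pw, sub_self, max_self, zero_pow (by omega)]
    rw [e k hk, mul_zero, hasDerivAt_iff_isLittleO, e (k + 1) (by omega)]
    refine Asymptotics.IsBigO.trans_isLittleO (Asymptotics.IsBigO.of_bound 1 ?_)
      (Asymptotics.isLittleO_pow_sub_sub (1 : ℝ) (by omega : 1 < k + 1))
    refine Eventually.of_forall fun t => ?_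
    rw [smul_zero, sub_zero, sub_zero, one_mul, pw, norm_pow, norm_pow, norm_norm]
    refine pow_le_pow_left₀ (norm_nonneg _) ?_ _
    rw [Real.norm_eq_abs, Real.norm_eq_abs, abs_of_nonneg (le_max_right _ _)]
    exact max_le (le_abs_self _) (abs_nonneg _)
  · have e : pw k u = (u - 1) ^ k := by rw [pw, max_eq_left (by linarith)]
    have h1 : HasDerivAt (fun t : ℝ => (t - 1) ^ (k + 1)) (((k + 1 : ℕ) : ℝ) * pw k u) u := by
      have := ((hasDerivAt_id' u).sub_const 1).fun_pow (k + 1)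
      rw [e]
      simpa using this
    refine h1.congr_of_eventuallyEq ?_
    filter_upwards [Ioi_mem_nhds h] with t ht
    rw [pw, max_eq_left (by linarith [Set.mem_Ioi.1 ht])]

/-- Induction on `n` with `contDiff_succ_iff_deriv`. -/
theorem contDiff_pw (n : ℕ) {r : ℕ} (hr : n + 1 ≤ r) : ContDiff ℝ n (pw r) := by
  induction n generalizing r with
  | zero =>
    have : Continuous (pw r) := by unfold pw; fun_prop
    simpa using this
  | succ n ih =>
    obtain ⟨k, rfl⟩ : ∃ k, r = k + 1 := ⟨r - 1, by omega⟩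
    have hk : 1 ≤ k := by omega
    rw [Nat.cast_succ, contDiff_succ_iff_deriv]
    refine ⟨fun u => (hasDerivAt_pw hk u).differentiableAt, by simp, ?_⟩
    have e : deriv (pw (k + 1)) = fun u => ((k + 1 : ℕ) : ℝ) * pw k u :=
      funext fun u => (hasDerivAt_pw hk u).deriv
    rw [e]
    exact contDiff_const.mul (ih (by omega))

theorem pw_nonneg (r : ℕ) (u : ℝ) : 0 ≤ pw r u := pow_nonneg (le_max_right _ _) _

theorem pw_mono (r : ℕ) : Monotone (pw r) := fun _ _ h =>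
  pow_le_pow_left₀ (le_max_right _ _) (max_le_max (by linarith) le_rfl) _

theorem pw_eq_zero {r : ℕ} (hr : 1 ≤ r) {u : ℝ} (hu : u ≤ 1) : pw r u = 0 := by
  rw [pw, max_eq_right (by linarith), zero_pow (by omega)]

variable {G : Type} [Group G] {β ϱ : ℕ} (L : Len G β ϱ)

/-- `y b = sinh (x b / η) / A` with `x = C (q - μ)`. -/
noncomputable def Len.yv (η A : ℝ) (q μ : G →₀ ℝ) (b : G) : ℝ :=
  Real.sinh (L.Cv (q - μ) b / η) / A

/-- `u a = -(1/R) ∑ b, c(a,b) y b`. -/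
noncomputable def Len.uv (R η A : ℝ) (q μ : G →₀ ℝ) (a : G) : ℝ :=
  -(1 / R) * ∑ g ∈ L.ball, L.c a (a * g) * L.yv η A q μ (a * g)

def Len.Sol (R η A : ℝ) (r : ℕ) (μ q : G →₀ ℝ) : Prop := ∀ a, q a = pw r (L.uv R η A q μ a)

theorem Len.yv_eq_zero (η A : ℝ) (q μ : G →₀ ℝ) {b : G} (hb : b ∉ L.nb (q - μ).support) :
    L.yv η A q μ b = 0 := by
  rw [Len.yv, L.Cv_eq_zero _ hb, zero_div, Real.sinh_zero, zero_div]

private theorem ma_ball_sum (a : G) (Y : G → ℝ) {P : Finset G} (hP : ∀ b, b ∉ P → Y b = 0) :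
    ∑ g ∈ L.ball, L.c a (a * g) * Y (a * g) = ∑ b ∈ P, L.c a b * Y b := by
  have h1 : ∑ g ∈ L.ball, L.c a (a * g) * Y (a * g) =
      ∑ b ∈ L.ball.image (fun g => a * g), L.c a b * Y b :=
    (sum_image (f := fun b => L.c a b * Y b) fun g _ g' _ h => mul_left_cancel h).symm
  rw [h1, sum_subset (subset_union_left (s₂ := P)) fun b _ hb => ?_,
    ← sum_subset (subset_union_right (s₁ := L.ball.image fun g => a * g)) fun b _ hb => ?_]
  · rw [hP b hb, mul_zero]
  · rw [L.c_eq_zero fun h => hb (mem_image.2 ⟨a⁻¹ * b, h, by group⟩), zero_mul]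

/-- `uv` as a sum over any finite set of anchors containing the support of `y`. -/
theorem Len.uv_eq_sum (R η A : ℝ) (q μ : G →₀ ℝ) (a : G) {P : Finset G}
    (hP : ∀ b, b ∉ P → L.yv η A q μ b = 0) :
    L.uv R η A q μ a = -(1 / R) * ∑ b ∈ P, L.c a b * L.yv η A q μ b := by
  rw [Len.uv, ma_ball_sum L a _ hP]

/-- Duality: for every finitely supported `f`, `∑ a, f a * u a = -(1/R) ∑ b, (C f) b * y b`. -/
theorem Len.sum_mul_uv (R η A : ℝ) (q μ f : G →₀ ℝ) {F P : Finset G} (hF : f.support ⊆ F)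
    (hP : ∀ b, b ∉ P → L.yv η A q μ b = 0) :
    ∑ a ∈ F, f a * L.uv R η A q μ a = -(1 / R) * ∑ b ∈ P, L.Cv f b * L.yv η A q μ b := by
  simp only [L.uv_eq_sum R η A q μ _ hP, L.Cv_eq_sum f hF, sum_mul, mul_sum]
  rw [sum_comm]
  refine sum_congr rfl fun b _ => sum_congr rfl fun a _ => ?_
  rw [L.c_symm a b]
  ring

/-- Monotonicity: with `f = q - q'`, `x - x' = C f`, so
`0 ≤ ∑ (q - q')(u - u') = -(1/R) ∑ (x - x')(y - y') ≤ 0`; each term `(x - x')(y - y')` is `≥ 0` and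
vanishes only if `x = x'`; hence `y = y'`, `u = u'`, `q = q'`. -/
theorem Len.sol_unique {R η A : ℝ} (hR : 0 < R) (hη : 0 < η) (hA : 0 < A) {r : ℕ}
    {μ q q' : G →₀ ℝ} (h : L.Sol R η A r μ q) (h' : L.Sol R η A r μ q') : q = q' := by
  set P := L.nb (q - μ).support ∪ L.nb (q' - μ).support with hP
  have hy : ∀ b, b ∉ P → L.yv η A q μ b = 0 := fun b hb =>
    L.yv_eq_zero η A q μ fun h => hb (mem_union_left _ h)
  have hy' : ∀ b, b ∉ P → L.yv η A q' μ b = 0 := fun b hb =>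
    L.yv_eq_zero η A q' μ fun h => hb (mem_union_right _ h)
  have h1 := L.sum_mul_uv R η A q μ (q - q') Subset.rfl hy
  have h2 := L.sum_mul_uv R η A q' μ (q - q') Subset.rfl hy'
  have h3 : 0 ≤ ∑ a ∈ (q - q').support,
      (q - q') a * (L.uv R η A q μ a - L.uv R η A q' μ a) := sum_nonneg fun a _ => by
    rw [Finsupp.sub_apply, h a, h' a]
    rcases le_total (L.uv R η A q μ a) (L.uv R η A q' μ a) with hl | hl
    · exact mul_nonneg_of_nonpos_of_nonpos (sub_nonpos.2 (pw_mono r hl)) (sub_nonpos.2 hl)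
    · exact mul_nonneg (sub_nonneg.2 (pw_mono r hl)) (sub_nonneg.2 hl)
  have hC : ∀ b, L.Cv (q - q') b = L.Cv (q - μ) b - L.Cv (q' - μ) b := fun b => by
    rw [← L.Cv_sub, sub_sub_sub_cancel_right]
  have h4 : ∀ b ∈ P, 0 ≤ L.Cv (q - q') b * (L.yv η A q μ b - L.yv η A q' μ b) := fun b _ => by
    rw [hC]
    rcases le_total (L.Cv (q - μ) b) (L.Cv (q' - μ) b) with hl | hl
    · refine mul_nonneg_of_nonpos_of_nonpos (sub_nonpos.2 hl) (sub_nonpos.2 ?_)
      exact div_le_div_of_nonneg_right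
        (Real.sinh_le_sinh.2 (div_le_div_of_nonneg_right hl hη.le)) hA.le
    · refine mul_nonneg (sub_nonneg.2 hl) (sub_nonneg.2 ?_)
      exact div_le_div_of_nonneg_right
        (Real.sinh_le_sinh.2 (div_le_div_of_nonneg_right hl hη.le)) hA.le
  have h5 : ∑ b ∈ P, L.Cv (q - q') b * (L.yv η A q μ b - L.yv η A q' μ b) = 0 := by
    refine le_antisymm ?_ (sum_nonneg h4)
    simp only [mul_sub, sum_sub_distrib] at h3 ⊢
    rw [h1, h2, ← mul_sub] at h3
    have h6 : 0 < 1 / R := by positivity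
    nlinarith
  have h6 : L.yv η A q μ = L.yv η A q' μ := funext fun b => by
    by_cases hb : b ∈ P
    · rcases mul_eq_zero.1 ((sum_eq_zero_iff_of_nonneg h4).1 h5 b hb) with h7 | h7
      · rw [hC, sub_eq_zero] at h7
        rw [Len.yv, Len.yv, h7]
      · exact sub_eq_zero.1 h7
    · rw [hy b hb, hy' b hb]
  ext a
  rw [h a, h' a, Len.uv, Len.uv, h6]

theorem Len.uv_lt (R η A : ℝ) (g : G) (q μ : G →₀ ℝ) (a : G) :
    L.uv R η A (lt g q) (lt g μ) (g * a) = L.uv R η A q μ a := by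
  simp only [Len.uv, Len.yv, mul_assoc g, L.c_mul, ← lt_sub, L.Cv_lt]

theorem Len.sol_lt {R η A : ℝ} {r : ℕ} {μ q : G →₀ ℝ} (g : G) (h : L.Sol R η A r μ q) :
    L.Sol R η A r (lt g μ) (lt g q) := fun a => by
  rw [← mul_inv_cancel_left g a, lt_apply, L.uv_lt]
  exact h _

/-- Far labels: if `q ≥ 0` and `a ∉ nb (nb (supp μ))` then for every anchor `b = a g`, `g ∈ ball`,
`(C μ) b = 0`, so `x b = (C q) b ≥ 0`, `y b ≥ 0` and `u a ≤ 0`. -/
theorem Len.uv_nonpos {R η A : ℝ} (hR : 0 < R) (hη : 0 < η) (hA : 0 < A) {μ q : G →₀ ℝ}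
    (hq : ∀ a, 0 ≤ q a) {a : G} (ha : a ∉ L.nb (L.nb μ.support)) : L.uv R η A q μ a ≤ 0 := by
  refine mul_nonpos_of_nonpos_of_nonneg (neg_nonpos.2 (by positivity))
    (sum_nonneg fun g hg => mul_nonneg (L.c_nonneg _ _) (div_nonneg ?_ hA.le))
  have h1 : a * g ∉ L.nb μ.support := fun h => ha (L.mem_nb.2 ⟨a * g, h, by
    rw [mul_inv_rev, inv_mul_cancel_right]
    exact L.inv_mem_ball hg⟩)
  rw [Real.sinh_nonneg_iff, L.Cv_sub, L.Cv_eq_zero μ h1, sub_zero,
    L.Cv_eq_sum q Subset.rfl]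
  exact div_nonneg (sum_nonneg fun b _ => mul_nonneg (L.c_nonneg _ _) (hq b)) hη.le

theorem Len.contDiff_uv (R η A : ℝ) {E : Type} [NormedAddCommGroup E] [NormedSpace ℝ E]
    {q f : E → G →₀ ℝ} (hq : SmF q) (hf : SmF f) (a : G) :
    ContDiff ℝ 3 fun p => L.uv R η A (q p) (f p) a := by
  simp only [Len.uv, Len.yv, L.Cv_sub]
  exact contDiff_const.mul (ContDiff.sum fun g _ => contDiff_const.mul
    ((((L.contDiff_Cv hq _).sub (L.contDiff_Cv hf _)).div_const η).sinh.div_const A))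

/-- Finite-dimensional reduction. Fix `F`, labels `𝓛 = nb (nb F)`, anchors `𝓐 = nb 𝓛`.
Apply `exists_inverse` with `A = ↥𝓐`, `B = ↥𝓛`, `c a b = L.c a b`, `γ = 1/R`, `φ = pw r`,
`Y t = sinh (t/η)/A`, and `m a = - L.Cv μ a`.  Define `q` on `𝓛` by `φ(-γ ∑ c Y(X m))`,
zero elsewhere (`Finsupp.onFinset`). For `μ` supported in `F`, `C (q - μ) = X m` on `𝓐` and `0` off
`𝓐`; so the equation holds on `𝓛`, and off `𝓛` by `uv_nonpos`. The map `μ|_F ↦ q` is `C³`. -/
theorem Len.exists_sol_on (hϱ : 1 ≤ ϱ) {R η A : ℝ} (hR : 0 < R) (hη : 0 < η) (hA : 0 < A) {r : ℕ}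
    (hr : 4 ≤ r) (F : Finset G) :
    ∃ Φ : (F → ℝ) → G → ℝ, (∀ a, ContDiff ℝ 3 fun v => Φ v a) ∧
      ∀ μ : G →₀ ℝ, μ.support ⊆ F → ∃ q : G →₀ ℝ, L.Sol R η A r μ q ∧
        ∀ a, q a = Φ (fun z => μ z) a := by
  have hφ : ContDiff ℝ 3 (pw r) := by exact_mod_cast contDiff_pw 3 hr
  have hY : ContDiff ℝ 3 fun t : ℝ => Real.sinh (t / η) / A :=
    (contDiff_id.div_const η).sinh.div_const A
  obtain ⟨X, hX, hXe⟩ := exists_inverse (A := L.nb (L.nb (L.nb F))) (B := L.nb (L.nb F))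
    (fun a b => L.c a b) (1 / R) (by positivity) (pw r) (fun t => Real.sinh (t / η) / A) hφ
    (pw_mono r)
    (fun u => by
      rcases le_total u 1 with h | h
      · rw [pw_eq_zero (by omega) h, mul_zero]
      · exact mul_nonneg (by linarith) (pw_nonneg _ _))
    hY
    (fun t => by
      rw [(((hasDerivAt_id' t).div_const η).sinh.div_const A).deriv]
      have := Real.cosh_pos (t / η)
      positivity)
    (by simp)
  set mv : (F → ℝ) → (L.nb (L.nb (L.nb F)) → ℝ) := fun v a => - ∑ z : F, L.c a z * v z with hmv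
  have hm : ContDiff ℝ 3 mv := contDiff_pi.2 fun a =>
    (ContDiff.sum fun z _ => contDiff_const.mul (contDiff_apply ℝ ℝ z)).neg
  set Φ : (F → ℝ) → G → ℝ := fun v a => if a ∈ L.nb (L.nb F) then
    pw r (-(1 / R) * ∑ a' : L.nb (L.nb (L.nb F)),
      L.c a' a * (Real.sinh (X (mv v) a' / η) / A)) else 0 with hΦ
  refine ⟨Φ, fun a => ?_, fun μ hμ => ?_⟩
  · by_cases ha : a ∈ L.nb (L.nb F)
    · simp only [hΦ, if_pos ha]
      exact hφ.comp (contDiff_const.mul (ContDiff.sum fun a' _ => contDiff_const.mul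
        (hY.comp (contDiff_pi.1 (hX.comp hm) a'))))
    · simp only [hΦ, if_neg ha]
      exact contDiff_const
  · set q : G →₀ ℝ := Finsupp.onFinset (L.nb (L.nb F)) (Φ fun z => μ z)
      (fun a ha => by
        by_contra h
        exact ha (if_neg h)) with hq
    have hqa : ∀ a, q a = Φ (fun z => μ z) a := fun a => rfl
    have hqs : q.support ⊆ L.nb (L.nb F) := Finsupp.support_onFinset_subset
    have hq0 : ∀ a, 0 ≤ q a := fun a => by
      rw [hqa]
      simp only [hΦ]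
      split_ifs
      exacts [pw_nonneg _ _, le_rfl]
    have hsub : (q - μ).support ⊆ L.nb (L.nb F) := Finsupp.support_sub.trans (union_subset hqs
      (hμ.trans ((L.subset_nb hϱ _).trans (L.subset_nb hϱ _))))
    have hx : ∀ a' : L.nb (L.nb (L.nb F)), L.Cv (q - μ) a' = X (mv fun z => μ z) a' := fun a' => by
      have h1 := hXe (mv fun z => μ z) a'
      have h2 : L.Cv q a' = ∑ b : L.nb (L.nb F), L.c a' b * pw r (-(1 / R) *
          ∑ a'' : L.nb (L.nb (L.nb F)), L.c a'' b *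
            (Real.sinh (X (mv fun z => μ z) a'' / η) / A)) := by
        rw [L.Cv_eq_sum q hqs, ← sum_coe_sort]
        refine sum_congr rfl fun b _ => ?_
        rw [hqa]
        simp only [hΦ, if_pos b.2]
      have h3 : L.Cv μ a' = - (mv fun z => μ z) a' := by
        rw [L.Cv_eq_sum μ hμ, ← sum_coe_sort]
        simp only [hmv, neg_neg]
      rw [L.Cv_sub, h2, h3]
      linarith
    refine ⟨q, fun a => ?_, hqa⟩
    by_cases ha : a ∈ L.nb (L.nb F)
    · rw [L.uv_eq_sum R η A q μ a (P := L.nb (L.nb (L.nb F))) fun b hb =>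
        L.yv_eq_zero η A q μ fun h => hb (L.nb_mono hsub h), ← sum_coe_sort, hqa]
      simp only [hΦ, if_pos ha, Len.yv, hx, L.c_symm a]
    · have h1 := L.uv_nonpos hR hη hA hq0 fun h => ha (L.nb_mono (L.nb_mono hμ) h)
      rw [pw_eq_zero (by omega) (by linarith), hqa]
      exact if_neg ha

/-- Choose the (unique) solution; smoothness is local: near `p` the supports lie in a fixed `F`
and `Q (f p') a = Φ (f p' |_F) a` by uniqueness; the support of `Q μ` lies in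
`nb (nb (supp μ))` by `uv_nonpos`. -/
theorem Len.exists_Q (hϱ : 1 ≤ ϱ) {R η A : ℝ} (hR : 0 < R) (hη : 0 < η) (hA : 0 < A) {r : ℕ}
    (hr : 4 ≤ r) :
    ∃ Q : (G →₀ ℝ) → G →₀ ℝ, (∀ μ, L.Sol R η A r μ (Q μ)) ∧
      ∀ (E : Type) [NormedAddCommGroup E] [NormedSpace ℝ E] (f : E → G →₀ ℝ), SmF f →
        SmF fun p => Q (f p) := by
  have h0 : ∀ μ : G →₀ ℝ, ∃ q, L.Sol R η A r μ q := fun μ => by
    obtain ⟨Φ, -, h⟩ := L.exists_sol_on hϱ hR hη hA hr μ.support
    obtain ⟨q, hq, -⟩ := h μ Subset.rfl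
    exact ⟨q, hq⟩
  choose Q hQ using h0
  refine ⟨Q, hQ, fun E _ _ f hf => ⟨fun p => ?_, fun a => contDiff_iff_contDiffAt.2 fun p => ?_⟩⟩
  · obtain ⟨F, hF⟩ := hf.1 p
    refine ⟨L.nb (L.nb F), hF.mono fun p' hp' a ha => ?_⟩
    by_contra h
    have h1 := L.uv_nonpos hR hη hA (μ := f p') (q := Q (f p'))
      (fun b => by rw [hQ _ b]; exact pw_nonneg _ _) fun h' => h (L.nb_mono (L.nb_mono hp') h')
    refine Finsupp.mem_support_iff.1 ha ?_
    rw [hQ _ a]
    exact pw_eq_zero (by omega) (by linarith)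
  · obtain ⟨F, hF⟩ := hf.1 p
    obtain ⟨Φ, hΦ, h⟩ := L.exists_sol_on hϱ hR hη hA hr F
    have h1 : ContDiff ℝ 3 fun p' => Φ (fun z : F => f p' z) a :=
      (hΦ a).comp (contDiff_pi.2 fun z : F => hf.2 z)
    refine h1.contDiffAt.congr_of_eventuallyEq (hF.mono fun p' hp' => ?_)
    obtain ⟨q, hq, hqa⟩ := h (f p') hp'
    change Q (f p') a = _
    rw [L.sol_unique hR hη hA (hQ _) hq, hqa]

end Crest.Agent.R192
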