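import Crest.Agent.R192.MechA

/-!
# R192: the mechanism — estimates

Throughout `m = β ϱ ≥ 1` (so `|ball| ≤ 2^m ≤ e^m`), `η = R / m`, `A = exp (2m+1)`,
`x = L.Cv (q - μ)`, `y = L.yv η A q μ`, `u = L.uv R η A q μ`.
-/

set_option autoImplicit false

open Finset Filter Topology
open scoped Classical

namespace Crest.Agent.R192

variable {G : Type} [Group G] {β ϱ : ℕ} (L : Len G β ϱ)

private theorem mb_xy {η A : ℝ} (hη : 0 < η) (hA : 0 < A) (x : ℝ) :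
    x * (Real.sinh (x / η) / A) = |x| * |Real.sinh (x / η) / A| := by
  rw [← abs_mul, abs_of_nonneg]
  rcases le_total 0 x with h | h
  · exact mul_nonneg h (div_nonneg (Real.sinh_nonneg_iff.2 (div_nonneg h hη.le)) hA.le)
  · exact mul_nonneg_of_nonpos_of_nonpos h (div_nonpos_of_nonpos_of_nonneg
      (Real.sinh_nonpos_iff.2 (div_nonpos_of_nonpos_of_nonneg h hη.le)) hA.le)

private theorem mb_xy_nonneg {η A : ℝ} (hη : 0 < η) (hA : 0 < A) (x : ℝ) :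
    0 ≤ x * (Real.sinh (x / η) / A) := by
  rw [mb_xy hη hA]
  positivity

private theorem mb_cosh (t : ℝ) : Real.cosh t ≤ |Real.sinh t| + 1 := by
  have h1 := Real.cosh_sub_sinh |t|
  have h2 : Real.exp (-|t|) ≤ 1 := Real.exp_le_one_iff.2 (neg_nonpos.2 (abs_nonneg t))
  rw [Real.abs_sinh, ← Real.cosh_abs]
  linarith

private theorem mb_sinh (t : ℝ) : |Real.sinh t| ≤ |t| * Real.cosh t := by
  have h1 : ∀ s, HasDerivAt (fun s => s * Real.cosh s - Real.sinh s) (s * Real.sinh s) s :=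
    fun s => by
      have := ((hasDerivAt_id' s).fun_mul (Real.hasDerivAt_cosh s)).fun_sub (Real.hasDerivAt_sinh s)
      simpa using this
  have h2 : Monotone fun s => s * Real.cosh s - Real.sinh s :=
    monotone_of_deriv_nonneg (fun s => (h1 s).differentiableAt) fun s => by
      rw [(h1 s).deriv]
      simpa using mb_xy_nonneg one_pos one_pos s
  have h3 := h2 (abs_nonneg t)
  simp only [zero_mul, Real.sinh_zero, sub_zero, Real.cosh_abs] at h3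
  rw [Real.abs_sinh]
  linarith

private theorem mb_far {R η A x : ℝ} (hR : 0 < R) (hη : 0 < η) (hA : 0 < A) (h : R ≤ |x|) :
    |Real.sinh (x / η) / A| ≤ x * (Real.sinh (x / η) / A) / R := by
  rw [mb_xy hη hA, le_div_iff₀ hR, mul_comm]
  exact mul_le_mul_of_nonneg_right h (abs_nonneg _)

private theorem mb_near {R m A x : ℝ} (hR : 0 < R) (hm : 0 < m) (hA : 0 < A) (h : |x| ≤ R) :
    |Real.sinh (x / (R / m)) / A| ≤ Real.sinh m / A := by
  rw [abs_div, abs_of_pos hA, Real.abs_sinh]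
  refine div_le_div_of_nonneg_right (Real.sinh_le_sinh.2 ?_) hA.le
  rw [abs_div, abs_of_pos (div_pos hR hm), div_le_iff₀ (div_pos hR hm),
    mul_div_cancel₀ _ hm.ne']
  exact h

private theorem mb_sinh_le (m : ℝ) : Real.sinh m + 1 ≤ Real.exp m := by
  have h1 := Real.cosh_add_sinh m
  have h2 := Real.one_le_cosh m
  linarith

private theorem mb_energy {R η A : ℝ} (hR : 0 < R) (hη : 0 < η) (hA : 0 < A) {r : ℕ} (hr : 1 ≤ r)
    {μ q : G →₀ ℝ} (hμ : Prob μ) (h : L.Sol R η A r μ q) (P : Finset G) :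
    tot q ≤ 2 ∧ ∑ b ∈ P, L.Cv (q - μ) b * L.yv η A q μ b ≤ 2 * R := by
  set F := q.support ∪ μ.support with hF
  have h1 := L.sum_mul_uv R η A q μ (q - μ) (F := F) (P := P ∪ L.nb (q - μ).support)
    Finsupp.support_sub fun b hb => L.yv_eq_zero η A q μ fun h => hb (mem_union_right _ h)
  have hxy : ∀ b, 0 ≤ L.Cv (q - μ) b * L.yv η A q μ b := fun b => mb_xy_nonneg hη hA _
  have h2 : ∑ b ∈ P, L.Cv (q - μ) b * L.yv η A q μ b ≤
      ∑ b ∈ P ∪ L.nb (q - μ).support, L.Cv (q - μ) b * L.yv η A q μ b :=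
    sum_le_sum_of_subset_of_nonneg subset_union_left fun b _ _ => hxy b
  have h3 : 0 ≤ ∑ b ∈ P ∪ L.nb (q - μ).support, L.Cv (q - μ) b * L.yv η A q μ b :=
    sum_nonneg fun b _ => hxy b
  generalize ∑ b ∈ P ∪ L.nb (q - μ).support, L.Cv (q - μ) b * L.yv η A q μ b = T at h1 h2 h3
  have hμ1 : ∑ a ∈ F, μ a = 1 := by rw [← tot_eq_sum μ subset_union_right, hμ.2]
  have hne : F.Nonempty := by
    rw [nonempty_iff_ne_empty]
    intro h0
    rw [h0, sum_empty] at hμ1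
    exact zero_ne_one hμ1
  obtain ⟨a, ha, hmax⟩ := exists_max_image F (L.uv R η A q μ) hne
  have hq0 : ∀ b, 0 ≤ q b := fun b => by rw [h b]; exact pw_nonneg _ _
  have hqu : ∀ b, q b ≤ q b * L.uv R η A q μ b := fun b => by
    rcases le_total (L.uv R η A q μ b) 1 with hl | hl
    · rw [h b, pw_eq_zero hr hl, zero_mul]
    · exact le_mul_of_one_le_right (hq0 b) hl
  have h4 : ∑ b ∈ F, μ b * L.uv R η A q μ b ≤ L.uv R η A q μ a := by
    refine (sum_le_sum fun b hb => mul_le_mul_of_nonneg_left (hmax b hb) (hμ.1 b)).trans ?_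
    rw [← sum_mul, hμ1, one_mul]
  simp only [Finsupp.sub_apply, sub_mul, sum_sub_distrib] at h1
  have h5 : 0 ≤ 1 / R * T := by positivity
  have h6 : L.uv R η A q μ a ≤ 2 := by
    by_contra h7
    rw [not_le] at h7
    have h8 : 1 < q a := by
      rw [h a, pw, max_eq_left (by linarith)]
      exact one_lt_pow₀ (by linarith) (by omega)
    have h9 : q a * L.uv R η A q μ a ≤ ∑ b ∈ F, q b * L.uv R η A q μ b :=
      single_le_sum (f := fun b => q b * L.uv R η A q μ b) (fun b _ => (hq0 b).trans (hqu b)) ha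
    nlinarith
  have h7 : tot q ≤ ∑ b ∈ F, q b * L.uv R η A q μ b := by
    rw [tot_eq_sum q subset_union_left]
    exact sum_le_sum fun b _ => hqu b
  have h8 : 0 ≤ tot q := by
    rw [tot_eq_sum q Subset.rfl]
    exact sum_nonneg fun b _ => hq0 b
  refine ⟨by linarith, h2.trans ?_⟩
  have h9 : 1 / R * T ≤ 2 := by linarith
  rwa [one_div_mul_eq_div, div_le_iff₀ hR] at h9

/-- Energy identity `∑ u q + (1/R) ∑ x y = ∑ u μ` (`sum_mul_uv` with `f = q - μ`), every term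
`u a * q a` and `x b * y b` is `≥ 0`.  Let `a*` maximise `u` on `supp μ ∪ supp q`; then
`∑ u μ ≤ u a*`; if `u a* > 2` then `q a* > 1` and `∑ u q ≥ u a* q a* > u a*`, a contradiction.
So `∑ u q ≤ 2`, `∑ x y ≤ 2R`, and `∑ q ≤ ∑ u q` since `q a > 0` forces `u a > 1`. -/
theorem Len.sol_energy {R η A : ℝ} (hR : 0 < R) (hη : 0 < η) (hA : 0 < A) {r : ℕ} (hr : 1 ≤ r)
    {μ q : G →₀ ℝ} (hμ : Prob μ) (h : L.Sol R η A r μ q) :
    tot q ≤ 2 ∧ ∀ P : Finset G, ∑ b ∈ P, L.Cv (q - μ) b * L.yv η A q μ b ≤ 2 * R :=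
  ⟨(mb_energy L hR hη hA hr hμ h ∅).1, fun P => (mb_energy L hR hη hA hr hμ h P).2⟩

section

variable {R : ℝ} (hR : 0 < R) (hm : 1 ≤ β * ϱ) {r : ℕ} (hr : 1 ≤ r) {μ q : G →₀ ℝ} (hμ : Prob μ)
  (h : L.Sol R (R / (β * ϱ : ℕ)) (Real.exp (2 * (β * ϱ : ℕ) + 1)) r μ q)

include hR hm hr hμ h

/-- If `|x b| ≥ R` then `|y b| ≤ x b * y b / R ≤ 2`; otherwise `|y b| ≤ sinh m / A ≤ 1`. -/
theorem Len.abs_yv_le (b : G) :
    |L.yv (R / (β * ϱ : ℕ)) (Real.exp (2 * (β * ϱ : ℕ) + 1)) q μ b| ≤ 2 := by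
  have hm' : (0 : ℝ) < (β * ϱ : ℕ) := by exact_mod_cast hm
  have hη := div_pos hR hm'
  have hA := Real.exp_pos (2 * (β * ϱ : ℕ) + 1)
  rcases le_total R |L.Cv (q - μ) b| with h1 | h1
  · have h2 := (L.sol_energy hR hη hA hr hμ h).2 {b}
    rw [sum_singleton] at h2
    exact (mb_far hR hη hA h1).trans ((div_le_iff₀ hR).2 h2)
  · refine (mb_near hR hm' hA h1).trans ((div_le_iff₀ hA).2 ?_)
    have h2 := mb_sinh_le (β * ϱ : ℕ)
    have h3 : Real.exp (β * ϱ : ℕ) ≤ Real.exp (2 * (β * ϱ : ℕ) + 1) :=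
      Real.exp_le_exp.2 (by linarith)
    linarith

/-- `exp (|x|/η) = sinh + cosh ≤ 2 sinh (|x|/η) + 1 ≤ 4A + 1 ≤ e² A`, so
`|x| ≤ η (2m + 3) ≤ 5R`. -/
theorem Len.abs_xv_le (b : G) : |L.Cv (q - μ) b| ≤ 5 * R := by
  have hm1 : (1 : ℝ) ≤ (β * ϱ : ℕ) := by exact_mod_cast hm
  have h1 := L.abs_yv_le hR hm hr hμ h b
  rw [Len.yv] at h1
  generalize ((β * ϱ : ℕ) : ℝ) = m at hm1 h1
  generalize L.Cv (q - μ) b = x at h1
  have hη : 0 < R / m := div_pos hR (by linarith)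
  have hA : 1 ≤ Real.exp (2 * m + 1) := Real.one_le_exp (by linarith)
  rw [abs_div, abs_of_pos (Real.exp_pos _), div_le_iff₀ (Real.exp_pos _)] at h1
  have h2 := mb_cosh (x / (R / m))
  have h3 := Real.cosh_add_sinh |x / (R / m)|
  rw [Real.cosh_abs, ← Real.abs_sinh] at h3
  have h4 : (5 : ℝ) ≤ Real.exp 2 := by
    have := Real.quadratic_le_exp_of_nonneg (x := 2) (by norm_num)
    linarith
  have h5 : Real.exp |x / (R / m)| ≤ Real.exp (2 + (2 * m + 1)) := by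
    rw [Real.exp_add]
    nlinarith
  rw [Real.exp_le_exp, abs_div, abs_of_pos hη, div_le_iff₀ hη, ← mul_div_assoc,
    le_div_iff₀ (by linarith)] at h5
  refine le_of_mul_le_mul_right (h5.trans ?_) (by linarith : 0 < m)
  nlinarith

/-- `|sinh t| ≤ |t| cosh t`, `cosh t ≤ |sinh t| + 1`, so `cosh (x/η)/A ≤ 3` and
`y² ≤ 3 x y / η`; sum: `≤ 6R/η = 6m`. -/
theorem Len.sum_yv_sq_le (P : Finset G) :
    ∑ b ∈ P, L.yv (R / (β * ϱ : ℕ)) (Real.exp (2 * (β * ϱ : ℕ) + 1)) q μ b ^ 2 ≤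
      6 * (β * ϱ : ℕ) := by
  have hm' : (0 : ℝ) < (β * ϱ : ℕ) := by exact_mod_cast hm
  have hη := div_pos hR hm'
  have hA := Real.exp_pos (2 * (β * ϱ : ℕ) + 1)
  have hA1 : 1 ≤ Real.exp (2 * (β * ϱ : ℕ) + 1) := Real.one_le_exp (by linarith)
  have h1 := (L.sol_energy hR hη hA hr hμ h).2 P
  have h2 := L.abs_yv_le hR hm hr hμ h
  simp only [Len.yv] at h1 h2 ⊢
  generalize Real.exp (2 * (β * ϱ : ℕ) + 1) = A at hA hA1 h1 h2 ⊢
  have h3 : ∀ b ∈ P, (Real.sinh (L.Cv (q - μ) b / (R / (β * ϱ : ℕ))) / A) ^ 2 ≤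
      3 / (R / (β * ϱ : ℕ)) *
        (L.Cv (q - μ) b * (Real.sinh (L.Cv (q - μ) b / (R / (β * ϱ : ℕ))) / A)) := fun b _ => by
    have h4 := h2 b
    generalize R / (β * ϱ : ℕ) = η at hη h4 ⊢
    generalize L.Cv (q - μ) b = x at h4 ⊢
    rw [mb_xy hη hA, ← sq_abs, sq, ← mul_assoc]
    refine mul_le_mul_of_nonneg_right ?_ (abs_nonneg _)
    rw [abs_div, abs_of_pos hA, div_le_iff₀ hA] at h4 ⊢
    have h5 := mb_sinh (x / η)
    have h6 := mb_cosh (x / η)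
    have h7 : Real.cosh (x / η) ≤ 3 * A := by linarith
    refine h5.trans ((mul_le_mul_of_nonneg_left h7 (abs_nonneg _)).trans (le_of_eq ?_))
    rw [abs_div, abs_of_pos hη]
    ring
  refine (sum_le_sum h3).trans ?_
  rw [← mul_sum]
  refine (mul_le_mul_of_nonneg_left h1 (by positivity)).trans (le_of_eq ?_)
  field_simp
  ring

/-- `cosh (x/η)/A ≤ |y| + 1/A`, `|y b| ≤ x b * y b / R + sinh m / A`, `sinh m + 1 ≤ e^m`,
`|P| ≤ 2 · 2^m ≤ e^{m+1}`. -/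
theorem Len.sum_cosh_le (P : Finset G) (hP : P.card ≤ 2 * 2 ^ (β * ϱ)) :
    ∑ b ∈ P, Real.cosh (L.Cv (q - μ) b / (R / (β * ϱ : ℕ))) / Real.exp (2 * (β * ϱ : ℕ) + 1) ≤ 3 := by
  have hm' : (0 : ℝ) < (β * ϱ : ℕ) := by exact_mod_cast hm
  have hη := div_pos hR hm'
  have hA := Real.exp_pos (2 * (β * ϱ : ℕ) + 1)
  have h1 := (L.sol_energy hR hη hA hr hμ h).2 P
  have h2 : ∀ b ∈ P, Real.cosh (L.Cv (q - μ) b / (R / (β * ϱ : ℕ))) /
      Real.exp (2 * (β * ϱ : ℕ) + 1) ≤ L.Cv (q - μ) b *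
        L.yv (R / (β * ϱ : ℕ)) (Real.exp (2 * (β * ϱ : ℕ) + 1)) q μ b / R +
          Real.exp (β * ϱ : ℕ) / Real.exp (2 * (β * ϱ : ℕ) + 1) := fun b _ => by
    rw [Len.yv]
    generalize Real.exp (2 * (β * ϱ : ℕ) + 1) = A at hA ⊢
    generalize ((β * ϱ : ℕ) : ℝ) = m at hm' hη ⊢
    generalize L.Cv (q - μ) b = x
    have h3 : Real.cosh (x / (R / m)) / A ≤ |Real.sinh (x / (R / m)) / A| + 1 / A := by
      rw [abs_div, abs_of_pos hA, ← add_div]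
      exact div_le_div_of_nonneg_right (mb_cosh _) hA.le
    have h4 : Real.sinh m / A + 1 / A ≤ Real.exp m / A := by
      rw [← add_div]
      exact div_le_div_of_nonneg_right (mb_sinh_le _) hA.le
    have h5 : 0 ≤ Real.sinh m / A := div_nonneg (Real.sinh_nonneg_iff.2 hm'.le) hA.le
    have h6 : 0 ≤ x * (Real.sinh (x / (R / m)) / A) / R := div_nonneg (mb_xy_nonneg hη hA x) hR.le
    rcases le_total R |x| with h7 | h7
    · have := mb_far hR hη hA h7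
      linarith
    · have := mb_near hR hm' hA h7
      linarith
  refine (sum_le_sum h2).trans ?_
  rw [sum_add_distrib, ← sum_div, sum_const, nsmul_eq_mul]
  have h3 := (div_le_iff₀ hR).2 h1
  have h4 : (2 : ℝ) ≤ Real.exp 1 := by
    have := Real.add_one_le_exp 1
    linarith
  have h5 : (P.card : ℝ) ≤ Real.exp 1 * Real.exp (β * ϱ : ℕ) := by
    have h6 : (P.card : ℝ) ≤ 2 * 2 ^ (β * ϱ) := by exact_mod_cast hP
    refine h6.trans (mul_le_mul h4 ?_ (by positivity) (Real.exp_pos _).le)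
    rw [← Real.exp_one_pow]
    exact pow_le_pow_left₀ (by norm_num) h4 _
  have h6 : (P.card : ℝ) * (Real.exp (β * ϱ : ℕ) / Real.exp (2 * (β * ϱ : ℕ) + 1)) ≤ 1 := by
    rw [← mul_div_assoc, div_le_one hA]
    refine (mul_le_mul_of_nonneg_right h5 (Real.exp_pos _).le).trans (le_of_eq ?_)
    rw [← Real.exp_add, ← Real.exp_add]
    congr 1
    ring
  linarith

/-- `u a ^ 2 ≤ (ϱ/R)² |ball| ∑_{g ∈ ball} y (a g)²` (Cauchy–Schwarz), and for fixed `g` the map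
`a ↦ a g` is injective, so `∑_a u a ^ 2 ≤ (ϱ/R)² |ball|² · 6m`. -/
theorem Len.sum_uv_sq_le (F : Finset G) :
    ∑ a ∈ F, L.uv R (R / (β * ϱ : ℕ)) (Real.exp (2 * (β * ϱ : ℕ) + 1)) q μ a ^ 2 ≤
      6 * (β * ϱ : ℕ) * (ϱ / R) ^ 2 * 4 ^ (β * ϱ) := by
  have h1 := L.sum_yv_sq_le hR hm hr hμ h
  simp only [Len.uv]
  generalize L.yv (R / (β * ϱ : ℕ)) (Real.exp (2 * (β * ϱ : ℕ) + 1)) q μ = y at h1 ⊢
  have hb : (L.ball.card : ℝ) ≤ 2 ^ (β * ϱ) := by exact_mod_cast L.card_ball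
  have h2 : ∀ a ∈ F, (-(1 / R) * ∑ g ∈ L.ball, L.c a (a * g) * y (a * g)) ^ 2 ≤
      (ϱ / R) ^ 2 * L.ball.card * ∑ g ∈ L.ball, y (a * g) ^ 2 := fun a _ => by
    have h3 : (∑ g ∈ L.ball, L.c a (a * g) * y (a * g)) ^ 2 ≤
        L.ball.card * ((ϱ : ℝ) ^ 2 * ∑ g ∈ L.ball, y (a * g) ^ 2) := by
      refine sq_sum_le_card_mul_sum_sq.trans (mul_le_mul_of_nonneg_left ?_ (Nat.cast_nonneg _))
      rw [mul_sum]
      refine sum_le_sum fun g _ => ?_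
      rw [mul_pow]
      exact mul_le_mul_of_nonneg_right
        (pow_le_pow_left₀ (L.c_nonneg _ _) (L.c_le _ _) 2) (sq_nonneg _)
    rw [mul_pow]
    refine (mul_le_mul_of_nonneg_left h3 (sq_nonneg _)).trans (le_of_eq ?_)
    ring
  refine (sum_le_sum h2).trans ?_
  rw [← mul_sum, sum_comm]
  have h3 : ∑ g ∈ L.ball, ∑ a ∈ F, y (a * g) ^ 2 ≤ L.ball.card * (6 * ((β * ϱ : ℕ) : ℝ)) := by
    rw [← nsmul_eq_mul]
    refine sum_le_card_nsmul _ _ _ fun g _ => le_trans (le_of_eq ?_) (h1 (F.image fun a => a * g))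
    exact (sum_image (f := fun b => y b ^ 2) fun a _ a' _ h => mul_right_cancel h).symm
  have h4 : (L.ball.card : ℝ) * L.ball.card ≤ 4 ^ (β * ϱ) := by
    refine (mul_le_mul hb hb (Nat.cast_nonneg _) (by positivity)).trans (le_of_eq ?_)
    rw [← mul_pow]
    norm_num
  calc _ ≤ (ϱ / R) ^ 2 * L.ball.card * (L.ball.card * (6 * ((β * ϱ : ℕ) : ℝ))) :=
        mul_le_mul_of_nonneg_left h3 (by positivity)
    _ = 6 * (β * ϱ : ℕ) * (ϱ / R) ^ 2 * ((L.ball.card : ℝ) * L.ball.card) := by ring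
    _ ≤ _ := mul_le_mul_of_nonneg_left h4 (by positivity)

end

private theorem mb_pw {k : ℕ} (hk : 1 ≤ k) (u : ℝ) :
    pw k u ≤ 2 * pw (k + 1) u + (1 / 2) ^ k * u ^ 2 := by
  rcases le_total u 1 with h | h
  · rw [pw_eq_zero hk h]
    have := pw_nonneg (k + 1) u
    positivity
  · rw [pw, pw, max_eq_left (by linarith), pow_succ]
    have h0 : 0 ≤ (u - 1) ^ k := pow_nonneg (by linarith) _
    have h1 : (0 : ℝ) < (1 / 2) ^ k := by positivity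
    rcases le_total (u - 1) (1 / 2) with h2 | h2
    · have h3 : (u - 1) ^ k ≤ (1 / 2) ^ k := pow_le_pow_left₀ (by linarith) h2 _
      have h4 : (1 / 2 : ℝ) ^ k ≤ (1 / 2) ^ k * u ^ 2 :=
        le_mul_of_one_le_right h1.le (one_le_pow₀ h)
      have h5 : 0 ≤ (u - 1) ^ k * (u - 1) := mul_nonneg h0 (by linarith)
      linarith
    · have h4 : 0 ≤ (1 / 2 : ℝ) ^ k * u ^ 2 := by positivity
      nlinarith

private theorem mb_nat {m x k : ℕ} (hm : 1 ≤ m) (hx : 4 ≤ x) (hk : 8 * m * x = k + 1) :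
    6 * m * x ^ 2 * 4 ^ m ≤ 2 ^ k := by
  have h1 : m ≤ 2 ^ m := Nat.lt_two_pow_self.le
  have h2 : x ≤ 2 ^ x := Nat.lt_two_pow_self.le
  calc 6 * m * x ^ 2 * 4 ^ m ≤ 2 ^ 3 * 2 ^ m * (2 ^ x) ^ 2 * 4 ^ m := by gcongr; norm_num
    _ = 2 ^ (3 + m + x * 2 + 2 * m) := by
        rw [pow_add, pow_add, pow_add, pow_mul, pow_mul]
        norm_num
    _ ≤ 2 ^ k := Nat.pow_le_pow_right (by norm_num) (by nlinarith)

/-- `pw (r-1) u ≤ 2 pw r u + 2^{1-r} · 1[u > 1]`, `∑ pw r u = ∑ q ≤ 2`, and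
`#{a ∈ F | u a > 1} ≤ ∑ u² ≤ 6 m x² 4^m ≤ 2^{r-1}` for `r = 8 m x`
(`6m ≤ 2^{m+3}`, `x² ≤ 2^x` for `x ≥ 4`, `3m + 3 + x ≤ 8 m x - 1`). -/
theorem Len.sum_deriv_pw_le (hβ : 1 ≤ β) (hϱ : 1 ≤ ϱ) {x : ℕ} (hx : 4 ≤ x) {μ q : G →₀ ℝ}
    (hμ : Prob μ)
    (h : L.Sol (ϱ / x) (ϱ / x / (β * ϱ : ℕ)) (Real.exp (2 * (β * ϱ : ℕ) + 1)) (8 * (β * ϱ) * x) μ q)
    (F : Finset G) :
    ∑ a ∈ F, deriv (pw (8 * (β * ϱ) * x))
      (L.uv (ϱ / x) (ϱ / x / (β * ϱ : ℕ)) (Real.exp (2 * (β * ϱ : ℕ) + 1)) q μ a) ≤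
      5 * (8 * (β * ϱ) * x : ℕ) := by
  have hm : 1 ≤ β * ϱ := Nat.mul_pos hβ hϱ
  have hm' : (0 : ℝ) < (β * ϱ : ℕ) := by exact_mod_cast hm
  have hϱ' : (0 : ℝ) < ϱ := by exact_mod_cast hϱ
  have hx' : (0 : ℝ) < x := by exact_mod_cast (by omega : 0 < x)
  have hR : (0 : ℝ) < ϱ / x := div_pos hϱ' hx'
  obtain ⟨k, hk⟩ : ∃ k, 8 * (β * ϱ) * x = k + 1 := ⟨8 * (β * ϱ) * x - 1, by
    have : 1 ≤ 8 * (β * ϱ) * x := by nlinarith
    omega⟩
  have hk1 : 1 ≤ k := by nlinarith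
  have hn := mb_nat hm hx hk
  rw [hk] at h ⊢
  have h1 := (L.sol_energy hR (div_pos hR hm') (Real.exp_pos _) (by omega) hμ h).1
  have h2 := L.sum_uv_sq_le hR hm (by omega) hμ h F
  have hq0 : ∀ b, 0 ≤ q b := fun b => by rw [h b]; exact pw_nonneg _ _
  have h3 : ∑ a ∈ F, q a ≤ 2 := by
    refine le_trans ?_ h1
    rw [tot_eq_sum q (subset_union_right (s₁ := F))]
    exact sum_le_sum_of_subset_of_nonneg subset_union_left fun b _ _ => hq0 b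
  have h4 : ((ϱ : ℝ) / (ϱ / x)) = x := by field_simp
  rw [h4] at h2
  have h5 : (6 : ℝ) * (β * ϱ : ℕ) * (x : ℝ) ^ 2 * 4 ^ (β * ϱ) ≤ 2 ^ k := by exact_mod_cast hn
  simp only [(hasDerivAt_pw hk1 _).deriv]
  rw [← mul_sum, mul_comm]
  refine mul_le_mul_of_nonneg_right ((sum_le_sum fun a _ => mb_pw hk1 _).trans ?_)
    (Nat.cast_nonneg _)
  simp only [← h _]
  rw [sum_add_distrib, ← mul_sum, ← mul_sum]
  have h6 := mul_le_mul_of_nonneg_left (h2.trans h5) (by positivity : (0 : ℝ) ≤ (1 / 2) ^ k)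
  rw [← mul_pow] at h6
  norm_num at h6 ⊢
  linarith

end Crest.Agent.R192
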