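import Crest.Agent.R192.Cocycle
import Crest.Agent.R192.Free

/-!
# R192: from loops to lists of steps
-/

set_option autoImplicit false

open Finset

namespace Crest.Agent.R192

section

variable {G : Type} [Group G]

/-- The positions of the path with steps `l`. -/
def pos (N : ℕ) (l : List G) : Fin N → G := fun i => (l.take i).prod

theorem pos_merge {M : ℕ} (g g' : G) (l l' : List G) (i : Fin (M + 2)) (hi : (i : ℕ) = l.length + 1)
    (j : Fin (M + 1)) :
    pos (M + 2) (l ++ g :: g' :: l') (i.succAbove j) = pos (M + 1) (l ++ (g * g') :: l') j := by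
  unfold pos
  by_cases h : j.castSucc < i
  · rw [Fin.succAbove_of_castSucc_lt _ _ h]
    have h' : (j : ℕ) ≤ l.length := by
      have : (j : ℕ) < i := h
      omega
    rw [Fin.val_castSucc, List.take_append_of_le_length h', List.take_append_of_le_length h']
  · rw [Fin.succAbove_of_le_castSucc _ _ (not_lt.1 h)]
    have h' : l.length + 1 ≤ (j : ℕ) := by
      have : (i : ℕ) ≤ j := not_lt.1 h
      omega
    obtain ⟨k, hk⟩ : ∃ k, (j : ℕ) = l.length + (k + 1) := ⟨j - l.length - 1, by omega⟩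
    rw [Fin.val_succ, hk, add_assoc, List.take_length_add_append, List.take_length_add_append]
    simp [mul_assoc]

theorem pos_cons_succ {M : ℕ} (g : G) (l : List G) (j : Fin M) :
    pos (M + 1) (g :: l) j.succ = g * pos M l j := by
  simp [pos]

theorem pos_concat {M : ℕ} (g : G) (l : List G) (hl : l.length = M) (j : Fin (M + 1)) :
    pos (M + 1) (l ++ [g]) j = pos (M + 1) l j := by
  unfold pos
  rw [List.take_append_of_le_length (by omega)]

theorem shX_pos {M : ℕ} (g : G) (l : List G) (hl : l.length = M) :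
    shX (g :: l).prod (pos (M + 1) (g :: l)) = fun i => g * pos (M + 1) (l ++ [g]) i := by
  funext i
  rw [pos_concat g l hl]
  refine Fin.lastCases ?_ (fun j => ?_) i
  · simp [shX, pos, ← hl]
  · simp [shX, Fin.tail, pos]

theorem ind_conj {C : Set G} (hC : ∀ g h, h ∈ C → g * h * g⁻¹ ∈ C) (g h : G) :
    ind C (g * h * g⁻¹) = ind C h := by
  have : g * h * g⁻¹ ∈ C ↔ h ∈ C := ⟨fun hh => by simpa [mul_assoc] using hC g⁻¹ _ hh, hC g h⟩
  unfold ind
  by_cases hh : h ∈ C
  · rw [if_pos hh, if_pos (this.2 hh)]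
  · rw [if_neg hh, if_neg fun h' => hh (this.1 h')]

theorem pos_step {M : ℕ} (v : Fin (M + 2) → G) (a : Fin (M + 1)) :
    (pos (M + 2) (List.ofFn v) a.castSucc)⁻¹ * pos (M + 2) (List.ofFn v) a.succ = v a.castSucc := by
  unfold pos
  rw [Fin.val_succ, Fin.val_castSucc, List.prod_take_succ _ _ (by simp), inv_mul_cancel_left,
    List.getElem_ofFn]
  rfl

theorem pos_last {M : ℕ} (v : Fin (M + 2) → G) :
    (pos (M + 2) (List.ofFn v) (Fin.last (M + 1)))⁻¹ *
      ((List.ofFn v).prod * pos (M + 2) (List.ofFn v) 0) = v (Fin.last (M + 1)) := by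
  have h1 : (List.ofFn v).prod = ((List.ofFn v).take (M + 1 + 1)).prod := by
    rw [List.take_of_length_le (by simp)]
  unfold pos
  rw [h1, List.prod_take_succ _ _ (by simp), List.getElem_ofFn]
  simp only [Fin.val_last, Fin.val_zero, List.take_zero, List.prod_nil, mul_one, inv_mul_cancel_left]
  rfl

end

/-- For a list `l` of steps put `pos N l i = (l.take i).prod` (`i : Fin N`) and
`f l = ind C l.prod * Ψ l.prod (pos l)`, `χ l = ind C l.prod * D.χ l.prod (pos l)`,
`F i l = ind C l.prod * D.χ l.prod (pos l ∘ succAbove i)` (`0` if `i ≥ M + 2`), `σ i` extended by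
`0`, `Kn = max (max D.Kn 0) (∑ |σ i|)`.
* `F_succ`: the positions of the merged list are the positions with the `(|l|+1)`-st removed.
* `F_zero`, `odd`: conjugate by `g⁻¹` (`D.conj`, `hC` applied to `g` and `g⁻¹`): for
  `h = (g :: l).prod`, `(l ++ [g]).prod = g⁻¹ h g` and `pos (l ++ [g]) = g⁻¹ • shX h (pos (g :: l))`.
* `f_le`: the steps `(pos i)⁻¹ pos (i+1)` are the entries of `l`, so `len = (l.map d).sum =: Λ`,
  `∏ lam ≤ 2^Λ` (`1 + d ≤ 2^d`), `(l.map (4^d)).prod = 4^Λ`; if `Λ ≤ K (M+2)` use `Ψ_good`,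
  otherwise `2^Λ ≤ 4^Λ / 2^{K(M+2)}` and `Ψ_le`. -/
theorem CocData.toList {G : Type} [Group G] {β ϱ : ℕ} {L : Len G β ϱ} {w M n K : ℕ} {ε : ℝ}
    (hε : 0 ≤ ε) (D : CocData L w M n K ε) {C : Set G} (hC : ∀ g h, h ∈ C → g * h * g⁻¹ ∈ C)
    (hg : ∀ h ∈ C, L.Good h w) : ∃ Kn : ℝ,
    Nonempty (ListData C (fun g => 4 ^ L.d g) M (max (ε ^ n) (72 ^ n / 2 ^ (K * (M + 2)))) Kn) := by
  classical
  refine ⟨max (max D.Kn 0) (∑ i, |D.σ i|), ⟨{
    f := fun l => ind C l.prod * D.Ψ l.prod (pos (M + 2) l)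
    χ := fun l => ind C l.prod * D.χ l.prod (pos (M + 1) l)
    F := fun i l => if h : i < M + 2 then
      ind C l.prod * D.χ l.prod (fun j => pos (M + 2) l ((⟨i, h⟩ : Fin (M + 2)).succAbove j)) else 0
    σ := fun i => if h : i < M + 2 then D.σ ⟨i, h⟩ else 0
    eq := ?_
    F_zero := ?_
    F_succ := ?_
    odd := ?_
    χ_le := ?_
    σ_le := ?_
    f_le := ?_ }⟩⟩
  · intro l _
    rw [← Fin.sum_univ_eq_sum_range (fun i => (if h : i < M + 2 then D.σ ⟨i, h⟩ else 0) *
      (if h : i < M + 2 then ind C l.prod *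
        D.χ l.prod (fun j => pos (M + 2) l ((⟨i, h⟩ : Fin (M + 2)).succAbove j)) else 0))]
    simp only [Fin.is_lt, dite_true, Fin.eta]
    have := D.eq l.prod (pos (M + 2) l)
    have e : ∑ i : Fin (M + 2), D.σ i * (ind C l.prod *
        D.χ l.prod fun j => pos (M + 2) l (i.succAbove j)) =
        ind C l.prod * (D.Ψ l.prod (pos (M + 2) l) - 1) := by
      rw [this, Finset.mul_sum]
      exact Finset.sum_congr rfl fun i _ => by ring
    rw [e]; ring
  · intro g g' l hl
    rw [dif_pos (Nat.succ_pos _)]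
    have e1 : (g :: (l ++ [g'])).prod = g * (l ++ [g' * g]).prod * g⁻¹ := by simp [mul_assoc]
    have e2 : (fun j : Fin (M + 1) => pos (M + 2) (g :: (l ++ [g']))
        ((⟨0, Nat.succ_pos _⟩ : Fin (M + 2)).succAbove j)) =
        fun j => g * pos (M + 1) (l ++ [g' * g]) j := by
      funext j
      rw [show (⟨0, Nat.succ_pos _⟩ : Fin (M + 2)) = 0 from rfl, Fin.succAbove_zero, pos_cons_succ,
        pos_concat _ _ hl, pos_concat _ _ hl]
    rw [e2, e1, ind_conj hC, D.conj]
  · intro g g' l l' hl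
    rw [dif_pos (by omega)]
    have e1 : (l ++ g :: g' :: l').prod = (l ++ (g * g') :: l').prod := by simp [mul_assoc]
    rw [e1]
    congr 2
    funext j
    exact pos_merge g g' l l' _ rfl j
  · intro g l hl
    have e1 : (g :: l).prod = g * (l ++ [g]).prod * g⁻¹ := by simp [mul_assoc]
    have e2 := D.odd (g :: l).prod (pos (M + 1) (g :: l))
    rw [shX_pos g l hl] at e2
    have e3 := D.conj g (l ++ [g]).prod (pos (M + 1) (l ++ [g]))
    rw [← e1, e2] at e3
    rw [← e3, ← ind_conj hC g (l ++ [g]).prod, ← e1]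
    ring
  · intro l
    refine le_trans ?_ (le_max_left _ _)
    rw [abs_mul]
    unfold ind
    split_ifs
    · rw [abs_one, one_mul]; exact (D.χ_le _ _).trans (le_max_left _ _)
    · rw [abs_zero, zero_mul]; exact le_max_right _ _
  · refine le_trans (le_of_eq ?_) (le_max_right _ _)
    rw [← Fin.sum_univ_eq_sum_range (fun i => |if h : i < M + 2 then D.σ ⟨i, h⟩ else 0|)]
    simp only [Fin.is_lt, dite_true, Fin.eta]
  · intro l hl
    obtain ⟨v, rfl⟩ : ∃ v : Fin (M + 2) → G, l = List.ofFn v :=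
      ⟨fun i => l[(i : ℕ)]'(by omega), List.ext_getElem (by simp [hl]) fun i _ _ => by
        rw [List.getElem_ofFn]⟩
    have hδ0 : 0 ≤ max (ε ^ n) ((72 : ℝ) ^ n / 2 ^ (K * (M + 2))) :=
      le_max_of_le_left (by positivity)
    have e1 : ((List.ofFn v).map fun g => (4 : ℝ) ^ L.d g).prod = 4 ^ ∑ i, L.d (v i) := by
      rw [List.map_ofFn, List.prod_ofFn, ← Finset.prod_pow_eq_pow_sum]
      rfl
    have e2 : L.len (List.ofFn v).prod (pos (M + 2) (List.ofFn v)) = ∑ i, L.d (v i) := by
      unfold Len.len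
      rw [pos_last, Fin.sum_univ_castSucc (fun i => L.d (v i))]
      simp only [pos_step]
    have e3 : ∏ a, L.lam (pos (M + 2) (List.ofFn v)) a ≤ 2 ^ ∑ i, L.d (v i) := by
      calc ∏ a, L.lam (pos (M + 2) (List.ofFn v)) a
          ≤ ∏ a : Fin (M + 1), (2 : ℝ) ^ L.d (v a.castSucc) := by
            refine Finset.prod_le_prod (fun a _ => zero_le_one.trans (L.one_le_lam _ a))
              fun a _ => ?_
            unfold Len.lam
            rw [pos_step]
            have := Nat.lt_two_pow_self (n := L.d (v a.castSucc))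
            have h2 : 1 + L.d (v a.castSucc) ≤ 2 ^ L.d (v a.castSucc) := by omega
            exact_mod_cast h2
        _ = 2 ^ ∑ a : Fin (M + 1), L.d (v a.castSucc) := Finset.prod_pow_eq_pow_sum _ _ _
        _ ≤ _ := pow_le_pow_right₀ (by norm_num) (by
            rw [Fin.sum_univ_castSucc (fun i => L.d (v i))]; omega)
    rw [e1, abs_mul]
    unfold ind
    split_ifs with hC'
    · rw [abs_one, one_mul]
      have e4 : (4 : ℝ) ^ ∑ i, L.d (v i) = 2 ^ (∑ i, L.d (v i)) * 2 ^ ∑ i, L.d (v i) := by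
        rw [← mul_pow]; norm_num
      by_cases hs : ∑ i, L.d (v i) ≤ K * (M + 2)
      · refine (D.Ψ_good _ _ (hg _ hC') (e2 ▸ hs)).trans
          (mul_le_mul (le_max_left _ _) (e3.trans ?_) ?_ hδ0)
        · exact pow_le_pow_left₀ (by norm_num) (by norm_num) _
        · exact Finset.prod_nonneg fun a _ => zero_le_one.trans (L.one_le_lam _ a)
      · refine (D.Ψ_le _ _).trans (le_trans ?_
          (mul_le_mul_of_nonneg_right (le_max_right _ _) (by positivity)))
        have e5 : (2 : ℝ) ^ (K * (M + 2)) ≤ 2 ^ ∑ i, L.d (v i) :=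
          pow_le_pow_right₀ (by norm_num) (by omega)
        rw [e4, div_mul_eq_mul_div, le_div_iff₀ (by positivity), mul_assoc]
        gcongr
    · rw [abs_zero, zero_mul]; positivity

end Crest.Agent.R192
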