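import Crest.Agent.R192.Win

/-!
# R192: the partition of unity mixing the connections
-/

set_option autoImplicit false

open Finset

namespace Crest.Agent.R192

/-- `1` for `Y ≤ 1/2`, `0` for `Y ≥ 1`, `|psi'| ≤ 2 c0`. -/
noncomputable def psi (Y : ℝ) : ℝ := Real.smoothTransition (2 - 2 * Y)

variable {E : Type} [NormedAddCommGroup E] [NormedSpace ℝ E]

noncomputable def YY (z : ℕ → E → ℝ) (J : ℕ) (s : E) : ℝ := ∑ j ∈ range J, z j s ^ 2

noncomputable def Dn (z : ℕ → E → ℝ) (J : ℕ) (s : E) : ℝ := psi (YY z J s) + YY z J s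

noncomputable def th0 (z : ℕ → E → ℝ) (J : ℕ) (s : E) : ℝ := psi (YY z J s) / Dn z J s

noncomputable def ze (z : ℕ → E → ℝ) (J j : ℕ) (s : E) : ℝ := z j s / Dn z J s

noncomputable def c1 : ℝ := 8 + 24 * c0

theorem one_le_c1 : 1 ≤ c1 := by
  unfold c1
  linarith [one_le_c0]

theorem theta_psi_nonneg (Y : ℝ) : 0 ≤ psi Y := Real.smoothTransition.nonneg _

theorem theta_contDiff_psi : ContDiff ℝ 3 psi :=
  (Real.smoothTransition.contDiff (n := 3)).comp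
    (contDiff_const.sub (contDiff_const.mul contDiff_id))

theorem theta_deriv_psi (Y : ℝ) : ∃ p : ℝ, HasDerivAt psi p Y ∧ |p| ≤ 2 * c0 := by
  have h1 : HasDerivAt (fun Y : ℝ => 2 - 2 * Y) (-(2 * 1)) Y :=
    ((hasDerivAt_id Y).const_mul 2).const_sub 2
  have h2 := ((Real.smoothTransition.contDiff (n := 1)).differentiable (by simp)
    (2 - 2 * Y)).hasDerivAt
  refine ⟨_, h2.comp Y h1, ?_⟩
  rw [abs_mul, abs_neg, mul_one, abs_two, mul_comm]
  exact mul_le_mul_of_nonneg_left (abs_deriv_smoothTransition_le _) zero_le_two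

variable {z : ℕ → E → ℝ} {J : ℕ}

omit [NormedAddCommGroup E] [NormedSpace ℝ E] in
theorem theta_YY_nonneg (s : E) : 0 ≤ YY z J s := sum_nonneg fun _ _ => sq_nonneg _

theorem half_le_Dn (s : E) : 1 / 2 ≤ Dn z J s := by
  have h0 := theta_YY_nonneg (z := z) (J := J) s
  unfold Dn
  rcases le_total (YY z J s) (1 / 2) with h | h
  · rw [psi, Real.smoothTransition.one_of_one_le (by linarith)]
    linarith
  · linarith [theta_psi_nonneg (YY z J s)]

theorem theta_Dn_pos (s : E) : 0 < Dn z J s := lt_of_lt_of_le (by norm_num) (half_le_Dn s)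

theorem theta_contDiff_YY (hz : ∀ j, ContDiff ℝ 3 (z j)) : ContDiff ℝ 3 (YY z J) :=
  ContDiff.sum fun j _ => (hz j).pow 2

theorem theta_contDiff_Dn (hz : ∀ j, ContDiff ℝ 3 (z j)) : ContDiff ℝ 3 (Dn z J) :=
  (theta_contDiff_psi.comp (theta_contDiff_YY hz)).add (theta_contDiff_YY hz)

theorem contDiff_th0 (hz : ∀ j, ContDiff ℝ 3 (z j)) : ContDiff ℝ 3 (th0 z J) :=
  (theta_contDiff_psi.comp (theta_contDiff_YY hz)).div (theta_contDiff_Dn hz)
    fun s => (theta_Dn_pos s).ne'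

theorem contDiff_ze (hz : ∀ j, ContDiff ℝ 3 (z j)) (j : ℕ) : ContDiff ℝ 3 (ze z J j) :=
  (hz j).div (theta_contDiff_Dn hz) fun s => (theta_Dn_pos s).ne'

theorem abs_th0_le (s : E) : |th0 z J s| ≤ 1 := by
  have hD := theta_Dn_pos (z := z) (J := J) s
  rw [th0, abs_of_nonneg (div_nonneg (theta_psi_nonneg _) hD.le), div_le_one hD]
  exact le_add_of_nonneg_right (theta_YY_nonneg s)

theorem th0_eq_zero {s : E} (h : 1 ≤ YY z J s) : th0 z J s = 0 := by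
  rw [th0, psi, Real.smoothTransition.zero_of_nonpos (by linarith), zero_div]

/-- `|z j| ≤ √Y`; if `Y ≤ 1` use `D ≥ 1/2`, otherwise `D ≥ Y ≥ √Y`. -/
theorem abs_ze_le {j : ℕ} (hj : j < J) (s : E) : |ze z J j s| ≤ 2 := by
  have hD := half_le_Dn (z := z) (J := J) s
  have h1 : z j s ^ 2 ≤ YY z J s :=
    single_le_sum (f := fun j => z j s ^ 2) (fun _ _ => sq_nonneg _) (mem_range.2 hj)
  have h2 : YY z J s ≤ Dn z J s := le_add_of_nonneg_left (theta_psi_nonneg _)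
  rw [ze, abs_div, abs_of_pos (theta_Dn_pos s), div_le_iff₀ (theta_Dn_pos s)]
  rw [← sq_abs] at h1
  nlinarith [sq_nonneg (|z j s| - 1)]

theorem th0_add_sum (s : E) : th0 z J s + ∑ j ∈ range J, ze z J j s * z j s = 1 := by
  have h : ∑ j ∈ range J, ze z J j s * z j s = YY z J s / Dn z J s := by
    rw [YY, sum_div]
    exact sum_congr rfl fun j _ => by rw [ze]; ring
  rw [h, th0, ← add_div]
  exact div_self (theta_Dn_pos s).ne'

theorem theta_fderiv_YY (hz : ∀ j, ContDiff ℝ 3 (z j)) (s v : E) : ∃ L : E →L[ℝ] ℝ,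
    HasFDerivAt (YY z J) L s ∧
      |L v / Dn z J s| ≤ 4 * ∑ i ∈ range J, |fderiv ℝ (z i) s v| := by
  refine ⟨_, HasFDerivAt.fun_sum fun i _ =>
    ((hz i).differentiable (by simp) s).hasFDerivAt.pow 2, ?_⟩
  rw [_root_.sum_apply, sum_div, mul_sum]
  refine (abs_sum_le_sum_abs _ _).trans (sum_le_sum fun i hi => ?_)
  have e : ((2 • z i s ^ (2 - 1)) • fderiv ℝ (z i) s) v / Dn z J s =
      2 * ze z J i s * fderiv ℝ (z i) s v := by
    simp only [smul_apply, ze, smul_eq_mul, nsmul_eq_mul]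
    push_cast
    ring
  rw [e, abs_mul, abs_mul, abs_two]
  exact mul_le_mul_of_nonneg_right (by linarith [abs_ze_le (z := z) (mem_range.1 hi) s])
    (abs_nonneg _)

/-- `∂Y = 2 ∑ z_i ∂z_i`. If `Y > 1`, `th0` vanishes near `s`. If `Y ≤ 1`, `|∂Y| ≤ 2 Σ`
(`Σ = ∑ |∂z_i|`), `|∂D| ≤ (1 + 2c0)|∂Y|`, and
`|∂(ψ/D)| ≤ 2c0 |∂Y| / D + |∂D| / D² ≤ (8 c0 + 8 (1 + 2 c0)) Σ`. -/
theorem abs_fderiv_th0_le (hz : ∀ j, ContDiff ℝ 3 (z j)) (s v : E) :
    |fderiv ℝ (th0 z J) s v| ≤ c1 * ∑ i ∈ range J, |fderiv ℝ (z i) s v| := by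
  obtain ⟨L, hL, hLv⟩ := theta_fderiv_YY (J := J) hz s v
  obtain ⟨p, hp, hp'⟩ := theta_deriv_psi (YY z J s)
  have hD := theta_Dn_pos (z := z) (J := J) s
  have hY := theta_YY_nonneg (z := z) (J := J) s
  have hψ := theta_psi_nonneg (YY z J s)
  have hc := one_le_c0
  have h1 := ((hp.div (hp.add (hasDerivAt_id _)) hD.ne').comp_hasFDerivAt s hL).fderiv
  have e : fderiv ℝ (th0 z J) s v =
      (p * YY z J s - psi (YY z J s)) / Dn z J s * (L v / Dn z J s) := by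
    rw [show fderiv ℝ (th0 z J) s = _ from h1]
    simp only [smul_apply, smul_eq_mul, Pi.add_apply, id, Dn, div_eq_mul_inv, ← inv_pow]
    ring
  have h2 : |(p * YY z J s - psi (YY z J s)) / Dn z J s| ≤ 2 * c0 := by
    rw [abs_div, abs_of_pos hD, div_le_iff₀ hD, Dn]
    have := abs_le.1 hp'
    exact abs_le.2 ⟨by nlinarith, by nlinarith⟩
  have h3 : 0 ≤ ∑ i ∈ range J, |fderiv ℝ (z i) s v| := sum_nonneg fun _ _ => abs_nonneg _
  rw [e, abs_mul, c1]
  refine (mul_le_mul h2 hLv (abs_nonneg _) (by linarith)).trans ?_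
  nlinarith

/-- `|z_j| |∂Y| ≤ 2 Y Σ` (as `|z_j z_i| ≤ Y`), `Y ≤ D`, `1/D ≤ 2`:
`|∂(z_j/D)| ≤ |∂z_j|/D + |z_j| |∂D|/D² ≤ (2 + 4 (1 + 2c0)) Σ`. -/
theorem abs_fderiv_ze_le (hz : ∀ j, ContDiff ℝ 3 (z j)) {j : ℕ} (hj : j < J) (s v : E) :
    |fderiv ℝ (ze z J j) s v| ≤ c1 * ∑ i ∈ range J, |fderiv ℝ (z i) s v| := by
  obtain ⟨L, hL, hLv⟩ := theta_fderiv_YY (J := J) hz s v
  obtain ⟨p, hp, hp'⟩ := theta_deriv_psi (YY z J s)
  have hD := theta_Dn_pos (z := z) (J := J) s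
  have hc := one_le_c0
  have h1 := (((hz j).differentiable (by simp) s).hasFDerivAt.mul
    (((hp.add (hasDerivAt_id _)).inv hD.ne').comp_hasFDerivAt s hL)).fderiv
  have e0 : ze z J j = z j * ((psi + id)⁻¹ ∘ YY z J) := by
    funext x
    simp [ze, Dn, div_eq_mul_inv]
  have e : fderiv ℝ (ze z J j) s v = (Dn z J s)⁻¹ * fderiv ℝ (z j) s v -
      (p + 1) * ze z J j s * (L v / Dn z J s) := by
    rw [e0, h1]
    simp only [add_apply, smul_apply, smul_eq_mul, Pi.add_apply, Pi.mul_apply, Pi.inv_apply,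
      Function.comp_apply, id, Dn, div_eq_mul_inv, ← inv_pow]
    ring
  have h2 : |(Dn z J s)⁻¹| ≤ 2 := by
    rw [abs_of_pos (inv_pos.2 hD), inv_le_comm₀ hD two_pos]
    simpa using half_le_Dn (z := z) (J := J) s
  have h3 : 0 ≤ ∑ i ∈ range J, |fderiv ℝ (z i) s v| := sum_nonneg fun _ _ => abs_nonneg _
  have h4 : |fderiv ℝ (z j) s v| ≤ ∑ i ∈ range J, |fderiv ℝ (z i) s v| :=
    single_le_sum (f := fun i => |fderiv ℝ (z i) s v|) (fun _ _ => abs_nonneg _) (mem_range.2 hj)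
  have h5 : |p + 1| ≤ 2 * c0 + 1 := (abs_add_le _ _).trans (by rw [abs_one]; linarith)
  have h6 := mul_le_mul (mul_le_mul h5 (abs_ze_le (z := z) hj s) (abs_nonneg _) (by linarith)) hLv
    (abs_nonneg _) (by linarith)
  have h7 := mul_le_mul h2 h4 (abs_nonneg _) zero_le_two
  rw [e, c1]
  refine (abs_sub _ _).trans ?_
  rw [abs_mul, abs_mul, abs_mul]
  nlinarith

end Crest.Agent.R192
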