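import Mathlib

/-!
# R192: weighted ℓ¹ seminorms and class traces on monoid algebras
-/

set_option autoImplicit false

open Finset
open scoped Classical

namespace Crest.Agent.R192

variable {𝔐 : Type} [NormedRing 𝔐] {Γ Γ' : Type}

/-- Weighted ℓ¹ norm. -/
noncomputable def wn (w : Γ → ℝ) (a : MonoidAlgebra 𝔐 Γ) : ℝ := a.coeff.sum fun g m => w g * ‖m‖

/-- The pairing `∑ g, f g * tr (a g)`. -/
noncomputable def pr (tr : 𝔐 →+ ℂ) (f : Γ → ℝ) : MonoidAlgebra 𝔐 Γ →+ ℂ where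
  toFun a := a.coeff.sum fun g m => (f g : ℂ) * tr m
  map_zero' := by simp
  map_add' a b := by
    rw [MonoidAlgebra.coeff_add, Finsupp.sum_add_index'] <;> simp [mul_add]

/-- A tracial additive functional bounded by `cτ`. -/
structure IsTr (tr : 𝔐 →+ ℂ) (cτ : ℝ) : Prop where
  comm : ∀ a b, tr (a * b) = tr (b * a)
  bound : ∀ a, ‖tr a‖ ≤ cτ * ‖a‖
  nonneg : 0 ≤ cτ

/-- A submultiplicative weight. -/
structure IsWt [Monoid Γ] (w : Γ → ℝ) : Prop where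
  one_le : ∀ g, 1 ≤ w g
  one : w 1 = 1
  mul : ∀ g g', w (g * g') ≤ w g * w g'

theorem isWt_one [Monoid Γ] : IsWt (fun _ : Γ => (1 : ℝ)) := ⟨fun _ => le_rfl, rfl, by simp⟩

theorem wn_eq_sum (w : Γ → ℝ) (a : MonoidAlgebra 𝔐 Γ) {F : Finset Γ} (hF : a.coeff.support ⊆ F) :
    wn w a = ∑ g ∈ F, w g * ‖a.coeff g‖ :=
  Finsupp.sum_of_support_subset _ hF _ fun _ _ => by simp

theorem wn_nonneg {w : Γ → ℝ} (hw : ∀ g, 0 ≤ w g) (a : MonoidAlgebra 𝔐 Γ) : 0 ≤ wn w a :=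
  sum_nonneg fun g _ => mul_nonneg (hw g) (norm_nonneg _)

theorem wn_add_le {w : Γ → ℝ} (hw : ∀ g, 0 ≤ w g) (a b : MonoidAlgebra 𝔐 Γ) :
    wn w (a + b) ≤ wn w a + wn w b := by
  rw [wn_eq_sum w (a + b) (F := a.coeff.support ∪ b.coeff.support) Finsupp.support_add,
    wn_eq_sum w a subset_union_left, wn_eq_sum w b subset_union_right, ← sum_add_distrib]
  refine sum_le_sum fun g _ => ?_
  rw [← mul_add]
  exact mul_le_mul_of_nonneg_left (norm_add_le _ _) (hw g)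

theorem wn_neg (w : Γ → ℝ) (a : MonoidAlgebra 𝔐 Γ) : wn w (-a) = wn w a := by
  simp [wn, Finsupp.sum]

theorem wn_single (w : Γ → ℝ) (g : Γ) (m : 𝔐) : wn w (MonoidAlgebra.single g m) = w g * ‖m‖ :=
  Finsupp.sum_single_index (by simp)

theorem wn_sum_le {ι : Type} {w : Γ → ℝ} (hw : ∀ g, 0 ≤ w g) (s : Finset ι)
    (a : ι → MonoidAlgebra 𝔐 Γ) : wn w (∑ i ∈ s, a i) ≤ ∑ i ∈ s, wn w (a i) :=
  le_sum_of_subadditive (wn w) (by simp [wn]) (wn_add_le hw) s a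

theorem wn_mapDomain_eq (φ : Γ → Γ') (a : MonoidAlgebra 𝔐 Γ) : MonoidAlgebra.mapDomain φ a =
    ∑ g ∈ a.coeff.support, MonoidAlgebra.single (φ g) (a.coeff g) := by
  conv_lhs => rw [← MonoidAlgebra.sum_coeff_single a, MonoidAlgebra.mapDomain_sum]
  simp only [MonoidAlgebra.mapDomain_single, Finsupp.sum]

theorem wn_mul_le [Monoid Γ] {w : Γ → ℝ} (hw : IsWt w) (a b : MonoidAlgebra 𝔐 Γ) :
    wn w (a * b) ≤ wn w a * wn w b := by
  have h0 : ∀ g, 0 ≤ w g := fun g => zero_le_one.trans (hw.one_le g)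
  rw [MonoidAlgebra.mul_def, wn_eq_sum w a subset_rfl, wn_eq_sum w b subset_rfl, sum_mul_sum]
  refine (wn_sum_le h0 _ _).trans (sum_le_sum fun g _ => (wn_sum_le h0 _ _).trans
    (sum_le_sum fun g' _ => ?_))
  rw [wn_single, mul_mul_mul_comm]
  exact mul_le_mul (hw.mul g g') (norm_mul_le _ _) (norm_nonneg _) (mul_nonneg (h0 _) (h0 _))

theorem wn_mono {w w' : Γ → ℝ} (a : MonoidAlgebra 𝔐 Γ) (h : ∀ g ∈ a.coeff.support, w g ≤ w' g) :
    wn w a ≤ wn w' a :=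
  sum_le_sum fun g hg => mul_le_mul_of_nonneg_right (h g hg) (norm_nonneg _)

theorem wn_const_mul (k : ℝ) (w : Γ → ℝ) (a : MonoidAlgebra 𝔐 Γ) :
    wn (fun g => k * w g) a = k * wn w a := by
  simp only [wn, Finsupp.sum, mul_sum, mul_assoc]

theorem wn_mapDomain_le {w : Γ' → ℝ} (hw : ∀ g, 0 ≤ w g) (φ : Γ → Γ') (a : MonoidAlgebra 𝔐 Γ) :
    wn w (MonoidAlgebra.mapDomain φ a) ≤ wn (fun g => w (φ g)) a := by
  rw [wn_mapDomain_eq]
  exact (wn_sum_le hw _ _).trans (sum_le_sum fun g _ => (wn_single _ _ _).le)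

/-- The weighted norm as a `RingSeminorm`. -/
noncomputable def wnS [Monoid Γ] {w : Γ → ℝ} (hw : IsWt w) : RingSeminorm (MonoidAlgebra 𝔐 Γ) where
  toFun := wn w
  map_zero' := by simp [wn]
  add_le' := wn_add_le fun g => zero_le_one.trans (hw.one_le g)
  neg' := wn_neg w
  mul_le' := wn_mul_le hw

theorem wnS_apply [Monoid Γ] {w : Γ → ℝ} (hw : IsWt w) (a : MonoidAlgebra 𝔐 Γ) :
    wnS hw a = wn w a := rfl

theorem wn_one [Monoid Γ] [NormOneClass 𝔐] {w : Γ → ℝ} (hw : IsWt w) :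
    wn w (1 : MonoidAlgebra 𝔐 Γ) = 1 := by
  rw [MonoidAlgebra.one_def, wn_single, hw.one, norm_one, mul_one]

theorem wn_pow_le [Monoid Γ] [NormOneClass 𝔐] {w : Γ → ℝ} (hw : IsWt w) (a : MonoidAlgebra 𝔐 Γ)
    (k : ℕ) : wn w (a ^ k) ≤ wn w a ^ k := by
  induction k with
  | zero => rw [pow_zero, pow_zero, wn_one hw]
  | succ k ih =>
    rw [pow_succ, pow_succ]
    exact (wn_mul_le hw _ _).trans (mul_le_mul_of_nonneg_right ih
      (wn_nonneg (fun g => zero_le_one.trans (hw.one_le g)) a))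

theorem pr_apply (tr : 𝔐 →+ ℂ) (f : Γ → ℝ) (a : MonoidAlgebra 𝔐 Γ) :
    pr tr f a = ∑ g ∈ a.coeff.support, (f g : ℂ) * tr (a.coeff g) := rfl

theorem pr_single (tr : 𝔐 →+ ℂ) (f : Γ → ℝ) (g : Γ) (m : 𝔐) :
    pr tr f (MonoidAlgebra.single g m) = f g * tr m :=
  Finsupp.sum_single_index (h := fun g m => (f g : ℂ) * tr m) (by simp)

theorem pr_congr (tr : 𝔐 →+ ℂ) {f f' : Γ → ℝ} (a : MonoidAlgebra 𝔐 Γ)
    (h : ∀ g ∈ a.coeff.support, f g = f' g) : pr tr f a = pr tr f' a :=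
  sum_congr rfl fun g hg => by simp only [h g hg]

theorem pr_sub_fun (tr : 𝔐 →+ ℂ) (f f' : Γ → ℝ) (a : MonoidAlgebra 𝔐 Γ) :
    pr tr (fun g => f g - f' g) a = pr tr f a - pr tr f' a := by
  simp only [pr_apply, Complex.ofReal_sub, sub_mul, sum_sub_distrib]

theorem pr_neg_fun (tr : 𝔐 →+ ℂ) (f : Γ → ℝ) (a : MonoidAlgebra 𝔐 Γ) :
    pr tr (fun g => -f g) a = -pr tr f a := by
  simp only [pr_apply, Complex.ofReal_neg, neg_mul, sum_neg_distrib]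

theorem pr_sum_fun {ι : Type} (tr : 𝔐 →+ ℂ) (s : Finset ι) (σ : ι → ℝ) (f : ι → Γ → ℝ)
    (a : MonoidAlgebra 𝔐 Γ) :
    pr tr (fun g => ∑ i ∈ s, σ i * f i g) a = ∑ i ∈ s, (σ i : ℂ) * pr tr (f i) a := by
  simp only [pr_apply, Complex.ofReal_sum, Complex.ofReal_mul, sum_mul, mul_sum, mul_assoc]
  exact sum_comm

theorem pr_mapDomain (tr : 𝔐 →+ ℂ) (f : Γ' → ℝ) (φ : Γ → Γ') (a : MonoidAlgebra 𝔐 Γ) :
    pr tr f (MonoidAlgebra.mapDomain φ a) = pr tr (fun g => f (φ g)) a := by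
  rw [wn_mapDomain_eq, map_sum, pr_apply]
  simp only [pr_single]

theorem norm_pr_le {tr : 𝔐 →+ ℂ} {cτ : ℝ} (htr : IsTr tr cτ) {f w : Γ → ℝ}
    (a : MonoidAlgebra 𝔐 Γ) (h : ∀ g ∈ a.coeff.support, |f g| ≤ w g) :
    ‖pr tr f a‖ ≤ cτ * wn w a := by
  rw [pr_apply, wn_eq_sum w a subset_rfl, mul_sum]
  refine (norm_sum_le _ _).trans (sum_le_sum fun g hg => ?_)
  rw [norm_mul, Complex.norm_real, Real.norm_eq_abs, mul_left_comm]
  exact mul_le_mul (h g hg) (htr.bound _) (norm_nonneg _) ((abs_nonneg _).trans (h g hg))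

/-- Expansion of the pairing of a product. -/
theorem pr_mul [Monoid Γ] (tr : 𝔐 →+ ℂ) (f : Γ → ℝ) (a b : MonoidAlgebra 𝔐 Γ) :
    pr tr f (a * b) = ∑ g ∈ a.coeff.support, ∑ g' ∈ b.coeff.support,
      (f (g * g') : ℂ) * tr (a.coeff g * b.coeff g') := by
  simp only [MonoidAlgebra.mul_def, Finsupp.sum, map_sum, pr_single]

/-- Cyclicity. -/
theorem pr_mul_comm [Monoid Γ] {tr : 𝔐 →+ ℂ} {cτ : ℝ} (htr : IsTr tr cτ) {f f' : Γ → ℝ}
    (a b : MonoidAlgebra 𝔐 Γ)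
    (h : ∀ g ∈ a.coeff.support, ∀ g' ∈ b.coeff.support, f (g * g') = f' (g' * g)) :
    pr tr f (a * b) = pr tr f' (b * a) := by
  rw [pr_mul, pr_mul, sum_comm]
  exact sum_congr rfl fun g' hg' => sum_congr rfl fun g hg => by rw [h g hg g' hg', htr.comm]

/-- The indicator function of a set. -/
noncomputable def ind (C : Set Γ) (g : Γ) : ℝ := if g ∈ C then 1 else 0

/-- For a conjugation invariant set the class trace `pr tr (ind C)` is a trace. -/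
theorem pr_ind_comm {G : Type} [Group G] {tr : 𝔐 →+ ℂ} {cτ : ℝ} (htr : IsTr tr cτ) {C : Set G}
    (hC : ∀ g h, h ∈ C → g * h * g⁻¹ ∈ C) (a b : MonoidAlgebra 𝔐 G) :
    pr tr (ind C) (a * b) = pr tr (ind C) (b * a) := by
  have key : ∀ g g' : G, g * g' ∈ C → g' * g ∈ C := fun g g' h => by
    simpa [mul_assoc] using hC g' _ h
  exact pr_mul_comm htr a b fun g _ g' _ => if_congr ⟨key g g', key g' g⟩ rfl rfl

theorem norm_pr_ind_le {tr : 𝔐 →+ ℂ} {cτ : ℝ} (htr : IsTr tr cτ) (C : Set Γ)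
    (a : MonoidAlgebra 𝔐 Γ) : ‖pr tr (ind C) a‖ ≤ cτ * wn (fun _ => 1) a :=
  norm_pr_le htr a fun g _ => by unfold ind; split_ifs <;> simp

end Crest.Agent.R192
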